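import Vale.Agent.P259.Defs

/-! P259: internal definitions (sorry-free). See notes/P259.md.

`GS` = augmented single-sorted globular sets: an `n`-cell has `dim = n + 1`, and there is one
cell `bot` of `dim 0` (source and target of every `0`-cell). -/

noncomputable section

namespace Vale.Agent.P259

open CategoryTheory CategoryTheory.Limits Opposite

universe u

/-- Augmented single-sorted globular set. -/
structure GS where
  Cell : Type
  bot : Cell
  dimF : Cell → ℕ
  sF : Cell → Cell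
  tF : Cell → Cell
  dimF_bot : dimF bot = 0
  eq_botF : ∀ x, dimF x = 0 → x = bot
  dimF_s : ∀ x, dimF (sF x) = dimF x - 1
  dimF_t : ∀ x, dimF (tF x) = dimF x - 1
  ssF : ∀ x, sF (sF x) = sF (tF x)
  ttF : ∀ x, tF (sF x) = tF (tF x)

/-- Dimension (`n + 1` for an `n`-cell). -/
def dim {G : GS} (x : G.Cell) : ℕ := G.dimF x
/-- Source. -/
def sr {G : GS} (x : G.Cell) : G.Cell := G.sF x
/-- Target. -/
def tg {G : GS} (x : G.Cell) : G.Cell := G.tF x

section
variable {G : GS}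
@[simp] lemma dim_bot : dim G.bot = 0 := G.dimF_bot
lemma eq_bot {x : G.Cell} (h : dim x = 0) : x = G.bot := G.eq_botF x h
@[simp] lemma dim_sr (x : G.Cell) : dim (sr x) = dim x - 1 := G.dimF_s x
@[simp] lemma dim_tg (x : G.Cell) : dim (tg x) = dim x - 1 := G.dimF_t x
lemma sr_tg (x : G.Cell) : sr (tg x) = sr (sr x) := (G.ssF x).symm
lemma tg_sr (x : G.Cell) : tg (sr x) = tg (tg x) := G.ttF x
end

/-- Maps of globular sets. -/
@[ext] structure GS.Hom (G H : GS) where
  app : G.Cell → H.Cell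
  dim_app : ∀ x, dim (app x) = dim x
  sr_app : ∀ x, sr (app x) = app (sr x)
  tg_app : ∀ x, tg (app x) = app (tg x)

instance : Category.{0} GS where
  Hom := GS.Hom
  id _ := ⟨id, fun _ => rfl, fun _ => rfl, fun _ => rfl⟩
  comp f g := ⟨fun x => g.app (f.app x), fun x => by rw [g.dim_app, f.dim_app],
    fun x => by rw [g.sr_app, f.sr_app], fun x => by rw [g.tg_app, f.tg_app]⟩

@[simp] lemma GS.id_app {G : GS} (x : G.Cell) : GS.Hom.app (𝟙 G) x = x := rfl
@[simp] lemma GS.comp_app {G H K : GS} (f : G ⟶ H) (g : H ⟶ K) (x : G.Cell) :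
    GS.Hom.app (f ≫ g) x = g.app (f.app x) := rfl
@[ext] lemma GS.hom_ext {G H : GS} {f g : G ⟶ H} (h : ∀ x, f.app x = g.app x) : f = g :=
  GS.Hom.ext (funext h)
attribute [simp] GS.Hom.dim_app

section
variable {G H : GS}

/-- `c : a → b`. -/
def Arr (c a b : G.Cell) : Prop := sr c = a ∧ tg c = b ∧ dim c = dim a + 1
/-- `a` and `b` are parallel. -/
def Par (a b : G.Cell) : Prop := dim a = dim b ∧ sr a = sr b ∧ tg a = tg b
/-- There is a cell `a → b`. -/
def Con (a b : G.Cell) : Prop := ∃ c, Arr c a b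
/-- The iterated source of `dim j` (the cell itself if `dim x ≤ j`). -/
def src (j : ℕ) (x : G.Cell) : G.Cell := sr^[dim x - j] x
/-- The iterated target of `dim j` (the cell itself if `dim x ≤ j`). -/
def tgt (j : ℕ) (x : G.Cell) : G.Cell := tg^[dim x - j] x

/-- Trivial fibration of globular sets. -/
def TrivFib (f : G ⟶ H) : Prop :=
  ∀ a b : G.Cell, Par a b → ∀ c', Arr c' (f.app a) (f.app b) → ∃ c, Arr c a b ∧ f.app c = c'
/-- Weak equivalence. -/
def WEq (f : G ⟶ H) : Prop :=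
  ∀ a b : G.Cell, Par a b → ∀ c', Arr c' (f.app a) (f.app b) → ∃ c, Arr c a b ∧ Con (f.app c) c'
/-- Fibration. -/
def Fib (f : G ⟶ H) : Prop :=
  ∀ a : G.Cell, 1 ≤ dim a → ∀ c', sr c' = f.app a → dim c' = dim a + 1 →
    ∃ c, sr c = a ∧ dim c = dim a + 1 ∧ f.app c = c'
/-- Contractible globular set. -/
def Ctr (G : GS) : Prop := ∀ a b : G.Cell, Par a b → Con a b

/-- `Con` is an equivalence relation (reflexive in positive `dim`). -/
structure GpdLike (G : GS) : Prop where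
  refl : ∀ x : G.Cell, 1 ≤ dim x → Con x x
  symm : ∀ x y : G.Cell, Con x y → Con y x
  trans : ∀ x y z : G.Cell, Con x y → Con y z → Con x z

/-- `φ` maps cells `x → y` to cells `x' → y'` and respects `Con`. -/
structure LocMap (φ : G.Cell → H.Cell) (x y : G.Cell) (x' y' : H.Cell) : Prop where
  arr : ∀ c, Arr c x y → Arr (φ c) x' y'
  con : ∀ c d, Arr c x y → Arr d x y → Con c d → Con (φ c) (φ d)

/-- `φ` maps cells `x → y` to cells `x' → y'`, respects `Con`, and is bijective on classes. -/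
structure LocBij (φ : G.Cell → H.Cell) (x y : G.Cell) (x' y' : H.Cell) : Prop
    extends LocMap φ x y x' y' where
  surj : ∀ c', Arr c' x' y' → ∃ c, Arr c x y ∧ Con (φ c) c'
  inj : ∀ c d, Arr c x y → Arr d x y → Con (φ c) (φ d) → Con c d

/-- A map of globular sets is bijective on classes of cells `a → b`. -/
def LB (f : G ⟶ H) (a b : G.Cell) : Prop := LocBij f.app a b (f.app a) (f.app b)

/-- Whiskering context: `a`, `b` of `dim j + 1`, glued to the `dim j` source / target of `x`. -/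
structure Wh (j : ℕ) (a x b : G.Cell) : Prop where
  pos : 1 ≤ j
  da : dim a = j + 1
  db : dim b = j + 1
  dx : j + 1 ≤ dim x
  ha : tg a = src j x
  hb : sr b = tgt j x

/-- Unique fillers from dimension `k` on. -/
def IsCosk (k : ℕ∞) (G : GS) : Prop :=
  ∀ a b : G.Cell, Par a b → k ≤ (dim a : ℕ∞) → ∃! c, Arr c a b

/-- Axioms of a path object at level `n` (homotopies trivial on cells of `dim < n`). -/
structure PathAx (n : ℕ) {P Y : GS} (q0 q1 : P ⟶ Y) : Prop where
  triv0 : TrivFib q0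
  triv1 : TrivFib q1
  low_inj : ∀ z z' : P.Cell, dim z < n → q0.app z = q0.app z' → z = z'
  low : ∀ x : Y.Cell, dim x < n → ∃ z, q0.app z = x ∧ q1.app z = x
  fill : Ctr Y → ∀ a b : P.Cell, Par a b → n ≤ dim a + 1 → ∀ x y,
    Arr x (q0.app a) (q0.app b) → Arr y (q1.app a) (q1.app b) →
    ∃ z, Arr z a b ∧ q0.app z = x ∧ q1.app z = y
  fib : ∀ a : P.Cell, n ≤ dim a → ∀ x y, sr x = q0.app a → dim x = dim a + 1 →
    sr y = q1.app a → dim y = dim a + 1 →
    ∃ z, sr z = a ∧ dim z = dim a + 1 ∧ q0.app z = x ∧ q1.app z = y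

/-- A split point at level `n`: cells of `dim n` go to cells `δ c` of `dim n + 1`, the others
to cells `e c` of the same dimension. -/
structure SpPt (n : ℕ) (δ e : G.Cell → H.Cell) : Prop where
  dim_e : ∀ c, dim c ≠ n → dim (e c) = dim c
  dim_δ : ∀ c, dim c = n → dim (δ c) = n + 1
  se : ∀ c, dim c ≠ n → dim c ≠ n + 1 → sr (e c) = e (sr c) ∧ tg (e c) = e (tg c)
  sδ : ∀ c, dim c = n → sr (sr (δ c)) = e (sr c) ∧ tg (sr (δ c)) = e (tg c)
  se' : ∀ c, dim c = n + 1 → sr (e c) = tg (δ (sr c)) ∧ tg (e c) = sr (δ (tg c))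

end

/-- A cocone of globular sets that is a sequential colimit on cells. -/
structure SeqColim {F : ℕ ⥤ GS} (c : Cocone F) : Prop where
  surj : ∀ x : c.pt.Cell, ∃ k y, (c.ι.app k).app y = x
  inj : ∀ k (y y' : (F.obj k).Cell), (c.ι.app k).app y = (c.ι.app k).app y' →
    ∃ (m : ℕ) (h : k ≤ m), (F.map (homOfLE h)).app y = (F.map (homOfLE h)).app y'

/-- Coglobular object. -/
structure CoGlob (M : Type u) [Category.{0} M] where
  obj : ℕ → M
  σ : ∀ n, obj n ⟶ obj (n + 1)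
  τ : ∀ n, obj n ⟶ obj (n + 1)
  σσ : ∀ n, σ n ≫ σ (n + 1) = σ n ≫ τ (n + 1)
  ττ : ∀ n, τ n ≫ σ (n + 1) = τ n ≫ τ (n + 1)

namespace CoGlob
variable {M : Type u} [Category.{0} M] (𝔻 : CoGlob M)

/-- The globular set of maps from the discs to `X`. -/
def homObj (X : M) : GS where
  Cell := Option (Σ n, (𝔻.obj n ⟶ X))
  bot := none
  dimF := fun | none => 0 | some ⟨n, _⟩ => n + 1
  sF := fun | none => none | some ⟨0, _⟩ => none | some ⟨n + 1, x⟩ => some ⟨n, 𝔻.σ n ≫ x⟩
  tF := fun | none => none | some ⟨0, _⟩ => none | some ⟨n + 1, x⟩ => some ⟨n, 𝔻.τ n ≫ x⟩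
  dimF_bot := rfl
  eq_botF := by rintro (_ | ⟨n, x⟩) h; · rfl
                · simp at h
  dimF_s := by rintro (_ | ⟨_ | n, x⟩) <;> rfl
  dimF_t := by rintro (_ | ⟨_ | n, x⟩) <;> rfl
  ssF := by
    rintro (_ | ⟨_ | _ | n, x⟩) <;> try rfl
    exact congrArg (fun y => some (Sigma.mk n y)) (by rw [← Category.assoc, 𝔻.σσ, Category.assoc])
  ttF := by
    rintro (_ | ⟨_ | _ | n, x⟩) <;> try rfl
    exact congrArg (fun y => some (Sigma.mk n y)) (by rw [← Category.assoc, 𝔻.ττ, Category.assoc])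

/-- The functor `X ↦ Hom(𝔻, X)`. -/
def hom : M ⥤ GS where
  obj := 𝔻.homObj
  map f :=
    { app := Option.map fun p => ⟨p.1, p.2 ≫ f⟩
      dim_app := by rintro (_ | ⟨n, x⟩) <;> rfl
      sr_app := by
        rintro (_ | ⟨_ | n, x⟩) <;> try rfl
        exact congrArg (fun y => some (Sigma.mk n y)) (Category.assoc _ _ _).symm
      tg_app := by
        rintro (_ | ⟨_ | n, x⟩) <;> try rfl
        exact congrArg (fun y => some (Sigma.mk n y)) (Category.assoc _ _ _).symm }
  map_id X := by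
    apply GS.hom_ext
    rintro (_ | ⟨n, x⟩)
    · rfl
    · exact congrArg (fun y => some (Sigma.mk n y)) (Category.comp_id x)
  map_comp f g := by
    apply GS.hom_ext
    rintro (_ | ⟨n, x⟩)
    · rfl
    · exact congrArg (fun y => some (Sigma.mk n y)) (Category.assoc _ _ _).symm

/-- The cell of `dim n + 1` given by a map from the `n`-disc. -/
def cell {X : M} {n : ℕ} (x : 𝔻.obj n ⟶ X) : (𝔻.hom.obj X).Cell := some ⟨n, x⟩

/-- The universal cell. -/
def top (n : ℕ) : (𝔻.hom.obj (𝔻.obj n)).Cell := 𝔻.cell (𝟙 _)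

end CoGlob

lemma face_comp (b b' : Bool) {k j i : ℕ} (h : k < j) (h' : j < i) :
    face b h ≫ face b' h' = face b (h.trans h') := rfl

lemma dface_comp (b b' : Bool) {k j i : ℕ} (h : k < j) (h' : j < i) :
    dface b h ≫ dface b' h' = dface b (h.trans h') :=
  InducedCategory.hom_ext (yoneda.map_comp (face b h) (face b' h')).symm

/-- The discs of a functor out of `Theta`. -/
def discsOf {M : Type u} [Category.{0} M] (F : Theta ⥤ M) : CoGlob M where
  obj n := F.obj (disc n)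
  σ n := F.map (dface false n.lt_succ_self)
  τ n := F.map (dface true n.lt_succ_self)
  σσ n := by rw [← F.map_comp, ← F.map_comp, dface_comp, dface_comp]
  ττ n := by rw [← F.map_comp, ← F.map_comp, dface_comp, dface_comp]

/-- The underlying globular set `|S|` of a globular sum. -/
def tabGS : Theta ⥤ GS := (discsOf (𝟭 Theta)).hom

/-- The top cell of `|D n|`. -/
def topT (n : ℕ) : (tabGS.obj (disc n)).Cell := (discsOf (𝟭 Theta)).top n

/-- The last cell of a globular sum. -/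
def lastT {l : ℕ} (T : Tab l) : (tabGS.obj T.obj).Cell := (discsOf (𝟭 Theta)).cell (lastInc T)

/-- The generating cells `|S| ⟶ Hom(F D, F S)`. -/
def gen {M : Type u} [Category.{0} M] (F : Theta ⥤ M) (S : Theta) :
    tabGS.obj S ⟶ (discsOf F).hom.obj (F.obj S) where
  app := Option.map fun p => ⟨p.1, F.map p.2⟩
  dim_app := by rintro (_ | ⟨n, x⟩) <;> rfl
  sr_app := by
    rintro (_ | ⟨_ | n, x⟩) <;> try rfl
    exact congrArg (fun y => some (Sigma.mk n y)) (F.map_comp _ _).symm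
  tg_app := by
    rintro (_ | ⟨_ | n, x⟩) <;> try rfl
    exact congrArg (fun y => some (Sigma.mk n y)) (F.map_comp _ _).symm

section General
variable {M : Type u} [Category.{0} M]

/-- `(R, u)` represents `X ↦ Hom(G, V X)`. -/
def Represents (V : M ⥤ GS) {G : GS} {R : M} (u : G ⟶ V.obj R) : Prop :=
  ∀ (X : M) (φ : G ⟶ V.obj X), ∃! f : R ⟶ X, u ≫ V.map f = φ

/-- Representing objects for all globular sums. -/
structure TabRep (V : M ⥤ GS) where
  R : Theta → M
  univ : ∀ S, tabGS.obj S ⟶ V.obj (R S)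
  rep : ∀ S, Represents V (univ S)

/-- `X'` is obtained from `X` by attaching cells `e k : a k → b k`. -/
structure IsAtt (V : M ⥤ GS) {X X' : M} (i : X ⟶ X') {ι : Type}
    (a b : ι → (V.obj X).Cell) (e : ι → (V.obj X').Cell) : Prop where
  par : ∀ k, Par (a k) (b k)
  arr : ∀ k, Arr (e k) ((V.map i).app (a k)) ((V.map i).app (b k))
  desc : ∀ (Y : M) (g : X ⟶ Y) (e' : ι → (V.obj Y).Cell),
    (∀ k, Arr (e' k) ((V.map g).app (a k)) ((V.map g).app (b k))) →
    ∃! g' : X' ⟶ Y, i ≫ g' = g ∧ ∀ k, (V.map g').app (e k) = e' k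

/-- `X'` is obtained from `X` by freely adding cells `γ k` with source `a k`. -/
structure IsExp (V : M ⥤ GS) {X X' : M} (i : X ⟶ X') {ι : Type}
    (a : ι → (V.obj X).Cell) (γ : ι → (V.obj X').Cell) : Prop where
  pos : ∀ k, 1 ≤ dim (a k)
  arr : ∀ k, sr (γ k) = (V.map i).app (a k) ∧ dim (γ k) = dim (a k) + 1
  desc : ∀ (Y : M) (g : X ⟶ Y) (γ' : ι → (V.obj Y).Cell),
    (∀ k, sr (γ' k) = (V.map g).app (a k) ∧ dim (γ' k) = dim (a k) + 1) →
    ∃! g' : X' ⟶ Y, i ≫ g' = g ∧ ∀ k, (V.map g').app (γ k) = γ' k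

/-- `(Z, a, b)` is the universal parallel pair of dimension `n`. -/
structure IsSph (V : M ⥤ GS) (n : ℕ) {Z : M} (a b : (V.obj Z).Cell) : Prop where
  par : Par a b
  dim_eq : dim a = n
  desc : ∀ (Y : M) (a' b' : (V.obj Y).Cell), Par a' b' → dim a' = n →
    ∃! g : Z ⟶ Y, (V.map g).app a = a' ∧ (V.map g).app b = b'

/-- `P` is the pushout of the family `c k : E k ⟶ B k` along `φ k : E k ⟶ A`. -/
structure FamPush {C : Type*} [Category C] {ι : Type} {E B : ι → C} {A P : C}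
    (c : ∀ k, E k ⟶ B k) (φ : ∀ k, E k ⟶ A) (inl : A ⟶ P) (inr : ∀ k, B k ⟶ P) : Prop where
  w : ∀ k, φ k ≫ inl = c k ≫ inr k
  desc : ∀ (Y : C) (g : A ⟶ Y) (h : ∀ k, B k ⟶ Y), (∀ k, φ k ≫ g = c k ≫ h k) →
    ∃! d : P ⟶ Y, inl ≫ d = g ∧ ∀ k, inr k ≫ d = h k

end General

/-! ### Models -/

open GlobExt

variable {E : GlobExt}

/-- Representable models. -/
def repC (E : GlobExt) : E.C ⥤ Gpd E :=
  (IsGpd E).lift yoneda fun Y l T j i hl hi =>
    ((E.pres l T j i hl hi).op.map (yoneda.obj Y)).flip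

/-- The free model on a globular sum. -/
def rep (E : GlobExt) : Theta ⥤ Gpd E := E.ι ⋙ repC E

/-- The underlying globular set of a model. -/
def U (E : GlobExt) : Gpd E ⥤ GS := (discsOf (rep E)).hom

/-- Cells of a model. -/
abbrev cell (X : Gpd E) : Type := ((U E).obj X).Cell

/-- Action of a map of models on cells. -/
abbrev cm {X Y : Gpd E} (f : X ⟶ Y) (x : cell X) : cell Y := ((U E).map f).app x

/-- Generating cells of the free model. -/
abbrev gn (E : GlobExt) (S : Theta) : tabGS.obj S ⟶ (U E).obj ((rep E).obj S) := gen (rep E) S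

/-- Trivial fibrations of models. -/
def TF (E : GlobExt) : MorphismProperty (Gpd E) := fun _ _ f => TrivFib ((U E).map f)
/-- Fibrations of models. -/
def FB (E : GlobExt) : MorphismProperty (Gpd E) := fun _ _ f => Fib ((U E).map f)
/-- Weak equivalences of models. -/
def Wk (E : GlobExt) : MorphismProperty (Gpd E) := fun _ _ f => WEq ((U E).map f)
/-- Cofibrations. -/
def Cof (E : GlobExt) : MorphismProperty (Gpd E) := (TF E).llp
/-- Maps with the left lifting property for fibrations. -/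
def TC (E : GlobExt) : MorphismProperty (Gpd E) := (FB E).llp
/-- Cofibrant models. -/
def Cofib (X : Gpd E) : Prop :=
  ∀ (Y Z : Gpd E) (p : Y ⟶ Z), TF E p → ∀ g : X ⟶ Z, ∃ l : X ⟶ Y, l ≫ p = g
/-- Contractible models. -/
abbrev MCtr (X : Gpd E) : Prop := Ctr ((U E).obj X)

/-- The square `top ≫ right = left ≫ bottom` has a corner map in `TC` (stated by lifting). -/
def SqTC {A A' B B' : Gpd E} (top : A ⟶ A') (left : A ⟶ B) (right : A' ⟶ B')
    (bottom : B ⟶ B') : Prop :=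
  ∀ (X Y : Gpd E) (p : X ⟶ Y), FB E p → ∀ (u : A' ⟶ X) (v : B ⟶ X) (w : B' ⟶ Y),
    top ≫ u = left ≫ v → u ≫ p = right ≫ w → v ≫ p = bottom ≫ w →
    ∃ l : B' ⟶ X, right ≫ l = u ∧ bottom ≫ l = v ∧ l ≫ p = w

/-- A model built from the initial one by a sequence of cell attachments. -/
def Cellular (X : Gpd E) : Prop :=
  ∃ (F : ℕ ⥤ Gpd E) (c : Cocone F) (_ : IsColimit c) (_ : IsInitial (F.obj 0)) (_ : c.pt ≅ X),
    ∀ k, ∃ (ι : Type) (a b : ι → cell (F.obj k)) (e : ι → cell (F.obj (k + 1))),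
      IsAtt (U E) (F.map (homOfLE k.le_succ)) a b e

/-- Coskeleton data. -/
structure Cosk (E : GlobExt) (k : ℕ∞) where
  K : Gpd E ⥤ Gpd E
  η : 𝟭 (Gpd E) ⟶ K
  inj : ∀ (X : Gpd E) (x y : cell X), (dim x : ℕ∞) ≤ k → cm (η.app X) x = cm (η.app X) y → x = y
  surj : ∀ (X : Gpd E) (z : cell (K.obj X)), (dim z : ℕ∞) ≤ k → ∃ x : cell X, cm (η.app X) x = z
  cosk : ∀ X : Gpd E, IsCosk k ((U E).obj (K.obj X))

/-- Path object of level `n` with values in `K`. -/
structure PathObj (K : Gpd E ⥤ Gpd E) (n : ℕ) where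
  P : Gpd E ⥤ Gpd E
  p0 : P ⟶ K
  p1 : P ⟶ K
  ax : ∀ X, PathAx n ((U E).map (p0.app X)) ((U E).map (p1.app X))

/-- A functorial path object. -/
abbrev PO (E : GlobExt) := PathObj (𝟭 (Gpd E)) 1

/-- Homotopy with respect to a path object. -/
def Htp (po : PO E) {X Y : Gpd E} (f g : X ⟶ Y) : Prop :=
  ∃ H : X ⟶ po.P.obj Y, H ≫ po.p0.app Y = f ∧ H ≫ po.p1.app Y = g

/-- Globular cylinders of level `n`: path axioms and representability by expansions. -/
structure CylData (E : GlobExt) (n : ℕ) where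
  Cy : Gpd E ⥤ GS
  q0 : Cy ⟶ U E
  q1 : Cy ⟶ U E
  ax : ∀ Y, PathAx n (q0.app Y) (q1.app Y)
  repr : ∀ (S : Theta) (𝒢 : Gpd E → Prop),
    (∀ (B : Gpd E) (i : (rep E).obj S ⟶ B)
      (γ : {c : (tabGS.obj S).Cell // dim c = n} → cell B),
      IsExp (U E) i (fun c => (gn E S).app c.1) γ → 𝒢 B) →
    (∀ (A A' : Gpd E) (i : A ⟶ A') (ι : Type) (a : ι → cell A) (γ : ι → cell A'),
      IsExp (U E) i a γ → (∀ k, n + 1 ≤ dim (a k)) → 𝒢 A → 𝒢 A') →
    ∃ (R : Gpd E) (u : tabGS.obj S ⟶ Cy.obj R), 𝒢 R ∧ Represents Cy u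

end Vale.Agent.P259
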