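import Vale.Agent.P259.Small

/-! P259 task EXCISE: excision for `Sh ∘ Sing`.

Let `K = Sing T`, `KU = coverSub T U`. For `m : ℕ` let `K m ≤ K` be the subfunctor of cubes `x : I^n → T` such that every
`B ⊆ I^n` with `∀ a b ∈ B, ∀ i, (m + 1) * |a i - b i| ≤ 2` has `x '' B ⊆ U k` for some `k` (closed under cube maps, which do not
increase coordinate differences; handle empty `B` by requiring `B.Nonempty`). `KU ≤ K m ≤ K (m+1)`, and every cube lies in
some `K m` (`lebesgue_number_lemma_of_metric`), so `K` is the colimit of the sequence and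
`seqColim` applies to `Sh` of it. Let `Γ m : Cb ⥤ Gpd E`, `n ↦ Sh (smallSub (m+1) n)` (`gridSmall_image`), `u : S ⟶ Γ m` from
`car_exists`, `small_ctr`. For `x ∈ K m` composition with `x` gives `smallSub (m+1) n ⟶ KU`; descend to
`ρ m : Sh (K m) ⟶ Sh KU`. With `Γ' = cube ⋙ L` (contractible by `L_ctr`), `u0 = u ≫ Sh ι`, `u1 n = inc (𝟙 (cube n))`,
`car_htp` gives `Htp (ρ m ≫ Sh KU.ι) (Sh (K m).ι)` and `Htp (Sh j ≫ ρ m) (𝟙)` for `j : KU ⟶ K m` (for `x ∈ KU` composition with `x`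
maps all of `Sing (I^n)` to `KU`). Conclusion: given `a ∥ b` in `Sh KU` and `c' : ι a → ι b`, `SeqColim.arr` gives `m` and
`c'' : j a → j b` in `Sh (K m)` over `c'`; since `j ≫ ρ` is `Wk` there is `c : a → b` with
`Con (ρ (j c)) (ρ c'')`; apply `ι` and `Htp.con_iff`. -/

noncomputable section
namespace Vale.Agent.P259
open CategoryTheory CategoryTheory.Limits GlobExt Opposite

/-- Singular cubes contained in a member of a family of subsets. -/
def coverSub (T : TopCat.{0}) {ι : Type} (U : ι → Set T) : Subfunctor (Sing.obj T) :=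
  singSub T (fun A => ∃ k, A ⊆ U k) fun _ _ h hB => hB.imp fun _ hk => h.trans hk

/-- Factor a map of cubical sets through a subfunctor. -/
def exLift {K K' : CSet} (B : Subfunctor K') (f : K ⟶ K')
    (h : ∀ (n : Cbᵒᵖ) (x : K.obj n), f.app n x ∈ B.obj n) : K ⟶ B.toFunctor :=
  Subfunctor.lift f (fun n => by rintro _ ⟨x, rfl⟩; exact h n x)

lemma exLift_ι {K K' : CSet} (B : Subfunctor K') (f : K ⟶ K')
    (h : ∀ (n : Cbᵒᵖ) (x : K.obj n), f.app n x ∈ B.obj n) : exLift B f h ≫ B.ι = f := rfl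

lemma ex_seq {E : GlobExt} (s : ShData E) {K : CSet} (G : ℕ → Subfunctor K) (hG : Monotone G)
    (hs : ∀ (n : Cb) (x : K.obj (op n)), ∃ m, x ∈ (G m).obj (op n))
    {a b : cell (s.Sh.obj (G 0).toFunctor)} {c : cell (s.Sh.obj K)}
    (h : Arr c (cm (s.Sh.map (G 0).ι) a) (cm (s.Sh.map (G 0).ι) b)) :
    ∃ (m : ℕ) (d : cell (s.Sh.obj (G m).toFunctor)),
      Arr d (cm (s.Sh.map (Subfunctor.homOfLe (hG m.zero_le))) a)
        (cm (s.Sh.map (Subfunctor.homOfLe (hG m.zero_le))) b) ∧ cm (s.Sh.map (G m).ι) d = c := by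
  let F : ℕ ⥤ Gpd E :=
    { obj := fun m => s.Sh.obj (G m).toFunctor
      map := fun h => s.Sh.map (Subfunctor.homOfLe (hG (leOfHom h)))
      map_id := fun m => s.Sh.map_id (G m).toFunctor
      map_comp := fun h h' => s.Sh.map_comp (Subfunctor.homOfLe (hG (leOfHom h)))
        (Subfunctor.homOfLe (hG (leOfHom h'))) }
  let co : Cocone F :=
    { pt := s.Sh.obj K
      ι :=
        { app := fun m => s.Sh.map (G m).ι
          naturality := fun m m' h => by
            change s.Sh.map (Subfunctor.homOfLe _) ≫ s.Sh.map (G m').ι = s.Sh.map (G m).ι ≫ 𝟙 _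
            rw [← s.Sh.map_comp, Subfunctor.homOfLe_ι, Category.comp_id] } }
  choose μ hμ using hs
  have key : ∀ (t : Cocone F) (n : Cb) (x : K.obj (op n)) (m m' : ℕ) (h1 : x ∈ (G m).obj (op n))
      (h2 : x ∈ (G m').obj (op n)),
      s.inc (K := (G m).toFunctor) (n := n) ⟨x, h1⟩ ≫ t.ι.app m =
        s.inc (K := (G m').toFunctor) (n := n) ⟨x, h2⟩ ≫ t.ι.app m' := by
    intro t n x m m' h1 h2
    rw [← t.w (homOfLE (le_max_left m m')), ← t.w (homOfLE (le_max_right m m')),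
      ← Category.assoc, ← Category.assoc]
    exact congrArg (· ≫ t.ι.app (max m m'))
      ((s.inc_map (Subfunctor.homOfLe (hG (le_max_left m m'))) (n := n) ⟨x, h1⟩).trans
        (s.inc_map (Subfunctor.homOfLe (hG (le_max_right m m'))) (n := n) ⟨x, h2⟩).symm)
  have ex : ∀ t : Cocone F, ∃! g : s.Sh.obj K ⟶ t.pt, ∀ m, s.Sh.map (G m).ι ≫ g = t.ι.app m := by
    intro t
    obtain ⟨g, hg, -⟩ := s.Sh_desc K t.pt
      (fun n x => s.inc (K := (G (μ n x)).toFunctor) (n := n) ⟨x, hμ n x⟩ ≫ t.ι.app (μ n x))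
      (fun m n φ x => ((Category.assoc _ _ _).symm.trans (congrArg (· ≫ t.ι.app (μ n x))
        (s.map_inc (K := (G (μ n x)).toFunctor) φ ⟨x, hμ n x⟩))).trans (key t m _ _ _ _ _))
    refine ⟨g, fun m => s.Sh_ext fun n x => ?_, fun g' hg' => s.Sh_ext fun n x => ?_⟩
    · rw [← Category.assoc, s.inc_map, hg]
      exact key t n _ _ _ _ _
    · rw [hg, ← hg' (μ n x)]
      exact ((Category.assoc _ _ _).symm.trans (congrArg (· ≫ g')
        (s.inc_map (G (μ n x)).ι (n := n) ⟨x, hμ n x⟩))).symm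
  obtain ⟨m, hm, d, h1, h2⟩ := (seqColim (c := co) (IsColimit.ofExistsUnique ex)).arr (k := 0) h
  exact ⟨m, d, h1, h2⟩

lemma ex_grid_half (M : ℕ) {n : ℕ} (A : Set (Fin n → unitInterval)) (h : gridSmall (2 * M) A) :
    gridSmall M A := by
  intro i
  obtain ⟨j, hj⟩ := h i
  refine ⟨j / 2, fun a ha => ?_⟩
  obtain ⟨h1, h2⟩ := hj a ha
  have h3 : ((j / 2 : ℕ) : ℝ) * 2 ≤ j := by exact_mod_cast Nat.div_mul_le_self j 2
  have h4 : (j : ℝ) ≤ ((j / 2 : ℕ) : ℝ) * 2 + 1 := by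
    have : j ≤ j / 2 * 2 + 1 := by omega
    exact_mod_cast this
  push_cast at h1 h2
  constructor <;> linarith

lemma ex_grid_pow {m m' : ℕ} (h : m ≤ m') {n : ℕ} (A : Set (Fin n → unitInterval))
    (hA : gridSmall (2 ^ m') A) : gridSmall (2 ^ m) A := by
  induction h with
  | refl => exact hA
  | step _ ih => exact ih (ex_grid_half _ A (by rwa [← pow_succ']))

/-- Cubes sending grid-small sets into members of the family. -/
def exK (T : TopCat.{0}) {ι : Type} (U : ι → Set T) (m : ℕ) : Subfunctor (Sing.obj T) where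
  obj n := {x | ∀ B : Set (Fin n.unop.n → unitInterval), B.Nonempty → gridSmall (2 ^ m) B →
    ∃ k, (show cube.obj n.unop ⟶ T from x).hom '' B ⊆ U k}
  map := by
    intro n n' φ x hx B hB hs
    obtain ⟨k, hk⟩ := hx _ (hB.image (cube.map φ.unop).hom) (gridSmall_image _ φ.unop B hs)
    refine ⟨k, ?_⟩
    rintro _ ⟨y, hy, rfl⟩
    exact hk ⟨_, ⟨y, hy, rfl⟩, rfl⟩

lemma exK_mono (T : TopCat.{0}) {ι : Type} (U : ι → Set T) : Monotone (exK T U) :=
  fun _ _ h _ _ hx B hB hs => hx B hB (ex_grid_pow h B hs)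

lemma cover_le_exK (T : TopCat.{0}) {ι : Type} (U : ι → Set T) (m : ℕ) :
    coverSub T U ≤ exK T U m := fun _ _ hx B _ _ =>
  hx.imp fun _ hk => (Set.image_subset_range _ B).trans hk

lemma exK_exh (T : TopCat.{0}) {ι : Type} (U : ι → Set T) (hU : ∀ k, IsOpen (U k))
    (hc : ∀ y, ∃ k, y ∈ U k) (n : Cb) (x : cube.obj n ⟶ T) : ∃ m, x ∈ (exK T U m).obj (op n) := by
  let f : C(Fin n.n → unitInterval, T) := x.hom
  obtain ⟨δ, hδ, h⟩ := lebesgue_number_lemma_of_metric (s := Set.univ)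
    (c := fun k => f ⁻¹' U k) isCompact_univ (fun k => (hU k).preimage f.continuous)
    (fun y _ => Set.mem_iUnion.2 (hc (f y)))
  obtain ⟨m, hm⟩ := pow_unbounded_of_one_lt (2 / δ) (one_lt_two (α := ℝ))
  refine ⟨m, fun B ⟨a, ha⟩ hs => ?_⟩
  obtain ⟨k, hk⟩ := h a trivial
  refine ⟨k, ?_⟩
  rintro _ ⟨y, hy, rfl⟩
  refine hk ((dist_pi_lt_iff hδ).2 fun i => ?_)
  obtain ⟨j, hj⟩ := hs i
  have h1 := hj a ha
  have h2 := hj y hy
  push_cast at h1 h2
  rw [div_lt_iff₀ hδ] at hm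
  have h3 : (0 : ℝ) < 2 ^ m := by positivity
  rw [Subtype.dist_eq, Real.dist_eq, abs_lt]
  constructor <;> nlinarith [h1.1, h1.2, h2.1, h2.2]

/-- Cube maps act on grid-small cubes. -/
def exSm (M : ℕ) {m n : Cb} (φ : m ⟶ n) : (smallSub M m).toFunctor ⟶ (smallSub M n).toFunctor :=
  exLift _ ((smallSub M m).ι ≫ Sing.map (cube.map φ)) fun l y => by
    refine gridSmall_mono M _ _ ?_ (gridSmall_image M φ _ y.2)
    rintro _ ⟨t, rfl⟩
    exact ⟨_, ⟨t, rfl⟩, rfl⟩

lemma exSm_ι (M : ℕ) {m n : Cb} (φ : m ⟶ n) :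
    exSm M φ ≫ (smallSub M n).ι = (smallSub M m).ι ≫ Sing.map (cube.map φ) := rfl

/-- The carrier of grid-small cubes. -/
def exΓ {E : GlobExt} (s : ShData E) (M : ℕ) : Cb ⥤ Gpd E where
  obj n := s.Sh.obj (smallSub M n).toFunctor
  map φ := s.Sh.map (exSm M φ)
  map_id n := by
    rw [← s.Sh.map_id]
    refine congrArg s.Sh.map ((cancel_mono (smallSub M n).ι).1 ?_)
    rw [exSm_ι, cube.map_id, Sing.map_id, Category.comp_id, Category.id_comp]
  map_comp {l m n} φ ψ := by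
    rw [← s.Sh.map_comp]
    refine congrArg s.Sh.map ((cancel_mono (smallSub M n).ι).1 ?_)
    rw [Category.assoc, exSm_ι, exSm_ι, ← Category.assoc, exSm_ι, cube.map_comp, Sing.map_comp,
      Category.assoc]

/-- Inclusion of the carrier. -/
def exΓι {E : GlobExt} (s : ShData E) (M : ℕ) : exΓ s M ⟶ cube ⋙ s.L where
  app n := s.Sh.map (smallSub M n).ι
  naturality m n φ := by
    change s.Sh.map (exSm M φ) ≫ s.Sh.map _ = s.Sh.map _ ≫ s.Sh.map (Sing.map (cube.map φ))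
    rw [← s.Sh.map_comp, ← s.Sh.map_comp, exSm_ι]

/-- The tautological cubes. -/
def exTaut {E : GlobExt} (s : ShData E) : s.S ⟶ cube ⋙ s.L where
  app n := s.inc (K := Sing.obj (cube.obj n)) (n := n) (𝟙 (cube.obj n))
  naturality m n φ := by
    refine (s.map_inc φ _).trans ((congrArg s.inc ?_).trans
      (s.inc_map (Sing.map (cube.map φ)) _).symm)
    exact (Category.comp_id (cube.map φ)).trans (Category.id_comp (cube.map φ)).symm

/-- Composition with a cube of `exK`. -/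
def exC {T : TopCat.{0}} {ι : Type} {U : ι → Set T} {m : ℕ} {n : Cb}
    (x : (exK T U m).toFunctor.obj (op n)) :
    (smallSub (2 ^ m) n).toFunctor ⟶ (coverSub T U).toFunctor :=
  exLift _ ((smallSub (2 ^ m) n).ι ≫ Sing.map (show cube.obj n ⟶ T from x.1)) fun l y => by
    obtain ⟨k, hk⟩ := x.2 _ (Set.range_nonempty (ι := Fin l.unop.n → unitInterval) _) y.2
    refine ⟨k, ?_⟩
    rintro _ ⟨t, rfl⟩
    exact hk ⟨_, ⟨t, rfl⟩, rfl⟩

lemma exC_ι {T : TopCat.{0}} {ι : Type} {U : ι → Set T} {m : ℕ} {n : Cb}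
    (x : (exK T U m).toFunctor.obj (op n)) : exC x ≫ (coverSub T U).ι =
      (smallSub (2 ^ m) n).ι ≫ Sing.map (show cube.obj n ⟶ T from x.1) := rfl

/-- Composition with a cube of `coverSub`. -/
def exD {T : TopCat.{0}} {ι : Type} {U : ι → Set T} {n : Cb}
    (x : (coverSub T U).toFunctor.obj (op n)) :
    Sing.obj (cube.obj n) ⟶ (coverSub T U).toFunctor :=
  exLift _ (Sing.map (show cube.obj n ⟶ T from x.1)) fun l y => by
    obtain ⟨k, hk⟩ := x.2
    exact ⟨k, (Set.range_comp_subset_range (show cube.obj l.unop ⟶ cube.obj n from y).hom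
      (show cube.obj n ⟶ T from x.1).hom).trans hk⟩

lemma exD_ι {T : TopCat.{0}} {ι : Type} {U : ι → Set T} {n : Cb}
    (x : (coverSub T U).toFunctor.obj (op n)) : exD x ≫ (coverSub T U).ι =
      Sing.map (show cube.obj n ⟶ T from x.1) := rfl

lemma ex_rho {E : GlobExt} [Fact E.IsCoherator] (s : ShData E) (T : TopCat.{0}) {ι : Type}
    (U : ι → Set T) (m : ℕ) :
    ∃ ρ : s.Sh.obj (exK T U m).toFunctor ⟶ s.Sh.obj (coverSub T U).toFunctor,
      Htp (po E) (ρ ≫ s.Sh.map (coverSub T U).ι) (s.Sh.map (exK T U m).ι) ∧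
      Htp (po E) (s.Sh.map (Subfunctor.homOfLe (cover_le_exK T U m)) ≫ ρ) (𝟙 _) := by
  obtain ⟨u⟩ := s.car_exists (exΓ s (2 ^ m)) fun n => small_ctr s Nat.one_le_two_pow n
  let v : ∀ n, s.S.obj n ⟶ s.Sh.obj (smallSub (2 ^ m) n).toFunctor := u.app
  have hv : ∀ (l n : Cb) (φ : l ⟶ n), s.S.map φ ≫ v n = v l ≫ s.Sh.map (exSm (2 ^ m) φ) :=
    fun l n φ => u.naturality φ
  obtain ⟨ρ, hρ, -⟩ := s.Sh_desc (exK T U m).toFunctor (s.Sh.obj (coverSub T U).toFunctor)
    (fun n x => v n ≫ s.Sh.map (exC x)) (fun l n φ x => by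
      rw [← Category.assoc, hv, Category.assoc]
      refine congrArg (v l ≫ ·) ((s.Sh.map_comp _ _).symm.trans (congrArg s.Sh.map
        ((cancel_mono (coverSub T U).ι).1 ?_)))
      rw [Category.assoc, exC_ι, exC_ι, ← Category.assoc, exSm_ι, Category.assoc, ← Sing.map_comp]
      rfl)
  have hctr : ∀ n, MCtr ((cube ⋙ s.L).obj n) := fun n => s.L_ctr (cube.obj n)
  refine ⟨ρ, s.car_htp hctr (u ≫ exΓι s (2 ^ m)) (exTaut s) (K := (exK T U m).toFunctor)
    (fun n x => s.L.map (show cube.obj n ⟶ T from x.1)) (fun l n φ x => ?_) (fun n x => ?_)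
    (fun n x => ?_), s.car_htp hctr (u ≫ exΓι s (2 ^ m)) (exTaut s) (K := (coverSub T U).toFunctor)
    (fun n x => s.Sh.map (exD x)) (fun l n φ x => ?_) (fun n x => ?_) (fun n x => ?_)⟩
  · exact (s.L.map_comp _ _).symm
  · rw [← Category.assoc, hρ, Category.assoc, ← s.Sh.map_comp, exC_ι, s.Sh.map_comp]
    exact (Category.assoc _ _ _).symm
  · exact (s.inc_map _ _).trans ((congrArg s.inc (Category.id_comp _).symm).trans
      (s.inc_map (Sing.map (show cube.obj n ⟶ T from x.1)) _).symm)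
  · refine (s.Sh.map_comp _ _).symm.trans (congrArg s.Sh.map ((cancel_mono (coverSub T U).ι).1 ?_))
    rw [Category.assoc, exD_ι, exD_ι, ← Sing.map_comp]
    rfl
  · rw [← Category.assoc, s.inc_map, hρ]
    refine (congrArg (v n ≫ ·) ((congrArg s.Sh.map ((cancel_mono (coverSub T U).ι).1 ?_)).trans
      (s.Sh.map_comp (smallSub (2 ^ m) n).ι (exD x)))).trans (Category.assoc _ _ _).symm
    rw [Category.assoc, exD_ι, exC_ι]
    rfl
  · rw [Category.comp_id]
    exact (congrArg s.inc (Subtype.ext (Category.id_comp _).symm)).trans (s.inc_map (exD x) _).symm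

theorem excision {E : GlobExt} [Fact E.IsCoherator] (s : ShData E) (T : TopCat.{0}) {ι : Type}
    (U : ι → Set T) (hU : ∀ k, IsOpen (U k)) (hc : ∀ y, ∃ k, y ∈ U k) :
    Wk E (s.Sh.map (coverSub T U).ι) := by
  intro a b hab c hc'
  have e0 : ∀ (m : ℕ) (z : cell (s.Sh.obj (coverSub T U).toFunctor)),
      cm (s.Sh.map (exK T U m).ι) (cm (s.Sh.map (Subfunctor.homOfLe (cover_le_exK T U m))) z) =
        cm (s.Sh.map (coverSub T U).ι) z := fun m z => by
    rw [← cm_comp, ← s.Sh.map_comp, Subfunctor.homOfLe_ι]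
  obtain ⟨m, d, h1, h2⟩ := ex_seq s (exK T U) (exK_mono T U) (exK_exh T U hU hc)
    (a := cm (s.Sh.map (Subfunctor.homOfLe (cover_le_exK T U 0))) a)
    (b := cm (s.Sh.map (Subfunctor.homOfLe (cover_le_exK T U 0))) b) (c := c)
    (by rw [e0, e0]; exact hc')
  have e1 : ∀ z : cell (s.Sh.obj (coverSub T U).toFunctor),
      cm (s.Sh.map (Subfunctor.homOfLe (exK_mono T U m.zero_le)))
        (cm (s.Sh.map (Subfunctor.homOfLe (cover_le_exK T U 0))) z) =
        cm (s.Sh.map (Subfunctor.homOfLe (cover_le_exK T U m))) z := fun z => by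
    rw [← cm_comp, ← s.Sh.map_comp]
    rfl
  rw [e1, e1] at h1
  obtain ⟨ρ, H1, H2⟩ := ex_rho s T U m
  have W := H2.wk_iff.2 ((Wk E).id_mem _)
  have h3 : Arr (cm ρ d) (cm (s.Sh.map (Subfunctor.homOfLe (cover_le_exK T U m)) ≫ ρ) a)
      (cm (s.Sh.map (Subfunctor.homOfLe (cover_le_exK T U m)) ≫ ρ) b) := by
    rw [cm_comp, cm_comp]
    exact h1.map _
  obtain ⟨z, h4, h5⟩ := W a b hab _ h3
  refine ⟨z, h4, ?_⟩
  have h6 : Con (cm (s.Sh.map (coverSub T U).ι)
      (cm (s.Sh.map (Subfunctor.homOfLe (cover_le_exK T U m)) ≫ ρ) z))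
      (cm (s.Sh.map (coverSub T U).ι) (cm ρ d)) := h5.map _
  rw [cm_comp, ← cm_comp ρ, ← cm_comp ρ] at h6
  have h7 : Arr (cm (s.Sh.map (Subfunctor.homOfLe (cover_le_exK T U m))) z)
      (cm (s.Sh.map (Subfunctor.homOfLe (cover_le_exK T U m))) a)
      (cm (s.Sh.map (Subfunctor.homOfLe (cover_le_exK T U m))) b) := h4.map _
  have h8 := (H1.con_iff (h7.par_of_arr h1)).1 h6
  rw [e0, h2] at h8
  exact h8

end Vale.Agent.P259
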