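import Vale.Agent.P259.HAlg

/-! P259 task GLUE: Brown's lemma, left properness, gluing lemma.

`brown`: factor `pushout.desc f (𝟙 B2) : B1 ⊔_M B2 ⟶ B2` as `Cof ≫ TF`; the two legs are `Cof` and `Wk`
with cofibrant source, hence `TC`.
`wk_cobase` (cobase change along any `u : M ⟶ M'` preserves `Wk` between cofibrations under `M`): push
`N` out along `u`; the induced maps `P1 ⟶ N'`, `P2 ⟶ N'` are pushouts of `j1, j2` (`IsPushout.of_top`/`of_left`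
pasting), so `TC`, so `Wk`; the induced `N' ⟶ P2` is a retraction of `P2 ⟶ N'`.
`wk_pushout` (left properness): Brown factorisation of `w` (with `M` initial): `w = j ≫ r`, `j ∈ TC`, `r` with a section
`s ∈ TC`. Push `i` out along `j` (gives `TC`). For `r : N ⟶ A'` and `i' : N ⟶ B'` in `Cof`: let
`B1 = N ⊔_{A'} B'` (pushout of `s` along `s ≫ i'`), `B' ⟶ B1` is `TC`, the fold `B1 ⟶ B'` is `Wk`
and is a map under `N` of cofibrations; apply `wk_cobase` along `r`: the pushout of `N ⟶ B1` along `r` is `B'`.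
`glue`: `B ⊔_A C ⟶ B ⊔_A C'` is `wk_pushout`; `B ⊔_A A' ⟶ B'` is `Wk` by `wk_pushout` and two out of three, then
`wk_cobase` along `A' ⟶ C'`. `wk_sigma`: `brown` levelwise. `famPush_glue`: `famPush_iff`, `glue`.
`isAtt_glue`: `IsAtt.famPush` (spheres `sph`, `bd`), `isAtt_iff_famPush`, `famPush_glue`. -/

noncomputable section
namespace Vale.Agent.P259
open CategoryTheory CategoryTheory.Limits GlobExt Opposite
variable {E : GlobExt} [hE : Fact E.IsCoherator]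

omit hE in
lemma glue_po {A B C : Gpd E} (f : A ⟶ B) (g : A ⟶ C) :
    ∃ (P : Gpd E) (l : B ⟶ P) (r : C ⟶ P), IsPushout f g l r :=
  ⟨_, _, _, IsPushout.of_hasPushout f g⟩

lemma glue_sec {X Y : Gpd E} {s : X ⟶ Y} {r : Y ⟶ X} (h : s ≫ r = 𝟙 _) (hs : Wk E s) : Wk E r :=
  (Wk E).of_precomp s r hs (h ▸ (Wk E).id_mem X)

lemma brown {M B1 B2 : Gpd E} (hM : Cofib M) {i1 : M ⟶ B1} {i2 : M ⟶ B2} (h1 : Cof E i1)
    (h2 : Cof E i2) {f : B1 ⟶ B2} (w : i1 ≫ f = i2) (hf : Wk E f) :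
    ∃ (N : Gpd E) (j1 : B1 ⟶ N) (j2 : B2 ⟶ N) (r : N ⟶ B2), TC E j1 ∧ TC E j2 ∧
      i1 ≫ j1 = i2 ≫ j2 ∧ j1 ≫ r = f ∧ j2 ≫ r = 𝟙 _ := by
  obtain ⟨S, a, b, s⟩ := glue_po i1 i2
  obtain ⟨d, e1, e2⟩ := s.exists_desc f (𝟙 _) (w.trans (Category.comp_id _).symm)
  obtain ⟨N, c, p, hc, hp, e⟩ := exists_cof_tf d
  have e3 : (a ≫ c) ≫ p = f := by rw [Category.assoc, e, e1]
  have e4 : (b ≫ c) ≫ p = 𝟙 _ := by rw [Category.assoc, e, e2]
  refine ⟨N, a ≫ c, b ≫ c, p, tc_of_cof_wk (hM.of_cof h1)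
    ((Cof E).comp_mem _ _ (MorphismProperty.of_isPushout s h2) hc)
    ((Wk E).of_postcomp _ p hp.wk (e3 ▸ hf)), tc_of_cof_wk (hM.of_cof h2)
    ((Cof E).comp_mem _ _ (MorphismProperty.of_isPushout s.flip h1) hc)
    ((Wk E).of_postcomp _ p hp.wk (e4 ▸ (Wk E).id_mem _)), ?_, e3, e4⟩
  rw [reassoc_of% s.w]

lemma glue_tc {M M' B N P N' : Gpd E} (hM' : Cofib M') {u : M ⟶ M'} {i : M ⟶ B} (hi : Cof E i)
    {l : M' ⟶ P} {r : B ⟶ P} (s : IsPushout u i l r) {j : B ⟶ N} (hj : TC E j) {L : M' ⟶ N'}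
    {R : N ⟶ N'} (t : IsPushout u (i ≫ j) L R) :
    ∃ k : P ⟶ N', l ≫ k = L ∧ r ≫ k = j ≫ R ∧ Wk E k := by
  obtain ⟨k, e1, e2⟩ := s.exists_desc L (j ≫ R) (t.w.trans (Category.assoc _ _ _))
  exact ⟨k, e1, e2, TC.wk (MorphismProperty.of_isPushout (IsPushout.of_top (e1 ▸ t) e2 s) hj)
    (hM'.of_cof (MorphismProperty.of_isPushout s hi))⟩

lemma wk_cobase {M M' B1 B2 P1 P2 : Gpd E} (hM : Cofib M) (hM' : Cofib M') {u : M ⟶ M'}
    {i1 : M ⟶ B1} {i2 : M ⟶ B2} (h1 : Cof E i1) (h2 : Cof E i2) {f : B1 ⟶ B2} (w : i1 ≫ f = i2)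
    (hf : Wk E f) {l1 : M' ⟶ P1} {r1 : B1 ⟶ P1} (s1 : IsPushout u i1 l1 r1) {l2 : M' ⟶ P2}
    {r2 : B2 ⟶ P2} (s2 : IsPushout u i2 l2 r2) {d : P1 ⟶ P2} (hl : l1 ≫ d = l2)
    (hr : r1 ≫ d = f ≫ r2) : Wk E d := by
  obtain ⟨N, j1, j2, r, t1, t2, e, e1, e2⟩ := brown hM h1 h2 w hf
  obtain ⟨N', L, R, t⟩ := glue_po u (i1 ≫ j1)
  obtain ⟨k1, a1, b1, c1⟩ := glue_tc hM' h1 s1 t1 t
  obtain ⟨k2, a2, b2, c2⟩ := glue_tc hM' h2 s2 t2 (e ▸ t)
  obtain ⟨q, a3, b3⟩ := t.exists_desc l2 (r ≫ r2) (by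
    rw [Category.assoc, reassoc_of% e1, reassoc_of% w, s2.w])
  have e3 : k2 ≫ q = 𝟙 _ := s2.hom_ext (by rw [reassoc_of% a2, a3, Category.comp_id]) (by
    rw [reassoc_of% b2, b3, reassoc_of% e2, Category.comp_id])
  have e4 : k1 ≫ q = d := s1.hom_ext (by rw [reassoc_of% a1, a3, hl]) (by
    rw [reassoc_of% b1, b3, reassoc_of% e1, hr])
  exact e4 ▸ (Wk E).comp_mem _ _ c1 (glue_sec e3 c2)

lemma wk_pushout_sec {N A B P : Gpd E} (hN : Cofib N) (hA : Cofib A) {r : N ⟶ A} {s : A ⟶ N}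
    (hs : TC E s) (e : s ≫ r = 𝟙 _) {i : N ⟶ B} (hi : Cof E i) {l : A ⟶ P} {r' : B ⟶ P}
    (t : IsPushout r i l r') : Wk E r' := by
  obtain ⟨B1, a, b, s1⟩ := glue_po s (s ≫ i)
  obtain ⟨φ, e1, e2⟩ := s1.exists_desc i (𝟙 _) (Category.comp_id _).symm
  obtain ⟨ρ, e3, e4⟩ := s1.exists_desc (r ≫ s ≫ i) (𝟙 _) (by
    rw [reassoc_of% e, Category.comp_id])
  have s2 : IsPushout r a (s ≫ i) ρ :=
    IsPushout.of_left (by rw [e, e4]; exact IsPushout.id_horiz _) e3.symm s1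
  have e5 : (s ≫ i) ≫ r' = l := by rw [Category.assoc, ← t.w, reassoc_of% e]
  refine wk_cobase hN hA (MorphismProperty.of_isPushout s1
    ((Cof E).comp_mem _ _ (TC_le_Cof _ hs) hi)) hi e1 (glue_sec e2
      (TC.wk (MorphismProperty.of_isPushout s1.flip hs) (hN.of_cof hi))) s2 t e5 ?_
  refine s1.hom_ext ?_ (by rw [reassoc_of% e4, reassoc_of% e2])
  rw [← Category.assoc, e3, Category.assoc, e5, reassoc_of% e1, t.w]

theorem wk_pushout {A A' B P : Gpd E} (hA : Cofib A) (hA' : Cofib A') {w : A ⟶ A'} {i : A ⟶ B}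
    {l : A' ⟶ P} {r : B ⟶ P} (s : IsPushout w i l r) (hi : Cof E i) (hw : Wk E w) : Wk E r := by
  obtain ⟨N, j, σ, ρ, hj, hσ, -, e1, e2⟩ := brown (Cofib.of_initial initialIsInitial)
    ((cofib_iff initialIsInitial (initial.to A)).1 hA)
    ((cofib_iff initialIsInitial (initial.to A')).1 hA') (initialIsInitial.hom_ext _ _) hw
  obtain ⟨B', i', k, t⟩ := glue_po j i
  obtain ⟨r', e3, e4⟩ := t.exists_desc (ρ ≫ l) r (by rw [reassoc_of% e1, s.w])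
  have t' : IsPushout ρ i' l r' := IsPushout.of_left (by rw [e1, e4]; exact s) e3.symm t
  exact e4 ▸ (Wk E).comp_mem _ _ (TC.wk (MorphismProperty.of_isPushout t.flip hj) (hA.of_cof hi))
    (wk_pushout_sec (hA.of_cof (TC_le_Cof _ hj)) hA' hσ e2 (MorphismProperty.of_isPushout t hi) t')

theorem glue {A B C P A' B' C' P' : Gpd E} (hA : Cofib A) (hC : Cofib C) (hA' : Cofib A')
    (hC' : Cofib C') {f : A ⟶ C} {i : A ⟶ B} {l : C ⟶ P} {r : B ⟶ P} (s : IsPushout f i l r)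
    {f' : A' ⟶ C'} {i' : A' ⟶ B'} {l' : C' ⟶ P'} {r' : B' ⟶ P'} (s' : IsPushout f' i' l' r')
    (hi : Cof E i) (hi' : Cof E i') {α : A ⟶ A'} {β : B ⟶ B'} {γ : C ⟶ C'} (hα : Wk E α)
    (hβ : Wk E β) (hγ : Wk E γ) (w1 : f ≫ γ = α ≫ f') (w2 : i ≫ β = α ≫ i') {d : P ⟶ P'}
    (hl : l ≫ d = γ ≫ l') (hr : r ≫ d = β ≫ r') : Wk E d := by
  obtain ⟨Q, lQ, rQ, q⟩ := glue_po (f ≫ γ) i
  obtain ⟨d1, a1, b1⟩ := s.exists_desc (γ ≫ lQ) rQ ((Category.assoc _ _ _).symm.trans q.w)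
  have c1 := wk_pushout hC hC' (IsPushout.of_left (b1 ▸ q) a1.symm s)
    (MorphismProperty.of_isPushout s hi) hγ
  obtain ⟨T, lT, rT, t⟩ := glue_po α i
  obtain ⟨e, a2, b2⟩ := t.exists_desc i' β w2.symm
  obtain ⟨m, a3, b3⟩ := t.exists_desc (f' ≫ lQ) rQ (by rw [← q.w, w1, Category.assoc])
  obtain ⟨d2, a4, b4⟩ := q.exists_desc l' (β ≫ r') (by
    rw [w1, Category.assoc, s'.w, reassoc_of% w2])
  have c2 := wk_cobase hA' hC' (MorphismProperty.of_isPushout t hi) hi' a2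
    ((Wk E).of_precomp rT e (wk_pushout hA hA' t hi hα) (b2 ▸ hβ))
    (IsPushout.of_left (by rw [b3, ← w1]; exact q) a3.symm t) s' a4 (t.hom_ext
      (by rw [reassoc_of% a3, a4, reassoc_of% a2, s'.w]) (by rw [reassoc_of% b3, b4, reassoc_of% b2]))
  have e5 : d1 ≫ d2 = d := s.hom_ext (by rw [reassoc_of% a1, a4, hl]) (by
    rw [reassoc_of% b1, b4, hr])
  exact e5 ▸ (Wk E).comp_mem _ _ c1 c2

omit hE in
lemma glue_sigma (W : MorphismProperty (Gpd E)) {ι : Type} [W.IsStableUnderCoproductsOfShape ι]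
    {X Y : ι → Gpd E} (f : ∀ k, X k ⟶ Y k) (hf : ∀ k, W (f k)) : W (Limits.Sigma.map f) :=
  MorphismProperty.colimMap _ fun ⟨k⟩ => hf k

lemma wk_sigma {ι : Type} {X Y : ι → Gpd E} (hX : ∀ k, Cofib (X k)) (hY : ∀ k, Cofib (Y k))
    (f : ∀ k, X k ⟶ Y k) (hf : ∀ k, Wk E (f k)) : Wk E (Limits.Sigma.map f) := by
  choose N j s r hj hs _ e1 e2 using fun k => brown (Cofib.of_initial initialIsInitial)
    ((cofib_iff initialIsInitial (initial.to (X k))).1 (hX k))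
    ((cofib_iff initialIsInitial (initial.to (Y k))).1 (hY k)) (initialIsInitial.hom_ext _ _) (hf k)
  have e3 : Limits.Sigma.map j ≫ Limits.Sigma.map r = Limits.Sigma.map f := by
    simp only [Sigma.map_comp_map, e1]
  have e4 : Limits.Sigma.map s ≫ Limits.Sigma.map r = 𝟙 _ := by
    simp only [Sigma.map_comp_map, e2, Sigma.map_id]
  exact e3 ▸ (Wk E).comp_mem _ _ (TC.wk (glue_sigma _ j hj) (Cofib.sigma hX))
    (glue_sec e4 (TC.wk (glue_sigma _ s hs) (Cofib.sigma hY)))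

theorem famPush_glue {ι : Type} {A P A' P' : Gpd E} {Z B Z' B' : ι → Gpd E}
    {c : ∀ k, Z k ⟶ B k} {φ : ∀ k, Z k ⟶ A} {inl : A ⟶ P} {inr : ∀ k, B k ⟶ P}
    (h : FamPush c φ inl inr) {c' : ∀ k, Z' k ⟶ B' k} {φ' : ∀ k, Z' k ⟶ A'} {inl' : A' ⟶ P'}
    {inr' : ∀ k, B' k ⟶ P'} (h' : FamPush c' φ' inl' inr') (hA : Cofib A) (hA' : Cofib A')
    (hZ : ∀ k, Cofib (Z k)) (hZ' : ∀ k, Cofib (Z' k)) (hc : ∀ k, Cof E (c k))
    (hc' : ∀ k, Cof E (c' k)) {γ : A ⟶ A'} {α : ∀ k, Z k ⟶ Z' k} {β : ∀ k, B k ⟶ B' k}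
    (hγ : Wk E γ) (hα : ∀ k, Wk E (α k)) (hβ : ∀ k, Wk E (β k))
    (w1 : ∀ k, φ k ≫ γ = α k ≫ φ' k) (w2 : ∀ k, c k ≫ β k = α k ≫ c' k) {d : P ⟶ P'}
    (hl : inl ≫ d = γ ≫ inl') (hr : ∀ k, inr k ≫ d = β k ≫ inr' k) : Wk E d := by
  refine glue (Cofib.sigma hZ) hA (Cofib.sigma hZ') hA' (famPush_iff.1 h) (famPush_iff.1 h')
    (glue_sigma _ c hc) (glue_sigma _ c' hc') (wk_sigma hZ hZ' α hα)
    (wk_sigma (fun k => (hZ k).of_cof (hc k)) (fun k => (hZ' k).of_cof (hc' k)) β hβ) hγ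
    (Sigma.hom_ext _ _ fun k => ?_) ?_ hl (Sigma.hom_ext _ _ fun k => ?_)
  · simp only [Sigma.ι_desc_assoc, Sigma.ι_map_assoc, Sigma.ι_desc, w1]
  · simp only [Sigma.map_comp_map, w2]
  · simp only [Sigma.ι_desc_assoc, Sigma.ι_map_assoc, Sigma.ι_desc, hr]

theorem isAtt_glue {X X' Z Z' : Gpd E} (hX : Cofib X) (hZ : Cofib Z) {f : X ⟶ Z} (hf : Wk E f)
    {ι : Type} {i : X ⟶ X'} {a b : ι → cell X} {e : ι → cell X'} (h : IsAtt (U E) i a b e)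
    {i' : Z ⟶ Z'} {e' : ι → cell Z'}
    (h' : IsAtt (U E) i' (fun k => cm f (a k)) (fun k => cm f (b k)) e') {d : X' ⟶ Z'}
    (hd : i ≫ d = f ≫ i') (he : ∀ k, cm d (e k) = e' k) : Wk E d := by
  obtain ⟨n, φ, χ, ha, hb, hc, hF⟩ := IsAtt.famPush (discsOf (rep E)) (isSph E) (bd E) (bd_spec E) h
  have hF' := (isAtt_iff_famPush (discsOf (rep E)) (isSph E) (bd E) (bd_spec E) i' n
    (fun k => φ k ≫ f) (fun k => χ k ≫ d)).1 (by
      obtain rfl : _ = a := funext ha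
      obtain rfl : _ = b := funext hb
      obtain rfl : _ = e := funext hc
      obtain rfl : _ = e' := funext he
      simp only [Functor.map_comp]
      exact h')
  exact famPush_glue hF hF' hX hZ (fun k => cofib_sph _) (fun k => cofib_sph _)
    (fun k => cof_bd _) (fun k => cof_bd _) hf (fun k => (Wk E).id_mem _)
    (fun k => (Wk E).id_mem _) (fun k => (Category.id_comp _).symm)
    (fun k => (Category.comp_id _).trans (Category.id_comp _).symm) hd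
    fun k => (Category.id_comp _).symm

end Vale.Agent.P259
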