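import Vale.Agent.P259.Collar
import Vale.Agent.P259.Excise
import Vale.Agent.P259.Glue

/-! P259 task CELLTOP: `L` preserves cell attachments up to weak equivalence.

`e2`: let `C = TopCat.of (collar χ)`, `iC : A ⟶ C`, `ψ k : An (n k) ⟶ C`. Three family pushouts (`exists_famPush`):
`P` (given), `P2` of `L (anInc)` along `L (ψ k)`, and `P3 = Sh (coverSub A' U)` for the cover
`U : Option ι → Set A'`, `none ↦ collar χ`, `some k ↦ χ k '' {‖x‖ < 1}`: the cubical set `coverSub` is the `FamPush` of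
`Sing (anOBO)` along `Sing (anOAn ≫ ψ k)` (`famPush_cover`; elementwise: a cube lies in the collar or in a unique open cell, cubes are nonempty;
use `isOpenEmbedding_int` to lift cubes), and `FamPush.map s.adj`. The induced maps `P ⟶ P2 ⟵ P3` are `Wk` by `famPush_glue`
(`L_wk` with `collar_equiv`, `sp_an`, `anO_an`; `wk_of_ctr` with `L_ctr`; `L_cof`, `L_cofib`). All three map compatibly to `L A'`
(`FamPush.hom_ext`); `P3 ⟶ L A'` is `Wk` by `excision`; two out of three.
`sph_tc`: `isPushout_sp` and `famPush_unit_iff` give a `TopAtt` (with `A = Dk n`), so `d` is `Wk` by `e2`; the pushout `Q` of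
`Sing (spInc n)` with itself maps monomorphically to `Sing (Sp (n+1))` (hemispheres are injective and meet exactly in the image of
the sphere; `Types.mono_of_isPushout_of_isPullback` objectwise, or elementwise), `Sh` preserves the pushout, so `d ≅ Sh (mono)` is `Cof`; `P` is cofibrant;
`tc_of_cof_wk`. -/

noncomputable section
namespace Vale.Agent.P259
open CategoryTheory CategoryTheory.Limits GlobExt Opposite

lemma ct_cset {ι : Type} {Z B : ι → CSet} {A P : CSet} {c : ∀ k, Z k ⟶ B k} {φ : ∀ k, Z k ⟶ A}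
    {inl : A ⟶ P} {inr : ∀ k, B k ⟶ P} (w : ∀ k, φ k ≫ inl = c k ≫ inr k)
    (hs : ∀ (n : Cbᵒᵖ) (x : P.obj n), (∃ a, inl.app n a = x) ∨ ∃ k b, (inr k).app n b = x)
    (hl : ∀ (n : Cbᵒᵖ) a a', inl.app n a = inl.app n a' → a = a')
    (hr : ∀ (n : Cbᵒᵖ) k b b', (inr k).app n b = (inr k).app n b' → b = b')
    (hd : ∀ (n : Cbᵒᵖ) k l b b', (inr k).app n b = (inr l).app n b' → k = l)
    (hp : ∀ (n : Cbᵒᵖ) k a b, inl.app n a = (inr k).app n b →
      ∃ z, (φ k).app n z = a ∧ (c k).app n z = b) : FamPush c φ inl inr := by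
  refine ⟨w, fun Y g h hw => ?_⟩
  have hgh : ∀ (n : Cbᵒᵖ) k a b, inl.app n a = (inr k).app n b → g.app n a = (h k).app n b := by
    intro n k a b e
    obtain ⟨z, rfl, rfl⟩ := hp n k a b e
    exact congrArg (fun f : Z k ⟶ Y => f.app n z) (hw k)
  have ex : ∀ (n : Cbᵒᵖ) (x : P.obj n), ∃ y : Y.obj n, (∀ a, inl.app n a = x → g.app n a = y) ∧
      ∀ k b, (inr k).app n b = x → (h k).app n b = y := by
    intro n x
    rcases hs n x with ⟨a, rfl⟩ | ⟨k, b, rfl⟩
    · exact ⟨g.app n a, fun a' e => congrArg _ (hl n _ _ e), fun k b e => (hgh n k a b e.symm).symm⟩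
    · refine ⟨(h k).app n b, fun a e => hgh n k a b e, fun l b' e => ?_⟩
      obtain rfl := hd n _ _ _ _ e
      exact congrArg _ (hr n _ _ _ e)
  choose y hy1 hy2 using ex
  let d : P ⟶ Y :=
    { app := fun n => TypeCat.ofHom (y n)
      naturality := fun n m f => by
        refine ConcreteCategory.hom_ext _ _ fun x => ?_
        change y m (P.map f x) = Y.map f (y n x)
        rcases hs n x with ⟨a, rfl⟩ | ⟨k, b, rfl⟩
        · rw [← hy1 n _ a rfl, ← hy1 m _ (A.map f a) (NatTrans.naturality_apply inl f a)]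
          exact NatTrans.naturality_apply g f a
        · rw [← hy2 n _ k b rfl, ← hy2 m _ k ((B k).map f b)
            (NatTrans.naturality_apply (inr k) f b)]
          exact NatTrans.naturality_apply (h k) f b }
  refine ⟨d, ⟨?_, fun k => ?_⟩, fun d' hd' => ?_⟩
  · refine NatTrans.ext (funext fun n => ConcreteCategory.hom_ext _ _ fun a => ?_)
    exact (hy1 n _ a rfl).symm
  · refine NatTrans.ext (funext fun n => ConcreteCategory.hom_ext _ _ fun b => ?_)
    exact (hy2 n _ k b rfl).symm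
  · refine NatTrans.ext (funext fun n => ConcreteCategory.hom_ext _ _ fun x => ?_)
    change d'.app n x = y n x
    rcases hs n x with ⟨a, rfl⟩ | ⟨k, b, rfl⟩
    · rw [← hy1 n _ a rfl, ← hd'.1]
      rfl
    · rw [← hy2 n _ k b rfl, ← hd'.2 k]
      rfl

lemma ct_lift {X Y Z : TopCat.{0}} (f : Y ⟶ Z) (hf : Topology.IsInducing f) (x : X ⟶ Z)
    (h : ∀ t, x t ∈ Set.range f) : ∃ y : X ⟶ Y, y ≫ f = x := by
  choose y hy using h
  have e : f ∘ y = x := funext hy
  refine ⟨TopCat.ofHom ⟨y, hf.continuous_iff.2 ?_⟩, ConcreteCategory.hom_ext _ _ hy⟩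
  rw [e]
  exact x.hom.continuous

lemma ct_inj {X Y Z : TopCat.{0}} (f : Y ⟶ Z) (hf : Function.Injective f) (y y' : X ⟶ Y)
    (h : y ≫ f = y' ≫ f) : y = y' :=
  ConcreteCategory.hom_ext _ _ fun t => hf (congrArg (fun g : X ⟶ Z => g t) h)

/-- The family of images. -/
def ctU {ι : Type} {B : ι → TopCat.{0}} {C T : TopCat.{0}} (j : C ⟶ T) (r : ∀ k, B k ⟶ T) :
    Option ι → Set T
  | none => Set.range j
  | some k => Set.range (r k)

lemma ct_cover {ι : Type} {Z B : ι → TopCat.{0}} {C T : TopCat.{0}} {c : ∀ k, Z k ⟶ B k}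
    {φ : ∀ k, Z k ⟶ C} {j : C ⟶ T} {r : ∀ k, B k ⟶ T} (w : ∀ k, φ k ≫ j = c k ≫ r k)
    (hj : Topology.IsEmbedding j) (hr : ∀ k, Topology.IsEmbedding (r k))
    (hc : ∀ k, Topology.IsInducing (c k)) (hd : ∀ k l b b', r k b = r l b' → k = l)
    (hp : ∀ k a b, j a = r k b → b ∈ Set.range (c k)) :
    ∃ (inl : Sing.obj C ⟶ (coverSub T (ctU j r)).toFunctor)
      (inr : ∀ k, Sing.obj (B k) ⟶ (coverSub T (ctU j r)).toFunctor),
      FamPush (fun k => Sing.map (c k)) (fun k => Sing.map (φ k)) inl inr ∧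
        inl ≫ (coverSub T (ctU j r)).ι = Sing.map j ∧
        ∀ k, inr k ≫ (coverSub T (ctU j r)).ι = Sing.map (r k) := by
  refine ⟨exLift _ (Sing.map j) fun n x => ⟨none, ?_⟩,
    fun k => exLift _ (Sing.map (r k)) fun n x => ⟨some k, ?_⟩, ?_, rfl, fun k => rfl⟩
  · rintro _ ⟨t, rfl⟩
    exact ⟨_, rfl⟩
  · rintro _ ⟨t, rfl⟩
    exact ⟨_, rfl⟩
  refine ct_cset (fun k => (cancel_mono (coverSub T (ctU j r)).ι).1 ?_) (fun n x => ?_)
    (fun n a a' e => ct_inj j hj.injective _ _ (congrArg Subtype.val e))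
    (fun n k a a' e => ct_inj (r k) (hr k).injective _ _ (congrArg Subtype.val e))
    (fun n k l b b' e => ?_) (fun n k a b e => ?_)
  · change Sing.map (φ k) ≫ Sing.map j = Sing.map (c k) ≫ Sing.map (r k)
    rw [← Sing.map_comp, w, Sing.map_comp]
  · obtain ⟨_ | k, hk⟩ := x.2
    · obtain ⟨y, hy⟩ := ct_lift j hj.isInducing (show cube.obj n.unop ⟶ T from x.1)
        fun t => hk ⟨t, rfl⟩
      exact Or.inl ⟨y, Subtype.ext hy⟩
    · obtain ⟨y, hy⟩ := ct_lift (r k) (hr k).isInducing (show cube.obj n.unop ⟶ T from x.1)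
        fun t => hk ⟨t, rfl⟩
      exact Or.inr ⟨k, y, Subtype.ext hy⟩
  · exact hd k l _ _ (congrArg (fun g : cube.obj n.unop ⟶ T => g (fun _ => 0))
      (congrArg Subtype.val e))
  · have e' : (show cube.obj n.unop ⟶ C from a) ≫ j =
        (show cube.obj n.unop ⟶ B k from b) ≫ r k := congrArg Subtype.val e
    obtain ⟨z, hz⟩ := ct_lift (c k) (hc k) (show cube.obj n.unop ⟶ B k from b)
      fun t => hp k _ _ (congrArg (fun g : cube.obj n.unop ⟶ T => g t) e')
    refine ⟨z, ct_inj j hj.injective (z ≫ φ k) _ ?_, hz⟩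
    rw [Category.assoc, w, ← Category.assoc, hz, e']

section
variable {ι : Type} {n : ι → ℕ} {A A' : TopCat.{0}} {φ : ∀ k, Sp (n k) ⟶ A} {i : A ⟶ A'}
  {χ : ∀ k, Dk (n k) ⟶ A'}

/-- Inclusion of the collar. -/
def ctInc (χ : ∀ k, Dk (n k) ⟶ A') : TopCat.of (collar χ) ⟶ A' :=
  TopCat.ofHom ⟨Subtype.val, continuous_subtype_val⟩

/-- The base into the collar. -/
def ctI (h : TopAtt n φ i χ) : A ⟶ TopCat.of (collar χ) :=
  TopCat.ofHom ⟨fun a => ⟨i a, h.mem_collar a⟩, i.hom.continuous.subtype_mk _⟩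

/-- The annuli into the collar. -/
def ctψ (h : TopAtt n φ i χ) (k : ι) : An (n k) ⟶ TopCat.of (collar χ) :=
  TopCat.ofHom ⟨fun x => ⟨χ k x.1, (h.χ_mem_collar k x.1).2 x.2⟩,
    ((χ k).hom.continuous.comp continuous_subtype_val).subtype_mk _⟩

lemma ct_w (h : TopAtt n φ i χ) (k : ι) : φ k ≫ ctI h = spAn (n k) ≫ ctψ h k :=
  ConcreteCategory.hom_ext _ _ fun x =>
    Subtype.ext (congrArg (fun g : Sp (n k) ⟶ A' => g x) (h.w k))

lemma ct_range : Set.range (ctInc χ) = collar χ := Subtype.range_coe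

lemma ct_cover_att (h : TopAtt n φ i χ) :
    ∃ (inl : Sing.obj (TopCat.of (collar χ)) ⟶
        (coverSub A' (ctU (ctInc χ) fun k => boInc (n k) ≫ χ k)).toFunctor)
      (inr : ∀ k, Sing.obj (BO (n k)) ⟶
        (coverSub A' (ctU (ctInc χ) fun k => boInc (n k) ≫ χ k)).toFunctor),
      FamPush (fun k => Sing.map (anOBO (n k))) (fun k => Sing.map (anOAn (n k) ≫ ctψ h k))
        inl inr ∧
        inl ≫ (coverSub A' (ctU (ctInc χ) fun k => boInc (n k) ≫ χ k)).ι = Sing.map (ctInc χ) ∧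
        ∀ k, inr k ≫ (coverSub A' (ctU (ctInc χ) fun k => boInc (n k) ≫ χ k)).ι =
          Sing.map (boInc (n k) ≫ χ k) := by
  refine ct_cover (fun k => rfl) Topology.IsEmbedding.subtypeVal
    (fun k => (h.isOpenEmbedding_int k).isEmbedding)
    (fun k => Topology.IsInducing.of_comp (anOBO (n k)).hom.continuous continuous_subtype_val
      Topology.IsInducing.subtypeVal)
    (fun k l b b' e => congrArg Sigma.fst (h.inj_int b.2 e)) fun k a b e => ?_
  have h1 : χ k b.1 ∈ collar χ := by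
    have h2 : a.1 = χ k b.1 := e
    rw [← h2]
    exact a.2
  exact ⟨⟨b.1, (h.χ_mem_collar k b.1).1 h1, b.2⟩, rfl⟩

variable {E : GlobExt} [Fact E.IsCoherator] (s : ShData E)

lemma ct_exc (h : TopAtt n φ i χ) :
    Wk E (s.Sh.map (coverSub A' (ctU (ctInc χ) fun k => boInc (n k) ≫ χ k)).ι) := by
  refine excision s A' _ ?_ fun y => ?_
  · rintro (_ | k)
    · change IsOpen (Set.range (ctInc χ))
      rw [ct_range]
      exact h.isOpen_collar
    · exact (h.isOpenEmbedding_int k).isOpen_range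
  · rcases h.surj y with ⟨a, rfl⟩ | ⟨k, x, hx, rfl⟩
    · exact ⟨none, ⟨i a, h.mem_collar a⟩, rfl⟩
    · exact ⟨some k, ⟨x, hx⟩, rfl⟩

lemma ct_two (h : TopAtt n φ i χ) {P : Gpd E} {inl : s.L.obj (TopCat.of (collar χ)) ⟶ P}
    {inr : ∀ k, s.L.obj (Dk (n k)) ⟶ P}
    (hP : FamPush (fun k => s.L.map (anInc (n k))) (fun k => s.L.map (ctψ h k)) inl inr)
    {g : P ⟶ s.L.obj A'} (h1 : inl ≫ g = s.L.map (ctInc χ))
    (h2 : ∀ k, inr k ≫ g = s.L.map (χ k)) : Wk E g := by
  obtain ⟨l3, r3, h3, e1, e2⟩ := ct_cover_att h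
  have h4 := h3.map s.adj
  have w2 : ∀ k, s.L.map (anOBO (n k)) ≫ s.L.map (boInc (n k)) =
      s.L.map (anOAn (n k)) ≫ s.L.map (anInc (n k)) := fun k => by
    rw [← s.L.map_comp, ← s.L.map_comp]
    rfl
  obtain ⟨d, ⟨d1, d2⟩, -⟩ := h4.desc P inl (fun k => s.L.map (boInc (n k)) ≫ inr k) fun k => by
    change s.L.map (anOAn (n k) ≫ ctψ h k) ≫ inl =
      s.L.map (anOBO (n k)) ≫ s.L.map (boInc (n k)) ≫ inr k
    rw [← Category.assoc, w2, s.L.map_comp, Category.assoc, hP.w k, Category.assoc]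
  have W : Wk E d := by
    refine famPush_glue h4 hP (s.L_cofib _) (s.L_cofib _) (fun k => s.L_cofib _)
      (fun k => s.L_cofib _) (fun k => s.L_cof (anOBO (n k)) ?_)
      (fun k => s.L_cof (anInc (n k)) Subtype.val_injective) (γ := 𝟙 _)
      (α := fun k => s.L.map (anOAn (n k))) (β := fun k => s.L.map (boInc (n k)))
      ((Wk E).id_mem _) (fun k => ?_) (fun k => wk_of_ctr _ (s.L_ctr _) (s.L_ctr _))
      (fun k => ?_) w2 (d1.trans (Category.id_comp _).symm) d2
    · exact fun x y e => Subtype.ext (congrArg (fun z : BO (n k) => z.1) e)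
    · obtain ⟨e, he⟩ := anO_an (n k)
      exact s.L_wk _ e he
    · exact (Category.comp_id _).trans (s.L.map_comp _ _)
  have e3 : d ≫ g = s.Sh.map (coverSub A' (ctU (ctInc χ) fun k => boInc (n k) ≫ χ k)).ι := by
    refine h4.hom_ext ?_ fun k => ?_
    · rw [← Category.assoc, d1, h1, ← s.Sh.map_comp, e1]
      rfl
    · rw [← Category.assoc, d2, Category.assoc, h2, ← s.Sh.map_comp, e2, ← s.L.map_comp]
      rfl
  exact (Wk E).of_precomp d g W (e3 ▸ ct_exc s h)

end

variable {E : GlobExt} [Fact E.IsCoherator] (s : ShData E)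

theorem e2 {ι : Type} {n : ι → ℕ} {A A' : TopCat.{0}} {φ : ∀ k, Sp (n k) ⟶ A} {i : A ⟶ A'}
    {χ : ∀ k, Dk (n k) ⟶ A'} (h : TopAtt n φ i χ) {P : Gpd E} {inl : s.L.obj A ⟶ P}
    {inr : ∀ k, s.L.obj (Dk (n k)) ⟶ P}
    (hP : FamPush (fun k => s.L.map (spInc (n k))) (fun k => s.L.map (φ k)) inl inr)
    {g : P ⟶ s.L.obj A'} (h1 : inl ≫ g = s.L.map i) (h2 : ∀ k, inr k ≫ g = s.L.map (χ k)) :
    Wk E g := by
  obtain ⟨P2, l2, r2, hP2⟩ := exists_famPush (fun k => s.L.map (anInc (n k)))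
    (fun k => s.L.map (ctψ h k))
  have w1 : ∀ k, s.L.map (φ k) ≫ s.L.map (ctI h) =
      s.L.map (spAn (n k)) ≫ s.L.map (ctψ h k) := fun k => by
    rw [← s.L.map_comp, ← s.L.map_comp, ct_w]
  have w2 : ∀ k, s.L.map (spInc (n k)) = s.L.map (spAn (n k)) ≫ s.L.map (anInc (n k)) :=
    fun k => s.L.map_comp (spAn (n k)) (anInc (n k))
  obtain ⟨d, ⟨d1, d2⟩, -⟩ := hP.desc P2 (s.L.map (ctI h) ≫ l2) r2 fun k => by
    rw [← Category.assoc, w1, w2, Category.assoc, Category.assoc, hP2.w k]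
  obtain ⟨g2, ⟨g1, g3⟩, -⟩ := hP2.desc (s.L.obj A') (s.L.map (ctInc χ)) (fun k => s.L.map (χ k))
    fun k => by
      rw [← s.L.map_comp, ← s.L.map_comp]
      rfl
  have W : Wk E d := by
    refine famPush_glue hP hP2 (s.L_cofib _) (s.L_cofib _) (fun k => s.L_cofib _)
      (fun k => s.L_cofib _) (fun k => s.L_cof (spInc (n k)) ?_)
      (fun k => s.L_cof (anInc (n k)) Subtype.val_injective) (γ := s.L.map (ctI h))
      (α := fun k => s.L.map (spAn (n k))) (β := fun k => 𝟙 _) ?_ (fun k => ?_)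
      (fun k => (Wk E).id_mem _) w1 (fun k => (Category.comp_id _).trans (w2 k)) d1
      fun k => (d2 k).trans (Category.id_comp _).symm
    · exact Set.inclusion_injective Metric.sphere_subset_closedBall
    · obtain ⟨e, he⟩ := h.collar_equiv
      exact s.L_wk (ctI h) e (ContinuousMap.ext fun a => Subtype.ext (he a))
    · obtain ⟨e, he⟩ := sp_an (n k)
      exact s.L_wk _ e he
  have e3 : d ≫ g2 = g := by
    refine hP.hom_ext ?_ fun k => ?_
    · rw [← Category.assoc, d1, Category.assoc, g1, h1, ← s.L.map_comp]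
      rfl
    · rw [← Category.assoc, d2, g3, h2]
  exact e3 ▸ (Wk E).comp_mem d g2 W (ct_two s h hP2 g1 g3)

lemma ct_hemi_emb (n : ℕ) (ε : Bool) : Topology.IsEmbedding (hemiS n ε) :=
  Function.LeftInverse.isEmbedding (dnS_hemiS n ε) (dnS n).continuous (hemiS n ε).hom.continuous

lemma ct_hemi_meet (n : ℕ) (a b : Dk n) (e : hemiS n false a = hemiS n true b) :
    b ∈ Set.range (spInc n) := by
  have h1 : up false a.1 (Fin.last n) = up true b.1 (Fin.last n) :=
    congrArg (fun y : Sp (n + 1) => y.1 (Fin.last n)) e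
  have h2 : up true b.1 (Fin.last n) = 0 := by
    have h3 := Real.sqrt_nonneg (1 - ‖a.1‖ ^ 2)
    have h4 := Real.sqrt_nonneg (1 - ‖b.1‖ ^ 2)
    rw [up_last, up_last] at h1
    rw [up_last]
    simp only [Bool.false_eq_true, if_false, if_true] at h1 ⊢
    linarith
  obtain ⟨z, hz⟩ := dnS_eq n (hemiS n true b) h2
  exact ⟨z, hz.trans (dnS_hemiS n true b)⟩

theorem sph_tc (n : ℕ) {P : Gpd E} {l r : s.L.obj (Dk n) ⟶ P}
    (hP : IsPushout (s.L.map (spInc n)) (s.L.map (spInc n)) l r) {d : P ⟶ s.L.obj (Sp (n + 1))}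
    (hl : l ≫ d = s.L.map (hemiS n false)) (hr : r ≫ d = s.L.map (hemiS n true)) : TC E d := by
  have hF := famPush_unit_iff.2 hP
  have W : Wk E d := e2 s (n := fun _ : Unit => n) (φ := fun _ => spInc n)
    (χ := fun _ => hemiS n true) (famPush_unit_iff.2 (isPushout_sp n)) hF hl fun _ => hr
  obtain ⟨l3, r3, h3, e1, e2⟩ := ct_cover (ι := Unit) (c := fun _ => spInc n)
    (φ := fun _ => spInc n) (j := hemiS n false) (r := fun _ => hemiS n true)
    (fun _ => spInc_hemiS n) (ct_hemi_emb n false) (fun _ => ct_hemi_emb n true)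
    (fun _ => (Topology.IsEmbedding.inclusion Metric.sphere_subset_closedBall).isInducing) (fun _ _ _ _ _ => rfl)
    fun _ a b e => ct_hemi_meet n a b e
  have h4 := h3.map s.adj
  obtain ⟨e, e3, e4⟩ := hF.iso h4
  have e5 : e.hom ≫ s.Sh.map (coverSub _ (ctU (hemiS n false) fun _ : Unit => hemiS n true)).ι =
      d := by
    refine hF.hom_ext ?_ fun k => ?_
    · rw [← Category.assoc, e3, hl, ← s.Sh.map_comp, e1]
      rfl
    · rw [← Category.assoc, e4 k, hr, ← s.Sh.map_comp, e2 k]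
      rfl
  refine tc_of_cof_wk ((s.Sh_cofib _).of_iso e.symm) ?_ W
  rw [← e5]
  exact MorphismProperty.RespectsIso.precomp (TF E).llp e.hom _ (s.Sh_cof _)

end Vale.Agent.P259
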