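import Vale.Agent.P259.Tab

/-! P259 task PUSH: general category theory of `FamPush`, `IsSph`, `IsAtt`, `IsExp`.

`exists_sph`: induction on `n`; `n = 0`: initial object with `(bot, bot)`;
`n + 1`: pushout of `𝔻 n ← Z → 𝔻 n` along the map classifying `(sr top, tg top)`.
`IsAtt` is a `FamPush` of sphere inclusions, `IsExp` a `FamPush` of the maps `σ`. -/

noncomputable section
namespace Vale.Agent.P259
open CategoryTheory CategoryTheory.Limits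
universe u u'

section Fam
variable {C : Type*} [Category C] {ι : Type} {A P : C} {Z B : ι → C}
  {c : ∀ k, Z k ⟶ B k} {φ : ∀ k, Z k ⟶ A} {inl : A ⟶ P} {inr : ∀ k, B k ⟶ P}

lemma push_isPushout_iff {Z X Y : C} {f : Z ⟶ X} {g : Z ⟶ Y} {l : X ⟶ P} {r : Y ⟶ P} :
    IsPushout f g l r ↔ f ≫ l = g ≫ r ∧ ∀ (W : C) (a : X ⟶ W) (b : Y ⟶ W), f ≫ a = g ≫ b →
      ∃! d : P ⟶ W, l ≫ d = a ∧ r ≫ d = b := by
  constructor
  · intro h
    exact ⟨h.w, fun W a b w => ⟨h.desc a b w, ⟨h.inl_desc _ _ _, h.inr_desc _ _ _⟩,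
      fun d hd => h.hom_ext (by rw [hd.1, h.inl_desc]) (by rw [hd.2, h.inr_desc])⟩⟩
  · rintro ⟨w, h⟩
    choose d hd hd' using h
    exact ⟨⟨w⟩, ⟨PushoutCocone.IsColimit.mk w (fun s => d _ _ _ s.condition)
      (fun s => (hd _ _ _ s.condition).1) (fun s => (hd _ _ _ s.condition).2)
      fun s m h₁ h₂ => hd' _ _ _ s.condition m ⟨h₁, h₂⟩⟩⟩

lemma FamPush.hom_ext (h : FamPush c φ inl inr) {Y : C} {f g : P ⟶ Y} (h1 : inl ≫ f = inl ≫ g)
    (h2 : ∀ k, inr k ≫ f = inr k ≫ g) : f = g :=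
  (h.desc Y (inl ≫ g) (fun k => inr k ≫ g) fun k => by rw [reassoc_of% h.w k]).unique
    ⟨h1, h2⟩ ⟨rfl, fun _ => rfl⟩
lemma famPush_iff [HasCoproduct Z] [HasCoproduct B] :
    FamPush c φ inl inr ↔
      IsPushout (Sigma.desc φ) (Limits.Sigma.map c) inl (Sigma.desc inr) := by
  rw [push_isPushout_iff]
  constructor
  · intro h
    refine ⟨Sigma.hom_ext _ _ fun k => by simp [h.w k], fun W a b w => ?_⟩
    refine (existsUnique_congr fun d => and_congr_right fun _ => ?_).1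
      (h.desc W a (fun k => Sigma.ι B k ≫ b) fun k => by simpa using Sigma.ι Z k ≫= w)
    exact ⟨fun e => Sigma.hom_ext _ _ fun k => by simpa using e k, fun e k => by simp [← e]⟩
  · rintro ⟨w, h⟩
    refine ⟨fun k => by simpa using Sigma.ι Z k ≫= w, fun W a b w => ?_⟩
    refine (existsUnique_congr fun d => and_congr_right fun _ => ?_).1
      (h W a (Sigma.desc b) (Sigma.hom_ext _ _ fun k => by simp [w k]))
    exact ⟨fun e k => by simpa using Sigma.ι B k ≫= e,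
      fun e => Sigma.hom_ext _ _ fun k => by simpa using e k⟩
lemma exists_famPush [HasColimitsOfSize.{0, 0} C] (c : ∀ k, Z k ⟶ B k) (φ : ∀ k, Z k ⟶ A) :
    ∃ (P : C) (inl : A ⟶ P) (inr : ∀ k, B k ⟶ P), FamPush c φ inl inr := by
  refine ⟨pushout (Sigma.desc φ) (Limits.Sigma.map c), pushout.inl _ _,
    fun k => Sigma.ι B k ≫ pushout.inr _ _, famPush_iff.2 ?_⟩
  rw [show Sigma.desc (fun k => Sigma.ι B k ≫ pushout.inr (Sigma.desc φ) (Limits.Sigma.map c)) =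
    pushout.inr _ _ from Sigma.hom_ext _ _ fun k => by simp]
  exact IsPushout.of_hasPushout _ _
lemma FamPush.map {D : Type*} [Category D] {L : C ⥤ D} {R : D ⥤ C} (adj : L ⊣ R)
    (h : FamPush c φ inl inr) :
    FamPush (fun k => L.map (c k)) (fun k => L.map (φ k)) (L.map inl) (fun k => L.map (inr k)) := by
  refine ⟨fun k => by rw [← L.map_comp, h.w, L.map_comp], fun Y g b w => ?_⟩
  refine (Equiv.existsUnique_congr (adj.homEquiv P Y) fun d => ?_).2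
    (h.desc (R.obj Y) (adj.homEquiv _ _ g) (fun k => adj.homEquiv _ _ (b k)) fun k => by
      rw [← adj.homEquiv_naturality_left, ← adj.homEquiv_naturality_left, w])
  simp only [← adj.homEquiv_naturality_left, EmbeddingLike.apply_eq_iff_eq]
lemma FamPush.iso (h : FamPush c φ inl inr) {P' : C} {inl' : A ⟶ P'} {inr' : ∀ k, B k ⟶ P'}
    (h' : FamPush c φ inl' inr') :
    ∃ e : P ≅ P', inl ≫ e.hom = inl' ∧ ∀ k, inr k ≫ e.hom = inr' k := by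
  obtain ⟨f, ⟨f₁, f₂⟩, -⟩ := h.desc P' inl' inr' h'.w
  obtain ⟨g, ⟨g₁, g₂⟩, -⟩ := h'.desc P inl inr h.w
  exact ⟨⟨f, g, h.hom_ext (by simp [reassoc_of% f₁, g₁]) fun k => by simp [reassoc_of% f₂ k, g₂],
    h'.hom_ext (by simp [reassoc_of% g₁, f₁]) fun k => by simp [reassoc_of% g₂ k, f₂]⟩, f₁, f₂⟩
lemma FamPush.llp (h : FamPush c φ inl inr) (W : MorphismProperty C) (hc : ∀ k, W.llp (c k)) :
    W.llp inl := by
  intro X Y p hp
  refine ⟨fun {u v} sq => ?_⟩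
  have sq' : ∀ k, CommSq (φ k ≫ u) (c k) p (inr k ≫ v) := fun k =>
    ⟨by rw [Category.assoc, sq.w, reassoc_of% h.w k]⟩
  have := fun k => hc k p hp
  obtain ⟨d, ⟨d₁, d₂⟩, -⟩ := h.desc X u (fun k => (sq' k).lift) fun k => by simp
  exact ⟨⟨⟨d, d₁, h.hom_ext (by rw [reassoc_of% d₁, sq.w]) fun k => by
    simp [reassoc_of% d₂ k]⟩⟩⟩
lemma famPush_unit_iff {Z B : C} {c : Z ⟶ B} {φ : Z ⟶ A} {inr : B ⟶ P} :
    FamPush (fun _ : Unit => c) (fun _ => φ) inl (fun _ => inr) ↔ IsPushout φ c inl inr := by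
  rw [push_isPushout_iff]
  constructor
  · intro h
    exact ⟨h.w (), fun W a b w => by simpa using h.desc W a (fun _ => b) fun _ => w⟩
  · rintro ⟨w, h⟩
    exact ⟨fun _ => w, fun W a b w => by simpa [Unique.forall_iff] using h W a (b ()) (w ())⟩
end Fam

/-- The left lifting property passes to sequential colimits. -/
lemma llp_seq {C : Type*} [Category C] (W : MorphismProperty C) {F : ℕ ⥤ C} {c : Cocone F}
    (hc : IsColimit c) (h : ∀ k : ℕ, W.llp (F.map (homOfLE k.le_succ))) : W.llp (c.ι.app 0) := by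
  intro X Y p hp
  refine ⟨fun {u v} sq => ?_⟩
  have step : ∀ k (l : {l : F.obj k ⟶ X // l ≫ p = c.ι.app k ≫ v}),
      ∃ l' : {l : F.obj (k + 1) ⟶ X // l ≫ p = c.ι.app (k + 1) ≫ v},
        F.map (homOfLE k.le_succ) ≫ l'.1 = l.1 := fun k l => by
    have := h k p hp
    have sq' : CommSq l.1 (F.map (homOfLE k.le_succ)) p (c.ι.app (k + 1) ≫ v) :=
      ⟨by rw [l.2, c.w_assoc]⟩
    exact ⟨⟨sq'.lift, sq'.fac_right⟩, sq'.fac_left⟩
  choose st hst using step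
  let l : ∀ k, {l : F.obj k ⟶ X // l ≫ p = c.ι.app k ≫ v} := fun k => Nat.rec ⟨u, sq.w⟩ st k
  let s : Cocone F := ⟨X, NatTrans.ofSequence (fun k => (l k).1) fun k =>
    (hst k (l k)).trans (Category.comp_id _).symm⟩
  exact ⟨⟨⟨hc.desc s, hc.fac s 0, hc.hom_ext fun k => by
    rw [hc.fac_assoc s k]; exact (l k).2⟩⟩⟩

variable {M : Type u} [Category.{0} M]

lemma push_comp (V : M ⥤ GS) {X Y Z : M} (f : X ⟶ Y) (g : Y ⟶ Z) (c : (V.obj X).Cell) :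
    (V.map g).app ((V.map f).app c) = (V.map (f ≫ g)).app c := by
  rw [V.map_comp]; rfl

lemma push_nat {V V' : M ⥤ GS} (ε : V ⟶ V') {X Y : M} (f : X ⟶ Y) (c : (V.obj X).Cell) :
    (V'.map f).app ((ε.app X).app c) = (ε.app Y).app ((V.map f).app c) :=
  congrArg (fun φ : V.obj X ⟶ V'.obj Y => φ.app c) (ε.naturality f).symm

lemma push_hom_inv {V V' : M ⥤ GS} (ε : V ≅ V') (X : M) (c : (V.obj X).Cell) :
    (ε.inv.app X).app ((ε.hom.app X).app c) = c := gsl_hom_inv (ε.app X) c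

lemma push_bij {V V' : M ⥤ GS} (ε : V ≅ V') (X : M) : Function.Bijective (ε.hom.app X).app :=
  bijective_of_isIso _

lemma IsSph.hom_ext {V : M ⥤ GS} {n : ℕ} {Z Y : M} {a b : (V.obj Z).Cell} (h : IsSph V n a b)
    {f g : Z ⟶ Y} (ha : (V.map f).app a = (V.map g).app a)
    (hb : (V.map f).app b = (V.map g).app b) : f = g :=
  (h.desc Y _ _ (h.par.map (V.map g)) (by simp [h.dim_eq])).unique ⟨ha, hb⟩ ⟨rfl, rfl⟩

lemma IsSph.of_natIso {V V' : M ⥤ GS} (e : V ≅ V') {n : ℕ} {Z : M} {a b : (V.obj Z).Cell}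
    (h : IsSph V n a b) : IsSph V' n ((e.hom.app Z).app a) ((e.hom.app Z).app b) := by
  refine ⟨h.par.map _, by simp [h.dim_eq], fun Y a' b' hp hd => ?_⟩
  obtain ⟨a', rfl⟩ := (push_bij e Y).2 a'
  obtain ⟨b', rfl⟩ := (push_bij e Y).2 b'
  have hp' := hp.map (e.inv.app Y)
  rw [push_hom_inv, push_hom_inv] at hp'
  simpa only [push_nat, (push_bij e Y).1.eq_iff] using h.desc Y a' b' hp' (by simpa using hd)

lemma isSph_zero (𝔻 : CoGlob M) {Z : M} (hZ : IsInitial Z) :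
    IsSph 𝔻.hom 0 (𝔻.hom.obj Z).bot (𝔻.hom.obj Z).bot := by
  refine ⟨Par.refl _, dim_bot, fun Y a b hp hd => ?_⟩
  rw [eq_bot hd, eq_bot (hp.1.symm.trans hd)]
  exact ⟨hZ.to Y, ⟨app_bot _, app_bot _⟩, fun _ _ => hZ.hom_ext _ _⟩

lemma IsSph.isInitial {𝔻 : CoGlob M} {Z : M} {a b : (𝔻.hom.obj Z).Cell} (h : IsSph 𝔻.hom 0 a b) :
    Nonempty (IsInitial Z) := by
  have ha := eq_bot h.dim_eq
  have hb := eq_bot (h.par.1.symm.trans h.dim_eq)
  choose g _ using fun Y => (h.desc Y _ _ (Par.refl (𝔻.hom.obj Y).bot) dim_bot).exists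
  exact ⟨IsInitial.ofUniqueHom g fun Y m => h.hom_ext (by rw [ha, app_bot, app_bot])
    (by rw [hb, app_bot, app_bot])⟩

lemma push_arr_iff (𝔻 : CoGlob M) {n : ℕ} {Z Y : M} {a b : (𝔻.hom.obj Z).Cell}
    (h : IsSph 𝔻.hom n a b) {bd : Z ⟶ 𝔻.obj n} (ha : (𝔻.hom.map bd).app a = sr (𝔻.top n))
    (hb : (𝔻.hom.map bd).app b = tg (𝔻.top n)) (φ : Z ⟶ Y) (χ : 𝔻.obj n ⟶ Y) :
    Arr (𝔻.cell χ) ((𝔻.hom.map φ).app a) ((𝔻.hom.map φ).app b) ↔ φ = bd ≫ χ := by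
  have e₁ : (𝔻.hom.map (bd ≫ χ)).app a = sr (𝔻.cell χ) := by
    rw [← push_comp, ha, ← GS.Hom.sr_app, 𝔻.map_top]
  have e₂ : (𝔻.hom.map (bd ≫ χ)).app b = tg (𝔻.cell χ) := by
    rw [← push_comp, hb, ← GS.Hom.tg_app, 𝔻.map_top]
  refine ⟨fun H => h.hom_ext (H.1.symm.trans e₁.symm) (H.2.1.symm.trans e₂.symm), ?_⟩
  rintro rfl
  rw [e₁, e₂]
  exact arr_self (by simp)

lemma push_par_iff (𝔻 : CoGlob M) {n : ℕ} {Z Y : M} {a b : (𝔻.hom.obj Z).Cell}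
    (h : IsSph 𝔻.hom n a b) {bd : Z ⟶ 𝔻.obj n} (ha : (𝔻.hom.map bd).app a = sr (𝔻.top n))
    (hb : (𝔻.hom.map bd).app b = tg (𝔻.top n)) (u v : 𝔻.obj n ⟶ Y) :
    Par (𝔻.cell u) (𝔻.cell v) ↔ bd ≫ u = bd ≫ v := by
  have H := (push_arr_iff 𝔻 h ha hb (bd ≫ u) u).2 rfl
  exact ⟨fun hp => (push_arr_iff 𝔻 h ha hb _ v).1 (H.of_par hp),
    fun e => H.par_of_arr ((push_arr_iff 𝔻 h ha hb _ v).2 e)⟩

/-- The next sphere is the pushout of two discs along the previous sphere. -/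
lemma isSph_succ_iff (𝔻 : CoGlob M) {n : ℕ} {Z Z' : M} {a b : (𝔻.hom.obj Z).Cell}
    (h : IsSph 𝔻.hom n a b) (bd : Z ⟶ 𝔻.obj n) (ha : (𝔻.hom.map bd).app a = sr (𝔻.top n))
    (hb : (𝔻.hom.map bd).app b = tg (𝔻.top n)) (l r : 𝔻.obj n ⟶ Z') :
    IsSph 𝔻.hom (n + 1) (𝔻.cell l) (𝔻.cell r) ↔ IsPushout bd bd l r := by
  have key : ∀ (Y : M) (u v : 𝔻.obj n ⟶ Y) (g : Z' ⟶ Y),
      ((𝔻.hom.map g).app (𝔻.cell l) = 𝔻.cell u ∧ (𝔻.hom.map g).app (𝔻.cell r) = 𝔻.cell v) ↔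
        (l ≫ g = u ∧ r ≫ g = v) := fun Y u v g => by
    rw [𝔻.map_cell, 𝔻.map_cell]
    exact ⟨fun e => ⟨𝔻.cell_inj e.1, 𝔻.cell_inj e.2⟩, fun e => ⟨by rw [e.1], by rw [e.2]⟩⟩
  rw [push_isPushout_iff]
  constructor
  · intro H
    exact ⟨(push_par_iff 𝔻 h ha hb _ _).1 H.par, fun W u v w => (existsUnique_congr (key W u v)).1
      (H.desc W _ _ ((push_par_iff 𝔻 h ha hb _ _).2 w) (𝔻.dim_cell u))⟩
  · rintro ⟨w, H⟩
    refine ⟨(push_par_iff 𝔻 h ha hb _ _).2 w, 𝔻.dim_cell l, fun W a' b' hp hd => ?_⟩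
    obtain ⟨u, rfl⟩ := 𝔻.exists_cell a' hd
    obtain ⟨v, rfl⟩ := 𝔻.exists_cell b' (hp.1.symm.trans hd)
    exact (existsUnique_congr (key W u v)).2 (H W u v ((push_par_iff 𝔻 h ha hb _ _).1 hp))

lemma push_exists_bd (𝔻 : CoGlob M) {n : ℕ} {Z : M} {a b : (𝔻.hom.obj Z).Cell}
    (h : IsSph 𝔻.hom n a b) : ∃ bd : Z ⟶ 𝔻.obj n, (𝔻.hom.map bd).app a = sr (𝔻.top n) ∧
      (𝔻.hom.map bd).app b = tg (𝔻.top n) :=
  (h.desc _ _ _ (par_sr_tg _) (by simp)).exists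

lemma exists_sph [HasInitial M] [HasPushouts M] (𝔻 : CoGlob M) (n : ℕ) :
    ∃ (Z : M) (a b : (𝔻.hom.obj Z).Cell), IsSph 𝔻.hom n a b := by
  induction n with
  | zero => exact ⟨_, _, _, isSph_zero 𝔻 initialIsInitial⟩
  | succ n ih =>
    obtain ⟨Z, a, b, h⟩ := ih
    obtain ⟨bd, ha, hb⟩ := push_exists_bd 𝔻 h
    exact ⟨_, _, _, (isSph_succ_iff 𝔻 h bd ha hb _ _).2 (IsPushout.of_hasPushout bd bd)⟩

lemma IsAtt.hom_ext {V : M ⥤ GS} {X X' Y : M} {i : X ⟶ X'} {ι : Type}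
    {a b : ι → (V.obj X).Cell} {e : ι → (V.obj X').Cell} (h : IsAtt V i a b e) {f g : X' ⟶ Y}
    (h1 : i ≫ f = i ≫ g) (h2 : ∀ k, (V.map f).app (e k) = (V.map g).app (e k)) : f = g :=
  (h.desc Y (i ≫ g) (fun k => (V.map g).app (e k)) fun k => by
    simpa only [push_comp] using (h.arr k).map (V.map g)).unique ⟨h1, h2⟩ ⟨rfl, fun _ => rfl⟩

lemma IsExp.hom_ext {V : M ⥤ GS} {X X' Y : M} {i : X ⟶ X'} {ι : Type}
    {a : ι → (V.obj X).Cell} {γ : ι → (V.obj X').Cell} (h : IsExp V i a γ) {f g : X' ⟶ Y}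
    (h1 : i ≫ f = i ≫ g) (h2 : ∀ k, (V.map f).app (γ k) = (V.map g).app (γ k)) : f = g :=
  (h.desc Y (i ≫ g) (fun k => (V.map g).app (γ k)) fun k =>
    ⟨by rw [GS.Hom.sr_app, (h.arr k).1, push_comp], by simp [(h.arr k).2]⟩).unique
    ⟨h1, h2⟩ ⟨rfl, fun _ => rfl⟩

lemma IsAtt.of_natIso {V V' : M ⥤ GS} (ε : V ≅ V') {X X' : M} {i : X ⟶ X'} {ι : Type}
    {a b : ι → (V.obj X).Cell} {e : ι → (V.obj X').Cell} (h : IsAtt V i a b e) :
    IsAtt V' i (fun k => (ε.hom.app X).app (a k)) (fun k => (ε.hom.app X).app (b k))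
      (fun k => (ε.hom.app X').app (e k)) := by
  refine ⟨fun k => (h.par k).map _, fun k => ?_, fun Y g e' he' => ?_⟩
  · simpa only [push_nat] using (h.arr k).map (ε.hom.app X')
  · choose e'' he'' using fun k => (push_bij ε Y).2 (e' k)
    obtain rfl : e' = fun k => (ε.hom.app Y).app (e'' k) := funext fun k => (he'' k).symm
    simpa only [push_nat, (push_bij ε Y).1.eq_iff] using h.desc Y g e'' fun k => by
      simpa only [push_nat, push_hom_inv] using (he' k).map (ε.inv.app Y)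

/-- Left adjoints preserve cell attachments. -/
lemma IsAtt.adj {N : Type u'} [Category.{0} N] {L : M ⥤ N} {R : N ⥤ M} (adj : L ⊣ R)
    {V : M ⥤ GS} {X X' : M} {i : X ⟶ X'} {ι : Type}
    {a b : ι → (V.obj X).Cell} {e : ι → (V.obj X').Cell} (h : IsAtt V i a b e) :
    IsAtt (R ⋙ V) (L.map i) (fun k => (V.map (adj.unit.app X)).app (a k))
      (fun k => (V.map (adj.unit.app X)).app (b k))
      (fun k => (V.map (adj.unit.app X')).app (e k)) := by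
  have key : ∀ {A : M} {Y : N} (g : L.obj A ⟶ Y) (c : (V.obj A).Cell),
      ((R ⋙ V).map g).app ((V.map (adj.unit.app A)).app c) =
        (V.map (adj.homEquiv _ _ g)).app c := fun g c => by
    rw [adj.homEquiv_unit]
    exact push_comp V _ _ c
  have e₁ : adj.homEquiv _ _ (L.map i) = i ≫ adj.unit.app X' := by
    rw [adj.homEquiv_unit]
    exact (adj.unit.naturality i).symm
  refine ⟨fun k => (h.par k).map _, fun k => ?_, fun Y g e' he' => ?_⟩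
  · rw [key, key, e₁, ← push_comp, ← push_comp]
    exact (h.arr k).map _
  · refine (Equiv.existsUnique_congr (adj.homEquiv X' Y) fun d => ?_).2
      (h.desc (R.obj Y) (adj.homEquiv _ _ g) e' fun k => by simpa only [key] using he' k)
    simp only [key, ← adj.homEquiv_naturality_left, EmbeddingLike.apply_eq_iff_eq]

section Sph
variable (𝔻 : CoGlob M) {Z : ℕ → M} {sa sb : ∀ n, (𝔻.hom.obj (Z n)).Cell}
  (hZ : ∀ n, IsSph 𝔻.hom n (sa n) (sb n)) (bd : ∀ n, Z n ⟶ 𝔻.obj n)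
  (hbd : ∀ n, (𝔻.hom.map (bd n)).app (sa n) = sr (𝔻.top n) ∧
    (𝔻.hom.map (bd n)).app (sb n) = tg (𝔻.top n))
include hZ hbd

/-- Cell attachments are pushouts of sphere inclusions. -/
lemma isAtt_iff_famPush {X X' : M} (i : X ⟶ X') {ι : Type} (n : ι → ℕ)
    (φ : ∀ k, Z (n k) ⟶ X) (χ : ∀ k, 𝔻.obj (n k) ⟶ X') :
    IsAtt 𝔻.hom i (fun k => (𝔻.hom.map (φ k)).app (sa _)) (fun k => (𝔻.hom.map (φ k)).app (sb _))
      (fun k => 𝔻.cell (χ k)) ↔ FamPush (fun k => bd (n k)) φ i χ := by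
  have key : ∀ (Y : M) (g : X ⟶ Y) k (u : 𝔻.obj (n k) ⟶ Y),
      Arr (𝔻.cell u) ((𝔻.hom.map g).app ((𝔻.hom.map (φ k)).app (sa _)))
        ((𝔻.hom.map g).app ((𝔻.hom.map (φ k)).app (sb _))) ↔ φ k ≫ g = bd (n k) ≫ u :=
    fun Y g k u => by
      rw [push_comp, push_comp]
      exact push_arr_iff 𝔻 (hZ _) (hbd _).1 (hbd _).2 _ _
  have key' : ∀ (Y : M) (g : X ⟶ Y) (u : ∀ k, 𝔻.obj (n k) ⟶ Y) (d : X' ⟶ Y),
      (i ≫ d = g ∧ ∀ k, (𝔻.hom.map d).app (𝔻.cell (χ k)) = 𝔻.cell (u k)) ↔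
        (i ≫ d = g ∧ ∀ k, χ k ≫ d = u k) := fun Y g u d =>
    and_congr_right fun _ => forall_congr' fun k => by
      rw [𝔻.map_cell]
      exact ⟨𝔻.cell_inj, congrArg _⟩
  constructor
  · intro h
    exact ⟨fun k => (key _ _ _ _).1 (h.arr k), fun Y g u w => (existsUnique_congr (key' Y g u)).1
      (h.desc Y g _ fun k => (key _ _ _ _).2 (w k))⟩
  · intro h
    refine ⟨fun k => (hZ _).par.map _, fun k => (key _ _ _ _).2 (h.w k), fun Y g e' he' => ?_⟩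
    choose u hu using fun k => 𝔻.exists_cell (n := n k) (e' k)
      (by simpa [(hZ _).dim_eq] using (he' k).2.2)
    obtain rfl : e' = fun k => 𝔻.cell (u k) := funext fun k => (hu k).symm
    exact (existsUnique_congr (key' Y g u)).2 (h.desc Y g u fun k => (key _ _ _ _).1 (he' k))

lemma IsAtt.famPush {X X' : M} {i : X ⟶ X'} {ι : Type} {a b : ι → (𝔻.hom.obj X).Cell}
    {e : ι → (𝔻.hom.obj X').Cell} (h : IsAtt 𝔻.hom i a b e) :
    ∃ (n : ι → ℕ) (φ : ∀ k, Z (n k) ⟶ X) (χ : ∀ k, 𝔻.obj (n k) ⟶ X'),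
      (∀ k, (𝔻.hom.map (φ k)).app (sa _) = a k) ∧ (∀ k, (𝔻.hom.map (φ k)).app (sb _) = b k) ∧
      (∀ k, 𝔻.cell (χ k) = e k) ∧ FamPush (fun k => bd (n k)) φ i χ := by
  obtain ⟨n, hn⟩ : ∃ n : ι → ℕ, ∀ k, dim (a k) = n k := ⟨_, fun _ => rfl⟩
  choose φ ha hb using fun k => ((hZ (n k)).desc X _ _ (h.par k) (hn k)).exists
  choose χ hχ using fun k => 𝔻.exists_cell (n := n k) (e k) (by simpa [hn] using (h.arr k).2.2)
  refine ⟨n, φ, χ, ha, hb, hχ, (isAtt_iff_famPush 𝔻 hZ bd hbd i n φ χ).1 ?_⟩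
  rwa [funext ha, funext hb, funext hχ]

/-- Trivial fibrations are the maps with the lifting property for sphere inclusions. -/
lemma trivFib_iff_rlp {X Y : M} (p : X ⟶ Y) :
    TrivFib (𝔻.hom.map p) ↔ ∀ n, HasLiftingProperty (bd n) p := by
  have key := fun n {Y : M} (φ : Z n ⟶ Y) (χ : 𝔻.obj n ⟶ Y) =>
    push_arr_iff 𝔻 (hZ n) (hbd n).1 (hbd n).2 φ χ
  constructor
  · refine fun h n => ⟨fun {u v} sq => ?_⟩
    obtain ⟨c, hc, e⟩ := h _ _ ((hZ n).par.map (𝔻.hom.map u)) (𝔻.cell v) (by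
      rw [push_comp, push_comp]
      exact (key n _ _).2 sq.w)
    obtain ⟨l, rfl⟩ := 𝔻.exists_cell (n := n) c (by simpa [(hZ n).dim_eq] using hc.2.2)
    exact ⟨⟨⟨l, ((key n _ _).1 hc).symm, 𝔻.cell_inj e⟩⟩⟩
  · intro h a b hp c' hc'
    obtain ⟨n, hn⟩ : ∃ n, dim a = n := ⟨_, rfl⟩
    obtain ⟨u, ⟨rfl, rfl⟩, -⟩ := (hZ n).desc X a b hp hn
    obtain ⟨v, rfl⟩ := 𝔻.exists_cell (n := n) c' (by simpa [(hZ n).dim_eq] using hc'.2.2)
    rw [push_comp, push_comp] at hc'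
    have sq : CommSq u (bd n) p v := ⟨(key n _ _).1 hc'⟩
    have := h n
    exact ⟨𝔻.cell sq.lift, (key n _ _).2 sq.fac_left.symm, congrArg 𝔻.cell sq.fac_right⟩
end Sph

lemma fib_iff_rlp (𝔻 : CoGlob M) {X Y : M} (p : X ⟶ Y) :
    Fib (𝔻.hom.map p) ↔ ∀ n, HasLiftingProperty (𝔻.σ n) p := by
  constructor
  · refine fun h n => ⟨fun {u v} sq => ?_⟩
    obtain ⟨c, h₁, h₂, h₃⟩ := h (𝔻.cell u) (by simp) (𝔻.cell v)
      (congrArg 𝔻.cell sq.w.symm) rfl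
    obtain ⟨l, rfl⟩ := 𝔻.exists_cell (n := n + 1) c h₂
    exact ⟨⟨⟨l, 𝔻.cell_inj h₁, 𝔻.cell_inj h₃⟩⟩⟩
  · intro h a ha c' h₁ h₂
    obtain ⟨n, hn⟩ : ∃ n, dim a = n + 1 := ⟨dim a - 1, by omega⟩
    obtain ⟨u, rfl⟩ := 𝔻.exists_cell a hn
    obtain ⟨v, rfl⟩ := 𝔻.exists_cell (n := n + 1) c' h₂
    have sq : CommSq u (𝔻.σ n) p v := ⟨(𝔻.cell_inj h₁).symm⟩
    have := h n
    exact ⟨𝔻.cell sq.lift, congrArg 𝔻.cell sq.fac_left, rfl, congrArg 𝔻.cell sq.fac_right⟩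

lemma exists_isAtt [HasColimitsOfSize.{0, 0} M] (𝔻 : CoGlob M) {X : M} {ι : Type}
    (a b : ι → (𝔻.hom.obj X).Cell) (h : ∀ k, Par (a k) (b k)) :
    ∃ (X' : M) (i : X ⟶ X') (e : ι → (𝔻.hom.obj X').Cell), IsAtt 𝔻.hom i a b e := by
  choose Z sa sb hZ using exists_sph 𝔻
  choose bd hbd using fun n => push_exists_bd 𝔻 (hZ n)
  obtain ⟨n, hn⟩ : ∃ n : ι → ℕ, ∀ k, dim (a k) = n k := ⟨_, fun _ => rfl⟩
  choose φ ha hb using fun k => ((hZ (n k)).desc X _ _ (h k) (hn k)).exists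
  obtain ⟨P, i, χ, H⟩ := exists_famPush (fun k => bd (n k)) φ
  have := (isAtt_iff_famPush 𝔻 hZ bd hbd i n φ χ).2 H
  rw [funext ha, funext hb] at this
  exact ⟨P, i, _, this⟩

lemma exists_isExp [HasColimitsOfSize.{0, 0} M] (𝔻 : CoGlob M) {X : M} {ι : Type}
    (a : ι → (𝔻.hom.obj X).Cell) (h : ∀ k, 1 ≤ dim (a k)) :
    ∃ (X' : M) (i : X ⟶ X') (γ : ι → (𝔻.hom.obj X').Cell), IsExp 𝔻.hom i a γ := by
  obtain ⟨n, hn⟩ : ∃ n : ι → ℕ, ∀ k, dim (a k) = n k + 1 :=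
    ⟨fun k => dim (a k) - 1, fun k => (Nat.sub_add_cancel (h k)).symm⟩
  choose φ hφ using fun k => 𝔻.exists_cell (a k) (hn k)
  obtain rfl : a = fun k => 𝔻.cell (φ k) := funext fun k => (hφ k).symm
  obtain ⟨P, i, χ, H⟩ := exists_famPush (fun k => 𝔻.σ (n k)) φ
  refine ⟨P, i, fun k => 𝔻.cell (χ k), h, fun k => ⟨congrArg 𝔻.cell (H.w k).symm, rfl⟩,
    fun Y g γ' hγ => ?_⟩
  choose u hu using fun k => 𝔻.exists_cell (n := n k + 1) (γ' k) (hγ k).2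
  obtain rfl : γ' = fun k => 𝔻.cell (u k) := funext fun k => (hu k).symm
  refine (existsUnique_congr fun d => and_congr_right fun _ => forall_congr' fun k => ?_).1
    (H.desc Y g u fun k => (𝔻.cell_inj (hγ k).1).symm)
  exact ⟨congrArg 𝔻.cell, 𝔻.cell_inj⟩

end Vale.Agent.P259
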