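import Vale.Agent.P259.Colim
import Vale.Agent.P259.Push

/-! P259 task COF: spheres in models; formal properties of `TF, FB, Cof, TC, Cofib`.
`TF_eq`, `FB_eq` come from `trivFib_iff_rlp`, `fib_iff_rlp`; then Mathlib's instances for
`rlp` / `llp` give all stability properties. `famPush_sqTC`: given a fibration `p` and a square
`(u : P ⟶ X, w : P' ⟶ Y)`, lift on each `B' k` by `SqTC` with data
`φ' k ≫ inl ≫ u`, `inr k ≫ u`, `inr' k ≫ w`, then descend along `P'`. -/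

noncomputable section
namespace Vale.Agent.P259
open CategoryTheory CategoryTheory.Limits GlobExt Opposite
variable {E : GlobExt}

/-- The universal parallel pair of `dim n`. -/
def sph (E : GlobExt) (n : ℕ) : Gpd E := (exists_sph (discsOf (rep E)) n).choose
/-- First cell of the universal pair. -/
def sa (E : GlobExt) (n : ℕ) : cell (sph E n) :=
  (exists_sph (discsOf (rep E)) n).choose_spec.choose
/-- Second cell of the universal pair. -/
def sb (E : GlobExt) (n : ℕ) : cell (sph E n) :=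
  (exists_sph (discsOf (rep E)) n).choose_spec.choose_spec.choose
lemma isSph (E : GlobExt) (n : ℕ) : IsSph (U E) n (sa E n) (sb E n) :=
  (exists_sph (discsOf (rep E)) n).choose_spec.choose_spec.choose_spec
/-- The map classifying a parallel pair. -/
def sphMap {X : Gpd E} {n : ℕ} {a b : cell X} (h : Par a b) (hn : dim a = n) : sph E n ⟶ X :=
  ((isSph E n).desc X a b h hn).exists.choose
lemma sphMap_a {X : Gpd E} {n : ℕ} {a b : cell X} (h : Par a b) (hn : dim a = n) :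
    cm (sphMap h hn) (sa E n) = a := ((isSph E n).desc X a b h hn).exists.choose_spec.1
lemma sphMap_b {X : Gpd E} {n : ℕ} {a b : cell X} (h : Par a b) (hn : dim a = n) :
    cm (sphMap h hn) (sb E n) = b := ((isSph E n).desc X a b h hn).exists.choose_spec.2
/-- The boundary inclusion. -/
def bd (E : GlobExt) (n : ℕ) : sph E n ⟶ (rep E).obj (disc n) :=
  sphMap (par_sr_tg (topR E n)) (by rw [dim_sr]; rfl)
lemma bd_spec (E : GlobExt) (n : ℕ) :
    cm (bd E n) (sa E n) = sr (topR E n) ∧ cm (bd E n) (sb E n) = tg (topR E n) :=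
  ⟨sphMap_a _ _, sphMap_b _ _⟩
/-- The two hemispheres. -/
def hemiR (E : GlobExt) (n : ℕ) : Bool → ((rep E).obj (disc n) ⟶ sph E (n + 1))
  | false => (existsUnique_classify (sa E (n + 1)) (isSph E (n + 1)).dim_eq).exists.choose
  | true => (existsUnique_classify (sb E (n + 1))
      ((isSph E (n + 1)).par.1.symm.trans (isSph E (n + 1)).dim_eq)).exists.choose
lemma hemiR_false (n : ℕ) : cm (hemiR E n false) (topR E n) = sa E (n + 1) :=
  (existsUnique_classify (sa E (n + 1)) (isSph E (n + 1)).dim_eq).exists.choose_spec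
lemma hemiR_true (n : ℕ) : cm (hemiR E n true) (topR E n) = sb E (n + 1) :=
  (existsUnique_classify (sb E (n + 1))
    ((isSph E (n + 1)).par.1.symm.trans (isSph E (n + 1)).dim_eq)).exists.choose_spec
lemma hemiR_bd_false (n : ℕ) : hemiR E n false ≫ bd E (n + 1) = (discsOf (rep E)).σ n := by
  refine (discsOf (rep E)).cell_inj (((discsOf (rep E)).map_top _).symm.trans ?_)
  refine (cm_comp _ _ _).trans ((congrArg (cm (bd E (n + 1))) (hemiR_false n)).trans ?_)
  exact (bd_spec E (n + 1)).1.trans (congrArg (discsOf (rep E)).cell (Category.comp_id _))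
lemma hemiR_bd_true (n : ℕ) : hemiR E n true ≫ bd E (n + 1) = (discsOf (rep E)).τ n := by
  refine (discsOf (rep E)).cell_inj (((discsOf (rep E)).map_top _).symm.trans ?_)
  refine (cm_comp _ _ _).trans ((congrArg (cm (bd E (n + 1))) (hemiR_true n)).trans ?_)
  exact (bd_spec E (n + 1)).2.trans (congrArg (discsOf (rep E)).cell (Category.comp_id _))
lemma isPushout_sph (n : ℕ) : IsPushout (bd E n) (bd E n) (hemiR E n false) (hemiR E n true) := by
  refine (isSph_succ_iff (discsOf (rep E)) (isSph E n) (bd E n) (bd_spec E n).1 (bd_spec E n).2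
    _ _).1 ?_
  have h := isSph E (n + 1)
  rw [← ((discsOf (rep E)).map_top _).symm.trans (hemiR_false n),
    ← ((discsOf (rep E)).map_top _).symm.trans (hemiR_true n)] at h
  exact h
lemma sph_zero_initial : Nonempty (IsInitial (sph E 0)) :=
  IsSph.isInitial (𝔻 := discsOf (rep E)) (isSph E 0)

lemma TF_eq : TF E = (MorphismProperty.ofHoms (bd E)).rlp := by
  ext X Y p
  refine (trivFib_iff_rlp (discsOf (rep E)) (isSph E) (bd E) (bd_spec E) p).trans
    ⟨?_, fun h n => h _ ⟨n⟩⟩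
  rintro h _ _ _ ⟨n⟩
  exact h n
lemma FB_eq : FB E = (MorphismProperty.ofHoms (discsOf (rep E)).σ).rlp := by
  ext X Y p
  refine (fib_iff_rlp (discsOf (rep E)) p).trans ⟨?_, fun h n => h _ ⟨n⟩⟩
  rintro h _ _ _ ⟨n⟩
  exact h n
instance : (TF E).IsStableUnderBaseChange := by
  rw [TF_eq]
  infer_instance
instance : (FB E).IsStableUnderBaseChange := by
  rw [FB_eq]
  infer_instance
instance : (TF E).IsMultiplicative := by
  rw [TF_eq]
  infer_instance
instance : (FB E).IsMultiplicative := by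
  rw [FB_eq]
  infer_instance
instance : (TF E).RespectsIso := by
  rw [TF_eq]
  infer_instance
instance : (FB E).RespectsIso := by
  rw [FB_eq]
  infer_instance
instance (ι : Type) : (TF E).IsStableUnderProductsOfShape ι := by
  rw [TF_eq]
  infer_instance
instance : (Cof E).IsStableUnderCobaseChange := by
  unfold Cof
  infer_instance
instance : (TC E).IsStableUnderCobaseChange := by
  unfold TC
  infer_instance
instance : (Cof E).IsMultiplicative := by
  unfold Cof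
  infer_instance
instance : (TC E).IsMultiplicative := by
  unfold TC
  infer_instance
instance : (Cof E).RespectsIso := by
  unfold Cof
  infer_instance
instance : (TC E).RespectsIso := by
  unfold TC
  infer_instance
instance : (Cof E).IsStableUnderRetracts := by
  unfold Cof
  infer_instance
instance : (TC E).IsStableUnderRetracts := by
  unfold TC
  infer_instance
instance (ι : Type) : (Cof E).IsStableUnderCoproductsOfShape ι := by
  unfold Cof
  infer_instance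
instance (ι : Type) : (TC E).IsStableUnderCoproductsOfShape ι := by
  unfold TC
  infer_instance

lemma TF_le_FB : TF E ≤ FB E := fun _ _ _ h => TrivFib.fib h
lemma TC_le_Cof : TC E ≤ Cof E := MorphismProperty.antitone_llp TF_le_FB
lemma cof_bd (n : ℕ) : Cof E (bd E n) := fun _ _ p hp =>
  (trivFib_iff_rlp (discsOf (rep E)) (isSph E) (bd E) (bd_spec E) p).1 hp n
lemma cof_lift_aux {A B X Y : Gpd E} {i : A ⟶ B} {p : X ⟶ Y} (h : HasLiftingProperty i p)
    (u : A ⟶ X) (v : B ⟶ Y) (w : u ≫ p = i ≫ v) : ∃ l : B ⟶ X, i ≫ l = u ∧ l ≫ p = v :=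
  ⟨(CommSq.mk w).lift, CommSq.fac_left _, CommSq.fac_right _⟩
lemma cof_hlp_aux {A B X Y : Gpd E} {i : A ⟶ B} {p : X ⟶ Y}
    (h : ∀ (u : A ⟶ X) (v : B ⟶ Y), u ≫ p = i ≫ v → ∃ l : B ⟶ X, i ≫ l = u ∧ l ≫ p = v) :
    HasLiftingProperty i p :=
  ⟨fun sq => (h _ _ sq.w).elim fun l hl => CommSq.HasLift.mk' ⟨l, hl.1, hl.2⟩⟩
lemma Cof.lift {A B X Y : Gpd E} {i : A ⟶ B} (hi : Cof E i) {p : X ⟶ Y} (hp : TF E p)
    (u : A ⟶ X) (v : B ⟶ Y) (w : u ≫ p = i ≫ v) : ∃ l : B ⟶ X, i ≫ l = u ∧ l ≫ p = v :=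
  cof_lift_aux (hi p hp) u v w
lemma TC.lift {A B X Y : Gpd E} {i : A ⟶ B} (hi : TC E i) {p : X ⟶ Y} (hp : FB E p)
    (u : A ⟶ X) (v : B ⟶ Y) (w : u ≫ p = i ≫ v) : ∃ l : B ⟶ X, i ≫ l = u ∧ l ≫ p = v :=
  cof_lift_aux (hi p hp) u v w
lemma cof_of_lift {A B : Gpd E} {i : A ⟶ B}
    (h : ∀ (X Y : Gpd E) (p : X ⟶ Y), TF E p → ∀ (u : A ⟶ X) (v : B ⟶ Y), u ≫ p = i ≫ v →
      ∃ l : B ⟶ X, i ≫ l = u ∧ l ≫ p = v) : Cof E i :=
  fun X Y p hp => cof_hlp_aux (h X Y p hp)
lemma tc_of_lift {A B : Gpd E} {i : A ⟶ B}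
    (h : ∀ (X Y : Gpd E) (p : X ⟶ Y), FB E p → ∀ (u : A ⟶ X) (v : B ⟶ Y), u ≫ p = i ≫ v →
      ∃ l : B ⟶ X, i ≫ l = u ∧ l ≫ p = v) : TC E i :=
  fun X Y p hp => cof_hlp_aux (h X Y p hp)
lemma tf_of_ctr {X T : Gpd E} (hX : MCtr X) (hT : IsTerminal T) (p : X ⟶ T) : TF E p := by
  intro a b h c' hc
  obtain ⟨c, hc'⟩ := hX a b h
  refine ⟨c, hc', ((discsOf (rep E)).terminal_cell hT (dim c')).unique ?_ rfl⟩
  exact (hc'.map ((U E).map p)).2.2.trans hc.2.2.symm
lemma Cof.extend {A B X : Gpd E} {i : A ⟶ B} (hi : Cof E i) (hX : MCtr X) (u : A ⟶ X) :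
    ∃ l : B ⟶ X, i ≫ l = u :=
  (hi.lift (tf_of_ctr hX terminalIsTerminal (terminal.from X)) u (terminal.from B)
    (terminal.hom_ext _ _)).imp fun _ h => h.1

lemma IsAtt.cof {X X' : Gpd E} {i : X ⟶ X'} {ι : Type} {a b : ι → cell X} {e : ι → cell X'}
    (h : IsAtt (U E) i a b e) : Cof E i := by
  refine cof_of_lift fun Y Z p hp u v w => ?_
  have h1 : ∀ k, ∃ c, Arr c (cm u (a k)) (cm u (b k)) ∧ cm p c = cm v (e k) := fun k =>
    hp _ _ ((h.par k).map _) _ (by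
      have h2 := (h.arr k).map ((U E).map v)
      change Arr _ (cm v (cm i _)) (cm v (cm i _)) at h2
      rw [← cm_comp, ← cm_comp, ← w, cm_comp, cm_comp] at h2
      exact h2)
  choose c hc hc' using h1
  obtain ⟨l, ⟨h2, h3⟩, -⟩ := h.desc Y u c hc
  refine ⟨l, h2, h.hom_ext (by rw [reassoc_of% h2, w]) fun k => (cm_comp _ _ _).trans ?_⟩
  exact (congrArg (cm p) (h3 k)).trans (hc' k)
lemma IsExp.tc {X X' : Gpd E} {i : X ⟶ X'} {ι : Type} {a : ι → cell X} {γ : ι → cell X'}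
    (h : IsExp (U E) i a γ) : TC E i := by
  refine tc_of_lift fun Y Z p hp u v w => ?_
  have h1 : ∀ k, ∃ c, sr c = cm u (a k) ∧ dim c = dim (cm u (a k)) + 1 ∧ cm p c = cm v (γ k) :=
    fun k => hp _ (by rw [GS.Hom.dim_app]; exact h.pos k) _ (by
      rw [GS.Hom.sr_app, (h.arr k).1]
      change cm v (cm i _) = cm p (cm u _)
      rw [← cm_comp, ← cm_comp, w]) (by rw [GS.Hom.dim_app, GS.Hom.dim_app, (h.arr k).2])
  choose c hc hc' hc'' using h1
  obtain ⟨l, ⟨h2, h3⟩, -⟩ := h.desc Y u c fun k =>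
    ⟨hc k, (hc' k).trans (by rw [GS.Hom.dim_app])⟩
  refine ⟨l, h2, h.hom_ext (by rw [reassoc_of% h2, w]) fun k => (cm_comp _ _ _).trans ?_⟩
  exact (congrArg (cm p) (h3 k)).trans (hc'' k)

lemma cofib_iff {I X : Gpd E} (hI : IsInitial I) (f : I ⟶ X) : Cofib X ↔ Cof E f :=
  ⟨fun h => cof_of_lift fun Y Z p hp _ v _ => (h Y Z p hp v).imp fun _ hl => ⟨hI.hom_ext _ _, hl⟩,
    fun h Y _ _ hp g => (h.lift hp (hI.to Y) g (hI.hom_ext _ _)).imp fun _ hl => hl.2⟩
lemma Cofib.of_initial {I : Gpd E} (hI : IsInitial I) : Cofib I :=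
  fun Y _ _ _ _ => ⟨hI.to Y, hI.hom_ext _ _⟩
lemma Cofib.of_cof {X Y : Gpd E} (hX : Cofib X) {i : X ⟶ Y} (hi : Cof E i) : Cofib Y := by
  intro A B p hp g
  obtain ⟨l, hl⟩ := hX A B p hp (i ≫ g)
  exact (hi.lift hp l g hl).imp fun _ h => h.2
lemma Cofib.of_iso {X Y : Gpd E} (hX : Cofib X) (e : X ≅ Y) : Cofib Y :=
  hX.of_cof (MorphismProperty.llp_of_isIso _ e.hom)
lemma Cofib.sigma {ι : Type} {X : ι → Gpd E} (h : ∀ k, Cofib (X k)) : Cofib (∐ X) := by
  intro A B p hp g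
  choose l hl using fun k => h k A B p hp (Sigma.ι X k ≫ g)
  exact ⟨Sigma.desc l, Sigma.hom_ext _ _ fun k => by rw [Sigma.ι_desc_assoc, hl]⟩
lemma Cofib.inl {X Y : Gpd E} (hY : Cofib Y) : Cof E (coprod.inl : X ⟶ X ⨿ Y) := by
  refine cof_of_lift fun A B p hp u v w => ?_
  obtain ⟨l, hl⟩ := hY A B p hp (coprod.inr ≫ v)
  exact ⟨coprod.desc u l, coprod.inl_desc _ _, coprod.hom_ext
    (by rw [coprod.inl_desc_assoc, w]) (by rw [coprod.inr_desc_assoc, hl])⟩
lemma Cofib.inr {X Y : Gpd E} (hX : Cofib X) : Cof E (coprod.inr : Y ⟶ X ⨿ Y) := by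
  refine cof_of_lift fun A B p hp u v w => ?_
  obtain ⟨l, hl⟩ := hX A B p hp (coprod.inl ≫ v)
  exact ⟨coprod.desc l u, coprod.inr_desc _ _, coprod.hom_ext
    (by rw [coprod.inl_desc_assoc, hl]) (by rw [coprod.inr_desc_assoc, w])⟩
lemma cofib_sph (n : ℕ) : Cofib (sph E n) := by
  cases n with
  | zero => exact sph_zero_initial.elim Cofib.of_initial
  | succ n =>
    exact (cofib_rep (disc n)).of_cof
      (MorphismProperty.of_isPushout (P := Cof E) (isPushout_sph n) (cof_bd n))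
lemma Cellular.cofib {X : Gpd E} (h : Cellular X) : Cofib X := by
  obtain ⟨F, c, hc, h0, e, h⟩ := h
  refine ((Cofib.of_initial h0).of_cof (llp_seq (TF E) hc fun k => ?_)).of_iso e
  obtain ⟨ι, a, b, e, h⟩ := h k
  exact h.cof

lemma SqTC.of_tc {A A' B B' P : Gpd E} {top : A ⟶ A'} {left : A ⟶ B} {right : A' ⟶ B'}
    {bottom : B ⟶ B'} {l : A' ⟶ P} {r : B ⟶ P} (hP : IsPushout top left l r) (d : P ⟶ B')
    (hl : l ≫ d = right) (hr : r ≫ d = bottom) (hd : TC E d) : SqTC top left right bottom := by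
  intro X Y p hp u v w h1 h2 h3
  obtain ⟨m, h4, h5⟩ := hd.lift hp (hP.desc u v h1) w (hP.hom_ext
    (by rw [hP.inl_desc_assoc, reassoc_of% hl, h2]) (by rw [hP.inr_desc_assoc, reassoc_of% hr, h3]))
  exact ⟨m, by rw [← hl, Category.assoc, h4, hP.inl_desc],
    by rw [← hr, Category.assoc, h4, hP.inr_desc], h5⟩

lemma famPush_sqTC {ι : Type} {A P P' : Gpd E} {Z B Z' B' : ι → Gpd E} {c : ∀ k, Z k ⟶ B k}
    {c' : ∀ k, Z' k ⟶ B' k} {top : ∀ k, Z k ⟶ Z' k} {bottom : ∀ k, B k ⟶ B' k}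
    (hw : ∀ k, top k ≫ c' k = c k ≫ bottom k) (hs : ∀ k, SqTC (top k) (c k) (c' k) (bottom k))
    {φ' : ∀ k, Z' k ⟶ A} {inl : A ⟶ P} {inr : ∀ k, B k ⟶ P} {inl' : A ⟶ P'}
    {inr' : ∀ k, B' k ⟶ P'} (h : FamPush c (fun k => top k ≫ φ' k) inl inr)
    (h' : FamPush c' φ' inl' inr') (d : P ⟶ P') (hd : inl ≫ d = inl')
    (hd' : ∀ k, inr k ≫ d = bottom k ≫ inr' k) : TC E d := by
  refine tc_of_lift fun X Y p hp u w hsq => ?_
  have h1 : ∀ k, ∃ l : B' k ⟶ X, c' k ≫ l = φ' k ≫ inl ≫ u ∧ bottom k ≫ l = inr k ≫ u ∧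
      l ≫ p = inr' k ≫ w := fun k => hs k X Y p hp _ _ _
    (by rw [← Category.assoc, ← Category.assoc, h.w k, Category.assoc])
    (by rw [Category.assoc, Category.assoc, hsq, reassoc_of% hd, reassoc_of% (h'.w k)])
    (by rw [Category.assoc, hsq, reassoc_of% (hd' k)])
  choose l h2 h3 h4 using h1
  obtain ⟨m, ⟨h5, h6⟩, -⟩ := h'.desc X (inl ≫ u) l fun k => (h2 k).symm
  refine ⟨m, h.hom_ext (by rw [reassoc_of% hd, h5]) fun k => ?_,
    h'.hom_ext (by rw [reassoc_of% h5, hsq, reassoc_of% hd]) fun k => ?_⟩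
  · rw [reassoc_of% (hd' k), h6, h3]
  · rw [reassoc_of% (h6 k), h4]

end Vale.Agent.P259
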