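import Vale.Agent.P259.Model

/-! P259 task COLIM: `Gpd E` is complete and cocomplete, filtered colimits are pointwise.

Let `Wm : MorphismProperty (E.Cᵒᵖ ⥤ Type)` be the small family of comparison maps
`pushout (yoneda.map (ι (dface true ≫ lastInc T))) (yoneda.map (ι (dface false))) ⟶ yoneda.obj (ι snoc)`.
Then `IsGpd E = Wm.isLocal` (Yoneda). Use
`MorphismProperty.isRightAdjoint_ι_isLocal`, `isClosedUnderColimitsOfShape_isLocal`
(Mathlib/CategoryTheory/Presentable/OrthogonalReflection.lean, with `κ = ℵ₀`: sources and targets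
are finite colimits of representables, hence finitely presentable), `hasColimits_of_reflective`,
`hasLimits_of_reflective`. (Closure under limits / filtered colimits can also be shown directly:
pullbacks commute with limits and with filtered colimits in `Type`.)
`seqColim`: cells are maps out of finitely presentable objects
(`IsFinitelyPresentable.exists_hom_of_isColimit`, `exists_eq_of_isColimit'`, or pointwise). -/

noncomputable section
namespace Vale.Agent.P259
open CategoryTheory CategoryTheory.Limits GlobExt Opposite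
variable {E : GlobExt}

lemma colim_fp_yoneda {C : Type} [SmallCategory C] (c : C) :
    IsFinitelyPresentable.{0} (yoneda.obj c) := by
  rw [isFinitelyPresentable_iff_preservesFilteredColimitsOfSize]
  let e : coyoneda.obj (op (yoneda.obj c)) ≅ (evaluation Cᵒᵖ Type).obj (op c) :=
    NatIso.ofComponents (fun P => Equiv.toIso yonedaEquiv)
  exact ⟨fun J _ _ => preservesColimitsOfShape_of_natIso e.symm⟩

lemma colim_fp_pushout {C : Type} [SmallCategory C] {A B B' : C} (a : A ⟶ B) (b : A ⟶ B') :
    IsFinitelyPresentable.{0} (pushout (yoneda.map a) (yoneda.map b)) := by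
  have := Cardinal.fact_isRegular_aleph0.{0}
  apply +allowSynthFailures isCardinalPresentable_of_isColimit' _ (colimit.isColimit _)
  · exact hasCardinalLT_of_finite _ _ (by rfl)
  · rintro (_ | _ | _) <;> exact colim_fp_yoneda _

lemma colim_local_iff {C : Type} [SmallCategory C] {A B B' P : C} {a : A ⟶ B} {b : A ⟶ B'}
    {c : B ⟶ P} {d : B' ⟶ P} (w : a ≫ c = b ≫ d) (X : Cᵒᵖ ⥤ Type) :
    IsPullback (X.map c.op) (X.map d.op) (X.map a.op) (X.map b.op) ↔
      Function.Bijective fun g : yoneda.obj P ⟶ X => pushout.desc (yoneda.map c) (yoneda.map d)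
        (by rw [← yoneda.map_comp, w, yoneda.map_comp]) ≫ g := by
  rw [Types.isPullback_iff]
  constructor
  · rintro ⟨-, h₁, h₂⟩
    refine ⟨fun g g' h => yonedaEquiv.injective (h₁ _ _ ⟨?_, ?_⟩), fun g => ?_⟩
    · rw [yonedaEquiv_naturality, yonedaEquiv_naturality]
      simpa only [pushout.inl_desc_assoc, EmbeddingLike.apply_eq_iff_eq] using pushout.inl _ _ ≫= h
    · rw [yonedaEquiv_naturality, yonedaEquiv_naturality]
      simpa only [pushout.inr_desc_assoc, EmbeddingLike.apply_eq_iff_eq] using pushout.inr _ _ ≫= h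
    · obtain ⟨x, hx, hx'⟩ := h₂ (yonedaEquiv (pushout.inl _ _ ≫ g))
        (yonedaEquiv (pushout.inr _ _ ≫ g)) (by
          rw [yonedaEquiv_naturality, yonedaEquiv_naturality, pushout.condition_assoc])
      refine ⟨yonedaEquiv.symm x, pushout.hom_ext ?_ ?_⟩
      · rw [pushout.inl_desc_assoc, yonedaEquiv_symm_naturality_left, hx, Equiv.symm_apply_apply]
      · rw [pushout.inr_desc_assoc, yonedaEquiv_symm_naturality_left, hx', Equiv.symm_apply_apply]
  · rintro ⟨h₁, h₂⟩
    refine ⟨by rw [← X.map_comp, ← X.map_comp, ← op_comp, ← op_comp, w], fun x y h =>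
      yonedaEquiv.symm.injective (h₁ (pushout.hom_ext ?_ ?_)), fun x y h => ?_⟩
    · rw [pushout.inl_desc_assoc, pushout.inl_desc_assoc, yonedaEquiv_symm_naturality_left,
        yonedaEquiv_symm_naturality_left, h.1]
    · rw [pushout.inr_desc_assoc, pushout.inr_desc_assoc, yonedaEquiv_symm_naturality_left,
        yonedaEquiv_symm_naturality_left, h.2]
    · obtain ⟨g, hg⟩ := h₂ (pushout.desc (yonedaEquiv.symm x) (yonedaEquiv.symm y) (by
        rw [yonedaEquiv_symm_naturality_left, yonedaEquiv_symm_naturality_left, h]))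
      refine ⟨yonedaEquiv g, ?_, ?_⟩
      · rw [yonedaEquiv_naturality, ← Equiv.eq_symm_apply]
        simpa only [pushout.inl_desc_assoc, pushout.inl_desc] using pushout.inl _ _ ≫= hg
      · rw [yonedaEquiv_naturality, ← Equiv.eq_symm_apply]
        simpa only [pushout.inr_desc_assoc, pushout.inr_desc] using pushout.inr _ _ ≫= hg

/-- Index of the gluing squares. -/
structure ColimIdx where
  l : ℕ
  T : Tab l
  j : ℕ
  i : ℕ
  hl : j < l
  hi : j < i

/-- The comparison maps. -/
def colimW (E : GlobExt) : MorphismProperty (E.Cᵒᵖ ⥤ Type) :=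
  MorphismProperty.ofHoms fun p : ColimIdx =>
    pushout.desc (f := yoneda.map (E.ι.map (dface true p.hl ≫ lastInc p.T)))
      (g := yoneda.map (E.ι.map (dface false p.hi)))
      (yoneda.map (E.ι.map (initInc p.T p.j p.i p.hl p.hi)))
      (yoneda.map (E.ι.map (lastInc (p.T.snoc p.j p.i p.hl p.hi))))
      (by rw [← yoneda.map_comp, (E.pres _ p.T p.j p.i p.hl p.hi).w, yoneda.map_comp])

lemma colim_isGpd (E : GlobExt) : IsGpd E = (colimW E).isLocal := by
  ext X
  constructor
  · rintro h _ _ _ ⟨p⟩
    exact (colim_local_iff (E.pres _ p.T p.j p.i p.hl p.hi).w _).1 (h _ _ _ _ _ _)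
  · intro h l T j i hl hi
    exact (colim_local_iff (E.pres _ T j i hl hi).w X).2
      (h _ (MorphismProperty.ofHoms.mk (⟨l, T, j, i, hl, hi⟩ : ColimIdx)))

lemma colim_hW (E : GlobExt) ⦃X Y : E.Cᵒᵖ ⥤ Type⦄ (f : X ⟶ Y) (h : colimW E f) :
    IsFinitelyPresentable.{0} X ∧ IsFinitelyPresentable.{0} Y := by
  obtain ⟨p⟩ := h
  exact ⟨colim_fp_pushout _ _, colim_fp_yoneda _⟩

instance : (IsGpd E).ι.IsRightAdjoint := by
  have := Cardinal.fact_isRegular_aleph0.{0}
  have : MorphismProperty.IsSmall.{0} (colimW E) := by unfold colimW; infer_instance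
  rw [colim_isGpd]
  exact MorphismProperty.isRightAdjoint_ι_isLocal _ Cardinal.aleph0.{0} (colim_hW E)

/-- The inclusion of models is reflective. -/
@[reducible] def colimRefl (E : GlobExt) : Reflective (IsGpd E).ι where
  L := (IsGpd E).ι.leftAdjoint
  adj := Adjunction.ofIsRightAdjoint _

instance : HasColimitsOfSize.{0, 0} (Gpd E) :=
  let := colimRefl E
  hasColimits_of_reflective (IsGpd E).ι
instance : HasLimitsOfSize.{0, 0} (Gpd E) :=
  let := colimRefl E
  hasLimits_of_reflective (IsGpd E).ι
instance : PreservesFilteredColimitsOfSize.{0, 0} (IsGpd E).ι := by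
  have := Cardinal.fact_isRegular_aleph0.{0}
  rw [← Functor.IsFinitelyAccessible_iff_preservesFilteredColimitsOfSize, colim_isGpd]
  exact MorphismProperty.isCardinalAccessible_ι_isLocal _ Cardinal.aleph0.{0} (colim_hW E)
instance (c : E.C) : IsFinitelyPresentable.{0} ((repC E).obj c) := by
  rw [isFinitelyPresentable_iff_preservesFilteredColimitsOfSize]
  let e : coyoneda.obj (op ((repC E).obj c)) ≅
      (IsGpd E).ι ⋙ (evaluation E.Cᵒᵖ Type).obj (op c) :=
    NatIso.ofComponents (fun P => Equiv.toIso repEquiv) (fun f => by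
      ext x
      exact repEquiv_comp x f)
  exact ⟨fun J _ _ => preservesColimitsOfShape_of_natIso e.symm⟩
instance (S : Theta) : IsFinitelyPresentable.{0} ((rep E).obj S) :=
  inferInstanceAs (IsFinitelyPresentable.{0} ((repC E).obj _))

lemma seqColim {F : ℕ ⥤ Gpd E} {c : Cocone F} (hc : IsColimit c) :
    SeqColim ((U E).mapCocone c) := by
  constructor
  · rintro (_ | ⟨n, x⟩)
    · exact ⟨0, none, rfl⟩
    · obtain ⟨k, y, rfl⟩ := IsFinitelyPresentable.exists_hom_of_isColimit
        (X := (rep E).obj (disc n)) hc x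
      exact ⟨k, some ⟨n, y⟩, rfl⟩
  · rintro k (_ | ⟨n, y⟩) (_ | ⟨n', y'⟩) h
    · exact ⟨k, le_rfl, rfl⟩
    · cases h
    · cases h
    · obtain ⟨rfl, h'⟩ := Sigma.mk.inj_iff.1 (Option.some.inj h)
      obtain ⟨m, u, v, e⟩ := IsFinitelyPresentable.exists_eq_of_isColimit
        (X := (rep E).obj (disc n)) hc y y' (eq_of_heq h')
      exact ⟨m, leOfHom u, congrArg (fun z => some (Sigma.mk n z)) e⟩

end Vale.Agent.P259
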