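import Vale.Agent.P259.TopAtt

/-! P259 task COLLAR: the collar neighbourhood of a cell attachment and radial homotopy equivalences.

Radial maps: for `x ≠ 0`, `x ↦ ((1 - t) + t * r / ‖x‖) • x`. `sp_an`: `r = 1`. `anO_an`: `r = 3 / 4` (both composites are
homotopic to the identity by the radial homotopy, which preserves `AnO`). `collar_equiv`: the retraction `collar → A` is the identity on `A`
and `χ k x ↦ φ k (x / ‖x‖)`; the homotopy is a map `collar → C(I, collar)` (constant on `A`, radial on cells); define both as functions by cases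
on `TopAtt.surj` (choice, well defined by `inj`, `ne`, `inj_int`, `bdry`), continuity by `continuous_on_open` and
`ContinuousMap.continuous_of_continuous_uncurry`, then uncurry (`I` is locally compact). -/

noncomputable section
namespace Vale.Agent.P259
open CategoryTheory CategoryTheory.Limits

/-- Half closed annulus. -/
abbrev An (n : ℕ) : TopCat.{0} := TopCat.of {x : Ball n // 1 / 2 < ‖x.1‖}
/-- Open annulus. -/
abbrev AnO (n : ℕ) : TopCat.{0} := TopCat.of {x : Ball n // 1 / 2 < ‖x.1‖ ∧ ‖x.1‖ < 1}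
/-- Open ball. -/
abbrev BO (n : ℕ) : TopCat.{0} := TopCat.of {x : Ball n // ‖x.1‖ < 1}

/-- Sphere into annulus. -/
def spAn (n : ℕ) : Sp n ⟶ An n := TopCat.ofHom ⟨fun x => ⟨(spInc n).hom x, by
    have : ‖x.1‖ = 1 := mem_sphere_zero_iff_norm.1 x.2
    change 1 / 2 < ‖x.1‖
    rw [this]; norm_num⟩, (spInc n).hom.continuous.subtype_mk _⟩
/-- Annulus into ball. -/
def anInc (n : ℕ) : An n ⟶ Dk n := TopCat.ofHom ⟨Subtype.val, continuous_subtype_val⟩
/-- Open annulus into annulus. -/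
def anOAn (n : ℕ) : AnO n ⟶ An n :=
  TopCat.ofHom ⟨fun x => ⟨x.1, x.2.1⟩, continuous_subtype_val.subtype_mk _⟩
/-- Open annulus into open ball. -/
def anOBO (n : ℕ) : AnO n ⟶ BO n :=
  TopCat.ofHom ⟨fun x => ⟨x.1, x.2.2⟩, continuous_subtype_val.subtype_mk _⟩
/-- Open ball into ball. -/
def boInc (n : ℕ) : BO n ⟶ Dk n := TopCat.ofHom ⟨Subtype.val, continuous_subtype_val⟩

/-- The radial deformation towards the sphere of radius `r`. -/
def colRad {n : ℕ} (r t : ℝ) (x : EuclideanSpace ℝ (Fin n)) : EuclideanSpace ℝ (Fin n) :=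
  ((1 - t) + t * r / ‖x‖) • x

lemma colRad_norm {n : ℕ} {r t : ℝ} {x : EuclideanSpace ℝ (Fin n)} (hr : 0 ≤ r) (h0 : 0 ≤ t)
    (h1 : t ≤ 1) (hx : 0 < ‖x‖) : ‖colRad r t x‖ = (1 - t) * ‖x‖ + t * r := by
  have : 0 ≤ (1 - t) + t * r / ‖x‖ := add_nonneg (by linarith) (by positivity)
  rw [colRad, norm_smul, Real.norm_of_nonneg this]
  field_simp

lemma colRad_zero {n : ℕ} (r : ℝ) (x : EuclideanSpace ℝ (Fin n)) : colRad r 0 x = x := by
  simp [colRad]

lemma colRad_self {n : ℕ} (t : ℝ) {x : EuclideanSpace ℝ (Fin n)} (hx : ‖x‖ = 1) :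
    colRad 1 t x = x := by
  simp [colRad, hx]

lemma col_le {n : ℕ} (x : Ball n) : ‖x.1‖ ≤ 1 := mem_closedBall_zero_iff.1 x.2

/-- The radial deformation of the annulus. -/
def colH (n : ℕ) (r : ℝ) (hr : 1 / 2 < r) (hr' : r ≤ 1) : C(unitInterval × An n, An n) where
  toFun p := ⟨⟨colRad r p.1 p.2.1.1, mem_closedBall_zero_iff.2 (by
      have h1 := p.2.2
      have h2 := col_le p.2.1
      rw [colRad_norm (by linarith) p.1.2.1 p.1.2.2 (by linarith)]
      nlinarith [p.1.2.1, p.1.2.2])⟩, by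
      have h1 := p.2.2
      change 1 / 2 < ‖colRad r p.1 p.2.1.1‖
      rw [colRad_norm (by linarith) p.1.2.1 p.1.2.2 (by linarith)]
      rcases le_total r ‖p.2.1.1‖ with h | h <;> nlinarith [p.1.2.1, p.1.2.2]⟩
  continuous_toFun := by
    refine Continuous.subtype_mk (Continuous.subtype_mk ?_ _) _
    have hc : Continuous fun p : unitInterval × An n => p.2.1.1 :=
      continuous_subtype_val.comp (continuous_subtype_val.comp continuous_snd)
    have ht : Continuous fun p : unitInterval × An n => (p.1 : ℝ) :=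
      continuous_subtype_val.comp continuous_fst
    refine Continuous.smul ((continuous_const.sub ht).add
      ((ht.mul continuous_const).div hc.norm fun p => ?_)) hc
    have := p.2.2
    exact ne_of_gt (by linarith)

lemma colH_norm {n : ℕ} {r : ℝ} (hr : 1 / 2 < r) (hr' : r ≤ 1) (t : unitInterval) (x : An n) :
    ‖(colH n r hr hr' (t, x)).1.1‖ = (1 - t) * ‖x.1.1‖ + t * r := by
  have := x.2
  exact colRad_norm (by linarith) t.2.1 t.2.2 (by linarith)

lemma colH_zero {n : ℕ} {r : ℝ} (hr : 1 / 2 < r) (hr' : r ≤ 1) (x : An n) :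
    colH n r hr hr' (0, x) = x := Subtype.ext (Subtype.ext (colRad_zero r _))

lemma col_half : (1 / 2 : ℝ) < 1 := by norm_num

lemma colH_sp {n : ℕ} (t : unitInterval) (x : Sp n) :
    colH n 1 col_half le_rfl (t, spAn n x) = spAn n x :=
  Subtype.ext (Subtype.ext (colRad_self _ (mem_sphere_zero_iff_norm.1 x.2)))

/-- The radial projection of the annulus onto the sphere. -/
def colP (n : ℕ) : C(An n, Sp n) where
  toFun x := ⟨(colH n 1 col_half le_rfl (1, x)).1.1, mem_sphere_zero_iff_norm.2 (by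
    rw [colH_norm]; simp)⟩
  continuous_toFun := Continuous.subtype_mk (continuous_subtype_val.comp
    (continuous_subtype_val.comp ((colH n 1 col_half le_rfl).continuous.comp
      (Continuous.prodMk_right _)))) _

lemma colP_sp {n : ℕ} (x : Sp n) : colP n (spAn n x) = x :=
  Subtype.ext (congrArg (fun z : An n => z.1.1) (colH_sp 1 x))

lemma sp_colP {n : ℕ} (x : An n) : spAn n (colP n x) = colH n 1 col_half le_rfl (1, x) := rfl

lemma col_34 : (1 / 2 : ℝ) < 3 / 4 := by norm_num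
lemma col_34' : (3 / 4 : ℝ) ≤ 1 := by norm_num

/-- The radial projection of the annulus into the open annulus. -/
def colQ (n : ℕ) : C(An n, AnO n) where
  toFun x := ⟨(colH n _ col_34 col_34' (1, x)).1, (colH n _ col_34 col_34' (1, x)).2, by
    rw [colH_norm]; norm_num⟩
  continuous_toFun := Continuous.subtype_mk
    (continuous_subtype_val.comp ((colH n _ col_34 col_34').continuous.comp
      (Continuous.prodMk_right _))) _

/-- The radial deformation of the open annulus. -/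
def colO (n : ℕ) : C(unitInterval × AnO n, AnO n) where
  toFun p := ⟨(colH n _ col_34 col_34' (p.1, anOAn n p.2)).1,
    (colH n _ col_34 col_34' (p.1, anOAn n p.2)).2, by
      rw [colH_norm]
      have h : ‖(anOAn n p.2).1.1‖ < 1 := p.2.2.2
      rcases le_total (3 / 4) ‖(anOAn n p.2).1.1‖ with h' | h' <;> nlinarith [p.1.2.1, p.1.2.2]⟩
  continuous_toFun := Continuous.subtype_mk
    (continuous_subtype_val.comp ((colH n _ col_34 col_34').continuous.comp
      (continuous_id.prodMap (anOAn n).hom.continuous))) _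

lemma sp_an (n : ℕ) : ∃ e : ContinuousMap.HomotopyEquiv (Sp n) (An n), e.toFun = (spAn n).hom := by
  refine ⟨⟨(spAn n).hom, colP n, ?_, ContinuousMap.Homotopic.symm
    ⟨⟨colH n 1 col_half le_rfl, fun x => colH_zero _ _ x, fun x => rfl⟩⟩⟩, rfl⟩
  rw [show (colP n).comp (spAn n).hom = ContinuousMap.id _ from ContinuousMap.ext colP_sp]
lemma anO_an (n : ℕ) :
    ∃ e : ContinuousMap.HomotopyEquiv (AnO n) (An n), e.toFun = (anOAn n).hom := by
  exact ⟨⟨(anOAn n).hom, colQ n, ContinuousMap.Homotopic.symm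
    ⟨⟨colO n, fun x => Subtype.ext (congrArg (fun z : An n => z.1)
      (colH_zero col_34 col_34' (anOAn n x))), fun x => rfl⟩⟩, ContinuousMap.Homotopic.symm
    ⟨⟨colH n _ col_34 col_34', fun x => colH_zero _ _ x, fun x => rfl⟩⟩⟩, rfl⟩
instance (n : ℕ) : ContractibleSpace {x : Ball n // ‖x.1‖ < 1} := by
  have : ContractibleSpace (Metric.ball (0 : EuclideanSpace ℝ (Fin n)) 1) :=
    (convex_ball _ _).contractibleSpace ⟨0, Metric.mem_ball_self one_pos⟩
  exact Homeomorph.contractibleSpace (Y := Metric.ball (0 : EuclideanSpace ℝ (Fin n)) 1)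
    { toFun := fun x => ⟨x.1.1, mem_ball_zero_iff.2 x.2⟩
      invFun := fun x => ⟨⟨x.1, Metric.ball_subset_closedBall x.2⟩, mem_ball_zero_iff.1 x.2⟩
      left_inv := fun _ => rfl
      right_inv := fun _ => rfl
      continuous_toFun := (continuous_subtype_val.comp continuous_subtype_val).subtype_mk _
      continuous_invFun := (continuous_subtype_val.subtype_mk _).subtype_mk _ }

/-- The collar: remove the closed balls of radius `1 / 2`. -/
def collar {ι : Type} {n : ι → ℕ} {A' : TopCat.{0}} (χ : ∀ k, Dk (n k) ⟶ A') : Set A' :=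
  {y | ∀ (k : ι) (x : Ball (n k)), ‖x.1‖ ≤ 1 / 2 → χ k x ≠ y}

namespace TopAtt
variable {ι : Type} {n : ι → ℕ} {A A' : TopCat.{0}} {φ : ∀ k, Sp (n k) ⟶ A} {i : A ⟶ A'}
  {χ : ∀ k, Dk (n k) ⟶ A'} (h : TopAtt n φ i χ)
include h

lemma mem_collar (a : A) : i a ∈ collar χ := by
  intro k x hx
  exact h.ne k x (by linarith) a
lemma χ_mem_collar (k : ι) (x : Ball (n k)) : χ k x ∈ collar χ ↔ 1 / 2 < ‖x.1‖ := by
  constructor
  · intro hx
    by_contra hc
    exact hx k x (not_lt.1 hc) rfl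
  · intro hx l y hy e
    cases h.inj_int (show ‖y.1‖ < 1 by linarith) e
    linarith
lemma isOpen_collar : IsOpen (collar χ) := by
  rw [h.isOpen_iff]
  refine ⟨?_, fun k => ?_⟩
  · rw [Set.eq_univ_of_forall (s := i ⁻¹' collar χ) h.mem_collar]
    exact isOpen_univ
  · rw [show (χ k ⁻¹' collar χ : Set (Dk (n k))) = {x | 1 / 2 < ‖x.1‖} from
      Set.ext (h.χ_mem_collar k)]
    exact isOpen_lt continuous_const continuous_subtype_val.norm

lemma collar_cases (y : collar χ) : (∃ a, y = ⟨i a, h.mem_collar a⟩) ∨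
    ∃ (k : ι) (x : An (n k)), y = ⟨χ k x.1, (h.χ_mem_collar k x.1).2 x.2⟩ := by
  obtain ⟨y, hy⟩ := y
  rcases h.surj y with ⟨a, rfl⟩ | ⟨k, x, -, rfl⟩
  · exact Or.inl ⟨a, rfl⟩
  · exact Or.inr ⟨k, ⟨x, (h.χ_mem_collar k x).1 hy⟩, rfl⟩

lemma collar_w (k : ι) (x : Sp (n k)) : χ k (spAn (n k) x).1 = i (φ k x) :=
  h.bdry k ⟨x.1, Metric.sphere_subset_closedBall x.2⟩ (mem_sphere_zero_iff_norm.1 x.2)

lemma collar_desc {Z : Type} [TopologicalSpace Z] (f : C(A, Z)) (g : ∀ k, C(An (n k), Z))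
    (hfg : ∀ k (x : Sp (n k)), g k (spAn _ x) = f (φ k x)) :
    ∃ G : C(collar χ, Z), (∀ a, G ⟨i a, h.mem_collar a⟩ = f a) ∧
      ∀ k (x : An (n k)), G ⟨χ k x.1, (h.χ_mem_collar k x.1).2 x.2⟩ = g k x := by
  have key : ∀ y : collar χ, ∃ z : Z, (∀ a, i a = y.1 → z = f a) ∧
      ∀ k (x : An (n k)), χ k x.1 = y.1 → z = g k x := by
    rintro ⟨y, hy⟩
    rcases h.surj y with ⟨a, rfl⟩ | ⟨k, x, hx, rfl⟩
    · refine ⟨f a, fun a' e => by rw [h.inj e], fun k x e => ?_⟩
      have hx : ‖x.1.1‖ = 1 := by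
        by_contra hx
        exact h.ne k x.1 (lt_of_le_of_ne (col_le x.1) hx) a e
      have e' := h.collar_w k ⟨x.1.1, mem_sphere_zero_iff_norm.2 hx⟩
      rw [← h.inj (e'.symm.trans e), ← hfg]
      rfl
    · refine ⟨g k ⟨x, (h.χ_mem_collar k x).1 hy⟩, fun a e => absurd e.symm (h.ne k x hx a),
        fun l x' e => ?_⟩
      obtain ⟨x', hx'⟩ := x'
      cases h.inj_int hx e.symm
      rfl
  choose G h1 h2 using key
  refine ⟨⟨G, h.continuous_on_open h.isOpen_collar G ?_ fun k => ?_⟩, fun a => h1 _ a rfl,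
    fun k x => h2 _ k x rfl⟩
  · exact (f.continuous.comp continuous_subtype_val).congr fun a => (h1 _ a.1 rfl).symm
  · refine ((g k).continuous.comp (continuous_subtype_val.subtype_mk
      fun x : (χ k ⁻¹' collar χ : Set (Dk (n k))) => (h.χ_mem_collar k x.1).1 x.2)).congr
      fun x => ?_
    exact (h2 _ k ⟨x.1, (h.χ_mem_collar k x.1).1 x.2⟩ rfl).symm

lemma collar_equiv : ∃ e : ContinuousMap.HomotopyEquiv A (collar χ), ∀ a, (e.toFun a).1 = i a := by
  let j : C(A, collar χ) := ⟨fun a => ⟨i a, h.mem_collar a⟩, i.hom.continuous.subtype_mk _⟩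
  let c : ∀ k, C(An (n k), collar χ) := fun k =>
    ⟨fun x => ⟨χ k x.1, (h.χ_mem_collar k x.1).2 x.2⟩,
      ((χ k).hom.continuous.comp continuous_subtype_val).subtype_mk _⟩
  have hc : ∀ k (x : Sp (n k)), c k (spAn _ x) = j (φ k x) := fun k x =>
    Subtype.ext (h.collar_w k x)
  obtain ⟨ρ, ρ1, ρ2⟩ := h.collar_desc (ContinuousMap.id A)
    (fun k => (φ k).hom.comp (colP (n k))) (fun k x => congrArg (φ k) (colP_sp x))
  obtain ⟨K, K1, K2⟩ := h.collar_desc (Z := C(unitInterval, collar χ))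
    (j.comp ContinuousMap.fst).curry
    (fun k => (((c k).comp (colH (n k) 1 col_half le_rfl)).comp ContinuousMap.prodSwap).curry)
    (fun k x => ContinuousMap.ext fun t => (congrArg (c k) (colH_sp t x)).trans (hc k x))
  refine ⟨⟨j, ρ, ?_, ContinuousMap.Homotopic.symm
    ⟨⟨K.uncurry.comp ContinuousMap.prodSwap, fun y => ?_, fun y => ?_⟩⟩⟩, fun _ => rfl⟩
  · rw [show ρ.comp j = ContinuousMap.id _ from ContinuousMap.ext ρ1]
  · change K y 0 = y
    rcases h.collar_cases y with ⟨a, rfl⟩ | ⟨k, x, rfl⟩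
    · rw [K1]; rfl
    · rw [K2]
      exact congrArg (c k) (colH_zero _ _ x)
  · change K y 1 = j (ρ y)
    rcases h.collar_cases y with ⟨a, rfl⟩ | ⟨k, x, rfl⟩
    · rw [K1, ρ1]; rfl
    · rw [K2, ρ2]
      exact hc k (colP _ x)
end TopAtt

end Vale.Agent.P259
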