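import Vale.Agent.P259.Tab

/-! P259: elimination principle for a coherator. -/

noncomputable section
namespace Vale.Agent.P259
open CategoryTheory CategoryTheory.Limits GlobExt
universe u

section
variable {E E' E'' : GlobExt}

lemma mor_ext {φ ψ : Mor E E'} (h : φ.F = ψ.F) : φ = ψ := by
  cases φ
  cases ψ
  congr

lemma mor_assoc {E₃ : GlobExt} (φ : Mor E E') (ψ : Mor E' E'') (χ : Mor E'' E₃) :
    (φ.comp ψ).comp χ = φ.comp (ψ.comp χ) := rfl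

lemma act_comp (φ : Mor E E') {S S' S'' : Theta} (h : E.ι.obj S ⟶ E.ι.obj S')
    (h' : E.ι.obj S' ⟶ E.ι.obj S'') : φ.act (h ≫ h') = φ.act h ≫ φ.act h' := by
  simp [Mor.act]

lemma act_ι (φ : Mor E E') {S S' : Theta} (θ : S ⟶ S') : φ.act (E.ι.map θ) = E'.ι.map θ := by
  have h : φ.F.map (E.ι.map θ) = _ := Functor.congr_hom φ.comm θ
  simp [Mor.act, h]

lemma comp_act (φ : Mor E E') (ψ : Mor E' E'') {S S' : Theta} (h : E.ι.obj S ⟶ E.ι.obj S') :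
    (φ.comp ψ).act h = ψ.act (φ.act h) := by
  simp [Mor.act, Mor.comp, eqToHom_map]

lemma mor_ext_act {φ ψ : Mor E E'}
    (h : ∀ (S S' : Theta) (f : E.ι.obj S ⟶ E.ι.obj S'), φ.act f = ψ.act f) : φ = ψ := by
  refine mor_ext (CategoryTheory.Functor.ext (fun X => ?_) fun X Y f => ?_)
  · obtain ⟨S, rfl⟩ := E.bij.2 X
    exact (Functor.congr_obj φ.comm S).trans (Functor.congr_obj ψ.comm S).symm
  · obtain ⟨S, rfl⟩ := E.bij.2 X
    obtain ⟨S', rfl⟩ := E.bij.2 Y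
    have h1 := h S S' f
    rw [Mor.act, Mor.act, eqToHom_comp_iff, comp_eqToHom_iff] at h1
    simp [h1]

lemma exists_mor_of_act (a : ∀ {S S' : Theta}, (E.ι.obj S ⟶ E.ι.obj S') → (E'.ι.obj S ⟶ E'.ι.obj S'))
    (hc : ∀ {S S' S'' : Theta} (h : E.ι.obj S ⟶ E.ι.obj S') (h' : E.ι.obj S' ⟶ E.ι.obj S''),
      a (h ≫ h') = a h ≫ a h')
    (hι : ∀ {S S' : Theta} (θ : S ⟶ S'), a (E.ι.map θ) = E'.ι.map θ) : Nonempty (Mor E E') := by
  let e := Equiv.ofBijective _ E.bij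
  have key : ∀ {S₁ S₂ T₁ T₂ : Theta} (h₁ : S₁ = S₂) (h₂ : T₂ = T₁) (θ : S₂ ⟶ T₂),
      a (eqToHom (congrArg E.ι.obj h₁) ≫ E.ι.map θ ≫ eqToHom (congrArg E.ι.obj h₂)) =
        eqToHom (congrArg E'.ι.obj h₁) ≫ E'.ι.map θ ≫ eqToHom (congrArg E'.ι.obj h₂) := by
    rintro _ _ _ _ rfl rfl θ
    simp [hι]
  have he : ∀ X, E.ι.obj (e.symm X) = X := e.apply_symm_apply
  refine ⟨⟨{ obj := fun X => E'.ι.obj (e.symm X)
             map := fun {X Y} f => a (eqToHom (he X) ≫ f ≫ eqToHom (he Y).symm)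
             map_id := fun X => ?_
             map_comp := fun f g => ?_ }, ?_⟩⟩
  · simpa using hι (𝟙 (e.symm X))
  · simp [← hc]
  · exact CategoryTheory.Functor.ext (fun S => congrArg E'.ι.obj (e.symm_apply_apply S))
      fun S S' θ => key (e.symm_apply_apply S) (e.symm_apply_apply S').symm θ

lemma isLift_act (φ : Mor E E') {n : ℕ} {S : Theta} {h : E.D (n + 1) ⟶ E.ι.obj S}
    {f g : E.D n ⟶ E.ι.obj S} (H : E.IsLift h f g) : E'.IsLift (φ.act h) (φ.act f) (φ.act g) :=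
  ⟨by rw [← H.1, act_comp, act_ι], by rw [← H.2, act_comp, act_ι]⟩

lemma parallel_act (φ : Mor E E') {S : Theta} : ∀ {n : ℕ} {f g : E.D n ⟶ E.ι.obj S},
    E.Parallel f g → E'.Parallel (φ.act f) (φ.act g)
  | 0, _, _, _ => trivial
  | _ + 1, _, _, H => by
    constructor
    · simpa only [act_comp, act_ι] using congrArg φ.act H.1
    · simpa only [act_comp, act_ι] using congrArg φ.act H.2

lemma eqToIso_act (χ : Mor E E') {M : Type u} [Category.{0} M] (G : E'.C ⥤ M) {S S' : Theta}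
    (h : E.ι.obj S ⟶ E.ι.obj S') (e : E.ι ⋙ χ.F ⋙ G = E'.ι ⋙ G) :
    (eqToIso e).inv.app S ≫ (χ.F ⋙ G).map h ≫ (eqToIso e).hom.app S' = G.map (χ.act h) := by
  simp [Mor.act, eqToHom_map, eqToHom_app]

end

/-- A relation between maps in `E` and maps in `M`, closed under composition. -/
structure ElimRel (E : GlobExt) {M : Type u} [Category.{0} M] (F0 : Theta ⥤ M) where
  ρ : ∀ {S S' : Theta}, (E.ι.obj S ⟶ E.ι.obj S') → (F0.obj S ⟶ F0.obj S') → Prop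
  hι : ∀ {S S' : Theta} (θ : S ⟶ S'), ρ (E.ι.map θ) (F0.map θ)
  hcomp : ∀ {S S' S'' : Theta} (h : E.ι.obj S ⟶ E.ι.obj S') (h' : E.ι.obj S' ⟶ E.ι.obj S'')
    (f : F0.obj S ⟶ F0.obj S') (f' : F0.obj S' ⟶ F0.obj S''),
    ρ h f → ρ h' f' → ρ (h ≫ h') (f ≫ f')

namespace ElimRel
variable {E : GlobExt} {M : Type u} [Category.{0} M] {F0 : Theta ⥤ M} (r : ElimRel E F0)

/-- The category of related pairs. -/
def C (_ : ElimRel E F0) : Type := Theta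

instance : SmallCategory r.C where
  Hom S S' := {p : (E.ι.obj S ⟶ E.ι.obj S') × (F0.obj S ⟶ F0.obj S') // r.ρ p.1 p.2}
  id S := ⟨(𝟙 _, 𝟙 _), (congrArg₂ r.ρ (E.ι.map_id S) (F0.map_id S)).mp (r.hι _)⟩
  comp f g := ⟨(f.1.1 ≫ g.1.1, f.1.2 ≫ g.1.2), r.hcomp _ _ _ _ f.2 g.2⟩
  id_comp _ := Subtype.ext (by simp)
  comp_id _ := Subtype.ext (by simp)
  assoc _ _ _ := Subtype.ext (by simp)

/-- The structure functor. -/
def ι : Theta ⥤ r.C where
  obj S := S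
  map θ := ⟨(E.ι.map θ, F0.map θ), r.hι θ⟩
  map_id S := Subtype.ext (Prod.ext (E.ι.map_id S) (F0.map_id S))
  map_comp f g := Subtype.ext (Prod.ext (E.ι.map_comp f g) (F0.map_comp f g))

/-- First projection. -/
def fst : r.C ⥤ E.C where
  obj S := E.ι.obj S
  map p := p.1.1

/-- Second projection. -/
def snd : r.C ⥤ M where
  obj S := F0.obj S
  map p := p.1.2

lemma pres (hF0 : PreservesSums F0)
    (hglue : ∀ (l : ℕ) (T : Tab l) (j i : ℕ) (hl : j < l) (hi : j < i) (S : Theta)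
      (h : E.ι.obj (T.snoc j i hl hi).obj ⟶ E.ι.obj S)
      (f : F0.obj (T.snoc j i hl hi).obj ⟶ F0.obj S),
      r.ρ (E.ι.map (initInc T j i hl hi) ≫ h) (F0.map (initInc T j i hl hi) ≫ f) →
      r.ρ (E.ι.map (lastInc (T.snoc j i hl hi)) ≫ h) (F0.map (lastInc (T.snoc j i hl hi)) ≫ f) →
      r.ρ h f) : PreservesSums r.ι := by
  intro l T j i hl hi
  have h₁ := E.pres l T j i hl hi
  have h₂ := hF0 l T j i hl hi
  refine ⟨⟨Subtype.ext (Prod.ext h₁.w h₂.w)⟩, ⟨PushoutCocone.IsColimit.mk _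
    (fun s => ⟨(h₁.desc s.inl.1.1 s.inr.1.1 (congrArg (·.1.1) s.condition),
      h₂.desc s.inl.1.2 s.inr.1.2 (congrArg (·.1.2) s.condition)), hglue l T j i hl hi _ _ _ ?_ ?_⟩)
    (fun s => Subtype.ext (Prod.ext (h₁.inl_desc _ _ _) (h₂.inl_desc _ _ _)))
    (fun s => Subtype.ext (Prod.ext (h₁.inr_desc _ _ _) (h₂.inr_desc _ _ _)))
    fun s m e₁ e₂ => Subtype.ext (Prod.ext (h₁.hom_ext ?_ ?_) (h₂.hom_ext ?_ ?_))⟩⟩
  · exact (congrArg₂ r.ρ (h₁.inl_desc _ _ _) (h₂.inl_desc _ _ _)).mpr s.inl.2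
  · exact (congrArg₂ r.ρ (h₁.inr_desc _ _ _) (h₂.inr_desc _ _ _)).mpr s.inr.2
  · exact (congrArg (·.1.1) e₁).trans (h₁.inl_desc _ _ _).symm
  · exact (congrArg (·.1.1) e₂).trans (h₁.inr_desc _ _ _).symm
  · exact (congrArg (·.1.2) e₁).trans (h₂.inl_desc _ _ _).symm
  · exact (congrArg (·.1.2) e₂).trans (h₂.inr_desc _ _ _).symm

/-- The globular extension of related pairs. -/
def ext (h : PreservesSums r.ι) : GlobExt where
  C := r.C
  ι := r.ι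
  bij := Function.bijective_id
  pres := h

/-- The projection to `E`. -/
def π (h : PreservesSums r.ι) : Mor (r.ext h) E := ⟨r.fst, rfl⟩

lemma π_act (h : PreservesSums r.ι) {S S' : Theta} (p : (r.ext h).ι.obj S ⟶ (r.ext h).ι.obj S') :
    (r.π h).act p = p.1.1 :=
  (Category.id_comp _).trans (Category.comp_id _)

lemma par_snd (h : PreservesSums r.ι) {S : Theta} :
    ∀ {n : ℕ} {f g : (r.ext h).D n ⟶ (r.ext h).ι.obj S}, (r.ext h).Parallel f g →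
      Par ((discsOf F0).cell (n := n) (X := F0.obj S) f.1.2) ((discsOf F0).cell (n := n) g.1.2)
  | 0, _, _, _ => ⟨rfl, rfl, rfl⟩
  | n + 1, _, _, H =>
    ⟨rfl, congrArg (fun y : (r.ext h).D n ⟶ (r.ext h).ι.obj S =>
        (discsOf F0).cell (n := n) (X := F0.obj S) y.1.2) H.1,
      congrArg (fun y : (r.ext h).D n ⟶ (r.ext h).ι.obj S =>
        (discsOf F0).cell (n := n) (X := F0.obj S) y.1.2) H.2⟩

end ElimRel

theorem elim_rel {E : GlobExt} (hE : E.IsCoherator) {M : Type u} [Category.{0} M]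
    (F0 : Theta ⥤ M) (hF0 : PreservesSums F0)
    (ρ : ∀ {S S' : Theta}, (E.ι.obj S ⟶ E.ι.obj S') → (F0.obj S ⟶ F0.obj S') → Prop)
    (hι : ∀ {S S' : Theta} (θ : S ⟶ S'), ρ (E.ι.map θ) (F0.map θ))
    (hcomp : ∀ {S S' S'' : Theta} (h : E.ι.obj S ⟶ E.ι.obj S') (h' : E.ι.obj S' ⟶ E.ι.obj S'')
      (f : F0.obj S ⟶ F0.obj S') (f' : F0.obj S' ⟶ F0.obj S''),
      ρ h f → ρ h' f' → ρ (h ≫ h') (f ≫ f'))
    (hglue : ∀ (l : ℕ) (T : Tab l) (j i : ℕ) (hl : j < l) (hi : j < i) (S : Theta)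
      (h : E.ι.obj (T.snoc j i hl hi).obj ⟶ E.ι.obj S)
      (f : F0.obj (T.snoc j i hl hi).obj ⟶ F0.obj S),
      ρ (E.ι.map (initInc T j i hl hi) ≫ h) (F0.map (initInc T j i hl hi) ≫ f) →
      ρ (E.ι.map (lastInc (T.snoc j i hl hi)) ≫ h) (F0.map (lastInc (T.snoc j i hl hi)) ≫ f) →
      ρ h f)
    (hlift : ∀ (n : ℕ) (S : Theta), S.2.dim ≤ n + 1 →
      ∀ (f g : E.D n ⟶ E.ι.obj S) (f' g' : F0.obj (disc n) ⟶ F0.obj S), ρ f f' → ρ g g' →
      Par ((discsOf F0).cell (n := n) f') ((discsOf F0).cell (n := n) g') →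
      ∀ h : E.D (n + 1) ⟶ E.ι.obj S, E.IsLift h f g →
      ∃ h' : F0.obj (disc (n + 1)) ⟶ F0.obj S,
        (discsOf F0).σ n ≫ h' = f' ∧ (discsOf F0).τ n ≫ h' = g' ∧ ρ h h') :
    ∃ (F : E.C ⥤ M) (α : E.ι ⋙ F ≅ F0), ∀ (S S' : Theta) (h : E.ι.obj S ⟶ E.ι.obj S'),
      ρ h (α.inv.app S ≫ F.map h ≫ α.hom.app S') := by
  obtain ⟨⟨st, φ, j, hfull, hfaith, hadj, hj, hcol⟩, -⟩ := hE
  let r : ElimRel E F0 := ⟨ρ, hι, hcomp⟩
  have hp := r.pres hF0 hglue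
  have step : ∀ k (g : Mor (st k) (r.ext hp)), g.comp (r.π hp) = j k →
      ∃ g' : Mor (st (k + 1)) (r.ext hp), g'.comp (r.π hp) = j (k + 1) ∧ (φ k).comp g' = g := by
    intro k g hg
    obtain ⟨A, h, hdim, hl, huniv⟩ := hadj k
    have e : ∀ {S S' : Theta} (f : (st k).ι.obj S ⟶ (st k).ι.obj S'),
        (j (k + 1)).act ((φ k).act f) = (g.act f).1.1 := fun f => by
      rw [← comp_act, hj, ← hg, comp_act, r.π_act]
    have hl' : ∀ p : A, E.IsLift ((j (k + 1)).act (h p)) (g.act p.1.f).1.1 (g.act p.1.g).1.1 :=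
      fun p => e p.1.f ▸ e p.1.g ▸ isLift_act (j (k + 1)) (hl p)
    choose h' h₁ h₂ h₃ using fun p : A => hlift p.1.n p.1.S (hdim p.1 p.2) _ _ _ _ (g.act p.1.f).2
      (g.act p.1.g).2 (r.par_snd hp (parallel_act g p.1.par)) _ (hl' p)
    obtain ⟨χ, ⟨c₁, c₂⟩, -⟩ := huniv (r.ext hp) g (fun p => ⟨((j (k + 1)).act (h p), h' p), h₃ p⟩)
      fun p => ⟨Subtype.ext (Prod.ext (hl' p).1 (h₁ p)), Subtype.ext (Prod.ext (hl' p).2 (h₂ p))⟩
    refine ⟨χ, (huniv E (j k) (fun p => (j (k + 1)).act (h p)) fun p => ?_).unique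
      ⟨by rw [← mor_assoc, c₁, hg], fun p => by rw [comp_act, c₂]; exact r.π_act hp _⟩ ⟨hj k, fun _ => rfl⟩, c₁⟩
    rw [← hj k, comp_act, comp_act]
    exact isLift_act _ (hl p)
  choose nx hn₁ hn₂ using step
  obtain ⟨g0⟩ := exists_mor_of_act (E := st 0) (E' := r.ext hp)
    (fun f => (r.ext hp).ι.map ((st 0).ι.preimage f)) (fun f g => by simp) fun θ => by simp
  have h0 : g0.comp (r.π hp) = j 0 := mor_ext_act fun S S' f => by
    obtain ⟨θ, rfl⟩ := (st 0).ι.map_surjective f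
    rw [act_ι, act_ι]
  let G : ∀ k, {g : Mor (st k) (r.ext hp) // g.comp (r.π hp) = j k} := fun k =>
    Nat.rec ⟨g0, h0⟩ (fun k g => ⟨nx k g.1 g.2, hn₁ k g.1 g.2⟩) k
  obtain ⟨χ, hχ, -⟩ := hcol (r.ext hp) (fun k => (G k).1) fun k => hn₂ k (G k).1 (G k).2
  have hid : χ.comp (r.π hp) = ⟨𝟭 _, rfl⟩ :=
    (hcol E j hj).unique (fun k => by rw [← mor_assoc, hχ, (G k).2]) fun _ => rfl
  refine ⟨χ.F ⋙ r.snd, eqToIso (congrArg (· ⋙ r.snd) χ.comm), fun S S' h => ?_⟩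
  have e₁ : (χ.act h).1.1 = h := by
    rw [← r.π_act hp, ← comp_act, hid]
    exact (Category.id_comp _).trans (Category.comp_id _)
  have e₂ := (χ.act h).2
  rw [e₁] at e₂
  exact (congrArg (ρ h) (eqToIso_act χ r.snd h _)).mpr e₂

end Vale.Agent.P259
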