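import Vale.Agent.P259.Cof
import Vale.Agent.P259.Elim

/-! P259 task COSK: the `k`-coskeleton of a model is a model.

(1) `gcosk`: for `G : GS` let `cosk k G` have cells `{x : G.Cell // dim x ≤ k} ⊕
ℕ × {p : G.Cell × G.Cell // dim p.1 = k ∧ Par p.1 p.2}` with `dim (m, p) = k + 1 + m`,
`sr (0, p) = p.1`, `tg (0, p) = p.2`, `sr (m+1, p) = tg (m+1, p) = (m, p)`; unit
`x ↦ x` for `dim x ≤ k` and `x ↦ (dim x - k - 1, src k x, tgt k x)` otherwise.
(2) `V := U E ⋙ cosk`. Its cells of `dim n+1` are represented by `rep (disc n)` if `n + 1 ≤ k`,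
by `sph E k` otherwise; `tabRep_of_discs` gives `T`. Let `ε S : T.R S ⟶ rep S` be the map with
`univ S ≫ V (ε S) = gn S ≫ η0`. If `S.2.dim + 1 ≤ k` then `gn S ≫ η0` also represents
(`dim_tab_le`), so `ε S` is iso (`Represents.iso`). Apply `elim_rel` with
`ρ h f := f ≫ ε S' = ε S ≫ repC.map h`. Lifting for `h : D (n+1) ⟶ S`: if `n + 2 ≤ k` take
`ε ≫ repC.map h ≫ inv ε`; otherwise take the unique filler in `V (R S)`, and `ρ` holds by
uniqueness of fillers in `V (rep S)`. `K := homGpd F _`, `η` by `exists_toHom` with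
`φ (ι S) x := α.hom.app S ≫ ε S ≫ x`; under `U K ≅ V` the map `U η` is `η0`. -/

noncomputable section
namespace Vale.Agent.P259
open CategoryTheory CategoryTheory.Limits GlobExt Opposite
variable {E : GlobExt}

/-- Cells of the coskeleton: the dimension and the `dim k` source and target. -/
@[ext] structure CoskC (k : ℕ) (G : GS) where
  n : ℕ
  a : G.Cell
  b : G.Cell
  par : Par a b
  hd : dim a = min n k
  eq : n ≤ k → a = b

namespace CoskC
variable {k : ℕ} {G H : GS}

/-- Source in the coskeleton. -/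
def s (t : CoskC k G) : CoskC k G where
  n := t.n - 1
  a := if t.n ≤ k then sr t.a else t.a
  b := if t.n ≤ k then sr t.a else if t.n = k + 1 then t.a else t.b
  par := by
    split_ifs
    exacts [Par.refl _, Par.refl _, t.par]
  hd := by
    have := t.hd
    split_ifs
    · rw [dim_sr]; omega
    · omega
  eq h := by
    split_ifs
    · rfl
    · rfl
    · omega

/-- Target in the coskeleton. -/
def t (u : CoskC k G) : CoskC k G where
  n := u.n - 1
  a := if u.n ≤ k then tg u.a else if u.n = k + 1 then u.b else u.a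
  b := if u.n ≤ k then tg u.a else u.b
  par := by
    split_ifs
    exacts [Par.refl _, Par.refl _, u.par]
  hd := by
    have := u.hd
    have := u.par.1
    split_ifs
    · rw [dim_tg]; omega
    · omega
    · omega
  eq h := by
    split_ifs
    · rfl
    · rfl
    · omega

lemma s_eq_t (u : CoskC k G) (h : k + 1 < u.n) : u.s = u.t := by
  refine CoskC.ext rfl ?_ ?_
  · simp only [s, t, if_neg (show ¬ u.n ≤ k by omega), if_neg (show ¬ u.n = k + 1 by omega)]
  · simp only [s, t, if_neg (show ¬ u.n ≤ k by omega), if_neg (show ¬ u.n = k + 1 by omega)]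

/-- The coskeleton of a globular set. -/
def gs (k : ℕ) (G : GS) : GS where
  Cell := CoskC k G
  bot := ⟨0, G.bot, G.bot, Par.refl _, by simp, fun _ => rfl⟩
  dimF := CoskC.n
  sF := s
  tF := t
  dimF_bot := rfl
  eq_botF x h := by
    have h1 := x.hd
    have h2 := x.par.1
    exact CoskC.ext h (eq_bot (by omega)) (eq_bot (by omega))
  dimF_s _ := rfl
  dimF_t _ := rfl
  ssF x := by
    rcases lt_trichotomy x.n (k + 1) with h | h | h
    · have h1 : x.n ≤ k := by omega
      have h2 : x.n - 1 ≤ k := by omega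
      refine CoskC.ext rfl ?_ ?_ <;> simp only [s, t, if_pos h1, if_pos h2, sr_tg]
    · have h1 : ¬ x.n ≤ k := by omega
      have h2 : x.n - 1 ≤ k := by omega
      refine CoskC.ext rfl ?_ ?_ <;>
        simp only [s, t, if_neg h1, if_pos h2, if_pos h, x.par.2.1]
    · rw [s_eq_t x h]
  ttF x := by
    rcases lt_trichotomy x.n (k + 1) with h | h | h
    · have h1 : x.n ≤ k := by omega
      have h2 : x.n - 1 ≤ k := by omega
      refine CoskC.ext rfl ?_ ?_ <;> simp only [s, t, if_pos h1, if_pos h2, tg_sr]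
    · have h1 : ¬ x.n ≤ k := by omega
      have h2 : x.n - 1 ≤ k := by omega
      refine CoskC.ext rfl ?_ ?_ <;>
        simp only [s, t, if_neg h1, if_pos h2, if_pos h, x.par.2.2]
    · rw [s_eq_t x h]

/-- Action of a map on coskeleta. -/
def map (k : ℕ) (f : G ⟶ H) : gs k G ⟶ gs k H where
  app x := ⟨x.n, f.app x.a, f.app x.b, x.par.map f, (f.dim_app _).trans x.hd,
    fun h => congrArg f.app (x.eq h)⟩
  dim_app _ := rfl
  sr_app x := by
    refine CoskC.ext rfl ?_ ?_
    · change (if x.n ≤ k then sr (f.app x.a) else f.app x.a) =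
        f.app (if x.n ≤ k then sr x.a else x.a)
      split_ifs
      exacts [f.sr_app _, rfl]
    · change (if x.n ≤ k then sr (f.app x.a) else if x.n = k + 1 then f.app x.a else f.app x.b) =
        f.app (if x.n ≤ k then sr x.a else if x.n = k + 1 then x.a else x.b)
      split_ifs
      exacts [f.sr_app _, rfl, rfl]
  tg_app x := by
    refine CoskC.ext rfl ?_ ?_
    · change (if x.n ≤ k then tg (f.app x.a) else if x.n = k + 1 then f.app x.b else f.app x.a) =
        f.app (if x.n ≤ k then tg x.a else if x.n = k + 1 then x.b else x.a)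
      split_ifs
      exacts [f.tg_app _, rfl, rfl]
    · change (if x.n ≤ k then tg (f.app x.a) else f.app x.b) =
        f.app (if x.n ≤ k then tg x.a else x.b)
      split_ifs
      exacts [f.tg_app _, rfl]

/-- The unit. -/
def unit (k : ℕ) (G : GS) : G ⟶ gs k G where
  app x := ⟨dim x, src k x, tgt k x, par_src_tgt k x, by
    rcases le_total (dim x) k with h | h
    · rw [src_of_le h, min_eq_left h]
    · rw [dim_src h, min_eq_right h], fun h => by rw [src_of_le h, tgt_of_le h]⟩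
  dim_app _ := rfl
  sr_app x := by
    have hs := dim_sr x
    refine CoskC.ext hs.symm ?_ ?_
    · change (if dim x ≤ k then sr (src k x) else src k x) = src k (sr x)
      split_ifs with h
      · rw [src_of_le h, src_of_le (by omega)]
      · rw [src_sr (by omega)]
    · change (if dim x ≤ k then sr (src k x) else if dim x = k + 1 then src k x else tgt k x) =
        tgt k (sr x)
      split_ifs with h h'
      · rw [src_of_le h, tgt_of_le (by omega)]
      · rw [src_eq_sr h', tgt_of_le (by omega)]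
      · rw [tgt_sr (by omega)]
  tg_app x := by
    have hs := dim_tg x
    refine CoskC.ext hs.symm ?_ ?_
    · change (if dim x ≤ k then tg (src k x) else if dim x = k + 1 then tgt k x else src k x) =
        src k (tg x)
      split_ifs with h h'
      · rw [src_of_le h, src_of_le (by omega)]
      · rw [tgt_eq_tg h', src_of_le (by omega)]
      · rw [src_tg (by omega)]
    · change (if dim x ≤ k then tg (src k x) else tgt k x) = tgt k (tg x)
      split_ifs with h
      · rw [src_of_le h, tgt_of_le (by omega)]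
      · rw [tgt_tg (by omega)]

lemma isCosk (k : ℕ) (G : GS) : IsCosk k (gs k G) := by
  intro u v h hk
  have hk' : k ≤ u.n := by exact_mod_cast hk
  have hn : u.n = v.n := h.1
  have h1 : (s u).a = (s v).a := congrArg CoskC.a h.2.1
  have h2 : (t u).b = (t v).b := congrArg CoskC.b h.2.2
  have hu := u.hd
  have hv := v.hd
  have hv' := v.par.1
  have key : Par u.a v.b ∧ (k < u.n → u.a = v.a ∧ u.b = v.b) := by
    rcases hk'.eq_or_lt with e | e
    · simp only [s, t, if_pos e.ge, if_pos (hn ▸ e.ge : v.n ≤ k)] at h1 h2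
      exact ⟨Par.trans ⟨by omega, h1, h2⟩ v.par, fun h => absurd h (by omega)⟩
    · simp only [s, t, if_neg e.not_ge, if_neg (hn ▸ e.not_ge : ¬ v.n ≤ k)] at h1 h2
      exact ⟨h1 ▸ v.par, fun _ => ⟨h1, h2⟩⟩
  have hne : ¬ u.n + 1 ≤ k := by omega
  refine ⟨⟨u.n + 1, u.a, v.b, key.1, by omega, fun h => absurd h hne⟩, ⟨?_, ?_, rfl⟩, ?_⟩
  · refine CoskC.ext rfl (if_neg hne) ((if_neg hne).trans ?_)
    split_ifs with e
    · exact u.eq (by change u.n + 1 = k + 1 at e; omega)
    · exact (key.2 (by change ¬ u.n + 1 = k + 1 at e; omega)).2.symm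
  · refine CoskC.ext hn ((if_neg hne).trans ?_) (if_neg hne)
    split_ifs with e
    · exact (v.eq (by change u.n + 1 = k + 1 at e; omega)).symm
    · exact (key.2 (by change ¬ u.n + 1 = k + 1 at e; omega)).1
  · rintro c ⟨c1, c2, c3⟩
    have c4 : c.n = u.n + 1 := c3
    have hc : ¬ c.n ≤ k := by omega
    exact CoskC.ext c4 ((if_neg hc).symm.trans (congrArg CoskC.a c1))
      ((if_neg hc).symm.trans (congrArg CoskC.b c2))

end CoskC

lemma gcosk (k : ℕ) : ∃ (C : GS ⥤ GS) (η : 𝟭 GS ⟶ C),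
    (∀ (G : GS) (x y : G.Cell), dim x ≤ k → (η.app G).app x = (η.app G).app y → x = y) ∧
    (∀ (G : GS) (z : (C.obj G).Cell), dim z ≤ k → ∃ x : G.Cell, (η.app G).app x = z) ∧
    ∀ G : GS, IsCosk k (C.obj G) := by
  refine ⟨{ obj := CoskC.gs k
            map := CoskC.map k
            map_id := fun _ => rfl
            map_comp := fun _ _ => rfl }, ⟨CoskC.unit k, fun G H f => ?_⟩,
    fun G x y hx h => ?_, fun G z hz => ?_, CoskC.isCosk k⟩
  · exact GS.hom_ext fun x => CoskC.ext (f.dim_app x) (app_src f k x).symm (app_tgt f k x).symm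
  · have h1 : dim x = dim y := congrArg CoskC.n h
    have h2 : src k x = src k y := congrArg CoskC.a h
    rwa [src_of_le hx, src_of_le (h1 ▸ hx)] at h2
  · have h0 : z.n ≤ k := hz
    have h1 : dim z.a = z.n := z.hd.trans (min_eq_left h0)
    exact ⟨z.a, CoskC.ext h1 (src_of_le (h1 ▸ h0)) ((tgt_of_le (h1 ▸ h0)).trans (z.eq h0))⟩

section
variable {k : ℕ∞} {A G G' H : GS}

lemma cosk_lt {x : G.Cell} (hx : ¬ (dim x : ℕ∞) ≤ k) : k ≤ (dim (sr x) : ℕ∞) := by
  rw [dim_sr]
  induction k using ENat.recTopCoe with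
  | top => exact absurd le_top hx
  | coe k =>
    have h : ¬ dim x ≤ k := fun h => hx (by exact_mod_cast h)
    exact_mod_cast (show k ≤ dim x - 1 by omega)

lemma cosk_le {m n : ℕ} (h : (n : ℕ∞) ≤ k) (hm : m ≤ n) : (m : ℕ∞) ≤ k :=
  le_trans (by exact_mod_cast hm) h

lemma cosk_ext (hH : IsCosk k H) {f g : G ⟶ H}
    (h : ∀ x, (dim x : ℕ∞) ≤ k → f.app x = g.app x) : f = g := by
  refine map_ext_rec fun c hc h1 h2 => ?_
  by_cases hk : (dim c : ℕ∞) ≤ k
  · exact h c hk
  · refine (hH _ _ ((par_sr_tg c).map f) (by rw [f.dim_app]; exact cosk_lt hk)).unique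
      ((arr_self hc).map f) ?_
    rw [h1, h2]
    exact (arr_self hc).map g

variable (η : G ⟶ G') (hi : ∀ x y, (dim x : ℕ∞) ≤ k → η.app x = η.app y → x = y)
include hi

lemma cosk_par {a b : G.Cell} (hd : (dim a : ℕ∞) ≤ k) (h : Par (η.app a) (η.app b)) :
    Par a b :=
  ⟨by simpa using h.1,
    hi _ _ (cosk_le hd (by simp)) (by rw [← η.sr_app, ← η.sr_app, h.2.1]),
    hi _ _ (cosk_le hd (by simp)) (by rw [← η.tg_app, ← η.tg_app, h.2.2])⟩

lemma cosk_arr {c a b : G.Cell} (hd : (dim c : ℕ∞) ≤ k)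
    (h : Arr (η.app c) (η.app a) (η.app b)) : Arr c a b :=
  ⟨hi _ _ (cosk_le hd (by simp)) (by rw [← η.sr_app, h.1]),
    hi _ _ (cosk_le hd (by simp)) (by rw [← η.tg_app, h.2.1]), by simpa using h.2.2⟩

variable (hs : ∀ z, (dim z : ℕ∞) ≤ k → ∃ x, η.app x = z)
include hs

lemma cosk_extend (hH : IsCosk k H) (f : G ⟶ H) : ∃ g : G' ⟶ H, η ≫ g = f := by
  obtain ⟨g, hg⟩ := exists_map (G := G') (H := H)
    (fun z w => ∀ x, (dim z : ℕ∞) ≤ k → η.app x = z → f.app x = w)
    (fun x _ h => by rw [eq_bot (x := x) (by simpa using congrArg dim h), app_bot])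
    fun c hc z0 z1 hd hp h0 h1 => by
      by_cases hk : (dim c : ℕ∞) ≤ k
      · obtain ⟨x, rfl⟩ := hs c hk
        refine ⟨f.app x, ?_, fun y _ hy => by rw [hi x y (by simpa using hk) hy.symm]⟩
        rw [← h0 (sr x) (cosk_le hk (by simp)) (η.sr_app x).symm,
          ← h1 (tg x) (cosk_le hk (by simp)) (η.tg_app x).symm]
        exact (arr_self (by simpa using hc)).map f
      · obtain ⟨z, hz, -⟩ := hH z0 z1 hp (by
          have h := cosk_lt hk
          rwa [dim_sr, ← hd] at h)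
        exact ⟨z, hz, fun _ h => absurd h hk⟩
  exact ⟨g, cosk_ext hH fun x hx => (hg _ x (by simpa using hx) rfl).symm⟩

lemma cosk_factor (hA : ∀ c : A.Cell, (dim c : ℕ∞) ≤ k) (φ : A ⟶ G') :
    ∃ ψ : A ⟶ G, ψ ≫ η = φ := by
  choose ψ hψ using fun c : A.Cell => hs (φ.app c) (by simpa using hA c)
  have hd : ∀ c, dim (ψ c) = dim c := fun c => by rw [← η.dim_app, hψ, φ.dim_app]
  exact ⟨⟨ψ, hd, fun c => hi _ _ (cosk_le (hA c) (by simp [hd]))
    (by rw [← η.sr_app, hψ, hψ, φ.sr_app]), fun c => hi _ _ (cosk_le (hA c) (by simp [hd]))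
    (by rw [← η.tg_app, hψ, hψ, φ.tg_app])⟩, GS.hom_ext hψ⟩

lemma cosk_con {a b : G.Cell} (hd : (dim a : ℕ∞) < k) (h : Con (η.app a) (η.app b)) :
    Con a b := by
  obtain ⟨c, hc⟩ := h
  have hk : (dim c : ℕ∞) ≤ k := by
    rw [hc.2.2, η.dim_app]
    exact_mod_cast Order.add_one_le_of_lt hd
  obtain ⟨c, rfl⟩ := hs c hk
  exact ⟨c, cosk_arr η hi (by simpa using hk) hc⟩

end

lemma cosk_high {k : ℕ} {G : GS} (hG : IsCosk k G) (m : ℕ) : ∀ {c d : G.Cell},
    dim c = k + 1 + m → dim d = k + 1 + m → src k c = src k d → tgt k c = tgt k d → c = d := by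
  have key : ∀ c d : G.Cell, k + 1 ≤ dim c → dim d = dim c → sr c = sr d → tg c = tg d →
      c = d := fun c d h e h1 h2 => (hG _ _ (par_sr_tg c) (by
        rw [dim_sr]
        exact_mod_cast (show k ≤ dim c - 1 by omega))).unique (arr_self (by omega))
      (by rw [h1, h2]; exact arr_self (by omega))
  induction m with
  | zero =>
    intro c d hc hd h1 h2
    rw [src_eq_sr hc, src_eq_sr hd] at h1
    rw [tgt_eq_tg hc, tgt_eq_tg hd] at h2
    exact key c d hc.ge (hd.trans hc.symm) h1 h2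
  | succ m ih =>
    intro c d hc hd h1 h2
    refine key c d (by omega) (hd.trans hc.symm) (ih ?_ ?_ ?_ ?_) (ih ?_ ?_ ?_ ?_)
    · rw [dim_sr]; omega
    · rw [dim_sr]; omega
    · rw [src_sr (by omega), src_sr (by omega), h1]
    · rw [tgt_sr (by omega), tgt_sr (by omega), h2]
    · rw [dim_tg]; omega
    · rw [dim_tg]; omega
    · rw [src_tg (by omega), src_tg (by omega), h1]
    · rw [tgt_tg (by omega), tgt_tg (by omega), h2]

lemma cosk_exists_high {k : ℕ} {G : GS} (hG : IsCosk k G) {a b : G.Cell} (h : Par a b)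
    (ha : dim a = k) (m : ℕ) : ∃ c, dim c = k + 1 + m ∧ src k c = a ∧ tgt k c = b := by
  induction m with
  | zero =>
    obtain ⟨c, hc, -⟩ := hG a b h (by rw [ha])
    have hd : dim c = k + 1 := by rw [hc.2.2, ha]
    exact ⟨c, hd, (src_eq_sr hd).trans hc.1, (tgt_eq_tg hd).trans hc.2.1⟩
  | succ m ih =>
    obtain ⟨c, h1, h2, h3⟩ := ih
    obtain ⟨d, hd, -⟩ := hG c c (Par.refl c) (by exact_mod_cast (show k ≤ dim c by omega))
    exact ⟨d, by rw [hd.2.2, h1]; rfl, (hd.src_eq (by omega)).trans h2,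
      (hd.tgt_eq (by omega)).trans h3⟩

section
variable {k : ℕ} {V : Gpd E ⥤ GS} (η : U E ⟶ V)
  (hi : ∀ (X : Gpd E) (x y : cell X), (dim x : ℕ∞) ≤ k → (η.app X).app x = (η.app X).app y → x = y)
  (hs : ∀ (X : Gpd E) (z : (V.obj X).Cell), (dim z : ℕ∞) ≤ k → ∃ x, (η.app X).app x = z)
  (hc : ∀ X, IsCosk k (V.obj X))

lemma cosk_nat {X Y : Gpd E} (f : X ⟶ Y) (x : cell X) :
    (V.map f).app ((η.app X).app x) = (η.app Y).app (cm f x) :=
  (congrArg (fun φ => GS.Hom.app φ x) (η.naturality f)).symm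

include hi hs hc in
lemma cosk_tabRep : Nonempty (TabRep V) := by
  refine tabRep_of_discs V fun n => ?_
  rcases le_or_gt (n + 1) k with h | h
  · refine ⟨(rep E).obj (disc n), (η.app _).app (topR E n), (η.app _).dim_app _, fun X z hz => ?_⟩
    obtain ⟨x, rfl⟩ := hs X z (by rw [hz]; exact_mod_cast h)
    obtain ⟨f, hf, hu⟩ := existsUnique_classify x (by simpa using hz)
    refine ⟨f, (cosk_nat η f _).trans (congrArg _ hf), fun g hg => hu g (hi X _ _ ?_ ?_)⟩
    · rw [GS.Hom.dim_app]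
      exact_mod_cast h
    · exact (cosk_nat η g _).symm.trans hg
  · obtain ⟨m, hm⟩ : ∃ m, n + 1 = k + 1 + m := ⟨n - k, by omega⟩
    have hS := isSph E k
    obtain ⟨c, h1, h2, h3⟩ := cosk_exists_high (hc _) (hS.par.map (η.app _))
      (((η.app _).dim_app _).trans hS.dim_eq) m
    refine ⟨sph E k, c, h1.trans hm.symm, fun X z hz => ?_⟩
    have ha : dim (src k z) = k := dim_src (by omega)
    have hb : dim (tgt k z) = k := dim_tgt (by omega)
    obtain ⟨a, ea⟩ := hs X (src k z) (by rw [ha])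
    obtain ⟨b, eb⟩ := hs X (tgt k z) (by rw [hb])
    have ha' : dim a = k := by rw [← (η.app X).dim_app, ea, ha]
    have hp : Par a b := cosk_par (η.app X) (hi X) (by rw [ha']) (by
      rw [ea, eb]
      exact par_src_tgt k z)
    obtain ⟨g, ⟨g1, g2⟩, hu⟩ := hS.desc X a b hp ha'
    refine ⟨g, cosk_high (hc X) m (((V.map g).dim_app c).trans h1) (hz.trans hm) ?_ ?_,
      fun g' hg' => hu g' ⟨hi X _ _ ?_ ?_, hi X _ _ ?_ ?_⟩⟩
    · rw [← app_src, h2, cosk_nat, ← ea, ← g1]
    · rw [← app_tgt, h3, cosk_nat, ← eb, ← g2]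
    · rw [GS.Hom.dim_app, hS.dim_eq]
    · rw [ea, ← hg', ← app_src, h2, cosk_nat]
    · rw [GS.Hom.dim_app, ← hS.par.1, hS.dim_eq]
    · rw [eb, ← hg', ← app_tgt, h3, cosk_nat]

include hi hs in
lemma cosk_represents (S : Theta) (hS : S.2.dim + 1 ≤ k) :
    Represents V (gn E S ≫ η.app _) := by
  have hA : ∀ c : (tabGS.obj S).Cell, (dim c : ℕ∞) ≤ k := fun c => by
    exact_mod_cast (dim_tab_le S c).trans hS
  intro X φ
  obtain ⟨ψ, rfl⟩ := cosk_factor (η.app X) (hi X) (hs X) hA φ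
  obtain ⟨f, hf, hu⟩ := gn_represents S X ψ
  refine ⟨f, ?_, fun g hg => hu g (GS.hom_ext fun c => hi X _ _ (by simpa using hA c) ?_)⟩
  · change (gn E S ≫ η.app _) ≫ V.map f = _
    rw [Category.assoc, ← η.naturality, ← Category.assoc, hf]
  · rw [← GS.comp_app, ← GS.comp_app, ← hg, Category.assoc, Category.assoc, η.naturality]

include hi hs hc in
set_option backward.isDefEq.respectTransparency false in
lemma cosk_elim [hE : Fact E.IsCoherator] (T : TabRep V) (ε : ∀ S, T.F0.obj S ⟶ (rep E).obj S)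
    (hε : ∀ S, T.univ S ≫ V.map (ε S) = gn E S ≫ η.app _) :
    ∃ (F : E.C ⥤ Gpd E) (α : E.ι ⋙ F ≅ T.F0), ∀ (S S' : Theta) (h : E.ι.obj S ⟶ E.ι.obj S'),
      (α.inv.app S ≫ F.map h ≫ α.hom.app S') ≫ ε S' = ε S ≫ (repC E).map h := by
  have hι : ∀ {S S' : Theta} (θ : S ⟶ S'),
      T.F0.map θ ≫ ε S' = ε S ≫ (repC E).map (E.ι.map θ) := fun {S S'} θ => by
    refine (T.rep S).hom_ext ?_
    have h := gen_nat (rep E) θ
    rw [V.map_comp, V.map_comp, ← Category.assoc, T.F0_map, Category.assoc, hε, reassoc_of% hε,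
      ← η.naturality, ← Category.assoc, ← h, Category.assoc]
    rfl
  obtain ⟨e, -⟩ := T.exists_discIso
  have hc' : ∀ X, IsCosk k ((discsOf T.F0).hom.obj X) := fun X => (hc X).of_iso (e.app X).symm
  refine elim_rel hE.out T.F0 T.F0_pres (fun {S S'} h f => f ≫ ε S' = ε S ≫ (repC E).map h) hι
    (fun h h' f f' e1 e2 => ?_) (fun l T' j i hl hj S h f e1 e2 => ?_)
    fun n S hS f g f' g' e1 e2 hp h hh => ?_
  · rw [Category.assoc, e2, reassoc_of% e1, Functor.map_comp]
  · refine (T.F0_pres l T' j i hl hj).hom_ext ?_ ?_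
    · rw [← Category.assoc, e1, Functor.map_comp, reassoc_of% hι]
    · rw [← Category.assoc, e2, Functor.map_comp, reassoc_of% hι]
  · have a1 : (discsOf T.F0).σ n ≫ ε (disc (n + 1)) ≫ (repC E).map h = f' ≫ ε S := by
      rw [e1, ← hh.1, Functor.map_comp, ← reassoc_of% hι]
      rfl
    have a2 : (discsOf T.F0).τ n ≫ ε (disc (n + 1)) ≫ (repC E).map h = g' ≫ ε S := by
      rw [e2, ← hh.2, Functor.map_comp, ← reassoc_of% hι]
      rfl
    rcases le_or_gt k (n + 1) with hk | hk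
    · obtain ⟨c, c1, -⟩ := hc' _ _ _ hp (by exact_mod_cast hk)
      obtain ⟨h', rfl⟩ := (discsOf T.F0).exists_cell (n := n + 1) c c1.2.2
      obtain ⟨c2, c3⟩ := ((discsOf T.F0).arr_cell_iff _ _ _).1 c1
      refine ⟨h', c2, c3, (discsOf T.F0).cell_inj (n := n + 1) ((hc' _ _ _
        (hp.map ((discsOf T.F0).hom.map (ε S))) (by exact_mod_cast hk)).unique
        (c1.map ((discsOf T.F0).hom.map (ε S))) ?_)⟩
      exact ((discsOf T.F0).arr_cell_iff _ _ _).2 ⟨a1, a2⟩
    · obtain ⟨i, hi'⟩ := (T.rep S).iso (cosk_represents η hi hs S (by omega))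
      have e3 : i.hom = ε S := (T.rep S).hom_ext (hi'.trans (hε S).symm)
      have e4 : ε S ≫ i.inv = 𝟙 _ := e3 ▸ i.hom_inv_id
      have e5 : i.inv ≫ ε S = 𝟙 _ := e3 ▸ i.inv_hom_id
      refine ⟨(ε (disc (n + 1)) ≫ (repC E).map h) ≫ i.inv, ?_, ?_, ?_⟩
      · rw [← Category.assoc, a1, Category.assoc, e4, Category.comp_id]
      · rw [← Category.assoc, a2, Category.assoc, e4, Category.comp_id]
      · rw [Category.assoc, e5]
        exact Category.comp_id _

include hi hs hc in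
set_option backward.isDefEq.respectTransparency false in
lemma cosk_model [hE : Fact E.IsCoherator] : ∃ (K : Gpd E ⥤ Gpd E) (ι : 𝟭 (Gpd E) ⟶ K)
    (e : ∀ X, (U E).obj (K.obj X) ≅ V.obj X),
    ∀ (X : Gpd E) (x : cell X), (e X).hom.app (cm (ι.app X) x) = (η.app X).app x := by
  obtain ⟨T⟩ := cosk_tabRep η hi hs hc
  choose ε hε using fun S => (T.rep S _ (gn E S ≫ η.app _)).exists
  obtain ⟨F, α, hα⟩ := cosk_elim η hi hs hc T ε hε
  have hF : PreservesSums (E.ι ⋙ F) := T.F0_pres.of_iso α.symm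
  have hd : ∀ c : E.C, ∃ d : F.obj c ⟶ (repC E).obj c, ∀ (S : Theta) (h : E.ι.obj S = c),
      eqToHom (congrArg F.obj h) ≫ d =
        (α.hom.app S ≫ ε S) ≫ eqToHom (congrArg (repC E).obj h) := fun c => by
    obtain ⟨S, rfl⟩ := E.bij.2 c
    refine ⟨α.hom.app S ≫ ε S, fun S' h => ?_⟩
    obtain rfl := E.bij.1 h
    exact (Category.id_comp _).trans (Category.comp_id _).symm
  choose δ hδ using hd
  have hδ' : ∀ S, δ (E.ι.obj S) = α.hom.app S ≫ ε S := fun S =>
    (Category.id_comp _).symm.trans ((hδ _ S rfl).trans (Category.comp_id _))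
  have hn : ∀ (c c' : E.C) (h : c ⟶ c'), δ c ≫ (repC E).map h = F.map h ≫ δ c' := by
    intro c c' h
    obtain ⟨S, rfl⟩ := E.bij.2 c
    obtain ⟨S', rfl⟩ := E.bij.2 c'
    rw [hδ', hδ', Category.assoc, ← hα S S' h]
    simp
  choose ι hι using fun X : Gpd E => exists_toHom F hF X X (fun c x => δ c ≫ x)
    fun c c' h x => by rw [reassoc_of% hn]
  obtain ⟨e1, he1⟩ := exists_homU F hF
  obtain ⟨e2, he2⟩ := CoGlob.homIso_of_iso (discsOf (E.ι ⋙ F)) (discsOf T.F0)
    (fun n => α.symm.app (disc n)) (fun n => α.inv.naturality _) fun n => α.inv.naturality _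
  obtain ⟨e3, -, he3⟩ := T.exists_discIso
  refine ⟨homGpd F hF, ⟨ι, fun X Y f => hom_ext_rep fun S x => (homEl F hF).injective ?_⟩,
    fun X => e1.app X ≪≫ e2.app X ≪≫ e3.app X, fun X x => ?_⟩
  · change homEl F hF (x ≫ f ≫ ι Y) = homEl F hF ((x ≫ ι X) ≫ (homGpd F hF).map f)
    rw [homEl_comp, hι, ← Category.assoc, hι, Category.assoc]
  · rcases hx : dim x with _ | n
    · exact (eq_bot ((GS.Hom.dim_app _ _).trans ((GS.Hom.dim_app _ _).trans hx))).trans
        (eq_bot ((GS.Hom.dim_app _ _).trans hx)).symm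
    · obtain ⟨x, rfl⟩ := (discsOf (rep E)).exists_cell x hx
      change (e3.hom.app X).app ((e2.hom.app X).app ((e1.hom.app X).app
        ((discsOf (rep E)).cell (n := n) (x ≫ ι X)))) = _
      have h1 : (α.symm.app (disc n)).hom ≫ homEl F hF (x ≫ ι X) = ε (disc n) ≫ x := by
        rw [hι, hδ']
        simp
      have h2 := congrArg (fun φ => GS.Hom.app φ (topT n)) (hε (disc n))
      simp only [GS.comp_app] at h2
      rw [he1, he2, h1, he3, trep_map_comp, h2, gen_topT, cosk_nat]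
      exact congrArg _ ((discsOf (rep E)).map_top x)

end

theorem exists_cosk [hE : Fact E.IsCoherator] (k : ℕ) : Nonempty (Cosk E k) := by
  obtain ⟨C, η, hi, hs, hc⟩ := gcosk k
  have hi' : ∀ (X : Gpd E) (x y : cell X), (dim x : ℕ∞) ≤ k →
      (η.app _).app x = (η.app _).app y → x = y := fun X x y h => hi _ x y (by exact_mod_cast h)
  have hs' : ∀ (X : Gpd E) (z : (C.obj ((U E).obj X)).Cell), (dim z : ℕ∞) ≤ k →
      ∃ x : cell X, (η.app _).app x = z := fun X z h => hs _ z (by exact_mod_cast h)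
  obtain ⟨K, ι, e, he⟩ := cosk_model (V := U E ⋙ C) (Functor.whiskerLeft (U E) η) hi' hs'
    fun X => hc _
  refine ⟨⟨K, ι, fun X x y hx h => hi' X x y hx ?_, fun X z hz => ?_,
    fun X => (hc _).of_iso (e X).symm⟩⟩
  · exact (he X x).symm.trans ((congrArg (e X).hom.app h).trans (he X y))
  · obtain ⟨x, hx⟩ := hs' X ((e X).hom.app z) (by simpa using hz)
    exact ⟨x, (bijective_of_isIso (e X).hom).1 ((he X x).trans hx)⟩

/-- The trivial coskeleton. -/
def coskTop (E : GlobExt) : Cosk E ⊤ where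
  K := 𝟭 _
  η := 𝟙 _
  inj _ x y _ h := (cm_id x).symm.trans (h.trans (cm_id y))
  surj _ z _ := ⟨z, cm_id z⟩
  cosk _ _ _ _ h := absurd h (by simp)

namespace Cosk
variable {k : ℕ∞} (K : Cosk E k)

/-- Maps into a coskeletal model are determined in low dimension. -/
lemma ext_low {G H : GS} (hH : IsCosk k H) {f g : G ⟶ H}
    (h : ∀ x, (dim x : ℕ∞) ≤ k → f.app x = g.app x) : f = g := cosk_ext hH h

lemma isIso_η {Y : Gpd E} (hY : IsCosk k ((U E).obj Y)) : IsIso (K.η.app Y) := by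
  obtain ⟨g, hg⟩ := cosk_extend ((U E).map (K.η.app Y)) (K.inj Y) (K.surj Y) hY (𝟙 _)
  have h1 : ∀ x, g.app (cm (K.η.app Y) x) = x := fun x => congrArg (fun φ => GS.Hom.app φ x) hg
  have h2 : g ≫ (U E).map (K.η.app Y) = 𝟙 _ := cosk_ext (K.cosk Y) fun z hz => by
    obtain ⟨x, rfl⟩ := K.surj Y z hz
    exact congrArg (cm (K.η.app Y)) (h1 x)
  exact isIso_of_cells _ (Function.bijective_iff_has_inverse.2
    ⟨g.app, h1, fun z => congrArg (fun φ => GS.Hom.app φ z) h2⟩)

/-- `K` is a reflection onto coskeletal models. -/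
lemma reflect {A Y : Gpd E} (hY : IsCosk k ((U E).obj Y)) (f : A ⟶ Y) :
    ∃! g : K.K.obj A ⟶ Y, K.η.app A ≫ g = f := by
  have := K.isIso_η hY
  refine existsUnique_of_exists_of_unique ⟨K.K.map f ≫ inv (K.η.app Y), ?_⟩ fun g g' h h' => ?_
  · rw [← K.η.naturality_assoc, IsIso.hom_inv_id, Category.comp_id]
    rfl
  · have e : (U E).map g = (U E).map g' := cosk_ext hY fun z hz => by
      obtain ⟨x, rfl⟩ := K.surj A z hz
      exact (cm_comp _ g x).symm.trans ((congrArg (fun φ => cm φ x) (h.trans h'.symm)).trans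
        (cm_comp _ g' x))
    exact hom_ext_cells fun z => congrArg (fun φ => GS.Hom.app φ z) e

lemma par_of_η {X : Gpd E} {a b : cell X} (hd : (dim a : ℕ∞) ≤ k)
    (h : Par (cm (K.η.app X) a) (cm (K.η.app X) b)) : Par a b :=
  cosk_par ((U E).map (K.η.app X)) (K.inj X) hd h

lemma ctr_iff (X : Gpd E) : MCtr (K.K.obj X) ↔
    ∀ a b : cell X, Par a b → (dim a : ℕ∞) < k → Con a b := by
  refine ⟨fun h a b hab hd => cosk_con ((U E).map (K.η.app X)) (K.inj X) (K.surj X) hd
    (h _ _ (hab.map _)), fun h a b hab => ?_⟩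
  rcases lt_or_ge (dim a : ℕ∞) k with hd | hd
  · obtain ⟨a, rfl⟩ := K.surj X a hd.le
    obtain ⟨b, rfl⟩ := K.surj X b (hab.1 ▸ hd.le)
    have hd' : (dim a : ℕ∞) < k := by simpa using hd
    exact (h a b (K.par_of_η hd'.le hab) hd').map _
  · exact (K.cosk X a b hab hd).exists

lemma ctr_iff' (X : Gpd E) : MCtr (K.K.obj X) ↔
    ∀ a b : cell X, Par a b → (dim a : ℕ∞) < k →
      Con (cm (K.η.app X) a) (cm (K.η.app X) b) :=
  ⟨fun h _ _ hab _ => h _ _ (hab.map _), fun h => (K.ctr_iff X).2 fun a b hab hd =>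
    cosk_con ((U E).map (K.η.app X)) (K.inj X) (K.surj X) hd (h a b hab hd)⟩

lemma ctr_of_ctr {X : Gpd E} (h : MCtr X) : MCtr (K.K.obj X) :=
  (K.ctr_iff X).2 fun a b hab _ => h a b hab

end Cosk

lemma ctr_of_forall_cosk {X : Gpd E} (h : ∀ k : ℕ, ∃ K : Cosk E k, MCtr (K.K.obj X)) :
    MCtr X := by
  intro a b hab
  obtain ⟨K, hK⟩ := h (dim a + 1)
  exact (K.ctr_iff X).1 hK a b hab (by exact_mod_cast Nat.lt_succ_self _)

end Vale.Agent.P259
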