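import Vale.Agent.P259.SOA

/-! P259 task CUBE: cartesian cubes, the cocontinuous functor `Sh` and `L = Sh ∘ Sing`.

`exists_shData`: `exists_projCof` and the left Kan extension along Yoneda
(`Presheaf.uliftYonedaAdjunction` / `yonedaAdjunction`).
`Sh_desc`: a natural family is a map `K ⟶ nerveF S Y`; use `adj.homEquiv`.
`Sh_cof`: given `p : X ⟶ Y` in `TF`, `u : Sh K ⟶ X`, `v : Sh K' ⟶ Y`, consider the functors
`n ↦ ∏ᶜ_{K' n} X` and `n ↦ pullback (∏ᶜ_{K n} X ⟶ ∏ᶜ_{K n} Y) (∏ᶜ_{K' n} Y ⟶ ∏ᶜ_{K n} Y)` on `Cube` (or any functorial model);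
the comparison map is objectwise `TF` because `f.app n` is injective (`CoGlob.product_cell`, `pullback_cell`: fill the
coordinates in the image as prescribed and the others by `p`); lift `S ⟶ pullback` by `s.lift`.
`car_exists`: `Γ ⟶ const ⊤` is objectwise `TF` (`tf_of_ctr`). -/

noncomputable section
namespace Vale.Agent.P259
open CategoryTheory CategoryTheory.Limits GlobExt Opposite

/-- Objects of the cartesian cube category. -/
structure Cb where
  n : ℕ

/-- A map `I^m → I^n` has coordinates that are projections or constants. -/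
instance : SmallCategory Cb where
  Hom m n := Fin n.n → (Fin m.n ⊕ Bool)
  id _ := Sum.inl
  comp f g := fun i => (g i).elim f Sum.inr
  id_comp g := by funext i; rcases g i with k | k <;> simp
  comp_id _ := rfl
  assoc f g h := by funext i; rcases h' : h i with k | k <;> simp [h']

/-- The point `0` or `1` of the interval. -/
def endPt (b : Bool) : unitInterval := if b then 1 else 0

/-- The topological cubes. -/
def cube : Cb ⥤ TopCat.{0} where
  obj n := TopCat.of (Fin n.n → unitInterval)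
  map {m n} f := TopCat.ofHom ⟨fun x i => (show Fin m.n ⊕ Bool from f i).elim x endPt, by
    refine continuous_pi fun i => ?_
    rcases (show Fin m.n ⊕ Bool from f i) with k | k
    · exact continuous_apply k
    · exact continuous_const⟩
  map_id _ := rfl
  map_comp {l m n} f g := by
    ext x i
    change ((Sum.elim x endPt ((show Fin m.n ⊕ Bool from g i).elim f Sum.inr) : unitInterval) : ℝ) =
      ((Sum.elim (fun k => Sum.elim x endPt (f k)) endPt (show Fin m.n ⊕ Bool from g i) :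
        unitInterval) : ℝ)
    rcases (show Fin m.n ⊕ Bool from g i) with k | k <;> rfl

/-- The cylinder functor `I^n ↦ I^(n+1)` (new coordinate last). -/
def cyl : Cb ⥤ Cb where
  obj n := ⟨n.n + 1⟩
  map {m n} f := fun i => Fin.lastCases (motive := fun _ => Fin (m.n + 1) ⊕ Bool)
    (Sum.inl (Fin.last _)) (fun k => (show Fin m.n ⊕ Bool from f k).map Fin.castSucc id) i
  map_id n := by
    funext i
    induction i using Fin.lastCases with
    | last => exact Fin.lastCases_last
    | cast k => exact Fin.lastCases_castSucc k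
  map_comp {l m n} f g := by
    funext i
    change _ = Sum.elim _ Sum.inr (Fin.lastCases (motive := fun _ => Fin (m.n + 1) ⊕ Bool)
      (Sum.inl (Fin.last _)) (fun k => (show Fin m.n ⊕ Bool from g k).map Fin.castSucc id) i)
    induction i using Fin.lastCases with
    | last => simp only [Fin.lastCases_last, Sum.elim_inl]
    | cast k =>
      simp only [Fin.lastCases_castSucc]
      change Sum.map Fin.castSucc id ((show Fin m.n ⊕ Bool from g k).elim f Sum.inr) = _
      obtain ⟨y, hy⟩ : ∃ y : Fin m.n ⊕ Bool, g k = y := ⟨_, rfl⟩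
      simp only [hy]
      rcases y with j | j
      · simp only [Sum.map_inl, Sum.elim_inl, Fin.lastCases_castSucc]
      · rfl

/-- The two end faces of the cylinder. -/
def cylEnd (b : Bool) : 𝟭 Cb ⟶ cyl where
  app n := fun i => Fin.lastCases (motive := fun _ => Fin n.n ⊕ Bool) (Sum.inr b) Sum.inl i
  naturality {m n} f := by
    funext i
    change Sum.elim f Sum.inr
        (Fin.lastCases (motive := fun _ => Fin n.n ⊕ Bool) (Sum.inr b) Sum.inl i) =
      Sum.elim (Fin.lastCases (motive := fun _ => Fin m.n ⊕ Bool) (Sum.inr b) Sum.inl) Sum.inr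
        (Fin.lastCases (motive := fun _ => Fin (m.n + 1) ⊕ Bool) (Sum.inl (Fin.last _))
          (fun k => (show Fin m.n ⊕ Bool from f k).map Fin.castSucc id) i)
    induction i using Fin.lastCases with
    | last => simp only [Fin.lastCases_last, Sum.elim_inl, Sum.elim_inr]
    | cast k =>
      simp only [Fin.lastCases_castSucc, Sum.elim_inl]
      obtain ⟨y, hy⟩ : ∃ y : Fin m.n ⊕ Bool, f k = y := ⟨_, rfl⟩
      simp only [hy]
      rcases y with j | j
      · simp only [Sum.map_inl, Sum.elim_inl, Fin.lastCases_castSucc]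
      · rfl

/-- Cubical sets. -/
abbrev CSet : Type 1 := Cbᵒᵖ ⥤ Type

/-- The singular cubical set. -/
def Sing : TopCat.{0} ⥤ CSet := yoneda ⋙ (Functor.whiskeringLeft _ _ _).obj cube.op

/-- The singular cubes whose image satisfies a hereditary property. -/
def singSub (T : TopCat.{0}) (P : Set T → Prop) (hP : ∀ A B, A ⊆ B → P B → P A) :
    Subfunctor (Sing.obj T) where
  obj n := {x | P (Set.range (show cube.obj n.unop ⟶ T from x).hom)}
  map := by
    intro m n φ x hx
    exact hP _ _ (Set.range_comp_subset_range (cube.map φ.unop).hom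
      (show cube.obj m.unop ⟶ T from x).hom) hx

instance (n : Cb) : ContractibleSpace (cube.obj n) := by
  change ContractibleSpace (Fin n.n → unitInterval)
  rw [contractible_iff_id_nullhomotopic]
  exact ⟨0, ContinuousMap.Homotopic.symm ⟨⟨⟨fun p i => p.1 * p.2 i, by fun_prop⟩,
    fun x => funext fun i => zero_mul _, fun x => funext fun i => one_mul _⟩⟩⟩

lemma mono_sing {T T' : TopCat.{0}} (f : T ⟶ T') (hf : Function.Injective f) :
    Mono (Sing.map f) := by
  have : Mono f := (TopCat.mono_iff_injective f).2 hf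
  rw [NatTrans.mono_iff_mono_app]
  intro n
  rw [mono_iff_injective]
  intro x y h
  exact (cancel_mono f).1 h

variable {E : GlobExt}

/-- The nerve of a model with respect to a cocubical model. -/
def nerveF (S : Cb ⥤ Gpd E) : Gpd E ⥤ CSet := yoneda ⋙ (Functor.whiskeringLeft _ _ _).obj S.op

/-- A projectively cofibrant, contractible cocubical model and its left Kan extension. -/
structure ShData (E : GlobExt) where
  S : Cb ⥤ Gpd E
  ctr : ∀ n, MCtr (S.obj n)
  lift : ∀ (F G : Cb ⥤ Gpd E) (p : F ⟶ G), (∀ n, TF E (p.app n)) →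
    ∀ g : S ⟶ G, ∃ l : S ⟶ F, l ≫ p = g
  Sh : CSet ⥤ Gpd E
  adj : Sh ⊣ nerveF S

theorem exists_shData (E : GlobExt) : Nonempty (ShData E) := by
  obtain ⟨S, h1, h2⟩ := exists_projCof E Cb
  exact ⟨⟨S, h1, h2, _, (Presheaf.uliftYonedaAdjunction.{0} (uliftYoneda.{0}.leftKanExtension S)
    (uliftYoneda.{0}.leftKanExtensionUnit S)).ofNatIsoRight
      (Functor.isoWhiskerRight uliftYonedaIsoYoneda.{0} _)⟩⟩

/-- The power of a model by the cubes of a cubical set. -/
def cubePw (K : CSet) (X : Gpd E) : Cb ⥤ Gpd E where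
  obj n := ∏ᶜ fun _ : K.obj (op n) => X
  map φ := Pi.lift fun x => Pi.π (fun _ => X) (K.map φ.op x)
  map_id n := Pi.hom_ext _ _ fun x => by simp
  map_comp f g := Pi.hom_ext _ _ fun x => by simp

/-- Functoriality of the power. -/
def cubeMap {K K' : CSet} (f : K ⟶ K') {X Y : Gpd E} (p : X ⟶ Y) : cubePw K' X ⟶ cubePw K Y where
  app n := Pi.lift fun x => Pi.π (fun _ => X) (f.app (op n) x) ≫ p
  naturality m n φ := Pi.hom_ext _ _ fun x => by simp [cubePw]

/-- Projections of the power. -/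
def cubePr {K : CSet} (X : Gpd E) {n : Cb} (x : K.obj (op n)) : (cubePw K X).obj n ⟶ X :=
  Pi.π (fun _ => X) x

lemma cubePw_ext {K : CSet} {X A : Gpd E} {n : Cb} {f g : A ⟶ (cubePw K X).obj n}
    (h : ∀ x, f ≫ cubePr X x = g ≫ cubePr X x) : f = g := Pi.hom_ext _ _ h

lemma cubePw_lift {K : CSet} {X A : Gpd E} {n : Cb} (c : K.obj (op n) → (A ⟶ X)) :
    ∃ f : A ⟶ (cubePw K X).obj n, ∀ x, f ≫ cubePr X x = c x :=
  ⟨Pi.lift c, Pi.lift_π c⟩

@[reassoc] lemma cubePw_map {K : CSet} {X : Gpd E} {m n : Cb} (φ : m ⟶ n) (x : K.obj (op n)) :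
    (cubePw K X).map φ ≫ cubePr X x = cubePr X (K.map φ.op x) := Pi.lift_π _ _

@[reassoc] lemma cubeMap_pr {K K' : CSet} (f : K ⟶ K') {X Y : Gpd E} (p : X ⟶ Y) {n : Cb}
    (x : K.obj (op n)) :
    (cubeMap f p).app n ≫ cubePr Y x = cubePr X (f.app (op n) x) ≫ p := Pi.lift_π _ _

lemma cube_tf {K K' : CSet} (f : K ⟶ K') [Mono f] {X Y : Gpd E} {p : X ⟶ Y} (hp : TF E p)
    {P : Cb ⥤ Gpd E} {a : P ⟶ cubePw K X} {b : P ⟶ cubePw K' Y}
    (h : IsPullback a b (cubeMap (𝟙 K) p) (cubeMap f (𝟙 Y))) (q : cubePw K' X ⟶ P)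
    (ha : q ≫ a = cubeMap f (𝟙 X)) (hb : q ≫ b = cubeMap (𝟙 K') p) (n : Cb) :
    TF E (q.app n) := by
  have hn : IsPullback (a.app n) (b.app n) ((cubeMap (𝟙 K) p).app n) ((cubeMap f (𝟙 Y)).app n) :=
    h.map ((evaluation _ _).obj n)
  have hf : Function.Injective (f.app (op n)) := (mono_iff_injective _).1 inferInstance
  have ha' : ∀ x, q.app n ≫ a.app n ≫ cubePr X x = cubePr X (f.app (op n) x) := fun x => by
    rw [← NatTrans.comp_app_assoc, ha, cubeMap_pr, Category.comp_id]
  have hb' : ∀ x, q.app n ≫ b.app n ≫ cubePr Y x = cubePr X x ≫ p := fun x => by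
    rw [← NatTrans.comp_app_assoc, hb, cubeMap_pr]
    rfl
  have hw : ∀ x, a.app n ≫ cubePr X x ≫ p = b.app n ≫ cubePr Y (f.app (op n) x) := fun x => by
    have h1 := hn.w =≫ cubePr Y x
    rw [Category.assoc, Category.assoc, cubeMap_pr, cubeMap_pr, Category.comp_id] at h1
    exact h1
  suffices H : ∀ {A B : Gpd E} (i : A ⟶ B), Cof E i → HasLiftingProperty i (q.app n) by
    rw [TF_eq]
    rintro _ _ _ ⟨k⟩
    exact H _ (cof_bd k)
  intro A B i hi
  refine ⟨fun {u v} sq => ?_⟩
  have key : ∀ x' : K'.obj (op n), ∃ l : B ⟶ X,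
      i ≫ l = u ≫ cubePr X x' ∧ l ≫ p = v ≫ b.app n ≫ cubePr Y x' ∧
      ∀ x, f.app (op n) x = x' → l = v ≫ a.app n ≫ cubePr X x := fun x' => by
    by_cases hx : ∃ x, f.app (op n) x = x'
    · obtain ⟨x, rfl⟩ := hx
      refine ⟨v ≫ a.app n ≫ cubePr X x, ?_, ?_, fun y hy => by rw [hf hy]⟩
      · rw [← sq.w_assoc, ha']
      · rw [Category.assoc, Category.assoc, hw]
    · obtain ⟨l, h1, h2⟩ := hi.lift hp (u ≫ cubePr X x') (v ≫ b.app n ≫ cubePr Y x')
        (by rw [← sq.w_assoc, hb', Category.assoc])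
      exact ⟨l, h1, h2, fun x e => absurd ⟨x, e⟩ hx⟩
  choose c h1 h2 h3 using key
  obtain ⟨l, hl⟩ := cubePw_lift c
  refine CommSq.HasLift.mk' ⟨l, cubePw_ext fun x => ?_,
    hn.hom_ext (cubePw_ext fun x => ?_) (cubePw_ext fun x => ?_)⟩
  · rw [Category.assoc, hl, h1]
  · simp only [Category.assoc]
    rw [ha', hl, h3 _ x rfl]
  · simp only [Category.assoc]
    rw [hb', reassoc_of% hl, h2]

namespace ShData
variable (s : ShData E)

/-- The structure map of an element. -/
def inc {K : CSet} {n : Cb} (x : K.obj (op n)) : s.S.obj n ⟶ s.Sh.obj K :=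
  (s.adj.unit.app K).app (op n) x

lemma map_inc {K : CSet} {m n : Cb} (φ : m ⟶ n) (x : K.obj (op n)) :
    s.S.map φ ≫ s.inc x = s.inc (K.map φ.op x) :=
  (NatTrans.naturality_apply (s.adj.unit.app K) φ.op x).symm
lemma inc_map {K K' : CSet} (f : K ⟶ K') {n : Cb} (x : K.obj (op n)) :
    s.inc x ≫ s.Sh.map f = s.inc (f.app (op n) x) :=
  (congrArg (fun t : K ⟶ (nerveF s.S).obj (s.Sh.obj K') => t.app (op n) x)
    (s.adj.unit.naturality f)).symm
lemma Sh_desc (K : CSet) (Y : Gpd E) (c : ∀ n : Cb, K.obj (op n) → (s.S.obj n ⟶ Y))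
    (hc : ∀ (m n : Cb) (φ : m ⟶ n) (x : K.obj (op n)), s.S.map φ ≫ c n x = c m (K.map φ.op x)) :
    ∃! g : s.Sh.obj K ⟶ Y, ∀ n x, s.inc x ≫ g = c n x := by
  have key : ∀ (g : s.Sh.obj K ⟶ Y) (n : Cb) (x : K.obj (op n)),
      s.inc x ≫ g = (s.adj.homEquiv K Y g).app (op n) x := fun g n x => by
    rw [s.adj.homEquiv_unit]
    rfl
  let t : K ⟶ (nerveF s.S).obj Y :=
    { app := fun n => TypeCat.ofHom (c n.unop)
      naturality := fun m n φ => by
        ext x
        exact (hc _ _ φ.unop x).symm }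
  refine ⟨(s.adj.homEquiv K Y).symm t, fun n x => ?_, fun g hg => ?_⟩
  · rw [key, Equiv.apply_symm_apply]
    rfl
  · rw [Equiv.eq_symm_apply]
    ext n x
    exact (key g _ x).symm.trans (hg _ x)
lemma Sh_ext {K : CSet} {Y : Gpd E} {f g : s.Sh.obj K ⟶ Y}
    (h : ∀ (n : Cb) (x : K.obj (op n)), s.inc x ≫ f = s.inc x ≫ g) : f = g :=
  (s.Sh_desc K Y (fun _ x => s.inc x ≫ g) fun _ _ φ x => by
    rw [← Category.assoc, map_inc]).unique h fun _ _ => rfl

/-- The map to the power given by a map out of `Sh K`. -/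
def toPw {K : CSet} {X : Gpd E} (u : s.Sh.obj K ⟶ X) : s.S ⟶ cubePw K X where
  app _ := (cubePw_lift fun x => s.inc x ≫ u).choose
  naturality m n φ := cubePw_ext fun x => by
    rw [Category.assoc, Category.assoc, cubePw_map, (cubePw_lift _).choose_spec,
      (cubePw_lift _).choose_spec, ← Category.assoc, map_inc]

@[reassoc] lemma toPw_pr {K : CSet} {X : Gpd E} (u : s.Sh.obj K ⟶ X) {n : Cb}
    (x : K.obj (op n)) : (s.toPw u).app n ≫ cubePr X x = s.inc x ≫ u :=
  (cubePw_lift fun x => s.inc x ≫ u).choose_spec x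

lemma Sh_cof {K K' : CSet} (f : K ⟶ K') [Mono f] : Cof E (s.Sh.map f) := by
  refine cof_of_lift fun X Y p hp u v w => ?_
  have h := IsPullback.of_hasPullback (cubeMap (𝟙 K) p) (cubeMap f (𝟙 Y))
  have w1 : cubeMap f (𝟙 X) ≫ cubeMap (𝟙 K) p = cubeMap (𝟙 K') p ≫ cubeMap f (𝟙 Y) := by
    refine NatTrans.ext (funext fun n => cubePw_ext fun x => ?_)
    simp only [NatTrans.comp_app, Category.assoc, cubeMap_pr, cubeMap_pr_assoc, Category.comp_id,
      Category.id_comp]
    rfl
  have w2 : s.toPw u ≫ cubeMap (𝟙 K) p = s.toPw v ≫ cubeMap f (𝟙 Y) := by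
    refine NatTrans.ext (funext fun n => cubePw_ext fun x => ?_)
    simp only [NatTrans.comp_app, Category.assoc, cubeMap_pr, toPw_pr, toPw_pr_assoc,
      Category.comp_id]
    rw [w, ← s.inc_map f x, Category.assoc]
    rfl
  obtain ⟨l, hl⟩ := s.lift _ _ (h.lift _ _ w1)
    (cube_tf f hp h _ (h.lift_fst _ _ _) (h.lift_snd _ _ _)) (h.lift _ _ w2)
  have e1 : l ≫ cubeMap f (𝟙 X) = s.toPw u := by
    rw [← h.lift_fst _ _ w1, reassoc_of% hl, h.lift_fst]
  have e2 : l ≫ cubeMap (𝟙 K') p = s.toPw v := by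
    rw [← h.lift_snd _ _ w1, reassoc_of% hl, h.lift_snd]
  obtain ⟨d, hd, -⟩ := s.Sh_desc K' X (fun n x => l.app n ≫ cubePr X x) fun m n φ x => by
    rw [l.naturality_assoc, cubePw_map]
  refine ⟨d, s.Sh_ext fun n x => ?_, s.Sh_ext fun n x => ?_⟩
  · rw [← Category.assoc, inc_map, hd, ← toPw_pr, ← e1, NatTrans.comp_app, Category.assoc,
      cubeMap_pr, Category.comp_id]
  · rw [← Category.assoc, hd, ← toPw_pr, ← e2, NatTrans.comp_app, Category.assoc, Category.assoc,
      cubeMap_pr]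
    rfl

lemma Sh_initial (K : CSet) (h : ∀ n, IsEmpty (K.obj n)) : Nonempty (IsInitial (s.Sh.obj K)) :=
  ⟨IsInitial.ofUniqueHom
    (fun Y => (s.Sh_desc K Y (fun _ x => (h _).elim x) fun _ _ _ x => (h _).elim x).exists.choose)
    fun _ _ => s.Sh_ext fun _ x => (h _).elim x⟩

lemma Sh_cofib (K : CSet) : Cofib (s.Sh.obj K) := by
  let K₀ : CSet := (Functor.const _).obj PEmpty
  let i : K₀ ⟶ K :=
    { app := fun _ => TypeCat.ofHom PEmpty.elim
      naturality := fun _ _ _ => by
        ext x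
        exact PEmpty.elim x }
  have : Mono i := by
    rw [NatTrans.mono_iff_mono_app]
    intro n
    rw [mono_iff_injective]
    exact fun x => PEmpty.elim x
  obtain ⟨h⟩ := s.Sh_initial K₀ fun _ => inferInstanceAs (IsEmpty PEmpty)
  exact (cofib_iff h _).2 (s.Sh_cof i)
lemma car_exists (Γ : Cb ⥤ Gpd E) (h : ∀ n, MCtr (Γ.obj n)) : Nonempty (s.S ⟶ Γ) := by
  have t : ∀ F : Cb ⥤ Gpd E, F ⟶ (Functor.const Cb).obj (⊤_ Gpd E) := fun F =>
    { app := fun n => terminal.from _
      naturality := fun _ _ _ => terminal.hom_ext _ _ }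
  obtain ⟨l, -⟩ := s.lift Γ _ (t Γ) (fun n => tf_of_ctr (h n) terminalIsTerminal _) (t s.S)
  exact ⟨l⟩

/-- The homotopy type of a space as a model. -/
abbrev L : TopCat.{0} ⥤ Gpd E := Sing ⋙ s.Sh

lemma L_cofib (T : TopCat.{0}) : Cofib (s.L.obj T) := s.Sh_cofib _
lemma L_cof {T T' : TopCat.{0}} (f : T ⟶ T') (hf : Function.Injective f) : Cof E (s.L.map f) :=
  haveI := mono_sing f hf
  s.Sh_cof (Sing.map f)
lemma L_initial (T : TopCat.{0}) [IsEmpty T] : Nonempty (IsInitial (s.L.obj T)) :=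
  s.Sh_initial (Sing.obj T) fun n =>
    ⟨fun x => IsEmpty.false ((show cube.obj n.unop ⟶ T from x).hom fun _ => 0)⟩

end ShData

end Vale.Agent.P259
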