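import Vale.Agent.P259.CylAx
import Vale.Agent.P259.Cof

/-! P259 task CYLREP: cylinders on a globular sum are represented by iterated expansions.

For `G = |S|` and `m : ℕ` call `(f, ζ)` with `f : G ⟶ U Y`, `ζ : G.Cell → (Cy Y).Cell` an
`m`-section if for `dim c < m`: `dim (ζ c) = dim c`, `sr (ζ c) = ζ (sr c)`, `tg (ζ c) = ζ (tg c)`,
`q0 (ζ c) = f c`. Say `(R, f, ζ)` is `m`-universal if it is an `m`-section and for every `m`-section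
`(Y, f', ζ')` there is a unique `h : R ⟶ Y` with `f ≫ U h = f'` and `Cy h (ζ c) = ζ' c` for `dim c < m`.
* `(rep S, gn S, ζ)` is `n`-universal (`low`, `low_inj`, `gn_represents`).
* If `(R, f, ζ)` is `m`-universal, `n ≤ m`, take `exists_isExp` for the family
  `a c = Θ (ζ (sr c)) (ζ (tg c)) (f c)` indexed by `{c // dim c = m}`; the new `ζ c` is given by `mk'`;
  it is `(m+1)`-universal (`g_arr`, `g_nat`, `Θ_nat`, uniqueness in `mk'`). For `m = n`, `a c = gn c`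
  by `Θ_low`, so `𝒢` holds by the first hypothesis, afterwards by the second (`dim (a c) = m`).
* For `m ≥ max (n + 1) (S.2.dim + 2)` an `m`-section is a map `G ⟶ Cy Y` (`dim_tab_le`). -/

noncomputable section
namespace Vale.Agent.P259
open CategoryTheory CategoryTheory.Limits GlobExt Opposite
variable {E : GlobExt} [hE : Fact E.IsCoherator] {n : ℕ}

lemma cr_q0 (C : CylSpec E n) {Y Y' : Gpd E} (h : Y ⟶ Y') (z : (C.Cy.obj Y).Cell) :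
    (C.q0.app Y').app ((C.Cy.map h).app z) = cm h ((C.q0.app Y).app z) :=
  congrArg (fun φ => GS.Hom.app φ z) (C.q0.naturality h)

/-- Sections of `q0` over `f` on the cells of `dim < m`. -/
structure CSec (C : CylSpec E n) (m : ℕ) {G : GS} {Y : Gpd E} (f : G ⟶ (U E).obj Y)
    (ζ : G.Cell → (C.Cy.obj Y).Cell) : Prop where
  s : ∀ c, dim c < m → sr (ζ c) = ζ (sr c)
  t : ∀ c, dim c < m → tg (ζ c) = ζ (tg c)
  q : ∀ c, dim c < m → (C.q0.app Y).app (ζ c) = f.app c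

/-- Universal sections. -/
def CUniv (C : CylSpec E n) (m : ℕ) {G : GS} {R : Gpd E} (f : G ⟶ (U E).obj R)
    (ζ : G.Cell → (C.Cy.obj R).Cell) : Prop :=
  CSec C m f ζ ∧ ∀ (Y : Gpd E) (f' : G ⟶ (U E).obj Y) (ζ' : G.Cell → (C.Cy.obj Y).Cell),
    CSec C m f' ζ' →
      ∃! h : R ⟶ Y, f ≫ (U E).map h = f' ∧ ∀ c, dim c < m → (C.Cy.map h).app (ζ c) = ζ' c

section CylRepAux
variable {C : CylSpec E n} {m : ℕ} {G : GS} {Y Y' : Gpd E} {f : G ⟶ (U E).obj Y}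
  {ζ ζ' : G.Cell → (C.Cy.obj Y).Cell} {c : G.Cell}

lemma CSec.dm (h : CSec C m f ζ) (hc : dim c < m) : dim (ζ c) = dim c := by
  rw [← (C.q0.app Y).dim_app, h.q c hc, f.dim_app]

lemma CSec.mono (h : CSec C (m + 1) f ζ) : CSec C m f ζ :=
  ⟨fun c hc => h.s c (by omega), fun c hc => h.t c (by omega), fun c hc => h.q c (by omega)⟩

lemma CSec.map (h : CSec C m f ζ) (e : Y ⟶ Y') :
    CSec C m (f ≫ (U E).map e) fun c => (C.Cy.map e).app (ζ c) :=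
  ⟨fun c hc => by rw [GS.Hom.sr_app, h.s c hc], fun c hc => by rw [GS.Hom.tg_app, h.t c hc],
    fun c hc => by rw [cr_q0, h.q c hc]; rfl⟩

lemma CSec.ctx (h : CSec C m f ζ) (hm : 1 ≤ m) (hc : dim c = m) :
    Par (ζ (sr c)) (ζ (tg c)) ∧ dim (ζ (sr c)) + 1 = m ∧
      Arr (f.app c) ((C.q0.app Y).app (ζ (sr c))) ((C.q0.app Y).app (ζ (tg c))) := by
  have h1 : dim (sr c) < m := by rw [dim_sr]; omega
  have h2 : dim (tg c) < m := by rw [dim_tg]; omega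
  refine ⟨⟨by rw [h.dm h1, h.dm h2, dim_sr, dim_tg], by rw [h.s _ h1, h.s _ h2, sr_tg],
    by rw [h.t _ h1, h.t _ h2, tg_sr]⟩, by rw [h.dm h1, dim_sr]; omega, ?_⟩
  rw [h.q _ h1, h.q _ h2]
  exact (arr_self (by omega)).map f

lemma CSec.dim_th (h : CSec C m f ζ) (hn : 1 ≤ n) (hm : n ≤ m) (hc : dim c = m) :
    dim (C.Θ (ζ (sr c)) (ζ (tg c)) (f.app c)) = m := by
  obtain ⟨h1, h2, h3⟩ := h.ctx (hn.trans hm) hc
  rw [((C.Θ_bij _ _ h1 (by omega)).arr _ h3).2.2, GS.Hom.dim_app, h2]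

lemma CSec.g_arr (h : CSec C (m + 1) f ζ) (hn : 1 ≤ n) (hm : n ≤ m) (hc : dim c = m) :
    sr (C.g (ζ c)) = C.Θ (ζ (sr c)) (ζ (tg c)) (f.app c) ∧ dim (C.g (ζ c)) = m + 1 := by
  have h0 : dim c < m + 1 := by omega
  have h1 := C.g_arr (ζ c) (by rw [h.dm h0]; omega)
  rw [h.s c h0, h.t c h0, h.q c h0] at h1
  exact ⟨h1.1, by rw [h1.2.2, h.mono.dim_th hn hm hc]⟩

lemma CSec.ext (h : CSec C (m + 1) f ζ) (h' : CSec C (m + 1) f ζ') (hn : 1 ≤ n) (hm : n ≤ m)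
    (e : ∀ c, dim c < m → ζ c = ζ' c) (e' : ∀ c, dim c = m → C.g (ζ c) = C.g (ζ' c))
    (c : G.Cell) (hc : dim c < m + 1) : ζ c = ζ' c := by
  rcases (Nat.lt_succ_iff.1 hc).lt_or_eq with hc' | hc'
  · exact e c hc'
  obtain ⟨h1, h2, h3⟩ := h.mono.ctx (hn.trans hm) hc'
  obtain ⟨h4, h5⟩ := h.g_arr hn hm hc'
  refine (C.mk' _ _ _ _ h1 (by omega) h3 h4 (by rw [h5, f.dim_app, hc'])).unique
    ⟨⟨h.s c hc, h.t c hc, by rw [h2, h.dm hc, hc']⟩, h.q c hc, rfl⟩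
    ⟨⟨?_, ?_, by rw [h2, h'.dm hc, hc']⟩, h'.q c hc, (e' c hc').symm⟩
  · rw [h'.s c hc, e _ (by rw [dim_sr]; omega)]
  · rw [h'.t c hc, e _ (by rw [dim_tg]; omega)]

lemma CSec.extend (h : CSec C m f ζ) (hn : 1 ≤ n) (hm : n ≤ m)
    (γ : {c : G.Cell // dim c = m} → cell Y)
    (hγ : ∀ c, sr (γ c) = C.Θ (ζ (sr c.1)) (ζ (tg c.1)) (f.app c.1) ∧ dim (γ c) = m + 1) :
    ∃ ζ', CSec C (m + 1) f ζ' ∧ (∀ c, dim c < m → ζ' c = ζ c) ∧
      ∀ c : {c : G.Cell // dim c = m}, C.g (ζ' c.1) = γ c := by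
  have key : ∀ c : {c : G.Cell // dim c = m}, ∃ z, Arr z (ζ (sr c.1)) (ζ (tg c.1)) ∧
      (C.q0.app Y).app z = f.app c.1 ∧ C.g z = γ c := fun c => by
    obtain ⟨h1, h2, h3⟩ := h.ctx (hn.trans hm) c.2
    exact (C.mk' _ _ _ _ h1 (by omega) h3 (hγ c).1 (by rw [(hγ c).2, f.dim_app, c.2])).exists
  choose z hz using key
  obtain ⟨ζ', e1, e2⟩ : ∃ ζ' : G.Cell → (C.Cy.obj Y).Cell, (∀ c, dim c < m → ζ' c = ζ c) ∧
      ∀ c (hc : dim c = m), ζ' c = z ⟨c, hc⟩ :=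
    ⟨fun c => if hc : dim c = m then z ⟨c, hc⟩ else ζ c, fun c hc => dif_neg hc.ne,
      fun c hc => dif_pos hc⟩
  refine ⟨ζ', ⟨fun c hc => ?_, fun c hc => ?_, fun c hc => ?_⟩, e1,
    fun c => by rw [e2 c.1 c.2]; exact (hz c).2.2⟩
  · rw [e1 (sr c) (by rw [dim_sr]; omega)]
    rcases (Nat.lt_succ_iff.1 hc).lt_or_eq with hc' | hc'
    · rw [e1 c hc', h.s c hc']
    · rw [e2 c hc', (hz ⟨c, hc'⟩).1.1]
  · rw [e1 (tg c) (by rw [dim_tg]; omega)]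
    rcases (Nat.lt_succ_iff.1 hc).lt_or_eq with hc' | hc'
    · rw [e1 c hc', h.t c hc']
    · rw [e2 c hc', (hz ⟨c, hc'⟩).1.2.1]
  · rcases (Nat.lt_succ_iff.1 hc).lt_or_eq with hc' | hc'
    · rw [e1 c hc', h.q c hc']
    · rw [e2 c hc', (hz ⟨c, hc'⟩).2.1]

lemma CSec.th_nat (h : CSec C m f ζ) (hn : 1 ≤ n) (hm : n ≤ m) (hc : dim c = m) (e : Y ⟶ Y') :
    cm e (C.Θ (ζ (sr c)) (ζ (tg c)) (f.app c)) =
      C.Θ ((C.Cy.map e).app (ζ (sr c))) ((C.Cy.map e).app (ζ (tg c))) (cm e (f.app c)) := by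
  obtain ⟨h1, h2, h3⟩ := h.ctx (hn.trans hm) hc
  exact C.Θ_nat e _ _ _ h1 (by omega) h3

omit hE in
lemma cr_exp {ι : Type} (a : ι → cell Y) (h : ∀ k, 1 ≤ dim (a k)) :
    ∃ (R : Gpd E) (i : Y ⟶ R) (γ : ι → cell R), IsExp (U E) i a γ :=
  exists_isExp (discsOf (rep E)) a h

lemma CUniv.step (h : CUniv C m f ζ) (hn : 1 ≤ n) (hm : n ≤ m) :
    ∃ (R : Gpd E) (i : Y ⟶ R) (γ : {c : G.Cell // dim c = m} → cell R)
      (ζ₁ : G.Cell → (C.Cy.obj R).Cell),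
      IsExp (U E) i (fun c => C.Θ (ζ (sr c.1)) (ζ (tg c.1)) (f.app c.1)) γ ∧
        CUniv C (m + 1) (f ≫ (U E).map i) ζ₁ := by
  obtain ⟨R, i, γ, hx'⟩ := cr_exp
    (fun c : {c : G.Cell // dim c = m} => C.Θ (ζ (sr c.1)) (ζ (tg c.1)) (f.app c.1))
    (fun c => (hn.trans hm).trans (h.1.dim_th hn hm c.2).ge)
  obtain ⟨ζ₁, h1, h2, h3⟩ := (h.1.map i).extend hn hm γ fun c =>
    ⟨(hx'.arr c).1.trans (h.1.th_nat hn hm c.2 i),
      (hx'.arr c).2.trans (congrArg (· + 1) (h.1.dim_th hn hm c.2))⟩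
  refine ⟨R, i, γ, ζ₁, hx', h1, fun X f' ζ' hs => ?_⟩
  obtain ⟨e, ⟨e1, e2⟩, e3⟩ := h.2 X f' ζ' hs.mono
  obtain ⟨d, ⟨d1, d2⟩, d3⟩ := hx'.desc X e (fun c => C.g (ζ' c.1)) fun c => by
    obtain ⟨a1, a2⟩ := hs.g_arr hn hm c.2
    have hc := c.2
    refine ⟨a1.trans (Eq.trans ?_ (h.1.th_nat hn hm c.2 e).symm), ?_⟩
    · rw [e2 _ (by rw [dim_sr]; omega), e2 _ (by rw [dim_tg]; omega), ← e1]
      rfl
    · rw [a2, h.1.dim_th hn hm c.2]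
  have hg : ∀ (d : R ⟶ X) (c : {c : G.Cell // dim c = m}),
      C.g ((C.Cy.map d).app (ζ₁ c.1)) = cm d (γ c) := fun d c => by
    have hc := c.2
    rw [← C.g_nat d _ (by rw [h1.dm (by omega)]; omega), h3]
  have f1 : (f ≫ (U E).map i) ≫ (U E).map d = f' := by
    rw [Category.assoc, ← Functor.map_comp, d1, e1]
  have f2 : CSec C (m + 1) f' fun c => (C.Cy.map d).app (ζ₁ c) := f1 ▸ h1.map d
  have f3 : ∀ c, dim c < m + 1 → (C.Cy.map d).app (ζ₁ c) = ζ' c :=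
    f2.ext hs hn hm (fun c hc => by rw [h2 c hc, ← trep_map_comp, d1, e2 c hc])
      fun c hc => (hg d ⟨c, hc⟩).trans (d2 ⟨c, hc⟩)
  refine ⟨d, ⟨f1, f3⟩, fun d' hd' => ?_⟩
  have f4 : i ≫ d' = e := by
    refine e3 _ ⟨?_, fun c hc => ?_⟩
    · rw [Functor.map_comp, ← Category.assoc, hd'.1]
    · rw [trep_map_comp, ← h2 c hc, hd'.2 c (by omega)]
  refine d3 d' ⟨f4, fun c => ?_⟩
  have hc := c.2
  rw [← hd'.2 c.1 (by omega)]
  exact (hg d' c).symm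

lemma cr_base (C : CylSpec E n) (hf : Represents (U E) f) : ∃ ζ, CUniv C n f ζ := by
  obtain ⟨ζ, hζ⟩ : ∃ ζ : G.Cell → (C.Cy.obj Y).Cell,
      ∀ c, dim c < n → (C.q0.app Y).app (ζ c) = f.app c := by
    choose z hz using fun (c : G.Cell) (hc : dim c < n) =>
      C.low Y (f.app c) (by rw [f.dim_app]; exact hc)
    exact ⟨fun c => if hc : dim c < n then z c hc else (C.Cy.obj Y).bot,
      fun c hc => (congrArg (C.q0.app Y).app (dif_pos hc)).trans (hz c hc).1⟩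
  have hd : ∀ c, dim c < n → dim (ζ c) = dim c := fun c hc => by
    rw [← (C.q0.app Y).dim_app, hζ c hc, f.dim_app]
  refine ⟨ζ, ⟨fun c hc => C.low_inj Y _ _ ?_ ?_, fun c hc => C.low_inj Y _ _ ?_ ?_, hζ⟩,
    fun X f' ζ' hs => ?_⟩
  · rw [dim_sr, hd c hc]
    omega
  · rw [← GS.Hom.sr_app, hζ c hc, hζ _ (by rw [dim_sr]; omega), f.sr_app]
  · rw [dim_tg, hd c hc]
    omega
  · rw [← GS.Hom.tg_app, hζ c hc, hζ _ (by rw [dim_tg]; omega), f.tg_app]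
  · obtain ⟨e, e1, e2⟩ := hf X f'
    refine ⟨e, ⟨e1, fun c hc => C.low_inj X _ _ ?_ ?_⟩, fun e' he' => e2 e' he'.1⟩
    · rw [GS.Hom.dim_app, hd c hc]
      exact hc
    · rw [cr_q0, hζ c hc, hs.q c hc, ← e1]
      rfl

lemma CUniv.represents (h : CUniv C m f ζ) (hm : ∀ c : G.Cell, dim c < m) :
    ∃ u : G ⟶ C.Cy.obj Y, Represents C.Cy u := by
  refine ⟨⟨ζ, fun c => h.1.dm (hm c), fun c => h.1.s c (hm c), fun c => h.1.t c (hm c)⟩,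
    fun X φ => ?_⟩
  obtain ⟨e, ⟨-, e2⟩, e3⟩ := h.2 X (φ ≫ C.q0.app X) φ.app
    ⟨fun c _ => φ.sr_app c, fun c _ => φ.tg_app c, fun _ _ => rfl⟩
  refine ⟨e, GS.hom_ext fun c => e2 c (hm c), fun e' he' => ?_⟩
  have he : ∀ c, (C.Cy.map e').app (ζ c) = φ.app c :=
    fun c => congrArg (fun ψ => GS.Hom.app ψ c) he'
  refine e3 e' ⟨GS.hom_ext fun c => ?_, fun c _ => he c⟩
  rw [GS.comp_app, GS.comp_app, ← he, cr_q0, h.1.q c (hm c)]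

end CylRepAux

theorem CylSpec.repr (hn : 1 ≤ n) (C : CylSpec E n) (S : Theta) (𝒢 : Gpd E → Prop)
    (h1 : ∀ (B : Gpd E) (i : (rep E).obj S ⟶ B)
      (γ : {c : (tabGS.obj S).Cell // dim c = n} → cell B),
      IsExp (U E) i (fun c => (gn E S).app c.1) γ → 𝒢 B)
    (h2 : ∀ (A A' : Gpd E) (i : A ⟶ A') (ι : Type) (a : ι → cell A) (γ : ι → cell A'),
      IsExp (U E) i a γ → (∀ k, n + 1 ≤ dim (a k)) → 𝒢 A → 𝒢 A') :
    ∃ (R : Gpd E) (u : tabGS.obj S ⟶ C.Cy.obj R), 𝒢 R ∧ Represents C.Cy u := by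
  have key : ∀ k : ℕ, ∃ (R : Gpd E) (f : tabGS.obj S ⟶ (U E).obj R)
      (ζ : (tabGS.obj S).Cell → (C.Cy.obj R).Cell), 𝒢 R ∧ CUniv C (n + k + 1) f ζ := by
    intro k
    induction k with
    | zero =>
      obtain ⟨ζ, hζ⟩ := cr_base C (gn_represents (E := E) S)
      obtain ⟨R, i, γ, ζ₁, hx, hu⟩ := hζ.step hn le_rfl
      refine ⟨R, _, ζ₁, h1 R i γ ?_, hu⟩
      have e : (fun c : {c : (tabGS.obj S).Cell // dim c = n} =>
          C.Θ (ζ (sr c.1)) (ζ (tg c.1)) ((gn E S).app c.1)) = fun c => (gn E S).app c.1 :=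
        funext fun c => C.Θ_low _ _ _ (hζ.1.ctx hn c.2).2.1
      exact e ▸ hx
    | succ k ih =>
      obtain ⟨R, f, ζ, hR, hζ⟩ := ih
      obtain ⟨R', i, γ, ζ₁, hx, hu⟩ := hζ.step hn (by omega)
      refine ⟨R', _, ζ₁, h2 R R' i _ _ γ hx (fun c => ?_) hR, hu⟩
      rw [hζ.1.dim_th hn (by omega) c.2]
      omega
  obtain ⟨R, f, ζ, hR, hζ⟩ := key (S.2.dim + 1)
  obtain ⟨u, hu⟩ := hζ.represents fun c => by
    have := dim_tab_le S c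
    omega
  exact ⟨R, u, hR, hu⟩

theorem exists_cylData (hn : 1 ≤ n) : Nonempty (CylData E n) :=
  (exists_cylSpec E hn).elim fun C => ⟨⟨C.Cy, C.q0, C.q1, C.pathAx hn, C.repr hn⟩⟩

end Vale.Agent.P259
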