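import Vale.Agent.P259.Tab

/-! P259: splitting the cells of `dim n` of a globular sum gives a globular sum. Split points are
maps into a globular set `sp H`. -/

noncomputable section
namespace Vale.Agent.P259
open CategoryTheory CategoryTheory.Limits

lemma down_ind {G : GS} (f : G.Cell → G.Cell) (hf : ∀ x, dim (f x) = dim x - 1) (k : ℕ)
    {P : G.Cell → Prop} (h0 : ∀ x, dim x ≤ k → P x) (h1 : ∀ x, k < dim x → P (f x) → P x)
    (x : G.Cell) : P x := by
  induction h : dim x generalizing x with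
  | zero => exact h0 x (by omega)
  | succ m ih =>
    by_cases hk : dim x ≤ k
    · exact h0 x hk
    · exact h1 x (by omega) (ih _ (by rw [hf]; omega))

lemma SpPt.src_e {n : ℕ} {G H : GS} {δ e : G.Cell → H.Cell} (h : SpPt n δ e) {c : G.Cell}
    (hc : n < dim c) : src n (e c) = tg (δ (src n c)) ∧ tgt n (e c) = sr (δ (tgt n c)) := by
  constructor
  · revert hc
    refine down_ind sr dim_sr (n + 1) (P := fun c => n < dim c → src n (e c) = tg (δ (src n c)))
      (fun c h1 h2 => ?_) (fun c h1 ih _ => ?_) c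
    · have h3 : dim c = n + 1 := by omega
      rw [src_eq_sr h3, src_eq_sr ((h.dim_e c (by omega)).trans h3), (h.se' c h3).1]
    · rw [← src_sr (x := c) (by omega), ← ih (by rw [dim_sr]; omega),
        ← (h.se c (by omega) (by omega)).1, src_sr (by rw [h.dim_e c (by omega)]; omega)]
  · revert hc
    refine down_ind tg dim_tg (n + 1) (P := fun c => n < dim c → tgt n (e c) = sr (δ (tgt n c)))
      (fun c h1 h2 => ?_) (fun c h1 ih _ => ?_) c
    · have h3 : dim c = n + 1 := by omega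
      rw [tgt_eq_tg h3, tgt_eq_tg ((h.dim_e c (by omega)).trans h3), (h.se' c h3).2]
    · rw [← tgt_tg (x := c) (by omega), ← ih (by rw [dim_tg]; omega),
        ← (h.se c (by omega) (by omega)).2, tgt_tg (by rw [h.dim_e c (by omega)]; omega)]

lemma SpPt.map {n : ℕ} {G H K : GS} {δ e : G.Cell → H.Cell} (h : SpPt n δ e) (f : H ⟶ K) :
    SpPt n (fun c => f.app (δ c)) (fun c => f.app (e c)) where
  dim_e c hc := by rw [f.dim_app, h.dim_e c hc]
  dim_δ c hc := by rw [f.dim_app, h.dim_δ c hc]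
  se c h1 h2 := by rw [f.sr_app, f.tg_app, (h.se c h1 h2).1, (h.se c h1 h2).2]; exact ⟨rfl, rfl⟩
  sδ c hc := by
    rw [f.sr_app, f.sr_app, f.tg_app, (h.sδ c hc).1, (h.sδ c hc).2]; exact ⟨rfl, rfl⟩
  se' c hc := by
    rw [f.sr_app, f.tg_app, f.tg_app, f.sr_app, (h.se' c hc).1, (h.se' c hc).2]; exact ⟨rfl, rfl⟩

/-- Cells of the split globular set, `n = ν + 1`. -/
@[ext] structure SpC (ν : ℕ) (H : GS) where
  s : H.Cell
  e : H.Cell
  t : H.Cell
  lo : dim e ≤ ν → s = e ∧ t = e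
  mid : dim e = ν + 1 → s = t
  ds : ν < dim e → dim s = ν + 2 ∧ dim t = ν + 2 ∧ tg s = src (ν + 1) e
  up : ν + 1 < dim e → sr t = tgt (ν + 1) e

namespace SpC
variable {ν : ℕ} {G H K : GS}

/-- Low cells. -/
def mkLo (e : H.Cell) (h : dim e ≤ ν) : SpC ν H :=
  ⟨e, e, e, fun _ => ⟨rfl, rfl⟩, fun _ => rfl, fun _ => by omega, fun _ => by omega⟩

/-- Split cells. -/
def mkMid (d : H.Cell) (h : dim d = ν + 2) : SpC ν H :=
  ⟨d, tg d, d, fun h' => by rw [dim_tg] at h'; omega, fun _ => rfl,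
    fun _ => ⟨h, h, (src_of_le (by rw [dim_tg]; omega)).symm⟩,
    fun h' => by rw [dim_tg] at h'; omega⟩

/-- High cells. -/
def mkUp (s e t : H.Cell) (he : ν + 1 < dim e) (hs : dim s = ν + 2) (ht : dim t = ν + 2)
    (h1 : tg s = src (ν + 1) e) (h2 : sr t = tgt (ν + 1) e) : SpC ν H :=
  ⟨s, e, t, fun _ => by omega, fun _ => by omega, fun _ => ⟨hs, ht, h1⟩, fun _ => h2⟩

variable (x : SpC ν H)

lemma e_mid (h : dim x.e = ν + 1) : x.e = tg x.s :=
  (src_of_le h.le).symm.trans (x.ds (by omega)).2.2.symm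

lemma ext1 {x y : SpC ν H} (hd : dim x.e = dim y.e) (he : dim x.e ≠ ν + 1 → x.e = y.e)
    (hs : ν < dim x.e → x.s = y.s) (ht : ν + 1 < dim x.e → x.t = y.t) : x = y := by
  rcases lt_trichotomy (dim x.e) (ν + 1) with h | h | h
  · have e := he h.ne
    exact SpC.ext (by rw [(x.lo (by omega)).1, (y.lo (by omega)).1, e]) e
      (by rw [(x.lo (by omega)).2, (y.lo (by omega)).2, e])
  · have e := hs (by omega)
    exact SpC.ext e (by rw [x.e_mid h, y.e_mid (hd ▸ h), e]) (by rw [← x.mid h, ← y.mid (hd ▸ h), e])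
  · exact SpC.ext (hs (by omega)) (he h.ne') (ht h)

lemma ext2 {x y : SpC ν H} (hd : dim x.e = dim y.e) (he : dim x.e ≠ ν + 1 → x.e = y.e)
    (hs : ν + 1 < dim x.e → x.s = y.s) (ht : ν < dim x.e → x.t = y.t) : x = y := by
  refine ext1 hd he (fun h => ?_) fun h => ht (by omega)
  by_cases h' : dim x.e = ν + 1
  · rw [x.mid h', y.mid (hd ▸ h'), ht h]
  · exact hs (by omega)

/-- Source. -/
def sF : SpC ν H :=
  if h : dim x.e ≤ ν + 1 then mkLo (sr x.e) (by rw [dim_sr]; omega)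
  else if h' : dim x.e = ν + 2 then mkMid x.s (x.ds (by omega)).1
  else mkUp x.s (sr x.e) x.t (by rw [dim_sr]; omega) (x.ds (by omega)).1 (x.ds (by omega)).2.1
    ((x.ds (by omega)).2.2.trans (src_sr (by omega)).symm)
    ((x.up (by omega)).trans (tgt_sr (by omega)).symm)

/-- Target. -/
def tF : SpC ν H :=
  if h : dim x.e ≤ ν + 1 then mkLo (tg x.e) (by rw [dim_tg]; omega)
  else if h' : dim x.e = ν + 2 then mkMid x.t (x.ds (by omega)).2.1
  else mkUp x.s (tg x.e) x.t (by rw [dim_tg]; omega) (x.ds (by omega)).1 (x.ds (by omega)).2.1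
    ((x.ds (by omega)).2.2.trans (src_tg (by omega)).symm)
    ((x.up (by omega)).trans (tgt_tg (by omega)).symm)

lemma sF_e : x.sF.e = sr x.e := by
  unfold sF
  split_ifs with h h'
  exacts [rfl, (x.ds (by omega)).2.2.trans (src_eq_sr h'), rfl]
lemma sF_s (h : ν + 1 < dim x.e) : x.sF.s = x.s := by
  unfold sF
  split_ifs
  exacts [by omega, rfl, rfl]
lemma sF_t (h : ν + 2 < dim x.e) : x.sF.t = x.t := by
  unfold sF
  split_ifs
  exacts [by omega, by omega, rfl]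
lemma tF_e (h : dim x.e ≠ ν + 2) : x.tF.e = tg x.e := by
  unfold tF
  split_ifs <;> rfl
lemma tF_e' (h : dim x.e = ν + 2) : x.tF.e = tg x.t := by
  unfold tF
  split_ifs
  exacts [by omega, rfl]
lemma tF_s (h : ν + 2 < dim x.e) : x.tF.s = x.s := by
  unfold tF
  split_ifs
  exacts [by omega, by omega, rfl]
lemma tF_t (h : ν + 1 < dim x.e) : x.tF.t = x.t := by
  unfold tF
  split_ifs
  exacts [by omega, rfl, rfl]
lemma dim_sF : dim x.sF.e = dim x.e - 1 := by rw [sF_e, dim_sr]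
lemma dim_tF : dim x.tF.e = dim x.e - 1 := by
  by_cases h : dim x.e = ν + 2
  · rw [tF_e' x h, dim_tg, (x.ds (by omega)).2.1, h]
  · rw [tF_e x h, dim_tg]
lemma par_tF : Par x.tF.e (tg x.e) := by
  by_cases h : dim x.e = ν + 2
  · rw [tF_e' x h, ← tgt_eq_tg h, ← x.up (by omega)]
    exact (par_sr_tg _).symm
  · rw [tF_e x h]
    exact Par.refl _

end SpC

/-- The split globular set. -/
@[reducible] def sp (ν : ℕ) (H : GS) : GS where
  Cell := SpC ν H
  bot := .mkLo H.bot (by simp)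
  dimF x := dim x.e
  sF := SpC.sF
  tF := SpC.tF
  dimF_bot := dim_bot
  eq_botF x h := SpC.ext1 (h.trans dim_bot.symm) (fun _ => eq_bot h) (by omega) (by omega)
  dimF_s := SpC.dim_sF
  dimF_t := SpC.dim_tF
  ssF x := by
    have h1 := x.dim_sF
    have h2 := x.dim_tF
    have h3 := x.sF.dim_sF
    refine SpC.ext1 (by rw [h3, x.tF.dim_sF, h1, h2]) (fun _ => ?_) (fun h => ?_) fun h => ?_
    · rw [SpC.sF_e, SpC.sF_e, SpC.sF_e, x.par_tF.2.1, sr_tg]
    · rw [SpC.sF_s _ (by omega), SpC.sF_s _ (by omega), SpC.sF_s _ (by omega), x.tF_s (by omega)]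
    · rw [SpC.sF_t _ (by omega), SpC.sF_t _ (by omega), SpC.sF_t _ (by omega), x.tF_t (by omega)]
  ttF x := by
    have h1 := x.dim_sF
    have h2 := x.dim_tF
    have h3 := x.sF.dim_tF
    refine SpC.ext2 (by rw [h3, x.tF.dim_tF, h1, h2]) (fun _ => ?_) (fun h => ?_) fun h => ?_
    · rw [SpC.tF_e _ (by omega), SpC.tF_e _ (by omega), SpC.sF_e, x.par_tF.2.2, tg_sr]
    · rw [SpC.tF_s _ (by omega), SpC.sF_s _ (by omega), SpC.tF_s _ (by omega), x.tF_s (by omega)]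
    · rw [SpC.tF_t _ (by omega), SpC.sF_t _ (by omega), SpC.tF_t _ (by omega), x.tF_t (by omega)]

namespace SpC
variable {ν k : ℕ} {G H K : GS}

lemma dim_eq (x : (sp ν H).Cell) : dim x = dim x.e := rfl

lemma src_e (x : (sp ν H).Cell) : (src k x).e = src k x.e :=
  down_ind (G := sp ν H) sr dim_sr k (P := fun x => (src k x).e = src k x.e)
    (fun x h => by rw [src_of_le h, src_of_le (x := x.e) h])
    (fun x h ih => by rw [← src_sr h, ih, ← src_sr (x := x.e) h, ← x.sF_e]; rfl) x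
lemma src_s (hk : ν < k) (x : (sp ν H).Cell) : (src k x).s = x.s :=
  down_ind (G := sp ν H) sr dim_sr k (P := fun x => (src k x).s = x.s) (fun x h => by rw [src_of_le h])
    (fun x h ih => by rw [← src_sr h, ih]; exact x.sF_s (by rw [← dim_eq]; omega)) x
lemma src_t (hk : ν + 1 < k) (x : (sp ν H).Cell) : (src k x).t = x.t :=
  down_ind (G := sp ν H) sr dim_sr k (P := fun x => (src k x).t = x.t) (fun x h => by rw [src_of_le h])
    (fun x h ih => by rw [← src_sr h, ih]; exact x.sF_t (by rw [← dim_eq]; omega)) x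
lemma tgt_s (hk : ν + 1 < k) (x : (sp ν H).Cell) : (tgt k x).s = x.s :=
  down_ind (G := sp ν H) tg dim_tg k (P := fun x => (tgt k x).s = x.s) (fun x h => by rw [tgt_of_le h])
    (fun x h ih => by rw [← tgt_tg h, ih]; exact x.tF_s (by rw [← dim_eq]; omega)) x
lemma tgt_t (hk : ν < k) (x : (sp ν H).Cell) : (tgt k x).t = x.t :=
  down_ind (G := sp ν H) tg dim_tg k (P := fun x => (tgt k x).t = x.t) (fun x h => by rw [tgt_of_le h])
    (fun x h ih => by rw [← tgt_tg h, ih]; exact x.tF_t (by rw [← dim_eq]; omega)) x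
lemma tgt_e (hk : k ≠ ν + 1) (x : (sp ν H).Cell) : (tgt k x).e = tgt k x.e := by
  refine down_ind (G := sp ν H) tg dim_tg k (P := fun x => (tgt k x).e = tgt k x.e)
    (fun x h => by rw [tgt_of_le h, tgt_of_le (x := x.e) h]) (fun x h ih => ?_) x
  rw [← tgt_tg h, ih, ← tgt_tg (x := x.e) h]
  by_cases h' : dim x.e = ν + 2
  · exact x.par_tF.tgt_eq (by rw [x.dim_tF]; rw [dim_eq] at h; omega)
  · exact congrArg _ (x.tF_e h')

lemma src_es (hk : k ≤ ν) (x : SpC ν H) : src k x.e = src k x.s := by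
  by_cases h : dim x.e ≤ ν
  · rw [(x.lo h).1]
  · obtain ⟨h1, -, h2⟩ := x.ds (by omega)
    rw [← src_src (j := ν + 1) _ (by omega), ← h2, src_tg (by omega)]
lemma tgt_et (hk : k ≤ ν) (x : SpC ν H) : tgt k x.e = tgt k x.t := by
  rcases lt_trichotomy (dim x.e) (ν + 1) with h | h | h
  · rw [(x.lo (by omega)).2]
  · rw [x.e_mid h, x.mid h, tgt_tg (by rw [(x.ds (by omega)).2.1]; omega)]
  · rw [← tgt_tgt (j := ν + 1) _ (by omega), ← x.up h,
      tgt_sr (by rw [(x.ds (by omega)).2.1]; omega)]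

lemma glue_lo (hk : k ≤ ν) {x y : (sp ν H).Cell} (hy : k ≤ dim y) :
    src k y = tgt k x ↔ src k y.s = tgt k x.t := by
  rw [← src_es hk, ← tgt_et hk, ← src_e, ← tgt_e (by omega)]
  have := dim_src hy
  rw [dim_eq] at this
  exact ⟨congrArg _, fun h => ext1 (congrArg _ h) (fun _ => h) (by omega) (by omega)⟩
lemma glue_mid {x y : (sp ν H).Cell} (hx : ν < dim x) (hy : ν < dim y) :
    src (ν + 1) y = tgt (ν + 1) x ↔ y.s = x.t := by
  have h1 : dim (src (ν + 1) y).e = ν + 1 := dim_src hy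
  have h2 : dim (tgt (ν + 1) x).e = ν + 1 := dim_tgt hx
  rw [← src_s ν.lt_succ_self y, ← tgt_t ν.lt_succ_self x, ← SpC.mid _ h2]
  exact ⟨congrArg _, fun h => ext1 (h1.trans h2.symm) (by omega) (fun _ => h) (by omega)⟩
lemma glue_up (hk : ν + 1 < k) {x y : (sp ν H).Cell} :
    src k y = tgt k x ↔ y.s = x.s ∧ src k y.e = tgt k x.e ∧ y.t = x.t := by
  rw [← src_s (k := k) (by omega) y, ← tgt_s hk x, ← src_e, ← tgt_e hk.ne', ← src_t hk y,
    ← tgt_t (k := k) (by omega) x]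
  exact SpC.ext_iff

/-- Action of maps on cells. -/
def map (φ : H ⟶ K) (x : SpC ν H) : SpC ν K where
  s := φ.app x.s
  e := φ.app x.e
  t := φ.app x.t
  lo h := by rw [φ.dim_app] at h; rw [(x.lo h).1, (x.lo h).2]; exact ⟨rfl, rfl⟩
  mid h := by rw [φ.dim_app] at h; rw [x.mid h]
  ds h := by
    rw [φ.dim_app] at h
    rw [φ.dim_app, φ.dim_app, φ.tg_app, ← app_src, (x.ds h).2.2]
    exact ⟨(x.ds h).1, (x.ds h).2.1, rfl⟩
  up h := by rw [φ.dim_app] at h; rw [φ.sr_app, ← app_tgt, x.up h]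

end SpC

variable {ν : ℕ} {G H K : GS}

/-- Functoriality of `sp`. -/
def spMap (ν : ℕ) (φ : H ⟶ K) : sp ν H ⟶ sp ν K where
  app := SpC.map φ
  dim_app x := φ.dim_app x.e
  sr_app x := by
    have h1 : dim (SpC.map φ x).e = dim x.e := φ.dim_app _
    have h2 := (SpC.map φ x).dim_sF
    refine SpC.ext1 (x := (SpC.map φ x).sF) (y := SpC.map φ x.sF)
      (h2.trans ((φ.dim_app _).trans (h1 ▸ x.dim_sF)).symm) (fun _ => ?_) (fun h => ?_) fun h => ?_
    · exact (SpC.sF_e _).trans ((φ.sr_app _).trans (congrArg φ.app x.sF_e.symm))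
    · exact (SpC.sF_s _ (by omega)).trans (congrArg φ.app (x.sF_s (by omega)).symm)
    · exact (SpC.sF_t _ (by omega)).trans (congrArg φ.app (x.sF_t (by omega)).symm)
  tg_app x := by
    have h1 : dim (SpC.map φ x).e = dim x.e := φ.dim_app _
    have h2 := (SpC.map φ x).dim_tF
    refine SpC.ext2 (x := (SpC.map φ x).tF) (y := SpC.map φ x.tF)
      (h2.trans ((φ.dim_app _).trans (h1 ▸ x.dim_tF)).symm) (fun _ => ?_) (fun h => ?_) fun h => ?_
    · exact (SpC.tF_e _ (by omega)).trans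
        ((φ.tg_app _).trans (congrArg φ.app (x.tF_e (by omega)).symm))
    · exact (SpC.tF_s _ (by omega)).trans (congrArg φ.app (x.tF_s (by omega)).symm)
    · exact (SpC.tF_t _ (by omega)).trans (congrArg φ.app (x.tF_t (by omega)).symm)

lemma spPt_of_map (ξ : G ⟶ sp ν H) : SpPt (ν + 1) (fun c => (ξ.app c).s) fun c => (ξ.app c).e := by
  have hd : ∀ c, dim (ξ.app c).e = dim c := ξ.dim_app
  have hs : ∀ c, ξ.app (sr c) = (ξ.app c).sF := fun c => (ξ.sr_app c).symm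
  have ht : ∀ c, ξ.app (tg c) = (ξ.app c).tF := fun c => (ξ.tg_app c).symm
  refine ⟨fun c _ => hd c, fun c h => ((ξ.app c).ds (by rw [hd]; omega)).1, fun c _ h => ?_,
    fun c h => ?_, fun c h => ?_⟩
  · rw [hs, ht, SpC.sF_e, SpC.tF_e _ (by rwa [hd])]
    exact ⟨rfl, rfl⟩
  · rw [hs, ht, SpC.sF_e, SpC.tF_e _ (by rw [hd]; omega), (ξ.app c).e_mid ((hd c).trans h), sr_tg,
      tg_sr]
    exact ⟨rfl, rfl⟩
  · have h' := (hd c).trans h
    rw [hs, ht, SpC.sF_s _ (by omega), SpC.mid (SpC.tF _) (by rw [SpC.dim_tF]; omega),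
      SpC.tF_t _ (by omega), ((ξ.app c).ds (by omega)).2.2, (ξ.app c).up (by omega),
      src_eq_sr h', tgt_eq_tg h']
    exact ⟨rfl, rfl⟩

lemma exists_map_of_spPt {δ e : G.Cell → H.Cell} (h : SpPt (ν + 1) δ e) : ∃ ξ : G ⟶ sp ν H,
    (∀ c, dim c = ν + 1 → (ξ.app c).s = δ c) ∧ ∀ c, dim c ≠ ν + 1 → (ξ.app c).e = e c := by
  have key : ∀ c, ∃ x : SpC ν H, dim x.e = dim c ∧ (dim c ≠ ν + 1 → x.e = e c) ∧
      (ν < dim c → x.s = δ (src (ν + 1) c) ∧ x.t = δ (tgt (ν + 1) c)) := by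
    intro c
    rcases lt_trichotomy (dim c) (ν + 1) with hc | hc | hc
    · have h1 := h.dim_e c hc.ne
      exact ⟨.mkLo (e c) (by omega), h1, fun _ => rfl, by omega⟩
    · have h1 := h.dim_δ c hc
      exact ⟨.mkMid (δ c) h1, (dim_tg _).trans (by omega), by omega,
        fun _ => ⟨congrArg δ (src_of_le hc.le).symm, congrArg δ (tgt_of_le hc.le).symm⟩⟩
    · have h1 := h.dim_e c hc.ne'
      exact ⟨.mkUp _ (e c) _ (by omega) (h.dim_δ _ (dim_src hc.le)) (h.dim_δ _ (dim_tgt hc.le))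
        (h.src_e hc).1.symm (h.src_e hc).2.symm, h1, fun _ => rfl, fun _ => ⟨rfl, rfl⟩⟩
  choose f hd he hs using key
  have hm : ∀ c, dim c = ν + 1 → (f c).s = δ c := fun c hc =>
    (hs c (by omega)).1.trans (congrArg δ (src_of_le hc.le))
  refine ⟨⟨f, hd, fun c => ?_, fun c => ?_⟩, hm, he⟩
  · have h1 := (f c).dim_sF
    have h2 := dim_sr c
    have h3 := hd c
    refine SpC.ext1 (x := (f c).sF) (by rw [h1, hd, hd, h2]) (fun _ => ?_) (fun _ => ?_) fun _ => ?_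
    · rw [SpC.sF_e, he (sr c) (by omega)]
      by_cases hc : dim c = ν + 1
      · rw [(f c).e_mid (by omega), hm c hc, sr_tg, (h.sδ c hc).1]
      · rw [he c hc, (h.se c hc (by omega)).1]
    · rw [SpC.sF_s _ (by omega), (hs _ (by omega)).1, (hs _ (by omega)).1, src_sr (by omega)]
    · rw [SpC.sF_t _ (by omega), (hs _ (by omega)).2, (hs _ (by omega)).2, tgt_sr (by omega)]
  · have h1 := (f c).dim_tF
    have h2 := dim_tg c
    have h3 := hd c
    refine SpC.ext2 (x := (f c).tF) (by rw [h1, hd, hd, h2]) (fun _ => ?_) (fun _ => ?_) fun _ => ?_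
    · rw [SpC.tF_e _ (by omega), he (tg c) (by omega)]
      by_cases hc : dim c = ν + 1
      · rw [(f c).e_mid (by omega), hm c hc, ← tg_sr, (h.sδ c hc).2]
      · rw [he c hc, (h.se c hc (by omega)).2]
    · rw [SpC.tF_s _ (by omega), (hs _ (by omega)).1, (hs _ (by omega)).1, src_tg (by omega)]
    · rw [SpC.tF_t _ (by omega), (hs _ (by omega)).2, (hs _ (by omega)).2, tgt_tg (by omega)]

/-- The shape of the image of the last cell. -/
inductive SpShape (ν i : ℕ) : ∀ {l : ℕ} (T : Tab l), SpC ν (tabGS.obj T.obj) → Prop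
  | lo {l : ℕ} (T : Tab l) (x : SpC ν (tabGS.obj T.obj)) : i ≤ ν → x.t = lastT T → SpShape ν i T x
  | up (T : Tab i) (h : ν < i) (x : SpC ν (tabGS.obj (T.snoc ν (ν + 1) h ν.lt_succ_self).obj)) :
      x.t = lastT _ → x.e = (tabGS.map (initInc T ν (ν + 1) h ν.lt_succ_self)).app (lastT T) →
      SpShape ν i (T.snoc ν (ν + 1) h ν.lt_succ_self) x

lemma SpShape.last {i l : ℕ} {T : Tab l} {x : SpC ν (tabGS.obj T.obj)} (h : SpShape ν i T x) :
    x.t = lastT T := by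
  cases h <;> assumption

lemma sp_finish (i : ℕ) {l : ℕ} (T : Tab l) (hl : l = if i < ν then i else ν + 1) :
    ∃ (l' : ℕ) (T' : Tab l') (ι : tabGS.obj T.obj ⟶ tabGS.obj T'.obj) (x : SpC ν (tabGS.obj T'.obj)),
      dim x.e = i + 1 ∧ x.s = ι.app (lastT T) ∧ SpShape ν i T' x ∧
      ∀ (H : GS) (φ : tabGS.obj T.obj ⟶ H) (y : SpC ν H), dim y.e = i + 1 → y.s = φ.app (lastT T) →
        ∃ φ', ι ≫ φ' = φ ∧ x.map φ' = y := by
  rcases lt_trichotomy i ν with h | rfl | h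
  · obtain rfl := hl.trans (if_pos h)
    refine ⟨_, T, 𝟙 _, .mkLo (lastT T) h, rfl, rfl, .lo _ _ h.le rfl, fun H φ y h1 h2 =>
      ⟨φ, Category.id_comp _, SpC.ext h2.symm ?_ ?_⟩⟩
    · exact h2.symm.trans (y.lo (by omega)).1
    · exact h2.symm.trans ((y.lo (by omega)).1.trans (y.lo (by omega)).2.symm)
  · obtain rfl := hl.trans (if_neg (lt_irrefl _))
    refine ⟨_, T, 𝟙 _, .mkMid (lastT T) rfl, dim_tg (lastT T), rfl, .lo _ _ le_rfl rfl, fun H φ y h1 h2 =>
      ⟨φ, Category.id_comp _, SpC.ext h2.symm ?_ (h2.symm.trans (y.mid h1))⟩⟩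
    exact (φ.tg_app _).symm.trans ((congrArg tg h2.symm).trans (y.e_mid h1).symm)
  · obtain rfl := hl.trans (if_neg h.not_gt)
    have g1 := tab_glue T ν i ν.lt_succ_self h
    have g2 := tab_glue (T.snoc ν i ν.lt_succ_self h) ν (ν + 1) h ν.lt_succ_self
    refine ⟨_, _, tabGS.map (initInc T ν i ν.lt_succ_self h) ≫
      tabGS.map (initInc _ ν (ν + 1) h ν.lt_succ_self), .mkUp _ _ (lastT _) (by simpa using h)
        (by simp) rfl ?_ ((src_eq_sr rfl).symm.trans g2), by simp [SpC.mkUp], rfl,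
        .up _ h _ rfl rfl, fun H φ y h1 h2 => ?_⟩
    · rw [← app_src, g1, app_tgt, tgt_eq_tg (by simp)]
    · obtain ⟨d1, d2, d3⟩ := y.ds (by omega)
      obtain ⟨φ1, ⟨a1, a2⟩, -⟩ := tab_snoc T ν i ν.lt_succ_self h H φ y.e h1
        (by rw [← h2, tgt_eq_tg d1, d3])
      obtain ⟨φ2, ⟨b1, b2⟩, -⟩ := tab_snoc _ ν (ν + 1) h ν.lt_succ_self H φ1 y.t d2
        (by rw [a2, src_eq_sr d2, y.up (by omega)])
      have e : (tabGS.map (initInc T ν i ν.lt_succ_self h) ≫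
          tabGS.map (initInc _ ν (ν + 1) h ν.lt_succ_self)) ≫ φ2 = φ := by
        rw [Category.assoc, b1, a1]
      exact ⟨φ2, e, SpC.ext ((congrArg (GS.Hom.app · (lastT T)) e).trans h2.symm)
        ((congrArg (GS.Hom.app · (lastT _)) b1).trans a2) b2⟩

lemma sp_dim_s {i : ℕ} (y : SpC ν H) (h : dim y.e = i + 1) :
    dim y.s = (if i < ν then i else ν + 1) + 1 := by
  split_ifs with hi
  · rw [(y.lo (by omega)).1, h]
  · exact (y.ds (by omega)).1

lemma sp_ext {l j i : ℕ} (hl : j < l) (hi : j < i) {l' : ℕ} {T : Tab l'}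
    {x : (sp ν (tabGS.obj T.obj)).Cell} (hx : dim x = l + 1) (h : SpShape ν l T x) :
    ∃ (l'' : ℕ) (T' : Tab l'') (ι : tabGS.obj T.obj ⟶ tabGS.obj T'.obj)
      (x' : (sp ν (tabGS.obj T'.obj)).Cell), dim x' = i + 1 ∧
      src (j + 1) x' = tgt (j + 1) ((spMap ν ι).app x) ∧ SpShape ν i T' x' ∧
      ∀ (H : GS) (φ : tabGS.obj T.obj ⟶ H) (y : (sp ν H).Cell), dim y = i + 1 →
        src (j + 1) y = tgt (j + 1) ((spMap ν φ).app x) →
        ∃ φ', ι ≫ φ' = φ ∧ (spMap ν φ').app x' = y := by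
  have hx' : dim x.e = l + 1 := hx
  rcases lt_trichotomy j ν with hj | rfl | hj
  · have h1 : j < l' := by
      have e : dim x.t = l' + 1 := congrArg dim h.last
      by_cases h2 : dim x.e ≤ ν
      · rw [(x.lo h2).2] at e
        omega
      · rw [(x.ds (by omega)).2.1] at e
        omega
    have h2 : j < if i < ν then i else ν + 1 := by split_ifs <;> omega
    obtain ⟨l'', T', ι, x', a1, a2, a3, a4⟩ := sp_finish i (T.snoc j _ h1 h2) rfl
    refine ⟨l'', T', tabGS.map (initInc T j _ h1 h2) ≫ ι, x', a1,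
      (SpC.glue_lo hj (a1.symm ▸ (by omega) : j + 1 ≤ dim x'.e)).2 ?_, a3, fun H φ y b1 b2 => ?_⟩
    · rw [a2, ← app_src, tab_glue, app_tgt, ← h.last]
      rfl
    · rw [SpC.glue_lo hj (by omega)] at b2
      obtain ⟨φ1, ⟨c1, c2⟩, -⟩ := tab_snoc T j _ h1 h2 H φ y.s (sp_dim_s y b1) (h.last ▸ b2)
      obtain ⟨φ', d1, d2⟩ := a4 H φ1 y b1 c2.symm
      exact ⟨φ', by rw [Category.assoc, d1, c1], d2⟩
  · have h1 : l' = j + 1 := by
      have e : dim x.t = l' + 1 := congrArg dim h.last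
      rw [(x.ds (by omega)).2.1] at e
      omega
    obtain ⟨l'', T', ι, x', a1, a2, a3, a4⟩ := sp_finish (ν := j) i T (by rw [if_neg hi.not_gt, h1])
    refine ⟨l'', T', ι, x', a1, (SpC.glue_mid (by rw [GS.Hom.dim_app]; omega)
      (a1.symm ▸ (by omega) : j < dim x'.e)).2 (a2.trans (congrArg ι.app h.last.symm)), a3,
      fun H φ y b1 b2 => a4 H φ y b1 ?_⟩
    rw [SpC.glue_mid (by rw [GS.Hom.dim_app]; omega) (by omega)] at b2
    exact b2.trans (congrArg φ.app h.last)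
  · cases h with
    | lo _ _ h => omega
    | up T h x ht he =>
      have hi' := hj.trans hi
      have g1 := tab_glue T j i hl hi
      have g2 := tab_glue (T.snoc j i hl hi) ν (ν + 1) hi' ν.lt_succ_self
      obtain ⟨ι, ⟨a1, a2⟩, -⟩ := tab_snoc T ν (ν + 1) h ν.lt_succ_self _
        (tabGS.map (initInc T j i hl hi) ≫ tabGS.map (initInc _ ν (ν + 1) hi' ν.lt_succ_self))
        (lastT ((T.snoc j i hl hi).snoc ν (ν + 1) hi' ν.lt_succ_self)) rfl (by
          rw [g2, ← app_tgt, ← tgt_src (j := j + 1) _ (by omega), g1, tgt_tgt _ (by omega), app_tgt]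
          rfl)
      have a3 := (congrArg ι.app he).trans (congrArg (GS.Hom.app · (lastT T)) a1)
      have g3 : src (j + 1) ((tabGS.map (initInc _ ν (ν + 1) hi' ν.lt_succ_self)).app
          (lastT (T.snoc j i hl hi))) = tgt (j + 1) (ι.app x.e) := by
        rw [← app_src, g1, app_tgt, a3]
        rfl
      obtain ⟨d1, -, d3⟩ := x.ds (by omega)
      refine ⟨_, _, ι, .mkUp (ι.app x.s) _ (lastT _) (by simpa using hi') (by simpa using d1) rfl ?_
        ((src_eq_sr rfl).symm.trans g2), by simp [SpC.dim_eq, SpC.mkUp],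
        (SpC.glue_up (by omega)).2 ⟨rfl, g3, a2.symm.trans (congrArg ι.app ht.symm)⟩,
        .up _ hi' _ rfl rfl, fun H φ y b1 b2 => ?_⟩
      · rw [← src_src (j := j + 1) _ (by omega), g3, src_tgt _ (by omega), ι.tg_app, d3, app_src]
      · obtain ⟨c1, c2, c3⟩ := (SpC.glue_up (by omega)).1 b2
        have b1' : dim y.e = i + 1 := b1
        obtain ⟨φ1, ⟨e1, e2⟩, -⟩ := tab_snoc T j i hl hi H
          (tabGS.map (initInc T ν (ν + 1) h ν.lt_succ_self) ≫ φ) y.e b1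
          (c2.trans (congrArg (fun z => tgt (j + 1) (φ.app z)) he))
        have d2 := (y.ds (by omega)).2.1
        obtain ⟨φ2, ⟨f1, f2⟩, -⟩ := tab_snoc _ ν (ν + 1) hi' ν.lt_succ_self H φ1 y.t d2
          (by rw [e2, src_eq_sr d2, y.up (by omega)])
        have e : ι ≫ φ2 = φ := (tab_snoc T ν (ν + 1) h ν.lt_succ_self H _ (φ.app (lastT _)) (by simp)
          (by rw [← app_src, tab_glue, app_tgt]; rfl)).unique
          ⟨by rw [← Category.assoc, a1, Category.assoc, f1, e1],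
            (congrArg φ2.app a2).trans (f2.trans (c3.trans (congrArg φ.app ht)))⟩ ⟨rfl, rfl⟩
        exact ⟨φ2, e, SpC.ext ((congrArg (GS.Hom.app · x.s) e).trans c1.symm)
          ((congrArg (GS.Hom.app · (lastT _)) f1).trans e2) f2⟩

lemma sp_main (ν : ℕ) {l : ℕ} (T : Tab l) : ∃ (l' : ℕ) (T' : Tab l')
    (ξ : tabGS.obj T.obj ⟶ sp ν (tabGS.obj T'.obj)), SpShape ν l T' (ξ.app (lastT T)) ∧
      ∀ (H : GS) (ψ : tabGS.obj T.obj ⟶ sp ν H), ∃ φ, ξ ≫ spMap ν φ = ψ := by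
  induction T with
  | one i =>
    obtain ⟨l', T', ι, x, a1, -, a3, a4⟩ := sp_finish (ν := ν) i (.one _) rfl
    obtain ⟨ξ, hξ, -⟩ := tab_disc i (sp ν _) x a1
    refine ⟨l', T', ξ, hξ.symm ▸ a3, fun H ψ => ?_⟩
    have b1 : dim (ψ.app (topT i)) = i + 1 := ψ.dim_app _
    obtain ⟨φ1, hφ, -⟩ := tab_disc _ H _ (sp_dim_s _ b1)
    obtain ⟨φ, -, d⟩ := a4 H φ1 _ b1 hφ.symm
    exact ⟨φ, (tab_disc i _ _ b1).unique ((congrArg (SpC.map φ) hξ).trans d) rfl⟩
  | snoc T j i hl hi ih =>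
    obtain ⟨l', T', ξ, h1, h2⟩ := ih
    obtain ⟨l'', T'', ι, x, a1, a2, a3, a4⟩ := sp_ext hl hi (ξ.dim_app _) h1
    obtain ⟨ξ', ⟨b1, b2⟩, -⟩ := tab_snoc T j i hl hi _ (ξ ≫ spMap ν ι) x a1 a2
    refine ⟨l'', T'', ξ', b2.symm ▸ a3, fun H ψ => ?_⟩
    obtain ⟨φ, hφ⟩ := h2 H (tabGS.map (initInc T j i hl hi) ≫ ψ)
    have c1 : dim (ψ.app (lastT _)) = i + 1 := ψ.dim_app _
    have c2 : src (j + 1) (ψ.app (lastT (T.snoc j i hl hi))) =
        tgt (j + 1) ((tabGS.map (initInc T j i hl hi) ≫ ψ).app (lastT T)) := by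
      rw [← app_src, tab_glue, app_tgt]
      rfl
    obtain ⟨φ', d1, d2⟩ := a4 H φ _ c1 (hφ ▸ c2 :)
    refine ⟨φ', (tab_snoc T j i hl hi _ _ _ c1 c2).unique
      ⟨?_, (congrArg (SpC.map φ') b2).trans d2⟩ ⟨rfl, rfl⟩⟩
    rw [← Category.assoc, b1, ← hφ, ← d1]
    rfl

theorem exists_split {n : ℕ} (hn : 1 ≤ n) (S : Theta) :
    ∃ (S' : Theta) (δ e : (tabGS.obj S).Cell → (tabGS.obj S').Cell), SpPt n δ e ∧
      ∀ (H : GS) (δ' e' : (tabGS.obj S).Cell → H.Cell), SpPt n δ' e' →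
        ∃ φ : tabGS.obj S' ⟶ H, (∀ c, dim c = n → φ.app (δ c) = δ' c) ∧
          ∀ c, dim c ≠ n → φ.app (e c) = e' c := by
  obtain ⟨ν, rfl⟩ : ∃ ν, n = ν + 1 := ⟨n - 1, by omega⟩
  obtain ⟨l', T', ξ, -, h⟩ := sp_main ν S.2
  refine ⟨T'.obj, _, _, spPt_of_map ξ, fun H δ' e' h' => ?_⟩
  obtain ⟨ψ, h1, h2⟩ := exists_map_of_spPt h'
  obtain ⟨φ, rfl⟩ := h H ψ
  exact ⟨φ, h1, h2⟩

end Vale.Agent.P259
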