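import Vale.Agent.P259.PathLT
import Vale.Agent.P259.CylRep
import Vale.Agent.P259.Split

/-! P259 task PATHIND: downward induction on the level.

`ctr_of_htp`: for parallel `a, b` in `B` of `dim < k` (`Cosk.ctr_iff'`): `H a ∥ H b`, `p0 (H a) = w (r a)`,
filler in `A` pushed by `w`, lifted by `triv0`, projected by `p1`.
`exp_ctr`: `s : A ⟶ P A` with `s ≫ p1 = η` (`Cofib`, `triv1`), `g' = s ≫ p0 : A ⟶ K A`;
`r : A' ⟶ K A` extends `g'` by `γ k ↦ idc (g' (a k))`; `H : A' ⟶ P A'` extends `s ≫ P i` by the cell given by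
`fib` over `(K i (idc (g' (a k))), η (γ k))`; then `H ≫ p0 = r ≫ K i`, `H ≫ p1 = η` (`IsExp.hom_ext`).
`rung_ctr`: take `S', δ, e` from `exists_split`; push to `rep S'` by `gn`.
`u : B ⟶ rep S'`: on generators `c ↦ e c` (`dim c < n`), `tg (δ c)` (`dim c = n`),
`wh n (idc (tg (δ (src n c)))) (e c) (δ (tgt n c))` (`dim c > n`), and `γ c ↦ invc (δ c)`.
`v : rep S' ⟶ B` from the split point `δ' c = invc (γ c)`, `e' c = c` (`dim c < n`),
`wh n (idc (src n c)) c (γ (tgt n c))` (`dim c > n`).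
`H : B ⟶ P B` with `H ≫ p0 = u ≫ v ≫ η`, `H ≫ p1 = η`: on generators of `dim ≤ n` the low cell; on generators
`c` of `dim > n` the cell `ω (idc (src n c)) c (γ (tgt n c))` with `ω` from `wh_natfam` (`V = P ⋙ U`, `j = n`,
`m0 = n + 1`, `β0, β1` the low cells over `η (sr x)`, `η (tg x)`,
`Φ a x b z := dim z = dim x ∧ p0 z = η (wh n (idc (src n x)) (wh n (idc (src n x)) x b) (invc b)) ∧ p1 z = η x`; use
`fill` and `Cosk.ctr_of_ctr`); on `γ c` the cell from `cell_natop` (`m = n + 1`) over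
`(η (invc (invc x)), η x)` with low boundary. Then `ctr_of_htp` with `A = rep S'`, `r = u`, `w = v ≫ η`.
`exists_po`: for fixed `k`, downward induction from `n = k + 1` to `n = 2` by `cyl_ctr` + `pathObj_of_ctr`
(state: `∀ d n, 1 ≤ n → n + d = k + 1 → Nonempty (PathObj K.K n)`, `k ≥ 1`; for `k = 0` use `k = 1`-type
monotonicity or note `K X` is contractible); fix one `C : CylData E 1`; representing objects are isomorphic
(`Represents.iso`), so `ctr_of_forall_cosk` applies; finish with `pathObj_of_ctr (coskTop E)`. -/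

noncomputable section
namespace Vale.Agent.P259
open CategoryTheory CategoryTheory.Limits GlobExt Opposite
variable {E : GlobExt} [hE : Fact E.IsCoherator] {k : ℕ∞} (K : Cosk E k) {n : ℕ}

omit hE in
lemma pi_nat {F F' : Gpd E ⥤ Gpd E} (α : F ⟶ F') {X Y : Gpd E} (f : X ⟶ Y) (z : cell (F.obj X)) :
    cm (α.app Y) (cm (F.map f) z) = cm (F'.map f) (cm (α.app X) z) := by
  rw [← cm_comp, ← cm_comp, α.naturality]

/-- The unit with its types normalised. -/
def piEta (X : Gpd E) : X ⟶ K.K.obj X := K.η.app X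

omit hE in
lemma piEta_nat' {X Y : Gpd E} (f : X ⟶ Y) : f ≫ piEta K Y = piEta K X ≫ K.K.map f :=
  K.η.naturality f

omit hE in
lemma piEta_nat {X Y : Gpd E} (f : X ⟶ Y) (x : cell X) :
    cm (piEta K Y) (cm f x) = cm (K.K.map f) (cm (piEta K X) x) := by
  rw [← cm_comp, ← cm_comp, piEta_nat']

omit hE in
lemma pi_arr {X Y : Gpd E} (f : X ⟶ Y) {c a b : cell X} (h : Arr c a b) :
    Arr (cm f c) (cm f a) (cm f b) := h.map ((U E).map f)

open Classical in
/-- The constant homotopy on a low cell. -/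
def piLo (P : PathObj K.K n) (Y : Gpd E) (x : cell Y) : cell (P.P.obj Y) :=
  if h : dim x < n then
    ((P.ax Y).low (cm (piEta K Y) x) (by rw [ops_dim]; exact h)).choose
  else ((U E).obj (P.P.obj Y)).bot

section Lo
variable (P : PathObj K.K n) {Y Y' : Gpd E} {x : cell Y}
omit hE

lemma piLo_p (h : dim x < n) : cm (P.p0.app Y) (piLo K P Y x) = cm (piEta K Y) x ∧
    cm (P.p1.app Y) (piLo K P Y x) = cm (piEta K Y) x := by
  unfold piLo
  rw [dif_pos h]
  exact ((P.ax Y).low (cm (piEta K Y) x) (by rw [ops_dim]; exact h)).choose_spec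

lemma piLo_dim (h : dim x < n) : dim (piLo K P Y x) = dim x := by
  rw [← ops_dim (P.p0.app Y), (piLo_p K P h).1, ops_dim]

lemma piLo_eq (h : dim x < n) {z : cell (P.P.obj Y)}
    (hz : cm (P.p0.app Y) z = cm (piEta K Y) x) : z = piLo K P Y x := by
  refine (P.ax Y).low_inj _ _ ?_ (hz.trans (piLo_p K P h).1.symm)
  rw [← ops_dim (P.p0.app Y), hz, ops_dim]; exact h

lemma piLo_sr (h : dim x < n) : sr (piLo K P Y x) = piLo K P Y (sr x) := by
  refine piLo_eq K P (by rw [dim_sr]; omega) ?_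
  rw [← ops_sr, (piLo_p K P h).1, ops_sr]

lemma piLo_tg (h : dim x < n) : tg (piLo K P Y x) = piLo K P Y (tg x) := by
  refine piLo_eq K P (by rw [dim_tg]; omega) ?_
  rw [← ops_tg, (piLo_p K P h).1, ops_tg]

lemma piLo_nat (f : Y ⟶ Y') (h : dim x < n) :
    cm (P.P.map f) (piLo K P Y x) = piLo K P Y' (cm f x) := by
  refine piLo_eq K P (by rw [ops_dim]; exact h) ?_
  rw [pi_nat, (piLo_p K P h).1, piEta_nat]

lemma piLo_par (h : dim x ≤ n) (h1 : 1 ≤ dim x) :
    Par (piLo K P Y (sr x)) (piLo K P Y (tg x)) := by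
  have hs : dim (sr x) < n := by rw [dim_sr]; omega
  have ht : dim (tg x) < n := by rw [dim_tg]; omega
  refine ⟨?_, ?_, ?_⟩
  · rw [piLo_dim K P hs, piLo_dim K P ht, dim_sr, dim_tg]
  · rw [piLo_sr K P hs, piLo_sr K P ht, sr_tg]
  · rw [piLo_tg K P hs, piLo_tg K P ht, tg_sr]

end Lo

/-- The double whiskering. -/
def piT (n : ℕ) {Y : Gpd E} (x b : cell Y) : cell Y :=
  wh n (idc (src n x)) (wh n (idc (src n x)) x b) (invc b)

section T
variable {Y Y' : Gpd E} {a x b : cell Y}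

lemma pi_wh0 (hn : 1 ≤ n) (hx : n + 1 ≤ dim x) (hb : dim b = n + 1) (h : sr b = tgt n x) :
    Wh n (idc (src n x)) x b := by
  have hd : dim (src n x) = n := dim_src (by omega)
  have := idc_arr (x := src n x) (by omega)
  exact ⟨hn, by rw [this.2.2, hd], hb, hx, this.2.1, h⟩

lemma pi_wh1 (h : Wh n a x b) : Wh n (idc (src n x)) x b := pi_wh0 h.pos h.dx h.db h.hb

lemma pi_wh2 (h : Wh n a x b) :
    Wh n (idc (src n x)) (wh n (idc (src n x)) x b) (invc b) := by
  have h1 := pi_wh1 h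
  have hd : dim (src n x) = n := dim_src (by have := h.dx; omega)
  have := idc_arr (x := src n x) (by have := h.pos; omega)
  have hb : 1 ≤ dim b := by rw [h.db]; omega
  refine ⟨h.pos, h1.da, by rw [dim_invc hb, h.db], by rw [dim_wh h1]; exact h.dx, ?_, ?_⟩
  · rw [src_wh h1, this.1, this.2.1]
  · rw [tgt_wh h1, (invc_arr hb).1]

lemma piT_dim (h : Wh n a x b) : dim (piT n x b) = dim x := by
  rw [piT, dim_wh (pi_wh2 h), dim_wh (pi_wh1 h)]

lemma piT_bot (h : Wh n a x b) (hx : dim x = n + 1) : Arr (piT n x b) (sr x) (tg x) := by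
  have := wh_bot (pi_wh2 h) (by rw [dim_wh (pi_wh1 h), hx])
  have hd : dim (src n x) = n := dim_src (by omega)
  have hb : 1 ≤ dim b := by rw [h.db]; omega
  rw [(idc_arr (x := src n x) (by have := h.pos; omega)).1, (invc_arr hb).2.1, h.hb,
    src_eq_sr hx, tgt_eq_tg hx] at this
  rw [piT, src_eq_sr hx]
  exact this

lemma piT_succ (h : Wh n a x b) (hx : n + 1 < dim x) :
    Arr (piT n x b) (piT n (sr x) b) (piT n (tg x) b) := by
  have h1 := wh_succ (pi_wh1 h) hx
  have h2 := wh_succ (pi_wh2 h) (by rw [dim_wh (pi_wh1 h)]; exact hx)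
  rw [h1.1, h1.2.1] at h2
  unfold piT
  rw [src_sr (by omega), src_tg hx]
  exact h2

lemma piT_nat (f : Y ⟶ Y') (h : Wh n a x b) : cm f (piT n x b) = piT n (cm f x) (cm f b) := by
  have hd : dim (src n x) = n := dim_src (by have := h.dx; omega)
  have hb : 1 ≤ dim b := by rw [h.db]; omega
  have hs : 1 ≤ dim (src n x) := by have := h.pos; omega
  unfold piT
  rw [cm_wh f (pi_wh2 h), cm_wh f (pi_wh1 h), cm_idc f hs, cm_invc f hb,
    show cm f (src n x) = src n (cm f x) from app_src _ _ _]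

end T

lemma pi_omega (P : PathObj K.K (n + 1)) :
    ∃ ω : ∀ Y : Gpd E, cell Y → cell Y → cell Y → cell (P.P.obj Y),
      (∀ (Y : Gpd E) (a x b : cell Y), Wh n a x b → dim (ω Y a x b) = dim x ∧
        cm (P.p0.app Y) (ω Y a x b) = cm (piEta K Y) (piT n x b) ∧
        cm (P.p1.app Y) (ω Y a x b) = cm (piEta K Y) x) ∧
      (∀ (Y : Gpd E) (a x b : cell Y), Wh n a x b → dim x = n + 1 →
        Arr (ω Y a x b) (piLo K P Y (sr x)) (piLo K P Y (tg x))) ∧
      ∀ (Y : Gpd E) (a x b : cell Y), Wh n a x b → n + 1 < dim x →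
        Arr (ω Y a x b) (ω Y a (sr x) b) (ω Y a (tg x) b) := by
  obtain ⟨ω, h1, h2, h3, -⟩ := wh_natfam (P.P ⋙ U E) n (n + 1) le_rfl
    (fun Y _ x _ => piLo K P Y (sr x)) (fun Y _ x _ => piLo K P Y (tg x))
    (fun Y Y' f a x b _ hx => by
      constructor
      · exact (piLo_nat K P f (by rw [dim_sr]; omega)).trans (by rw [ops_sr])
      · exact (piLo_nat K P f (by rw [dim_tg]; omega)).trans (by rw [ops_tg]))
    (fun Y a x b _ _ => ⟨by rw [sr_tg], by rw [tg_sr]⟩)
    (fun Y _ x b z => dim (G := (U E).obj (P.P.obj Y)) z = dim x ∧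
      cm (P.p0.app Y) z = cm (piEta K Y) (piT n x b) ∧ cm (P.p1.app Y) z = cm (piEta K Y) x)
    (fun Y Y' f a x b z hw _ ⟨e1, e2, e3⟩ => by
      refine ⟨(ops_dim (P.P.map f) z).trans (by rw [e1, ops_dim]), ?_, ?_⟩
      · exact (pi_nat P.p0 f z).trans (by rw [e2, ← piEta_nat, piT_nat f hw])
      · exact (pi_nat P.p1 f z).trans (by rw [e3, ← piEta_nat]))
    (fun Y hY a x b hw hx => by
      have hs : dim (sr x) < n + 1 := by rw [dim_sr]; omega
      have ht : dim (tg x) < n + 1 := by rw [dim_tg]; omega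
      obtain ⟨z, hz, e0, e1⟩ := (P.ax Y).fill (K.ctr_of_ctr hY) _ _
        (piLo_par K P (x := x) (by omega) (by omega))
        (by rw [piLo_dim K P hs, dim_sr]; omega)
        (cm (piEta K Y) (piT n x b)) (cm (piEta K Y) x)
        (by
          have := pi_arr (piEta K Y) (piT_bot hw hx)
          rwa [← (piLo_p K P hs).1, ← (piLo_p K P ht).1] at this)
        (by
          have := pi_arr (piEta K Y) (arr_self (c := x) (by omega))
          rwa [← (piLo_p K P hs).2, ← (piLo_p K P ht).2] at this)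
      refine ⟨z, hz, ?_, e0, e1⟩
      rw [hz.2.2, piLo_dim K P hs, dim_sr]; omega)
    (fun Y hY a x b hw hx z0 z1 hp ⟨d0, a0, b0⟩ ⟨_, a1, b1⟩ => by
      obtain ⟨z, hz, e0, e1⟩ := (P.ax Y).fill (K.ctr_of_ctr hY) z0 z1 hp
        (by rw [d0, dim_sr]; omega)
        (cm (piEta K Y) (piT n x b)) (cm (piEta K Y) x)
        (by
          have := pi_arr (piEta K Y) (piT_succ hw hx)
          rwa [← a0, ← a1] at this)
        (by
          have := pi_arr (piEta K Y) (arr_self (c := x) (by omega))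
          rwa [← b0, ← b1] at this)
      refine ⟨z, hz, ?_, e0, e1⟩
      rw [hz.2.2, d0, dim_sr]; omega)
  exact ⟨ω, fun Y a x b hw => h1 Y a x b hw hw.dx, h2, h3⟩

lemma pi_gamma (P : PathObj K.K (n + 1)) (Y : Gpd E) (x : cell Y) (hx : dim x = n + 1) :
    ∃ z : cell (P.P.obj Y), Arr z (piLo K P Y (sr x)) (piLo K P Y (tg x)) ∧
      cm (P.p0.app Y) z = cm (piEta K Y) (invc (invc x)) ∧
      cm (P.p1.app Y) z = cm (piEta K Y) x := by
  refine cell_univ (n + 1) (by omega) (fun Y x => ∃ z : cell (P.P.obj Y),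
    Arr z (piLo K P Y (sr x)) (piLo K P Y (tg x)) ∧
      cm (P.p0.app Y) z = cm (piEta K Y) (invc (invc x)) ∧
      cm (P.p1.app Y) z = cm (piEta K Y) x) ?_ ?_ Y x hx
  · rintro Y Y' f x hx ⟨z, hz, e0, e1⟩
    have hs : dim (sr x) < n + 1 := by rw [dim_sr]; omega
    have ht : dim (tg x) < n + 1 := by rw [dim_tg]; omega
    have h1 : 1 ≤ dim x := by omega
    refine ⟨cm (P.P.map f) z, ?_, ?_, ?_⟩
    · have := pi_arr (P.P.map f) hz
      rwa [piLo_nat K P f hs, piLo_nat K P f ht, ← ops_sr, ← ops_tg] at this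
    · rw [pi_nat, e0, ← piEta_nat, cm_invc f (by rw [dim_invc h1]; exact h1), cm_invc f h1]
    · rw [pi_nat, e1, ← piEta_nat]
  · intro Y hY x hx
    have hs : dim (sr x) < n + 1 := by rw [dim_sr]; omega
    have ht : dim (tg x) < n + 1 := by rw [dim_tg]; omega
    exact (P.ax Y).fill (K.ctr_of_ctr hY) _ _
      (piLo_par K P (x := x) (by omega) (by omega))
      (by rw [piLo_dim K P hs, dim_sr]; omega)
      (cm (piEta K Y) (invc (invc x))) (cm (piEta K Y) x)
      (by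
        have := pi_arr (piEta K Y) (arr_self (c := x) (by omega)).invc.invc
        rwa [← (piLo_p K P hs).1, ← (piLo_p K P ht).1] at this)
      (by
        have := pi_arr (piEta K Y) (arr_self (c := x) (by omega))
        rwa [← (piLo_p K P hs).2, ← (piLo_p K P ht).2] at this)

lemma pi_whu {G : GS} {A : Gpd E} (hn : 1 ≤ n) {δ e : G.Cell → cell A} (h : SpPt n δ e)
    {c : G.Cell} (hc : n < dim c) :
    Wh n (idc (tg (δ (src n c)))) (e c) (δ (tgt n c)) := by
  rw [← (h.src_e hc).1]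
  exact pi_wh0 hn (by rw [h.dim_e c (by omega)]; omega) (h.dim_δ _ (dim_tgt hc.le))
    (h.src_e hc).2.symm

open Classical in
lemma pi_exists_u {G : GS} {A : Gpd E} (hn : 1 ≤ n) {δ e : G.Cell → cell A} (h : SpPt n δ e) :
    ∃ φ : G ⟶ (U E).obj A, (∀ c, dim c < n → φ.app c = e c) ∧
      (∀ c, dim c = n → φ.app c = tg (δ c)) ∧
      ∀ c, n < dim c → φ.app c = wh n (idc (tg (δ (src n c)))) (e c) (δ (tgt n c)) := by
  obtain ⟨f, f1, f2, f3⟩ : ∃ f : G.Cell → cell A, (∀ c, dim c < n → f c = e c) ∧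
      (∀ c, dim c = n → f c = tg (δ c)) ∧
      ∀ c, n < dim c → f c = wh n (idc (tg (δ (src n c)))) (e c) (δ (tgt n c)) :=
    ⟨fun c => if dim c < n then e c else if dim c = n then tg (δ c) else
      wh n (idc (tg (δ (src n c)))) (e c) (δ (tgt n c)),
      fun c hc => if_pos hc, fun c hc => (if_neg (by omega)).trans (if_pos hc),
      fun c hc => (if_neg (by omega)).trans (if_neg (by omega))⟩
  have key : ∀ c, dim (f c) = dim c ∧ sr (f c) = f (sr c) ∧ tg (f c) = f (tg c) := by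
    intro c
    have hs := dim_sr c
    have ht := dim_tg c
    rcases lt_trichotomy (dim c) n with hc | hc | hc
    · rw [f1 c hc, f1 _ (by omega), f1 _ (by omega)]
      exact ⟨h.dim_e c (by omega), h.se c (by omega) (by omega)⟩
    · rw [f2 c hc, f1 _ (by omega), f1 _ (by omega), sr_tg, ← tg_sr, dim_tg, h.dim_δ c hc]
      exact ⟨by omega, h.sδ c hc⟩
    · have hw := pi_whu hn h hc
      have hd := h.dim_e c (by omega)
      rw [f3 c hc]
      refine ⟨by rw [dim_wh hw, hd], ?_⟩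
      rcases (show dim c = n + 1 ∨ n + 1 < dim c by omega) with hc' | hc'
      · have := wh_bot hw (by omega)
        rw [f2 _ (by omega), f2 _ (by omega), this.1, this.2.1, src_eq_sr hc', tgt_eq_tg hc']
        refine ⟨(idc_arr ?_).1, rfl⟩
        rw [dim_tg, h.dim_δ _ (by omega)]; omega
      · have := wh_succ hw (by omega)
        have he := h.se c (by omega) (by omega)
        rw [f3 _ (by omega), f3 _ (by omega), this.1, this.2.1, he.1, he.2, src_sr hc, tgt_tg hc,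
          src_tg hc', tgt_sr hc']
        exact ⟨rfl, rfl⟩
  exact ⟨⟨f, fun c => (key c).1, fun c => (key c).2.1, fun c => (key c).2.2⟩, f1, f2, f3⟩

section Rung
variable {G : GS} {B : Gpd E} (hn : 1 ≤ n) (b : G ⟶ (U E).obj B) (γ : G.Cell → cell B)
  (hγ : ∀ c, dim c = n → sr (γ c) = b.app c ∧ dim (γ c) = n + 1)
include hn hγ

lemma pi_whb {c : G.Cell} (hc : n < dim c) :
    Wh n (idc (src n (b.app c))) (b.app c) (γ (tgt n c)) := by
  have := hγ (tgt n c) (dim_tgt hc.le)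
  exact pi_wh0 hn (by rw [b.dim_app]; omega) this.2 (by rw [this.1, app_tgt])

lemma pi_split : ∃ e : G.Cell → cell B, SpPt n (fun c => invc (γ c)) e ∧
    (∀ c, dim c < n → e c = b.app c) ∧
    ∀ c, n < dim c → e c = wh n (idc (src n (b.app c))) (b.app c) (γ (tgt n c)) := by
  obtain ⟨f, f1, f3⟩ : ∃ f : G.Cell → cell B, (∀ c, dim c < n → f c = b.app c) ∧
      ∀ c, n < dim c → f c = wh n (idc (src n (b.app c))) (b.app c) (γ (tgt n c)) :=
    ⟨fun c => if dim c < n then b.app c else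
      wh n (idc (src n (b.app c))) (b.app c) (γ (tgt n c)),
      fun c hc => if_pos hc, fun c hc => if_neg (by omega)⟩
  have hi : ∀ c, dim c = n → Arr (invc (γ c)) (tg (γ c)) (sr (γ c)) := fun c hc =>
    invc_arr (by rw [(hγ c hc).2]; omega)
  refine ⟨f, ⟨?_, ?_, ?_, ?_, ?_⟩, f1, f3⟩
  · intro c hc
    rcases lt_or_gt_of_ne hc with hc | hc
    · rw [f1 c hc, b.dim_app]
    · rw [f3 c hc, dim_wh (pi_whb hn b γ hγ hc), b.dim_app]
  · intro c hc
    rw [dim_invc (by rw [(hγ c hc).2]; omega), (hγ c hc).2]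
  · intro c hc hc'
    have hs := dim_sr c
    have ht := dim_tg c
    rcases lt_or_gt_of_ne hc with hc | hc
    · rw [f1 c hc, f1 _ (by omega), f1 _ (by omega), b.sr_app, b.tg_app]
      exact ⟨rfl, rfl⟩
    · have hc'' : n + 1 < dim c := by omega
      have := wh_succ (pi_whb hn b γ hγ hc) (by rw [b.dim_app]; omega)
      rw [f3 c hc, f3 _ (by omega), f3 _ (by omega), this.1, this.2.1, b.sr_app, b.tg_app,
        ← app_src, ← app_src, ← app_src, src_sr hc, tgt_tg hc, src_tg hc'', tgt_sr hc'']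
      exact ⟨rfl, rfl⟩
  · intro c hc
    have hs := dim_sr c
    have ht := dim_tg c
    rw [(hi c hc).1, sr_tg, ← tg_sr, (hγ c hc).1, f1 _ (by omega), f1 _ (by omega), b.sr_app,
      b.tg_app]
    exact ⟨rfl, rfl⟩
  · intro c hc
    have hs := dim_sr c
    have ht := dim_tg c
    have hd : dim (b.app c) = n + 1 := by rw [b.dim_app, hc]
    have := wh_bot (pi_whb hn b γ hγ (c := c) (by omega)) hd
    rw [f3 c (by omega), this.1, this.2.1, (hi _ (by omega)).2.1, (hi _ (by omega)).1,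
      (hγ _ (by omega)).1, tgt_eq_tg hc, src_eq_sr hd, b.sr_app]
    exact ⟨(idc_arr (by rw [b.dim_app]; omega)).1, rfl⟩

lemma pi_exists_H (P : PathObj K.K (n + 1)) : ∃ φ : G ⟶ (U E).obj (P.P.obj B),
    (∀ c, dim c ≤ n → φ.app c = piLo K P B (b.app c)) ∧
    ∀ c, n < dim c →
      cm (P.p0.app B) (φ.app c) = cm (piEta K B) (piT n (b.app c) (γ (tgt n c))) ∧
      cm (P.p1.app B) (φ.app c) = cm (piEta K B) (b.app c) := by
  obtain ⟨ω, h1, h2, h3⟩ := pi_omega K P
  obtain ⟨f, f1, f3⟩ : ∃ f : G.Cell → cell (P.P.obj B),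
      (∀ c, dim c ≤ n → f c = piLo K P B (b.app c)) ∧
      ∀ c, n < dim c → f c = ω B (idc (src n (b.app c))) (b.app c) (γ (tgt n c)) :=
    ⟨fun c => if dim c ≤ n then piLo K P B (b.app c) else
      ω B (idc (src n (b.app c))) (b.app c) (γ (tgt n c)),
      fun c hc => if_pos hc, fun c hc => if_neg (by omega)⟩
  have key : ∀ c, dim (f c) = dim c ∧ sr (f c) = f (sr c) ∧ tg (f c) = f (tg c) := by
    intro c
    have hs := dim_sr c
    have ht := dim_tg c
    have hd := b.dim_app c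
    rcases le_or_gt (dim c) n with hc | hc
    · have hl : dim (b.app c) < n + 1 := by omega
      rw [f1 c hc, f1 _ (by omega), f1 _ (by omega), piLo_dim K P hl, piLo_sr K P hl,
        piLo_tg K P hl, b.sr_app, b.tg_app]
      exact ⟨hd, rfl, rfl⟩
    · have hw := pi_whb hn b γ hγ hc
      rw [f3 c hc]
      refine ⟨(h1 _ _ _ _ hw).1.trans hd, ?_⟩
      rcases (show dim c = n + 1 ∨ n + 1 < dim c by omega) with hc' | hc'
      · have := h2 _ _ _ _ hw (by omega)
        rw [f1 _ (by omega), f1 _ (by omega), this.1, this.2.1, b.sr_app, b.tg_app]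
        exact ⟨rfl, rfl⟩
      · have := h3 _ _ _ _ hw (by omega)
        rw [f3 _ (by omega), f3 _ (by omega), this.1, this.2.1, b.sr_app, b.tg_app,
          ← app_src, ← app_src, ← app_src, src_sr hc, tgt_tg hc, src_tg hc', tgt_sr hc']
        exact ⟨rfl, rfl⟩
  refine ⟨⟨f, fun c => (key c).1, fun c => (key c).2.1, fun c => (key c).2.2⟩, f1, fun c hc => ?_⟩
  change cm _ (f c) = _ ∧ cm _ (f c) = _
  rw [f3 c hc]
  exact (h1 _ _ _ _ (pi_whb hn b γ hγ hc)).2

end Rung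

lemma ctr_of_htp (P : PathObj K.K n) {A B : Gpd E} (hA : MCtr A) (r : B ⟶ A) (w : A ⟶ K.K.obj B)
    (H : B ⟶ P.P.obj B) (h0 : H ≫ P.p0.app B = r ≫ w) (h1 : H ≫ P.p1.app B = K.η.app B) :
    MCtr (K.K.obj B) := by
  rw [K.ctr_iff']
  intro a b hab _
  obtain ⟨c, hc⟩ := hA _ _ (hab.map ((U E).map r))
  have e0 : ∀ x, cm (P.p0.app B) (cm H x) = cm w (cm r x) := fun x => by
    rw [← cm_comp, ← cm_comp, h0]
  have e1 : ∀ x, cm (P.p1.app B) (cm H x) = cm (K.η.app B) x := fun x => by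
    rw [← cm_comp, h1]
  obtain ⟨z, hz, -⟩ := (P.ax B).triv0 (cm H a) (cm H b) (hab.map ((U E).map H)) (cm w c) (by
    have := pi_arr w hc
    rwa [← e0, ← e0] at this)
  have := pi_arr (P.p1.app B) hz
  rw [e1, e1] at this
  exact ⟨_, this⟩

lemma exp_ctr (P : PathObj K.K n) {A A' : Gpd E} {i : A ⟶ A'} {ι : Type} {a : ι → cell A}
    {γ : ι → cell A'} (h : IsExp (U E) i a γ) (ha : ∀ x, n ≤ dim (a x)) (hA : Cofib A)
    (hc : MCtr (K.K.obj A)) : MCtr (K.K.obj A') := by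
  obtain ⟨s, hs⟩ := hA _ _ (P.p1.app A) (P.ax A).triv1 (piEta K A)
  have hid : ∀ x, Arr (idc (cm (s ≫ P.p0.app A) (a x))) (cm (s ≫ P.p0.app A) (a x))
      (cm (s ≫ P.p0.app A) (a x)) := fun x => idc_arr (by rw [ops_dim]; exact h.pos x)
  obtain ⟨r, ⟨hr, hr'⟩, -⟩ := h.desc _ (s ≫ P.p0.app A)
    (fun x => idc (cm (s ≫ P.p0.app A) (a x)))
    (fun x => ⟨(hid x).1, by rw [(hid x).2.2, ops_dim]⟩)
  have hz : ∀ x, ∃ z : cell (P.P.obj A'), sr z = cm (s ≫ P.P.map i) (a x) ∧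
      dim z = dim (cm (s ≫ P.P.map i) (a x)) + 1 ∧
      cm (P.p0.app A') z = cm (K.K.map i) (idc (cm (s ≫ P.p0.app A) (a x))) ∧
      cm (P.p1.app A') z = cm (piEta K A') (γ x) := fun x =>
    (P.ax A').fib _ (by rw [ops_dim]; exact ha x) _ _
      (by
        change _ = cm _ _
        rw [ops_sr, (hid x).1, cm_comp, cm_comp, pi_nat])
      (by rw [ops_dim, (hid x).2.2, ops_dim, ops_dim])
      (by
        change _ = cm _ _
        rw [ops_sr, (h.arr x).1, cm_comp, pi_nat, ← cm_comp s, hs, ← piEta_nat])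
      (by rw [ops_dim, (h.arr x).2, ops_dim])
  choose z z1 z2 z3 z4 using hz
  obtain ⟨H, ⟨hH, hH'⟩, -⟩ := h.desc _ (s ≫ P.P.map i) z
    (fun x => ⟨z1 x, by rw [z2, ops_dim]⟩)
  refine ctr_of_htp K P hc r (K.K.map i) H (h.hom_ext ?_ fun x => ?_) (h.hom_ext ?_ fun x => ?_)
  · rw [← Category.assoc, hH, ← Category.assoc, hr, Category.assoc, Category.assoc,
      P.p0.naturality]
  · change cm _ _ = cm _ _
    rw [cm_comp, cm_comp]
    exact (congrArg _ (hH' x)).trans ((z3 x).trans (congrArg _ (hr' x).symm))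
  · change _ = i ≫ piEta K A'
    rw [← Category.assoc, hH, Category.assoc, P.p1.naturality, ← Category.assoc, hs, piEta_nat']
  · change cm _ _ = cm (piEta K A') _
    rw [cm_comp]
    exact (congrArg _ (hH' x)).trans (z4 x)

lemma rung_ctr (hn : 1 ≤ n) (P : PathObj K.K (n + 1)) (S : Theta) {B : Gpd E}
    {i : (rep E).obj S ⟶ B} {γ : {c : (tabGS.obj S).Cell // dim c = n} → cell B}
    (h : IsExp (U E) i (fun c => (gn E S).app c.1) γ) : MCtr (K.K.obj B) := by
  classical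
  obtain ⟨S', δ0, e0, hsp0, huniv⟩ := exists_split hn S
  have hsp := hsp0.map (gn E S')
  obtain ⟨b, hb⟩ : ∃ b : tabGS.obj S ⟶ (U E).obj B, ∀ c, b.app c = cm i ((gn E S).app c) :=
    ⟨gn E S ≫ (U E).map i, fun _ => rfl⟩
  obtain ⟨γ', hγ'⟩ : ∃ γ' : (tabGS.obj S).Cell → cell B, ∀ c, γ' c.1 = γ c :=
    ⟨fun c => if hc : dim c = n then γ ⟨c, hc⟩ else ((U E).obj B).bot, fun c => dif_pos c.2⟩
  have hγ : ∀ c, dim c = n → sr (γ' c) = b.app c ∧ dim (γ' c) = n + 1 := fun c hc => by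
    have := h.arr ⟨c, hc⟩
    rw [← hγ' ⟨c, hc⟩, (gn E S).dim_app] at this
    exact ⟨this.1.trans (hb c).symm, this.2.trans (by rw [hc])⟩
  have hγ1 : ∀ c, dim c = n → 1 ≤ dim (γ' c) := fun c hc => by rw [(hγ c hc).2]; omega
  -- the map `v`
  obtain ⟨e', hsp', e1, e3⟩ := pi_split hn b γ' hγ
  obtain ⟨φv, v1, v2⟩ := huniv _ _ _ hsp'
  obtain ⟨v, hv, -⟩ := gn_represents S' B φv
  have vδ : ∀ c, dim c = n → cm v ((gn E S').app (δ0 c)) = invc (γ' c) := fun c hc => by
    rw [← v1 c hc, ← hv]; rfl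
  have ve : ∀ c, dim c ≠ n → cm v ((gn E S').app (e0 c)) = e' c := fun c hc => by
    rw [← v2 c hc, ← hv]; rfl
  -- the map `u`
  obtain ⟨φu, u1, u2, u3⟩ := pi_exists_u hn hsp
  obtain ⟨u0, hu0, -⟩ := gn_represents S _ φu
  have hu0' : ∀ c, cm u0 ((gn E S).app c) = φu.app c := fun c => by rw [← hu0]; rfl
  have hδ1 : ∀ c, dim c = n → 1 ≤ dim ((gn E S').app (δ0 c)) := fun c hc => by
    have := hsp.dim_δ c hc
    omega
  obtain ⟨u, ⟨hu, hu'⟩, -⟩ := h.desc _ u0 (fun c => invc ((gn E S').app (δ0 c.1))) (fun c => by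
    refine ⟨?_, ?_⟩
    · exact (invc_arr (hδ1 c.1 c.2)).1.trans ((u2 c.1 c.2).symm.trans (hu0' c.1).symm)
    · rw [dim_invc (hδ1 c.1 c.2), (gn E S).dim_app, c.2]
      exact hsp.dim_δ c.1 c.2)
  have hvu : ∀ c, (dim c ≤ n → cm v (φu.app c) = b.app c) ∧
      (n < dim c → cm v (φu.app c) = piT n (b.app c) (γ' (tgt n c))) := fun c => by
    refine ⟨fun hc => ?_, fun hc => ?_⟩
    · rcases hc.lt_or_eq with hc | hc
      · rw [u1 c hc, ve c hc.ne, e1 c hc]
      · rw [u2 c hc, ← ops_tg, vδ c hc, (invc_arr (hγ1 c hc)).2.1, (hγ c hc).1]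
    · have hs : dim (src n c) = n := dim_src hc.le
      have ht : dim (tgt n c) = n := dim_tgt hc.le
      rw [u3 c hc, cm_wh v (pi_whu hn hsp hc), cm_idc v (by
          rw [dim_tg, hsp.dim_δ _ hs]; omega), ← ops_tg, vδ _ hs, vδ _ ht, ve c hc.ne',
        e3 c hc, (invc_arr (hγ1 _ hs)).2.1, (hγ _ hs).1, app_src]
      rfl
  -- the homotopy
  obtain ⟨φH, H1, H3⟩ := pi_exists_H K hn b γ' hγ P
  obtain ⟨H0, hH0, -⟩ := gn_represents S _ φH
  have hH0' : ∀ c, cm H0 ((gn E S).app c) = φH.app c := fun c => by rw [← hH0]; rfl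
  choose z z1 z2 z3 using fun c : {c : (tabGS.obj S).Cell // dim c = n} =>
    pi_gamma K P B (γ' c.1) (hγ c.1 c.2).2
  obtain ⟨H, ⟨hH, hH'⟩, -⟩ := h.desc _ H0 z (fun c => by
    have hl : dim (b.app c.1) < n + 1 := by rw [b.dim_app, c.2]; omega
    refine ⟨?_, ?_⟩
    · refine Eq.trans ?_ (hH0' c.1).symm
      rw [(z1 c).1, (hγ c.1 c.2).1, H1 c.1 c.2.le]
    · rw [(z1 c).2.2, (hγ c.1 c.2).1, piLo_dim K P hl, b.dim_app, (gn E S).dim_app])
  refine ctr_of_htp K P (rep_ctr S') u (v ≫ piEta K B) H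
    (h.hom_ext (hom_ext_gen fun c => ?_) fun c => ?_)
    (h.hom_ext (hom_ext_gen fun c => ?_) fun c => ?_)
  · rw [← Category.assoc, hH, ← Category.assoc, hu, cm_comp, cm_comp, cm_comp, hH0', hu0']
    rcases le_or_gt (dim c) n with hc | hc
    · rw [(hvu c).1 hc, H1 c hc, (piLo_p K P (by rw [b.dim_app]; omega)).1]
    · rw [(hvu c).2 hc, (H3 c hc).1]
  · change cm _ _ = cm _ _
    rw [cm_comp, cm_comp, cm_comp]
    refine (congrArg _ (hH' c)).trans ((z2 c).trans (congrArg _ ?_))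
    refine Eq.trans ?_ (congrArg _ (hu' c)).symm
    rw [cm_invc v (hδ1 c.1 c.2), vδ c.1 c.2]
  · change _ = cm (i ≫ piEta K B) _
    rw [← Category.assoc, hH, cm_comp, cm_comp, hH0', ← hb]
    rcases le_or_gt (dim c) n with hc | hc
    · rw [H1 c hc, (piLo_p K P (by rw [b.dim_app]; omega)).2]
    · rw [(H3 c hc).2]
  · change cm _ _ = cm (piEta K B) _
    rw [cm_comp, ← hγ' c]
    refine (congrArg _ ?_).trans (z3 c)
    rw [hγ' c]
    exact hH' c

lemma cyl_ctr (hn : 1 ≤ n) (P : PathObj K.K (n + 1)) (C : CylData E n) (S : Theta) :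
    ∃ (R : Gpd E) (u : tabGS.obj S ⟶ C.Cy.obj R), MCtr (K.K.obj R) ∧ Represents C.Cy u := by
  obtain ⟨R, u, h, hu⟩ := C.repr S (fun B => Cofib B ∧ MCtr (K.K.obj B))
    (fun B i γ h => ⟨(cofib_rep S).of_cof (TC_le_Cof _ h.tc), rung_ctr K hn P S h⟩)
    (fun A A' i ι a γ h ha hA => ⟨hA.1.of_cof (TC_le_Cof _ h.tc), exp_ctr K P h ha hA.1 hA.2⟩)
  exact ⟨R, u, h.2, hu⟩

theorem exists_po (E : GlobExt) [Fact E.IsCoherator] : Nonempty (PO E) := by
  obtain ⟨C⟩ := exists_cylData (E := E) (le_refl 1)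
  refine pathObj_of_ctr (coskTop E) C fun S => ?_
  obtain ⟨R, u, -, hu⟩ := C.repr S (fun _ => True) (fun _ _ _ _ => trivial)
    (fun _ _ _ _ _ _ _ _ _ => trivial)
  refine ⟨R, u, ctr_of_forall_cosk fun k => ?_, hu⟩
  obtain ⟨K⟩ := exists_cosk (E := E) k
  refine ⟨K, ?_⟩
  rcases Nat.eq_zero_or_pos k with rfl | hk
  · intro a b hab
    exact (K.cosk R a b hab (by simp)).exists
  · have key : ∀ d n, 1 ≤ n → n + d = k + 1 → Nonempty (PathObj K.K n) := by
      intro d
      induction d with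
      | zero =>
        intro n _ hn
        obtain rfl : n = k + 1 := by omega
        exact pathObj_base K
      | succ d ih =>
        intro n hn hn'
        obtain ⟨P⟩ := ih (n + 1) (by omega) (by omega)
        obtain ⟨C'⟩ := exists_cylData (E := E) hn
        exact pathObj_of_ctr K C' (cyl_ctr K hn P C')
    obtain ⟨P⟩ := key (k - 1) 2 (by omega) (by omega)
    obtain ⟨R', u', hR', hu'⟩ := cyl_ctr K (le_refl 1) P C S
    obtain ⟨e, -⟩ := hu'.iso hu
    exact Ctr.of_iso ((U E).mapIso (K.K.mapIso e)) hR'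

end Vale.Agent.P259
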