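import Vale.Agent.P259.Div

/-! P259 task WEQ: weak equivalences of models.

`lb_transport`: for `α : a' → a`, `β : b → b'`, `f` commutes with `wh j α · β` (`cm_wh`), both
whiskerings are `LocBij` (`wh_bij_bot`), so `LocBij.comp`, `of_comp_left`, `of_comp_right`.
`lb_wh` likewise with `wh_bij`. `lb_self_iff`: let `1^i x` be the tower `idc^[i] x`. Show by
induction on `j` (`1 ≤ j ≤ m = dim u`): there is `u'` with `dim u' = m`,
`src j u' = 1^(j-1) x` and `LB f u u ↔ LB f u' u'`, where `x` is any `0`-cell with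
`Con (src 1 u) x` (start: if `m = 1` use `lb_con`; otherwise whisker at level `1` with `α : x → src 1 u` and
an identity). Step: `a = src j u'`, `w = src (j+1) u'`, `u'' = wh j (idc a) u' (invc w)`,
`src (j+1) u'' = wh j (idc a) w (invc w)` and `Con (idc a) (wh j (idc a) w (invc w))` by
`cell_univ` (context `w`, `a = sr w`); if `j + 1 = m` use `lb_con`, otherwise whisker at level `j + 1` with this
cell and an identity. At `j = m`, `u' = 1^(m-1) x`.
`wk_of_lb`: by induction on `dim a` prove `LB f a b` for all parallel `a, b`: only `surj` matters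
(`weq_iff_lb`); given `c' : f a → f b`, `LB f (sr a) (tg a)` gives `Con a b`, transport to `LB f a a`. -/

noncomputable section
namespace Vale.Agent.P259
open CategoryTheory CategoryTheory.Limits GlobExt Opposite
variable {E : GlobExt} [hE : Fact E.IsCoherator] {X Y Z : Gpd E}

lemma weq_square (f : X ⟶ Y) {φ : cell X → cell X} {ψ : cell Y → cell Y} {a b a' b' : cell X}
    (hφ : LocBij φ a b a' b') (hψ : LocBij ψ (cm f a) (cm f b) (cm f a') (cm f b'))
    (w : ∀ c, Arr c a b → cm f (φ c) = ψ (cm f c)) :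
    LB ((U E).map f) a b ↔ LB ((U E).map f) a' b' :=
  ⟨fun h => LocBij.of_comp_right (gpdLike X) (gpdLike Y) hφ (locMap_app _ _ _)
      ((LocBij.comp (gpdLike Y) h hψ).congr fun c hc => (w c hc).symm),
    fun h => LocBij.of_comp_left (locMap_app _ _ _) hψ
      ((LocBij.comp (gpdLike Y) hφ h).congr w)⟩

lemma lb_con (f : X ⟶ Y) {a b a' b' : cell X} (hab : Par a b) (ha : Con a' a) (hb : Con b b') :
    LB ((U E).map f) a b ↔ LB ((U E).map f) a' b' := by
  obtain ⟨α, hα⟩ := ha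
  obtain ⟨β, hβ⟩ := hb
  rcases Nat.eq_zero_or_pos (dim a) with h0 | h0
  · have hb0 : dim b = 0 := hab.1.symm.trans h0
    rw [eq_bot (hα.par.1.trans h0), eq_bot (hβ.par.1.symm.trans hb0), eq_bot h0, eq_bot hb0]
  · have h1 : dim α = dim a + 1 := hα.dim_tgt
    have h2 : dim β = dim a + 1 := hβ.2.2.trans (by rw [hab.1])
    exact weq_square f (div_bot h0 hα hβ h1 h2)
      (div_bot h0 (hα.map _) (hβ.map _) ((GS.Hom.dim_app _ _).trans h1)
        ((GS.Hom.dim_app _ _).trans h2))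
      fun c hc => cm_wh f (div_bottom h0 hα hβ h1 h2 hc)

lemma lb_wh (f : X ⟶ Y) {j : ℕ} {α β a b : cell X} (h : Wh j α a β) (hab : Par a b) :
    LB ((U E).map f) a b ↔ LB ((U E).map f) (wh j α a β) (wh j α b β) := by
  refine weq_square f (ψ := fun c => wh j (cm f α) c (cm f β)) (wh_bij h hab) ?_
    fun c hc => cm_wh f (h.of_arr hc)
  rw [cm_wh f h, cm_wh f (h.of_par hab)]
  exact wh_bij (h.map _) (hab.map _)

lemma weq_adjust (f : X ⟶ Y) {j : ℕ} (hj : 1 ≤ j) {u a : cell X} (hu : j ≤ dim u)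
    (h : Con a (src j u)) : ∃ u' : cell X, dim u' = dim u ∧ src j u' = a ∧
      (LB ((U E).map f) u u ↔ LB ((U E).map f) u' u') := by
  rcases hu.eq_or_lt with h1 | h1
  · rw [src_of_le h1.ge] at h
    exact ⟨a, h.par.1, src_of_le (h.par.1.trans h1.symm).le,
      lb_con f (Par.refl u) h ((gpdLike X).symm _ _ h)⟩
  · obtain ⟨α, hα⟩ := h
    have h2 := idc_arr (x := tgt j u) (by rw [dim_tgt hu]; exact hj)
    have hw : Wh j α u (idc (tgt j u)) :=
      ⟨hj, by rw [hα.dim_tgt, dim_src hu], by rw [h2.2.2, dim_tgt hu], h1, hα.2.1, h2.1⟩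
    exact ⟨_, dim_wh hw, (src_wh hw).trans hα.1, lb_wh f hw (Par.refl u)⟩

lemma weq_wh_inv {j : ℕ} (hj : 1 ≤ j) {u : cell X} (hu : j + 1 ≤ dim u) :
    Wh j (idc (src j u)) u (invc (src (j + 1) u)) := by
  have h1 := idc_arr (x := src j u) (by rw [dim_src (by omega)]; exact hj)
  have h2 : 1 ≤ dim (src (j + 1) u) := by rw [dim_src hu]; omega
  exact ⟨hj, by rw [h1.2.2, dim_src (by omega)], by rw [dim_invc h2, dim_src hu], hu, h1.2.1,
    (invc_arr h2).1.trans (tg_src hu)⟩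

lemma weq_inv_con {j : ℕ} (hj : 1 ≤ j) (w : cell X) (hw : dim w = j + 1) :
    Con (idc (src j w)) (wh j (idc (src j w)) w (invc w)) := by
  have key : ∀ (Y : Gpd E) (w : cell Y), dim w = j + 1 → Wh j (idc (src j w)) w (invc w) := by
    intro Y w hw
    have h := weq_wh_inv hj hw.ge
    rwa [src_of_le hw.le] at h
  have hd : ∀ (Y : Gpd E) (w : cell Y), dim w = j + 1 → 1 ≤ dim (src j w) := fun Y w hw => by
    rw [dim_src (by omega)]
    exact hj
  refine cell_univ (j + 1) (by omega)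
    (fun Y w => Con (idc (src j w)) (wh j (idc (src j w)) w (invc w))) (fun Y Y' g w hw h => ?_)
    (fun Y hY w hw => hY _ _ ((idc_arr (hd Y w hw)).par_of_arr ?_)) X w hw
  · have h1 := h.map ((U E).map g)
    change Con (cm g _) (cm g _) at h1
    rwa [cm_wh g (key Y w hw), cm_idc g (hd Y w hw), cm_invc g (by omega),
      show cm g (src j w) = src j (cm g w) from app_src _ _ _] at h1
  · have h1 := wh_bot (key Y w hw) hw
    rwa [(idc_arr (hd Y w hw)).1, (invc_arr (by omega)).2.1, ← src_eq_sr hw] at h1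

lemma weq_dim_tower {x : cell X} (hx : dim x = 1) (m : ℕ) : dim (idc^[m] x) = m + 1 := by
  induction m with
  | zero => exact hx
  | succ m ih => rw [Function.iterate_succ_apply', (idc_arr (by omega)).2.2, ih]

lemma weq_src_tower {x : cell X} (hx : dim x = 1) (m : ℕ) : src 1 (idc^[m] x) = x := by
  induction m with
  | zero => exact src_of_le hx.le
  | succ m ih =>
    have h := weq_dim_tower hx m
    rw [Function.iterate_succ_apply', (idc_arr (by omega)).src_eq (by omega), ih]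

lemma weq_tower (f : X ⟶ Y) {x u : cell X} (h : Con x (src 1 u)) (j : ℕ) (hj : j + 1 ≤ dim u) :
    ∃ u' : cell X, dim u' = dim u ∧ src (j + 1) u' = idc^[j] x ∧
      (LB ((U E).map f) u u ↔ LB ((U E).map f) u' u') := by
  induction j with
  | zero => exact weq_adjust f le_rfl hj h
  | succ j ih =>
    obtain ⟨v, h1, h2, h3⟩ := ih (by omega)
    have hv : j + 1 + 1 ≤ dim v := by omega
    have hw := weq_wh_inv (j := j + 1) (by omega) hv
    have h4 := weq_inv_con (j := j + 1) (by omega) (src (j + 1 + 1) v) (dim_src hv)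
    rw [src_src v (by omega), ← src_succ_wh hw le_rfl] at h4
    obtain ⟨v', h5, h6, h7⟩ := weq_adjust f (by omega) ((dim_wh hw).symm ▸ hv) h4
    refine ⟨v', h5.trans ((dim_wh hw).trans h1), ?_, (h3.trans (lb_wh f hw (Par.refl v))).trans h7⟩
    rw [h6, h2, Function.iterate_succ_apply']

lemma weq_tower' (f : X ⟶ Y) {x u : cell X} (h : Con x (src 1 u)) {m : ℕ} (hm : dim u = m + 1) :
    LB ((U E).map f) u u ↔ LB ((U E).map f) (idc^[m] x) (idc^[m] x) := by
  obtain ⟨v, h1, h2, h3⟩ := weq_tower f h m hm.ge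
  rwa [← h2, src_of_le (h1.trans hm).le]

lemma lb_self_iff (f : X ⟶ Y) {u u' : cell X} (hu : 1 ≤ dim u) (hd : dim u = dim u')
    (h : Con (src 1 u) (src 1 u')) : LB ((U E).map f) u u ↔ LB ((U E).map f) u' u' := by
  have hm : dim u = dim u - 1 + 1 := by omega
  exact (weq_tower' f ((gpdLike X).refl _ (dim_src hu).ge) hm).trans
    (weq_tower' f h (hd.symm.trans hm)).symm

theorem wk_of_lb (f : X ⟶ Y) (h0 : LB ((U E).map f) ((U E).obj X).bot ((U E).obj X).bot)
    (h : ∀ x : cell X, dim x = 1 → ∀ m : ℕ,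
      ∃ u : cell X, dim u = m + 1 ∧ Con (src 1 u) x ∧ LB ((U E).map f) u u) : Wk E f := by
  have key : ∀ a b : cell X, Con a b → LB ((U E).map f) a b := by
    intro a b hab
    rcases Nat.eq_zero_or_pos (dim a) with h1 | h1
    · rwa [eq_bot (hab.par.1.symm.trans h1), eq_bot h1]
    · obtain ⟨u, h2, h3, h4⟩ := h (src 1 a) (dim_src h1) (dim a - 1)
      exact (lb_con f (Par.refl a) ((gpdLike X).refl a h1) hab).1
        ((lb_self_iff f (by omega) (by omega) h3).1 h4)
  intro a b hab c hc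
  rcases Nat.eq_zero_or_pos (dim a) with h1 | h1
  · obtain rfl := eq_bot (hab.1.symm.trans h1)
    obtain rfl := eq_bot h1
    exact h0.surj c hc
  · exact (key a b ((key _ _ ⟨a, arr_self h1⟩).inj a b (arr_self h1) ((arr_self h1).of_par hab)
      ⟨c, hc⟩)).surj c hc

lemma weq_right {W : Gpd E} (Δ : (U E).obj W ⟶ (U E).obj X) (f : X ⟶ Y) (h1 : WEq Δ)
    (h2 : WEq (Δ ≫ (U E).map f)) : Wk E f := by
  have key : ∀ y : cell W, LB ((U E).map f) (Δ.app y) (Δ.app y) := fun y =>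
    LocBij.of_comp_right (gpdLike X) (gpdLike Y) (weq_iff_lb.1 h1 y y (Par.refl y))
      (locMap_app _ _ _) (weq_iff_lb.1 h2 y y (Par.refl y))
  refine wk_of_lb f (by simpa only [app_bot] using key ((U E).obj W).bot) fun x hx m => ?_
  obtain ⟨y, h3, h4⟩ := h1 _ _ (Par.refl ((U E).obj W).bot) x
    (by rw [app_bot]; exact arr_bot_iff.2 hx)
  have h5 := arr_bot_iff.1 h3
  refine ⟨Δ.app (idc^[m] y), (Δ.dim_app _).trans (weq_dim_tower h5 m), ?_, key _⟩
  rwa [← app_src, weq_src_tower h5]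

lemma weq_of_isIso (f : X ⟶ Y) [IsIso f] : Wk E f :=
  (TrivFib.of_isIso ((U E).map f)).weq (gpdLike Y)

omit hE in
lemma Wk.lb {f : X ⟶ Y} (h : Wk E f) {a b : cell X} (hab : Par a b) : LB ((U E).map f) a b :=
  weq_iff_lb.1 h a b hab

instance : (Wk E).IsMultiplicative where
  id_mem X := weq_of_isIso (𝟙 X)
  comp_mem {_ _ Z} f g hf hg := by
    change WEq ((U E).map (f ≫ g))
    rw [Functor.map_comp]
    exact WEq.comp (gpdLike Z) hf hg
instance : (Wk E).HasTwoOutOfThreeProperty where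
  of_postcomp f g hg hfg := WEq.of_comp_left hg ((U E).map_comp f g ▸ hfg)
  of_precomp f g hf hfg := weq_right _ g hf ((U E).map_comp f g ▸ hfg)
instance : (Wk E).RespectsIso :=
  MorphismProperty.respectsIso_of_isStableUnderComposition fun _ _ f (_ : IsIso f) =>
    weq_of_isIso f
omit hE in
lemma weq_retract {X' Y' : Gpd E} {f : X ⟶ Y} {g : X' ⟶ Y'} (i : X ⟶ X') (r : X' ⟶ X)
    (i' : Y ⟶ Y') (r' : Y' ⟶ Y) (h : i ≫ r = 𝟙 X) (h' : i' ≫ r' = 𝟙 Y) (wi : i ≫ g = f ≫ i')
    (wr : r ≫ f = g ≫ r') (hg : Wk E g) : Wk E f := by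
  intro a b hab c hc
  have e1 : ∀ x, cm i' (cm f x) = cm g (cm i x) := fun x => by rw [← cm_comp, ← wi, cm_comp]
  have e2 : ∀ x, cm r (cm i x) = x := fun x => by rw [← cm_comp, h, cm_id]
  have h1 : Arr (cm i' c) (cm i' (cm f a)) (cm i' (cm f b)) := hc.map _
  rw [e1, e1] at h1
  obtain ⟨d, h2, h3⟩ := hg _ _ (hab.map ((U E).map i)) _ h1
  have h4 : Arr (cm r d) (cm r (cm i a)) (cm r (cm i b)) := h2.map _
  have h5 : Con (cm r' (cm g d)) (cm r' (cm i' c)) := h3.map _
  rw [e2, e2] at h4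
  rw [← cm_comp, ← cm_comp, ← wr, h', cm_id, cm_comp] at h5
  exact ⟨_, h4, h5⟩
instance : (Wk E).IsStableUnderRetracts where
  of_retract h hg := weq_retract h.i.left h.r.left h.i.right h.r.right h.retract_left
    h.retract_right h.i_w h.r_w hg
lemma wk_of_isIso (f : X ⟶ Y) [IsIso f] : Wk E f := weq_of_isIso f
lemma wk_two_of_six {W : Gpd E} {f : X ⟶ Y} {g : Y ⟶ Z} {h : Z ⟶ W} (h1 : Wk E (f ≫ g))
    (h2 : Wk E (g ≫ h)) : Wk E f ∧ Wk E g ∧ Wk E h := by
  have hf : Wk E f := WEq.two_of_six (g := (U E).map g) (h := (U E).map h)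
    ((U E).map_comp f g ▸ h1) ((U E).map_comp g h ▸ h2)
  have hg := (Wk E).of_precomp f g hf h1
  exact ⟨hf, hg, (Wk E).of_precomp g h hg h2⟩
lemma TF.wk {f : X ⟶ Y} (h : TF E f) : Wk E f := TrivFib.weq (gpdLike Y) h
lemma tf_of_fb_wk {f : X ⟶ Y} (h : FB E f) (h' : Wk E f) : TF E f := Fib.trivFib h h'
lemma wk_of_ctr (f : X ⟶ Y) (hX : MCtr X) (hY : MCtr Y) : Wk E f := WEq.of_ctr _ hX hY
lemma Wk.ctr_left {f : X ⟶ Y} (h : Wk E f) (hY : MCtr Y) : MCtr X := WEq.ctr h hY
/-- Two out of three for the maps to the terminal object (`CoGlob.terminal_ctr`). -/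
lemma Wk.ctr_right {f : X ⟶ Y} (h : Wk E f) (hX : MCtr X) {T : Gpd E} (hT : IsTerminal T) :
    MCtr Y :=
  ((Wk E).of_precomp f (hT.from Y) h
    (wk_of_ctr _ hX ((discsOf (rep E)).terminal_ctr hT))).ctr_left
    ((discsOf (rep E)).terminal_ctr hT)

/-- A map that is split by a globular section of a trivial fibration is a weak equivalence. -/
lemma wk_of_section {p : X ⟶ Y} (hp : TF E p) (f : X ⟶ Y) (Δ : (U E).obj Y ⟶ (U E).obj X)
    (h1 : Δ ≫ (U E).map p = 𝟙 _) (h2 : Δ ≫ (U E).map f = 𝟙 _) : Wk E f := by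
  have h3 : WEq (𝟙 ((U E).obj Y)) := (TrivFib.of_isIso _).weq (gpdLike Y)
  exact weq_right Δ f (WEq.of_comp_left hp.wk (h1 ▸ h3)) (h2 ▸ h3)

end Vale.Agent.P259
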