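import Vale.Agent.P259.SOA
import Vale.Agent.P259.Weq
import Vale.Agent.P259.PathInd

/-! P259 task HALG: consequences of the path object.

`TC.wk`: let `P2 = pullback (p0 B) (p0 B)`, `r0 = fst ≫ p1`, `r1 = snd ≫ p1`; both are `TF`; the map
`prod.lift r0 r1 : P2 ⟶ B ⨯ B` is `FB` (for a cell `(z, z')` of `P2` and `y, y'` use `fib` twice with
`x = idc (p0 z)`; `CoGlob.pullback_cell`, `CoGlob.prod_cell`). `A` cofibrant gives `s : A ⟶ P B` with
`s ≫ p1 = i`, so `(s, s) : A ⟶ P2`. `fb_terminal` gives `r : B ⟶ A` with `i ≫ r = 𝟙`. Lift in the square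
`(s, s)`, `prod.lift (r ≫ i) (𝟙 B)` to get `H`; `H ≫ r1 = 𝟙` so `H` is `Wk`, so `r ≫ i` is `Wk`;
`wk_two_of_six` with `i, r, i`.
`tc_of_cof_wk`: factor `i = j ≫ p` (`exists_tc_fb`), `j` is `Wk`, `p` is `TF`, so `i` is a retract of `j`
(`RetractArrow.ofLeftLiftingProperty`). -/

noncomputable section
namespace Vale.Agent.P259
open CategoryTheory CategoryTheory.Limits GlobExt Opposite
variable {E : GlobExt} [hE : Fact E.IsCoherator]

variable (E) in
/-- A choice of path object. -/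
def po : PO E := Classical.choice (exists_po E)

variable {X Y Z : Gpd E}

omit hE in
lemma halg_dim (f : X ⟶ Y) (x : cell X) : dim (cm f x) = dim x := ((U E).map f).dim_app x

omit hE in
lemma halg_sr (f : X ⟶ Y) (x : cell X) : sr (cm f x) = cm f (sr x) := ((U E).map f).sr_app x

omit hE in
lemma halg_prod_ext {z z' : cell (X ⨯ Y)} (h1 : cm prod.fst z = cm prod.fst z')
    (h2 : cm prod.snd z = cm prod.snd z') : z = z' :=
  ((discsOf (rep E)).prod_cell (prodIsProd X Y) (cm prod.fst z') (cm prod.snd z')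
    ((halg_dim _ _).trans (halg_dim _ _).symm)).unique ⟨h1, h2⟩ ⟨rfl, rfl⟩

omit hE in
lemma halg_fst {W : Gpd E} (f : W ⟶ X) (g : W ⟶ Y) (x : cell W) :
    cm prod.fst (cm (prod.lift f g) x) = cm f x := by rw [← cm_comp, prod.lift_fst]

omit hE in
lemma halg_snd {W : Gpd E} (f : W ⟶ X) (g : W ⟶ Y) (x : cell W) :
    cm prod.snd (cm (prod.lift f g) x) = cm g x := by rw [← cm_comp, prod.lift_snd]

omit hE in
lemma halg_fill {P : Gpd E} {p0 p1 : P ⟶ Y} (ax : PathAx 1 ((U E).map p0) ((U E).map p1))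
    (hY : MCtr Y) : TF E (prod.lift p0 p1) := by
  intro a b hab c hc
  have h0 : Arr (cm prod.fst c) (cm prod.fst (cm (prod.lift p0 p1) a))
    (cm prod.fst (cm (prod.lift p0 p1) b)) := hc.map ((U E).map prod.fst)
  have h1 : Arr (cm prod.snd c) (cm prod.snd (cm (prod.lift p0 p1) a))
    (cm prod.snd (cm (prod.lift p0 p1) b)) := hc.map ((U E).map prod.snd)
  rw [halg_fst, halg_fst] at h0
  rw [halg_snd, halg_snd] at h1
  obtain ⟨z, hz, z0, z1⟩ := ax.fill hY a b hab (by omega) _ _ h0 h1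
  exact ⟨z, hz, halg_prod_ext ((halg_fst _ _ _).trans z0) ((halg_snd _ _ _).trans z1)⟩

lemma halg_fb {P : Gpd E} {p0 p1 : P ⟶ Y} (ax : PathAx 1 ((U E).map p0) ((U E).map p1)) :
    FB E (prod.lift (pullback.fst p0 p0 ≫ p1) (pullback.snd p0 p0 ≫ p1)) := by
  intro a ha c hs hd
  have e : cm p0 (cm (pullback.fst p0 p0) a) = cm p0 (cm (pullback.snd p0 p0) a) := by
    rw [← cm_comp, ← cm_comp, pullback.condition]
  have hx := idc_arr (x := cm p0 (cm (pullback.fst p0 p0) a)) (by rwa [halg_dim, halg_dim])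
  obtain ⟨w0, s0, d0, x0, y0⟩ := ax.fib (cm (pullback.fst p0 p0) a) (by rwa [halg_dim]) _
    (cm prod.fst c) hx.1 (hx.2.2.trans (by rw [halg_dim]))
    (by rw [halg_sr, hs]; exact (halg_fst _ _ _).trans (cm_comp _ _ _))
    (by rw [halg_dim, halg_dim, hd])
  obtain ⟨w1, s1, d1, x1, y1⟩ := ax.fib (cm (pullback.snd p0 p0) a) (by rwa [halg_dim]) _
    (cm prod.snd c) (hx.1.trans e) (hx.2.2.trans (by rw [halg_dim, halg_dim, halg_dim]))
    (by rw [halg_sr, hs]; exact (halg_snd _ _ _).trans (cm_comp _ _ _))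
    (by rw [halg_dim, halg_dim, hd])
  obtain ⟨w, ⟨h0, h1⟩, -⟩ := (discsOf (rep E)).pullback_cell (IsPullback.of_hasPullback p0 p0)
    w0 w1 (x0.trans x1.symm)
  have h0' : cm (pullback.fst p0 p0) w = w0 := h0
  have h1' : cm (pullback.snd p0 p0) w = w1 := h1
  refine ⟨w, ((discsOf (rep E)).pullback_cell (IsPullback.of_hasPullback p0 p0) _ _ e).unique
    ⟨?_, ?_⟩ ⟨rfl, rfl⟩, ?_, halg_prod_ext ?_ ?_⟩
  · exact (halg_sr _ w).symm.trans (h0' ▸ s0)
  · exact (halg_sr _ w).symm.trans (h1' ▸ s1)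
  · rw [← halg_dim (pullback.fst p0 p0) w, h0', d0, halg_dim]
  · exact (halg_fst _ _ _).trans ((cm_comp _ _ _).trans (h0' ▸ y0))
  · exact (halg_snd _ _ _).trans ((cm_comp _ _ _).trans (h1' ▸ y1))

lemma tf_p0 (Y : Gpd E) : TF E ((po E).p0.app Y) := ((po E).ax Y).triv0
lemma tf_p1 (Y : Gpd E) : TF E ((po E).p1.app Y) := ((po E).ax Y).triv1
lemma tf_po_ctr (hY : MCtr Y) :
    TF E (prod.lift ((po E).p0.app Y) ((po E).p1.app Y) : (po E).P.obj Y ⟶ Y ⨯ Y) :=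
  halg_fill ((po E).ax Y) hY

lemma Htp.wk_iff {f g : X ⟶ Y} (h : Htp (po E) f g) : Wk E f ↔ Wk E g := by
  obtain ⟨H, rfl, rfl⟩ := h
  exact ((Wk E).postcomp_iff H _ (tf_p0 Y).wk).trans ((Wk E).postcomp_iff H _ (tf_p1 Y).wk).symm
lemma Htp.con_iff {f g : X ⟶ Y} (h : Htp (po E) f g) {c c' : cell X} (hc : Par c c') :
    Con (cm f c) (cm f c') ↔ Con (cm g c) (cm g c') := by
  obtain ⟨H, rfl, rfl⟩ := h
  have h1 : ∀ {p : (po E).P.obj Y ⟶ Y}, TF E p →
      (Con (cm (H ≫ p) c) (cm (H ≫ p) c') ↔ Con (cm H c) (cm H c')) := fun hp => by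
    rw [cm_comp, cm_comp]
    exact ⟨TrivFib.reflect hp (hc.map _), Con.map _⟩
  exact (h1 (tf_p0 Y)).trans (h1 (tf_p1 Y)).symm
lemma Htp.precomp {f g : Y ⟶ Z} (h : Htp (po E) f g) (e : X ⟶ Y) :
    Htp (po E) (e ≫ f) (e ≫ g) := by
  obtain ⟨H, rfl, rfl⟩ := h
  exact ⟨e ≫ H, Category.assoc _ _ _, Category.assoc _ _ _⟩
lemma Htp.postcomp {f g : X ⟶ Y} (h : Htp (po E) f g) (e : Y ⟶ Z) :
    Htp (po E) (f ≫ e) (g ≫ e) := by
  obtain ⟨H, rfl, rfl⟩ := h
  refine ⟨H ≫ (po E).P.map e, ?_, ?_⟩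
  · rw [Category.assoc, (po E).p0.naturality]
    exact (Category.assoc _ _ _).symm
  · rw [Category.assoc, (po E).p1.naturality]
    exact (Category.assoc _ _ _).symm

theorem TC.wk {i : X ⟶ Y} (hi : TC E i) (hX : Cofib X) : Wk E i := by
  obtain ⟨P, p0, p1, ax⟩ : ∃ (P : Gpd E) (p0 p1 : P ⟶ Y),
      PathAx 1 ((U E).map p0) ((U E).map p1) := ⟨_, _, _, (po E).ax Y⟩
  have t0 : TF E p0 := ax.triv0
  have t1 : TF E p1 := ax.triv1
  have r0 : TF E (pullback.fst p0 p0 ≫ p1) := (TF E).comp_mem _ _ ((TF E).pullback_fst _ _ t0) t1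
  have r1 : TF E (pullback.snd p0 p0 ≫ p1) := (TF E).comp_mem _ _ ((TF E).pullback_snd _ _ t0) t1
  obtain ⟨s, hs⟩ := hX _ _ p1 t1 i
  obtain ⟨r, hr, -⟩ := hi.lift (fb_terminal terminalIsTerminal (terminal.from X)) (𝟙 X)
    (terminal.from Y) (Subsingleton.elim _ _)
  obtain ⟨H, -, hH⟩ := hi.lift (halg_fb ax) (pullback.lift s s rfl) (prod.lift (r ≫ i) (𝟙 Y)) (by
    rw [prod.comp_lift, prod.comp_lift, pullback.lift_fst_assoc, pullback.lift_snd_assoc, hs,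
      reassoc_of% hr, Category.comp_id])
  have h0 : H ≫ pullback.fst p0 p0 ≫ p1 = r ≫ i := by
    simpa only [Category.assoc, prod.lift_fst] using hH =≫ prod.fst
  have h1 : H ≫ pullback.snd p0 p0 ≫ p1 = 𝟙 Y := by
    simpa only [Category.assoc, prod.lift_snd] using hH =≫ prod.snd
  have wH : Wk E H := (Wk E).of_postcomp H _ r1.wk (h1 ▸ (Wk E).id_mem Y)
  exact (wk_two_of_six (f := i) (g := r) (h := i) (hr ▸ (Wk E).id_mem X)
    (h0 ▸ (Wk E).comp_mem _ _ wH r0.wk)).1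

theorem tc_of_cof_wk {i : X ⟶ Y} (hX : Cofib X) (hi : Cof E i) (hw : Wk E i) : TC E i := by
  obtain ⟨Z, j, p, hj, hp, e⟩ := exists_tc_fb i
  obtain ⟨l, l1, l2⟩ := hi.lift (tf_of_fb_wk hp ((Wk E).of_precomp j p (hj.wk hX) (e ▸ hw))) j
    (𝟙 Y) (by rw [e, Category.comp_id])
  refine tc_of_lift fun A B q hq u v w => ?_
  obtain ⟨m, m1, m2⟩ := hj.lift hq u (p ≫ v) (by rw [w, ← Category.assoc, e])
  exact ⟨l ≫ m, by rw [← Category.assoc, l1, m1],
    by rw [Category.assoc, m2, ← Category.assoc, l2, Category.id_comp]⟩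

lemma Wk.ctr_right' {f : X ⟶ Y} (h : Wk E f) (hX : MCtr X) : MCtr Y :=
  h.ctr_right hX terminalIsTerminal

/-- Gluing contractible models along a contractible model. -/
lemma ctr_pushout {A B C P : Gpd E} {f : A ⟶ B} {g : A ⟶ C} {l : B ⟶ P} {r : C ⟶ P}
    (h : IsPushout f g l r) (hf : Cof E f) (hA : Cofib A) (hC : Cofib C) (cA : MCtr A)
    (cB : MCtr B) (cC : MCtr C) : MCtr P :=
  (TC.wk ((TC E).of_isPushout h.flip (tc_of_cof_wk hA hf (wk_of_ctr f cA cB))) hC).ctr_right' cC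

end Vale.Agent.P259
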