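import Vale.Agent.P259.Cube
import Vale.Agent.P259.HAlg

/-! P259 task CUBE2: acyclic carriers and homotopy invariance of `L`.

`car_htp`: `Γ ⋙ P ⟶ Γ ⨯ Γ` is objectwise `TF`
(`tf_po_ctr`; use the functor `n ↦ Γ n ⨯ Γ n`); lift `(u0, u1)` to `H`, descend `H.app n ≫ P.map (c n x)`.
`L_htp`: `Γ = cyl ⋙ S`, `c n x = inc (the singular cube y ↦ H (y (last), x (init y)))`, `u0, u1 = S` of the two end faces.
`L_wk`: `L_htp`, `Htp.wk_iff`, `wk_two_of_six`. `L_ctr`: `Sing (cube 0) ≅ yoneda 0` is terminal, `Sh` of it is `S 0`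
(compare universal properties with `Sh_desc`), then `L_wk`, `Wk.ctr_left`.
`exists_eps`: `u : S ⟶ cube ⋙ Pi` by `car_exists`, `ε_T` descends `u.app n ≫ Pi.map x`. -/

noncomputable section
namespace Vale.Agent.P259
open CategoryTheory CategoryTheory.Limits GlobExt Opposite
variable {E : GlobExt}

/-- The objectwise square of a cocubical model. -/
def cbSq (Γ : Cb ⥤ Gpd E) : Cb ⥤ Gpd E where
  obj n := Γ.obj n ⨯ Γ.obj n
  map φ := prod.map (Γ.map φ) (Γ.map φ)

/-- Pairing into the objectwise square. -/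
def cbPair {F Γ : Cb ⥤ Gpd E} (a b : F ⟶ Γ) : F ⟶ cbSq Γ where
  app n := prod.lift (a.app n) (b.app n)
  naturality m n φ := by
    have : F.map φ ≫ prod.lift (a.app n) (b.app n) =
        prod.lift (a.app m) (b.app m) ≫ prod.map (Γ.map φ) (Γ.map φ) := by
      rw [prod.comp_lift, prod.lift_map, a.naturality, b.naturality]
    exact this

/-- The singular cube swept out by a homotopy. -/
def sweep {T T' : TopCat.{0}} (H : C(unitInterval × T, T')) {n : Cb} (x : cube.obj n ⟶ T) :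
    cube.obj (cyl.obj n) ⟶ T' :=
  TopCat.ofHom ⟨fun y : Fin (n.n + 1) → unitInterval =>
    H (y (Fin.last _), x.hom fun k : Fin n.n => y k.castSucc),
    H.continuous.comp ((continuous_apply _).prodMk
      (x.hom.continuous.comp (continuous_pi fun _ => continuous_apply _)))⟩

lemma sweep_map {T T' : TopCat.{0}} (H : C(unitInterval × T, T')) {m n : Cb} (φ : m ⟶ n)
    (x : cube.obj n ⟶ T) : cube.map (cyl.map φ) ≫ sweep H x = sweep H (cube.map φ ≫ x) := by
  ext y
  change H (Sum.elim y endPt (Fin.lastCases (motive := fun _ => Fin (m.n + 1) ⊕ Bool)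
      (Sum.inl (Fin.last _)) (fun k => (show Fin m.n ⊕ Bool from φ k).map Fin.castSucc id)
      (Fin.last _)), x.hom fun k : Fin n.n => Sum.elim y endPt
      (Fin.lastCases (motive := fun _ => Fin (m.n + 1) ⊕ Bool)
      (Sum.inl (Fin.last _)) (fun k => (show Fin m.n ⊕ Bool from φ k).map Fin.castSucc id)
      k.castSucc)) = H (y (Fin.last _), x.hom fun k : Fin n.n =>
      Sum.elim (fun j : Fin m.n => y j.castSucc) endPt (show Fin m.n ⊕ Bool from φ k))
  simp only [Fin.lastCases_last, Fin.lastCases_castSucc]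
  congr 3
  funext k
  obtain ⟨z, hz⟩ : ∃ z : Fin m.n ⊕ Bool, φ k = z := ⟨_, rfl⟩
  simp only [hz]
  rcases z with j | j <;> rfl

lemma sweep_end {T T' : TopCat.{0}} (H : C(unitInterval × T, T')) {n : Cb} (b : Bool)
    (x : cube.obj n ⟶ T) {f : T ⟶ T'} (hf : ∀ t, H (endPt b, t) = f.hom t) :
    cube.map ((cylEnd b).app n) ≫ sweep H x = x ≫ f := by
  ext y
  change H (Sum.elim y endPt (Fin.lastCases (motive := fun _ => Fin n.n ⊕ Bool)
      (Sum.inr b) Sum.inl (Fin.last _)), x.hom fun k : Fin n.n => Sum.elim y endPt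
      (Fin.lastCases (motive := fun _ => Fin n.n ⊕ Bool) (Sum.inr b) Sum.inl k.castSucc)) =
      f.hom (x.hom y)
  simp only [Fin.lastCases_last, Fin.lastCases_castSucc]
  exact hf _

namespace ShData
variable (s : ShData E)

lemma exists_eps (Pi : TopCat.{0} ⥤ Gpd E) (h : ∀ n, MCtr (Pi.obj (cube.obj n))) :
    Nonempty (s.L ⟶ Pi) := by
  obtain ⟨u⟩ := s.car_exists (cube ⋙ Pi) h
  have key : ∀ T : TopCat.{0}, ∃ g : s.Sh.obj (Sing.obj T) ⟶ Pi.obj T,
      ∀ (n : Cb) (x : cube.obj n ⟶ T), s.inc (K := Sing.obj T) x ≫ g = u.app n ≫ Pi.map x :=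
    fun T => (s.Sh_desc (Sing.obj T) (Pi.obj T)
      (fun n (x : cube.obj n ⟶ T) => u.app n ≫ Pi.map x) fun m n φ (x : cube.obj n ⟶ T) => by
        rw [u.naturality_assoc]
        exact congrArg (u.app m ≫ ·) (Pi.map_comp (cube.map φ) x).symm).exists
  choose g hg using key
  refine ⟨⟨g, fun T T' f => s.Sh_ext fun n (x : cube.obj n ⟶ T) => ?_⟩⟩
  have e : s.inc (K := Sing.obj T) x ≫ s.Sh.map (Sing.map f) =
    s.inc (K := Sing.obj T') (x ≫ f : cube.obj n ⟶ T') := s.inc_map (Sing.map f) x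
  change s.inc (K := Sing.obj T) x ≫ s.Sh.map (Sing.map f) ≫ g T' =
    s.inc (K := Sing.obj T) x ≫ g T ≫ Pi.map f
  rw [← Category.assoc, e, hg, ← Category.assoc, hg, Pi.map_comp, Category.assoc]

variable [Fact E.IsCoherator]

lemma car_htp {Γ : Cb ⥤ Gpd E} (h : ∀ n, MCtr (Γ.obj n)) (u0 u1 : s.S ⟶ Γ) {K : CSet} {Y : Gpd E}
    (c : ∀ n : Cb, K.obj (op n) → (Γ.obj n ⟶ Y))
    (hc : ∀ (m n : Cb) (φ : m ⟶ n) (x : K.obj (op n)), Γ.map φ ≫ c n x = c m (K.map φ.op x))
    {f0 f1 : s.Sh.obj K ⟶ Y} (h0 : ∀ n x, s.inc x ≫ f0 = u0.app n ≫ c n x)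
    (h1 : ∀ n x, s.inc x ≫ f1 = u1.app n ≫ c n x) : Htp (po E) f0 f1 := by
  obtain ⟨H, hH⟩ := s.lift (Γ ⋙ (po E).P) (cbSq Γ)
    (cbPair (Functor.whiskerLeft Γ (po E).p0) (Functor.whiskerLeft Γ (po E).p1))
    (fun n => tf_po_ctr (h n)) (cbPair u0 u1)
  have e : ∀ n, H.app n ≫ prod.lift ((po E).p0.app (Γ.obj n)) ((po E).p1.app (Γ.obj n)) =
      prod.lift (u0.app n) (u1.app n) := fun n => congrArg (fun t => NatTrans.app t n) hH
  have e0 : ∀ n, H.app n ≫ (po E).p0.app (Γ.obj n) = u0.app n := fun n =>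
    ((congrArg (H.app n ≫ ·) (prod.lift_fst _ _).symm).trans
      ((Category.assoc _ _ _).symm.trans (e n =≫ prod.fst))).trans (prod.lift_fst _ _)
  have e1 : ∀ n, H.app n ≫ (po E).p1.app (Γ.obj n) = u1.app n := fun n =>
    ((congrArg (H.app n ≫ ·) (prod.lift_snd _ _).symm).trans
      ((Category.assoc _ _ _).symm.trans (e n =≫ prod.snd))).trans (prod.lift_snd _ _)
  obtain ⟨G, hG, -⟩ := s.Sh_desc K ((po E).P.obj Y) (fun n x => H.app n ≫ (po E).P.map (c n x))
    fun m n φ x => by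
      rw [H.naturality_assoc, ← hc m n φ x]
      exact congrArg (H.app m ≫ ·) ((po E).P.map_comp (Γ.map φ) (c n x)).symm
  refine ⟨G, s.Sh_ext fun n x => ?_, s.Sh_ext fun n x => ?_⟩
  · rw [← Category.assoc, hG, h0, ← e0, Category.assoc, Category.assoc]
    exact congrArg (H.app n ≫ ·) ((po E).p0.naturality (c n x))
  · rw [← Category.assoc, hG, h1, ← e1, Category.assoc, Category.assoc]
    exact congrArg (H.app n ≫ ·) ((po E).p1.naturality (c n x))

lemma L_htp {T T' : TopCat.{0}} {f g : T ⟶ T'} (h : f.hom.Homotopic g.hom) :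
    Htp (po E) (s.L.map f) (s.L.map g) := by
  obtain ⟨H⟩ := h
  have key : ∀ (b : Bool) {k : T ⟶ T'} (_ : ∀ t, H.toContinuousMap (endPt b, t) = k.hom t)
      (n : Cb) (x : cube.obj n ⟶ T), s.inc (K := Sing.obj T) x ≫ s.L.map k =
        s.S.map ((cylEnd b).app n) ≫ s.inc (K := Sing.obj T') (sweep H.toContinuousMap x) :=
    fun b k hk n x => (s.inc_map (Sing.map k) x).trans
      ((congrArg (s.inc (K := Sing.obj T')) (sweep_end _ b x hk).symm).trans
        (s.map_inc (K := Sing.obj T') ((cylEnd b).app n) (sweep H.toContinuousMap x)).symm)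
  exact s.car_htp (Γ := cyl ⋙ s.S) (fun n => s.ctr _)
    (Functor.whiskerRight (cylEnd false) s.S) (Functor.whiskerRight (cylEnd true) s.S)
    (K := Sing.obj T) (fun n (x : cube.obj n ⟶ T) =>
      s.inc (K := Sing.obj T') (n := cyl.obj n) (sweep H.toContinuousMap x))
    (fun m n φ (x : cube.obj n ⟶ T) =>
      (s.map_inc (K := Sing.obj T') (cyl.map φ) (sweep H.toContinuousMap x)).trans
        (congrArg (s.inc (K := Sing.obj T')) (sweep_map _ φ x)))
    (key false H.apply_zero) (key true H.apply_one)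

lemma L_wk {T T' : TopCat.{0}} (f : T ⟶ T') (e : ContinuousMap.HomotopyEquiv T T')
    (he : e.toFun = f.hom) : Wk E (s.L.map f) := by
  let g : T' ⟶ T := TopCat.ofHom e.invFun
  have h1 : (f ≫ g).hom.Homotopic (𝟙 T : T ⟶ T).hom := by
    have := e.left_inv
    rw [he] at this
    exact this
  have h2 : (g ≫ f).hom.Homotopic (𝟙 T' : T' ⟶ T').hom := by
    have := e.right_inv
    rw [he] at this
    exact this
  have w1 := (s.L_htp h1).wk_iff.2 (by rw [CategoryTheory.Functor.map_id]; exact (Wk E).id_mem _)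
  have w2 := (s.L_htp h2).wk_iff.2 (by rw [CategoryTheory.Functor.map_id]; exact (Wk E).id_mem _)
  rw [Functor.map_comp] at w1 w2
  exact (wk_two_of_six w1 w2).1

lemma L_ctr (T : TopCat.{0}) [ContractibleSpace T] : MCtr (s.L.obj T) := by
  let z : Cb := ⟨0⟩
  have sub : ∀ n : Cb, Subsingleton (n ⟶ z) := fun n => ⟨fun a b => funext fun i => i.elim0⟩
  have sub' : ∀ (n : Cb) (x y : cube.obj n ⟶ cube.obj z), x = y := fun n x y => by
    ext t
    exact funext fun i => i.elim0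
  let t : ∀ n : Cb, n ⟶ z := fun n i => i.elim0
  obtain ⟨g, hg, -⟩ := s.Sh_desc (Sing.obj (cube.obj z)) (s.S.obj z) (fun n _ => s.S.map (t n))
    fun m n φ _ => by rw [← s.S.map_comp, Subsingleton.elim (φ ≫ t n) (t m)]
  have : IsIso g := by
    refine ⟨s.inc (K := Sing.obj (cube.obj z)) (𝟙 (cube.obj z)), s.Sh_ext fun n x => ?_, ?_⟩
    · rw [← Category.assoc, hg, Category.comp_id]
      exact (s.map_inc (K := Sing.obj (cube.obj z)) (t n) (𝟙 (cube.obj z))).trans
        (congrArg (s.inc (K := Sing.obj (cube.obj z))) (sub' n _ _))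
    · refine (hg z (𝟙 (cube.obj z))).trans ?_
      rw [Subsingleton.elim (t z) (𝟙 z), CategoryTheory.Functor.map_id]
  have h0 : MCtr (s.L.obj (cube.obj z)) := (wk_of_isIso g).ctr_left (s.ctr z)
  obtain ⟨e1⟩ := ContractibleSpace.hequiv T (cube.obj z)
  exact (s.L_wk (TopCat.ofHom e1.toFun) e1 rfl).ctr_left h0

end ShData

end Vale.Agent.P259
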