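import Vale.Agent.P259.CylDef

/-! P259 task CYLAX: cylinders satisfy the path object axioms.

Low case (`dim a + 1 < n`): use `low`, `low_inj` (and `q0 = q1` on low cells).
`triv0`: `mk'` with `γ = idc (Θ a b u)`. `triv1`: `Θ_bij.surj` gives `u` and `γ : Θ a b u → y`;
`q1 z = tg (g z) = y` by `g_arr`. `fill`: `Θ a b x` and `y` are parallel (`Θ_bij.arr`).
`fib`: let `m = dim a ≥ n`, `a0 = sr a`, `b0 = tg a`, `u = q0 a`, `u' = tg x`, `X = Θ a0 b0 x :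
Θ a0 b0 u → Θ a0 b0 u'` (`Θ_up`), `α = invc (g a) : q1 a → Θ a0 b0 u`,
`α' = wh m α X (idc (Θ a0 b0 u'))`. By `wh_bij_bot` (`surj`) for `wh m α' · (idc (tg y))` there is
`c : Θ a0 b0 u' → tg y` with `Con (wh m α' c (idc (tg y))) y`. By `wh_univ` (context `α, X, c`, all of
`dim m + 1`): `Con (wh m α X c) (wh m (wh m α X (idc (tg X))) c (idc (tg c)))`. Let `a'` be the
cylinder `mk' a0 b0 u' c`; then `Θ a a' x = wh m α X c` (`Θ_succ`) is connected to `y` by some `Γ`;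
take `mk' a a' x Γ`. -/

noncomputable section
namespace Vale.Agent.P259
open CategoryTheory CategoryTheory.Limits GlobExt Opposite
variable {E : GlobExt} [hE : Fact E.IsCoherator] {n : ℕ}

lemma cylAx_mk (C : CylSpec E n) {Y : Gpd E} {a b : (C.Cy.obj Y).Cell} {u γ y : cell Y}
    (h : Par a b) (hn : n ≤ dim a + 1) (hu : Arr u ((C.q0.app Y).app a) ((C.q0.app Y).app b))
    (hγ : Arr γ (C.Θ a b u) y) :
    ∃ z, Arr z a b ∧ (C.q0.app Y).app z = u ∧ (C.q1.app Y).app z = y ∧ C.g z = γ := by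
  obtain ⟨z, ⟨h1, h2, h3⟩, -⟩ := C.mk' a b u γ h hn hu hγ.1 (by
    rw [hγ.2.2, ((C.Θ_bij a b h hn).arr u hu).2.2, hu.2.2, GS.Hom.dim_app, GS.Hom.dim_app])
  refine ⟨z, h1, h2, ?_, h3⟩
  rw [← (C.g_arr z (by rw [h1.2.2]; exact hn)).2.1, h3, hγ.2.1]

lemma cylAx_low (C : CylSpec E n) {Y : Gpd E} {a b : (C.Cy.obj Y).Cell} {u : cell Y}
    (hn : dim a + 1 < n) (hu : Arr u ((C.q0.app Y).app a) ((C.q0.app Y).app b)) :
    ∃ z, Arr z a b ∧ (C.q0.app Y).app z = u ∧ (C.q1.app Y).app z = u := by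
  have h0 : dim u = dim a + 1 := by rw [hu.2.2, GS.Hom.dim_app]
  obtain ⟨z, h1, h2⟩ := C.low Y u (by omega)
  have h3 : dim z = dim a + 1 := by rw [← h0, ← h1, GS.Hom.dim_app]
  refine ⟨z, ⟨C.low_inj Y _ _ (by rw [dim_sr]; omega) ?_,
    C.low_inj Y _ _ (by rw [dim_tg]; omega) ?_, h3⟩, h1, h2⟩
  · rw [← GS.Hom.sr_app, h1, hu.1]
  · rw [← GS.Hom.tg_app, h1, hu.2.1]

lemma cylAx_eq (C : CylSpec E n) {Y : Gpd E} {a : (C.Cy.obj Y).Cell} (hn : dim a < n) :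
    (C.q1.app Y).app a = (C.q0.app Y).app a := by
  obtain ⟨z, h1, h2⟩ := C.low Y ((C.q0.app Y).app a) (by rwa [GS.Hom.dim_app])
  rw [← h2, C.low_inj Y a z hn h1.symm]

lemma cylAx_wh {Y : Gpd E} {m : ℕ} {α X c : cell Y} (h : Wh m α X c) (hX : dim X = m + 1) :
    Wh m α X (idc (tg X)) ∧ Wh m (wh m α X (idc (tg X))) c (idc (tg c)) ∧
      Arr (wh m (wh m α X (idc (tg X))) c (idc (tg c))) (sr α) (tg c) := by
  have h0 := h.pos
  have h1 : dim (tg X) = m := by rw [dim_tg, hX, Nat.add_sub_cancel]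
  have h2 : dim (tg c) = m := by rw [dim_tg, h.db, Nat.add_sub_cancel]
  have a1 := idc_arr (x := tg X) (by omega)
  have a2 := idc_arr (x := tg c) (by omega)
  have w1 : Wh m α X (idc (tg X)) :=
    ⟨h0, h.da, by rw [a1.2.2, h1], h.dx, h.ha, by rw [a1.1, tgt_eq_tg hX]⟩
  have a3 := wh_bot w1 hX
  have w2 : Wh m (wh m α X (idc (tg X))) c (idc (tg c)) :=
    ⟨h0, by rw [dim_wh w1, hX], by rw [a2.2.2, h2], h.db.ge, by
      rw [a3.2.1, a1.2.1, src_eq_sr h.db, h.hb, tgt_eq_tg hX], by rw [a2.1, tgt_eq_tg h.db]⟩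
  have a4 := wh_bot w2 h.db
  rw [a3.1, a2.2.1] at a4
  exact ⟨w1, w2, a4⟩

lemma cylAx_con {Y : Gpd E} {m : ℕ} {α X c : cell Y} (h : Wh m α X c) (hX : dim X = m + 1) :
    Con (wh m α X c) (wh m (wh m α X (idc (tg X))) c (idc (tg c))) := by
  refine wh_univ m (m + 1) (fun Y α X c =>
    Con (wh m α X c) (wh m (wh m α X (idc (tg X))) c (idc (tg c))))
    (fun Y Y' f α X c h hX h1 => ?_)
    (fun Y hY α X c h hX => hY _ _ ((wh_bot h hX).par_of_arr (cylAx_wh h hX).2.2)) Y α X c h hX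
  have h0 := h.pos
  have h2 := h1.map ((U E).map f)
  obtain ⟨w1, w2, -⟩ := cylAx_wh h hX
  change Con (cm f _) (cm f _) at h2
  rwa [cm_wh f h, cm_wh f w2, cm_wh f w1, cm_idc f (by rw [dim_tg, hX]; omega),
    cm_idc f (by rw [dim_tg, h.db]; omega), ← ops_tg, ← ops_tg] at h2

theorem CylSpec.pathAx (hn : 1 ≤ n) (C : CylSpec E n) (Y : Gpd E) :
    PathAx n (C.q0.app Y) (C.q1.app Y) := by
  refine ⟨fun a b h u hu => ?_, fun a b h y hy => ?_, C.low_inj Y, C.low Y,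
    fun hY a b h h1 x y hx hy => ?_, fun a ha x y x1 x2 y1 y2 => ?_⟩
  · rcases le_or_gt n (dim a + 1) with h1 | h1
    · obtain ⟨z, h2, h3, -⟩ := cylAx_mk C h h1 hu (idc_arr ((C.Θ_bij a b h h1).arr u hu).pos)
      exact ⟨z, h2, h3⟩
    · obtain ⟨z, h2, h3, -⟩ := cylAx_low C h1 hu
      exact ⟨z, h2, h3⟩
  · rcases le_or_gt n (dim a + 1) with h1 | h1
    · obtain ⟨u, hu, γ, hγ⟩ := (C.Θ_bij a b h h1).surj y hy
      obtain ⟨z, h2, -, h3, -⟩ := cylAx_mk C h h1 hu hγ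
      exact ⟨z, h2, h3⟩
    · rw [cylAx_eq C (by omega), cylAx_eq C (by rw [← h.1]; omega)] at hy
      obtain ⟨z, h2, -, h3⟩ := cylAx_low C h1 hy
      exact ⟨z, h2, h3⟩
  · obtain ⟨γ, hγ⟩ := hY _ _ (((C.Θ_bij a b h h1).arr x hx).par_of_arr hy)
    obtain ⟨z, h2, h3, h4, -⟩ := cylAx_mk C h h1 hx hγ
    exact ⟨z, h2, h3, h4⟩
  have h0 : 1 ≤ dim a := hn.trans ha
  have hp := par_sr_tg a
  have h1 : n ≤ dim (sr a) + 1 := by rw [dim_sr]; omega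
  have hu := (arr_self h0).map (C.q0.app Y)
  have hx : Arr x ((C.q0.app Y).app a) (tg x) := x1 ▸ arr_self (by omega)
  have hy : Arr y ((C.q1.app Y).app a) (tg y) := y1 ▸ arr_self (by omega)
  have hu' := hu.of_par hx.par
  have hX := C.Θ_up _ _ x _ _ hp h1 hu hx
  have hα := (C.g_arr a ha).invc
  have dα : dim (invc (C.g a)) = dim a + 1 := by rw [hα.2.2, GS.Hom.dim_app]
  have dX : dim (C.Θ (sr a) (tg a) x) = dim a + 1 := by rw [hX.2.2, ← hα.dim_tgt, dα]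
  have dT : dim (C.Θ (sr a) (tg a) (tg x)) = dim a := by have := hX.dim_tgt; omega
  have dy : dim (tg y) = dim a := by rw [dim_tg, y2, Nat.add_sub_cancel]
  have a1 := idc_arr (x := C.Θ (sr a) (tg a) (tg x)) (by omega)
  have a2 := idc_arr (x := tg y) (by omega)
  have w1 := div_bottom h0 hα a1 dα (by rw [a1.2.2, dT]) hX
  have a3 := wh_bot w1 dX
  rw [hα.1, a1.2.1] at a3
  obtain ⟨c, hc, h2⟩ := (div_bot h0 a3 a2 (by rw [dim_wh w1, dX]) (by rw [a2.2.2, dy])).surj y hy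
  have h3 := cylAx_con (div_bottom h0 hα hc dα (by rw [hc.2.2, dT]) hX) dX
  rw [hX.2.1, hc.2.1] at h3
  obtain ⟨a', h4, h5, -, h6⟩ := cylAx_mk C hp h1 hu' hc
  have h7 := (arr_self h0).par_of_arr h4
  rw [← h5] at hx
  obtain ⟨Γ, hΓ⟩ := (gpdLike Y).trans _ _ _ h3 h2
  rw [← h6, ← C.Θ_succ a a' x h7 ha hx] at hΓ
  obtain ⟨z, h8, h9, h10, -⟩ := cylAx_mk C h7 (by omega) hx hΓ
  exact ⟨z, h8.1, h8.2.2, h9, h10⟩

end Vale.Agent.P259
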