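import Vale.Agent.P259.Div

/-! P259 task CYLDEF: explicit globular cylinders of level `n ≥ 1`.

A cell of `Cy Y` is `(u, gs, gt)` with `u : cell Y`, `gs gt : ℕ → cell Y`, subject to
* `gs j = gt j = bot` unless `n ≤ j ≤ dim u`; `gs (dim u) = gt (dim u)`;
* for `n ≤ j ≤ dim u`: `dim (gs j) = dim (gt j) = j + 1`, `sr (gs j) = Th j (src j u)`,
  `sr (gt j) = Th j (tgt j u)`, and for `n ≤ j < dim u` the context is well formed,
where `Th j x = x` for `j ≤ n` and `Th (j+1) x = wh j (invc (gs j)) (Th j x) (gt j)` for `n ≤ j`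
(`Th gs gt j` only depends on `gs i, gt i` for `i < j`).
Key lemma by induction on `j` (`n ≤ j ≤ dim u`): for every `x` with `j ≤ dim x`, and
`src i x = src i u`, `tgt i x = tgt i u` for all `i < j`: `dim (Th j x) = dim x`,
`src i (Th j x) = Th j (src i x)`, `tgt i (Th j x) = Th j (tgt i x)` for `j ≤ i`, and for `n < j`:
`src (j-1) (Th j x) = tg (gs (j-1))`, `tgt (j-1) (Th j x) = tg (gt (j-1))`; hence
`Wh j (invc (gs j)) (Th j x) (gt j)` when moreover `j < dim x`, `src j x = src j u`, `tgt j x = tgt j u`.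
`dim (u, ..) = dim u`; `sr (u, gs, gt) = (sr u, gs', gt')` with `gs' j = gs j` for `j < dim u`,
`gt' j = gt j` for `j + 1 < dim u`, `gt' (dim u - 1) = gs (dim u - 1)`, `bot` above; `tg` symmetric
(`gs' (dim u - 1) = gt (dim u - 1)`). `q0 = u`, `g z = gs (dim u)`, `q1 z = tg (g z)` if `n ≤ dim u`, else `u`.
`Θ a b x := Th a.gs b.gt (dim a + 1) x` (for parallel `a, b` the lower `gs, gt` agree).
`Θ_bij`: `Th (m+1)` on cells `q0 a → q0 b` (`m = dim a`) is a composite of `wh_bij` steps (levels `< m`)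
and one `wh_bij_bot` step (level `m`, if `n ≤ m`); `LocBij.comp`, `locBij_id`, `gpdLike`. -/

noncomputable section
namespace Vale.Agent.P259
open CategoryTheory CategoryTheory.Limits GlobExt Opposite

/-- Specification of globular cylinders of level `n`. -/
structure CylSpec (E : GlobExt) [Fact E.IsCoherator] (n : ℕ) where
  Cy : Gpd E ⥤ GS
  q0 : Cy ⟶ U E
  q1 : Cy ⟶ U E
  g : ∀ {Y : Gpd E}, (Cy.obj Y).Cell → cell Y
  Θ : ∀ {Y : Gpd E}, (Cy.obj Y).Cell → (Cy.obj Y).Cell → cell Y → cell Y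
  low_inj : ∀ (Y : Gpd E) (z z' : (Cy.obj Y).Cell), dim z < n →
    (q0.app Y).app z = (q0.app Y).app z' → z = z'
  low : ∀ (Y : Gpd E) (x : cell Y), dim x < n →
    ∃ z, (q0.app Y).app z = x ∧ (q1.app Y).app z = x
  g_nat : ∀ {Y Y' : Gpd E} (f : Y ⟶ Y') (z : (Cy.obj Y).Cell), n ≤ dim z →
    cm f (g z) = g ((Cy.map f).app z)
  Θ_nat : ∀ {Y Y' : Gpd E} (f : Y ⟶ Y') (a b : (Cy.obj Y).Cell) (u : cell Y), Par a b →
    n ≤ dim a + 1 → Arr u ((q0.app Y).app a) ((q0.app Y).app b) →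
    cm f (Θ a b u) = Θ ((Cy.map f).app a) ((Cy.map f).app b) (cm f u)
  Θ_low : ∀ {Y : Gpd E} (a b : (Cy.obj Y).Cell) (u : cell Y), dim a + 1 = n → Θ a b u = u
  Θ_bij : ∀ {Y : Gpd E} (a b : (Cy.obj Y).Cell), Par a b → n ≤ dim a + 1 →
    LocBij (Θ a b) ((q0.app Y).app a) ((q0.app Y).app b) ((q1.app Y).app a) ((q1.app Y).app b)
  Θ_up : ∀ {Y : Gpd E} (a b : (Cy.obj Y).Cell) (x u u' : cell Y), Par a b → n ≤ dim a + 1 →
    Arr u ((q0.app Y).app a) ((q0.app Y).app b) → Arr x u u' → Arr (Θ a b x) (Θ a b u) (Θ a b u')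
  Θ_succ : ∀ {Y : Gpd E} (z z' : (Cy.obj Y).Cell) (x : cell Y), Par z z' → n ≤ dim z →
    Arr x ((q0.app Y).app z) ((q0.app Y).app z') →
    Θ z z' x = wh (dim z) (invc (g z)) (Θ (sr z) (tg z) x) (g z')
  g_arr : ∀ {Y : Gpd E} (z : (Cy.obj Y).Cell), n ≤ dim z →
    Arr (g z) (Θ (sr z) (tg z) ((q0.app Y).app z)) ((q1.app Y).app z)
  mk' : ∀ {Y : Gpd E} (a b : (Cy.obj Y).Cell) (u γ : cell Y), Par a b → n ≤ dim a + 1 →
    Arr u ((q0.app Y).app a) ((q0.app Y).app b) → sr γ = Θ a b u → dim γ = dim u + 1 →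
    ∃! z, Arr z a b ∧ (q0.app Y).app z = u ∧ g z = γ

section CylDefAux

variable {E : GlobExt} [hE : Fact E.IsCoherator] {Y Y' : Gpd E} {n : ℕ}

/-- The iterated whiskering. -/
def cdTh (n : ℕ) (gs gt : ℕ → cell Y) : ℕ → cell Y → cell Y
  | 0, x => x
  | j + 1, x => if n ≤ j then wh j (invc (gs j)) (cdTh n gs gt j x) (gt j) else x

variable {gs gt gs' gt' : ℕ → cell Y} {m : ℕ} {x y c : cell Y}

lemma cdTh_low {j : ℕ} (h : j ≤ n) (x : cell Y) : cdTh n gs gt j x = x := by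
  cases j with
  | zero => rfl
  | succ j => exact if_neg (by omega)

lemma cdTh_succ {j : ℕ} (h : n ≤ j) (x : cell Y) :
    cdTh n gs gt (j + 1) x = wh j (invc (gs j)) (cdTh n gs gt j x) (gt j) := if_pos h

lemma cdTh_congr {j : ℕ} (h : ∀ i < j, gs i = gs' i ∧ gt i = gt' i) (x : cell Y) :
    cdTh n gs gt j x = cdTh n gs' gt' j x := by
  induction j with
  | zero => rfl
  | succ j ih =>
    by_cases hj : n ≤ j
    · rw [cdTh_succ hj, cdTh_succ hj, ih fun i hi => h i (by omega), (h j (by omega)).1,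
        (h j (by omega)).2]
    · rw [cdTh_low (by omega), cdTh_low (by omega)]

/-- The data `gs, gt` are well formed for `x` below level `m`. -/
def CdGood (n : ℕ) (gs gt : ℕ → cell Y) (m : ℕ) (x : cell Y) : Prop :=
  ∀ j, n ≤ j → j < m → (dim (gs j) = j + 1 ∧ sr (gs j) = cdTh n gs gt j (src j x)) ∧
    (dim (gt j) = j + 1 ∧ sr (gt j) = cdTh n gs gt j (tgt j x))

lemma CdGood.mono (h : CdGood n gs gt m x) {k : ℕ} (hk : k ≤ m) : CdGood n gs gt k x :=
  fun j h1 h2 => h j h1 (by omega)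

lemma CdGood.of_eq (h : CdGood n gs gt m x)
    (e : ∀ j < m, src j y = src j x ∧ tgt j y = tgt j x) : CdGood n gs gt m y := fun j h1 h2 => by
  rw [(e j h2).1, (e j h2).2]
  exact h j h1 h2

lemma CdGood.congr (h : CdGood n gs gt m x) (e : ∀ i < m, gs i = gs' i ∧ gt i = gt' i) :
    CdGood n gs' gt' m x := fun j h1 h2 => by
  rw [← (e j h2).1, ← (e j h2).2, ← cdTh_congr fun i hi => e i (by omega),
    ← cdTh_congr fun i hi => e i (by omega)]
  exact h j h1 h2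

lemma CdGood.to_src (h : CdGood n gs gt m x) {i : ℕ} (hi : m ≤ i) : CdGood n gs gt m (src i x) :=
  h.of_eq fun _ hj => ⟨src_src x (by omega), tgt_src x (by omega)⟩

lemma CdGood.to_tgt (h : CdGood n gs gt m x) {i : ℕ} (hi : m ≤ i) : CdGood n gs gt m (tgt i x) :=
  h.of_eq fun _ hj => ⟨src_tgt x (by omega), tgt_tgt x (by omega)⟩

lemma CdGood.to_par (h : CdGood n gs gt m x) (hm : m ≤ dim x) (hp : Par x y) :
    CdGood n gs gt m y :=
  h.of_eq fun _ hj => ⟨(hp.src_eq (by omega)).symm, (hp.tgt_eq (by omega)).symm⟩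

lemma CdGood.to_arr (h : CdGood n gs gt m x) (hm : m ≤ dim x) (hc : Arr c x y) :
    CdGood n gs gt m c :=
  h.of_eq fun _ hj => ⟨hc.src_eq (by omega),
    (hc.tgt_eq (by omega)).trans (hc.par.tgt_eq (by omega)).symm⟩

lemma CdGood.wh_aux (hn : 1 ≤ n) (h : CdGood n gs gt (m + 1) x) (h1 : n ≤ m) (hm : m + 1 ≤ dim x)
    (e0 : dim (cdTh n gs gt m x) = dim x)
    (e1 : src m (cdTh n gs gt m x) = cdTh n gs gt m (src m x))
    (e2 : tgt m (cdTh n gs gt m x) = cdTh n gs gt m (tgt m x)) :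
    Wh m (invc (gs m)) (cdTh n gs gt m x) (gt m) := by
  obtain ⟨⟨a1, a2⟩, b1, b2⟩ := h m h1 (by omega)
  exact ⟨by omega, (dim_invc (by omega)).trans a1, b1, by omega,
    (invc_arr (x := gs m) (by omega)).2.1.trans (a2.trans e1.symm), b2.trans e2.symm⟩

lemma CdGood.key (hn : 1 ≤ n) (h : CdGood n gs gt m x) (hm : m ≤ dim x) :
    dim (cdTh n gs gt m x) = dim x ∧ ∀ i, m ≤ i →
      src i (cdTh n gs gt m x) = cdTh n gs gt m (src i x) ∧
      tgt i (cdTh n gs gt m x) = cdTh n gs gt m (tgt i x) := by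
  induction m with
  | zero => exact ⟨rfl, fun _ _ => ⟨rfl, rfl⟩⟩
  | succ m ih =>
    by_cases h1 : n ≤ m
    · obtain ⟨e0, e⟩ := ih (h.mono (by omega)) (by omega)
      have hw := h.wh_aux hn h1 hm e0 (e m le_rfl).1 (e m le_rfl).2
      simp only [cdTh_succ h1]
      refine ⟨(dim_wh hw).trans e0, fun i hi => ?_⟩
      rw [src_succ_wh hw hi, tgt_succ_wh hw hi, (e i (by omega)).1, (e i (by omega)).2]
      exact ⟨rfl, rfl⟩
    · simp only [cdTh_low (show m + 1 ≤ n by omega)]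
      exact ⟨trivial, fun _ _ => ⟨trivial, trivial⟩⟩

lemma CdGood.whk (hn : 1 ≤ n) (h : CdGood n gs gt (m + 1) x) (h1 : n ≤ m) (hm : m + 1 ≤ dim x) :
    Wh m (invc (gs m)) (cdTh n gs gt m x) (gt m) :=
  have k := (h.mono m.le_succ).key hn (by omega)
  h.wh_aux hn h1 hm k.1 (k.2 m le_rfl).1 (k.2 m le_rfl).2

lemma CdGood.sr_tg (hn : 1 ≤ n) (h : CdGood n gs gt m x) (hm : m + 1 ≤ dim x) :
    sr (cdTh n gs gt m x) = cdTh n gs gt m (sr x) ∧
      tg (cdTh n gs gt m x) = cdTh n gs gt m (tg x) := by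
  obtain ⟨e0, e⟩ := h.key hn (by omega)
  obtain ⟨e1, e2⟩ := e (dim x - 1) (by omega)
  rw [src_eq_sr (by omega), src_eq_sr (by omega)] at e1
  rw [tgt_eq_tg (by omega), tgt_eq_tg (by omega)] at e2
  exact ⟨e1, e2⟩

lemma CdGood.arr (hn : 1 ≤ n) (h : CdGood n gs gt m x) (hm : m ≤ dim x) (hc : Arr c x y) :
    Arr (cdTh n gs gt m c) (cdTh n gs gt m x) (cdTh n gs gt m y) := by
  have h1 := h.to_arr hm hc
  have h2 := hc.2.2
  obtain ⟨e1, e2⟩ := h1.sr_tg hn (by omega)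
  refine ⟨by rw [e1, hc.1], by rw [e2, hc.2.1], ?_⟩
  rw [(h1.key hn (by omega)).1, (h.key hn hm).1, h2]

lemma CdGood.par (hn : 1 ≤ n) (h : CdGood n gs gt m x) (hm : m + 1 ≤ dim x) (hp : Par x y) :
    Par (cdTh n gs gt m x) (cdTh n gs gt m y) := by
  have h1 := h.to_par (by omega) hp
  have h2 := hp.1
  obtain ⟨e1, e2⟩ := h.sr_tg hn hm
  obtain ⟨e3, e4⟩ := h1.sr_tg hn (by omega)
  refine ⟨?_, by rw [e1, e3, hp.2.1], by rw [e2, e4, hp.2.2]⟩
  rw [(h1.key hn (by omega)).1, (h.key hn (by omega)).1, h2]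

lemma CdGood.bij (hn : 1 ≤ n) (h : CdGood n gs gt m x) (hm : m ≤ dim x) (hp : Par x y) :
    LocBij (cdTh n gs gt m) x y (cdTh n gs gt m x) (cdTh n gs gt m y) := by
  induction m with
  | zero => exact locBij_id (gpdLike Y) x y
  | succ m ih =>
    by_cases h1 : n ≤ m
    · have h2 := (ih (h.mono m.le_succ) (by omega)).comp (gpdLike Y)
        (wh_bij (h.whk hn h1 hm) ((h.mono m.le_succ).par hn hm hp))
      rw [cdTh_succ h1, cdTh_succ h1]
      exact h2.congr fun c _ => (cdTh_succ h1 c).symm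
    · rw [cdTh_low (by omega), cdTh_low (by omega)]
      exact (locBij_id (gpdLike Y) x y).congr fun c _ => (cdTh_low (by omega) c).symm

lemma CdGood.ends (hn : 1 ≤ n) (h : CdGood n gs gt (m + 1) x) (h1 : n ≤ m) (hm : dim x = m + 1) :
    sr (cdTh n gs gt (m + 1) x) = tg (gs m) ∧ tg (cdTh n gs gt (m + 1) x) = tg (gt m) := by
  have hw := h.whk hn h1 hm.ge
  have h2 := wh_bot hw (((h.mono m.le_succ).key hn (by omega)).1.trans hm)
  have h3 := (h m h1 (by omega)).1.1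
  rw [cdTh_succ h1]
  exact ⟨h2.1.trans (invc_arr (x := gs m) (by omega)).1, h2.2.1⟩

lemma CdGood.cm_th (hn : 1 ≤ n) (f : Y ⟶ Y') (h : CdGood n gs gt m x) (hm : m ≤ dim x) :
    cm f (cdTh n gs gt m x) =
      cdTh n (fun j => cm f (gs j)) (fun j => cm f (gt j)) m (cm f x) := by
  induction m with
  | zero => rfl
  | succ m ih =>
    by_cases h1 : n ≤ m
    · have h3 := (h m h1 (by omega)).1.1
      rw [cdTh_succ h1, cdTh_succ h1, cm_wh f (h.whk hn h1 hm), ih (h.mono m.le_succ) (by omega),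
        cm_invc f (by omega)]
    · rw [cdTh_low (by omega), cdTh_low (by omega)]

lemma CdGood.map (hn : 1 ≤ n) (f : Y ⟶ Y') (h : CdGood n gs gt m x) (hm : m ≤ dim x + 1) :
    CdGood n (fun j => cm f (gs j)) (fun j => cm f (gt j)) m (cm f x) := fun j h1 h2 => by
  obtain ⟨⟨a1, a2⟩, b1, b2⟩ := h j h1 h2
  have h3 := h.mono h2.le
  refine ⟨⟨(GS.Hom.dim_app _ _).trans a1, ?_⟩, (GS.Hom.dim_app _ _).trans b1, ?_⟩
  · rw [GS.Hom.sr_app, a2, ← app_src]
    exact (h3.to_src le_rfl).cm_th hn f (dim_src (by omega)).ge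
  · rw [GS.Hom.sr_app, b2, ← app_tgt]
    exact (h3.to_tgt le_rfl).cm_th hn f (dim_tgt (by omega)).ge

/-- Cells of the cylinder. -/
@[ext] structure CdC (n : ℕ) (Y : Gpd E) where
  u : cell Y
  gs : ℕ → cell Y
  gt : ℕ → cell Y
  out : ∀ j, j < n ∨ dim u < j → gs j = ((U E).obj Y).bot ∧ gt j = ((U E).obj Y).bot
  top : gs (dim u) = gt (dim u)
  good : CdGood n gs gt (dim u + 1) u

lemma CdC.ext' {z z' : CdC n Y} (h : z.u = z'.u)
    (h' : ∀ j, n ≤ j → j ≤ dim z.u → z.gs j = z'.gs j ∧ z.gt j = z'.gt j) : z = z' := by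
  have e : ∀ j, z.gs j = z'.gs j ∧ z.gt j = z'.gt j := fun j => by
    by_cases hj : j < n ∨ dim z.u < j
    · rw [(z.out j hj).1, (z.out j hj).2, (z'.out j (h ▸ hj)).1, (z'.out j (h ▸ hj)).2]
      exact ⟨rfl, rfl⟩
    · exact h' j (by omega) (by omega)
  exact CdC.ext h (funext fun j => (e j).1) (funext fun j => (e j).2)

/-- Cut a family at level `m`. -/
def cdCut (m : ℕ) (f : ℕ → cell Y) (c : cell Y) : ℕ → cell Y :=
  fun j => if j < m then f j else if j = m then c else ((U E).obj Y).bot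

omit hE in
lemma cdCut_lt {j : ℕ} (h : j < m) : cdCut m gs c j = gs j := if_pos h

omit hE in
lemma cdCut_self : cdCut m gs c m = c := (if_neg (lt_irrefl m)).trans (if_pos rfl)

omit hE in
lemma cdCut_gt {j : ℕ} (h : m < j) : cdCut m gs c j = ((U E).obj Y).bot :=
  (if_neg (by omega)).trans (if_neg (by omega))

/-- The constructor. -/
def CdC.mkC (x : cell Y) (gs gt : ℕ → cell Y) (c : cell Y)
    (low : ∀ j < n, gs j = ((U E).obj Y).bot ∧ gt j = ((U E).obj Y).bot)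
    (good : CdGood n gs gt (dim x) x) (h0 : dim x < n → c = ((U E).obj Y).bot)
    (h1 : n ≤ dim x → dim c = dim x + 1 ∧ sr c = cdTh n gs gt (dim x) x) : CdC n Y where
  u := x
  gs := cdCut (dim x) gs c
  gt := cdCut (dim x) gt c
  out j hj := by
    rcases lt_trichotomy j (dim x) with h | rfl | h
    · rw [cdCut_lt h, cdCut_lt h]
      exact low j (by omega)
    · rw [cdCut_self, cdCut_self]
      exact ⟨h0 (by omega), h0 (by omega)⟩
    · exact ⟨cdCut_gt h, cdCut_gt h⟩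
  top := cdCut_self.trans cdCut_self.symm
  good j h2 h3 := by
    have e : ∀ i < dim x, gs i = cdCut (dim x) gs c i ∧ gt i = cdCut (dim x) gt c i :=
      fun i hi => ⟨(cdCut_lt hi).symm, (cdCut_lt hi).symm⟩
    rcases (Nat.le_of_lt_succ h3).eq_or_lt with rfl | h4
    · rw [cdCut_self, cdCut_self, src_of_le le_rfl, tgt_of_le le_rfl, ← cdTh_congr e]
      exact ⟨h1 h2, h1 h2⟩
    · exact good.congr e j h2 h4

/-- Source. -/
def CdC.s (hn : 1 ≤ n) (z : CdC n Y) : CdC n Y :=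
  CdC.mkC (sr z.u) z.gs z.gt (z.gs (dim (sr z.u))) (fun j hj => z.out j (Or.inl hj))
    ((z.good.mono (by rw [dim_sr]; omega)).of_eq fun j hj => by
      rw [dim_sr] at hj
      exact ⟨src_sr (by omega), tgt_sr (by omega)⟩)
    (fun h => (z.out _ (Or.inl h)).1) fun h => by
      have h1 := (z.good _ h (by rw [dim_sr]; omega)).1
      rwa [src_eq_sr (by rw [dim_sr] at h ⊢; omega)] at h1

/-- Target. -/
def CdC.t (hn : 1 ≤ n) (z : CdC n Y) : CdC n Y :=
  CdC.mkC (tg z.u) z.gs z.gt (z.gt (dim (tg z.u))) (fun j hj => z.out j (Or.inl hj))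
    ((z.good.mono (by rw [dim_tg]; omega)).of_eq fun j hj => by
      rw [dim_tg] at hj
      exact ⟨src_tg (by omega), tgt_tg (by omega)⟩)
    (fun h => (z.out _ (Or.inl h)).2) fun h => by
      have h1 := (z.good _ h (by rw [dim_tg]; omega)).2
      rwa [tgt_eq_tg (by rw [dim_tg] at h ⊢; omega)] at h1

variable (hn : 1 ≤ n) (z : CdC n Y) {j : ℕ}

lemma CdC.s_u : (z.s hn).u = sr z.u := rfl
lemma CdC.t_u : (z.t hn).u = tg z.u := rfl

lemma CdC.s_gs (h : j < dim z.u) : (z.s hn).gs j = z.gs j := by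
  rcases (show j < dim (sr z.u) ∨ j = dim (sr z.u) by rw [dim_sr]; omega) with h1 | rfl
  · exact cdCut_lt h1
  · exact cdCut_self

lemma CdC.t_gt (h : j < dim z.u) : (z.t hn).gt j = z.gt j := by
  rcases (show j < dim (tg z.u) ∨ j = dim (tg z.u) by rw [dim_tg]; omega) with h1 | rfl
  · exact cdCut_lt h1
  · exact cdCut_self

lemma CdC.s_gt (h : j + 1 < dim z.u) : (z.s hn).gt j = z.gt j :=
  cdCut_lt (by rw [dim_sr]; omega)

lemma CdC.t_gs (h : j + 1 < dim z.u) : (z.t hn).gs j = z.gs j :=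
  cdCut_lt (by rw [dim_tg]; omega)

lemma CdC.s_gt' (h : j + 1 = dim z.u) : (z.s hn).gt j = z.gs j := by
  obtain rfl : j = dim (sr z.u) := by rw [dim_sr]; omega
  exact cdCut_self

lemma CdC.t_gs' (h : j + 1 = dim z.u) : (z.t hn).gs j = z.gt j := by
  obtain rfl : j = dim (tg z.u) := by rw [dim_tg]; omega
  exact cdCut_self

/-- Cells of low dimension. -/
def CdC.lowC (x : cell Y) (h : dim x < n) : CdC n Y where
  u := x
  gs _ := ((U E).obj Y).bot
  gt _ := ((U E).obj Y).bot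
  out _ _ := ⟨rfl, rfl⟩
  top := rfl
  good _ _ _ := by omega

variable (Y) in
/-- The globular set of cylinders. -/
def cdObj : GS where
  Cell := CdC n Y
  bot := CdC.lowC ((U E).obj Y).bot (by rw [dim_bot]; omega)
  dimF z := dim z.u
  sF z := z.s hn
  tF z := z.t hn
  dimF_bot := dim_bot
  eq_botF z h := CdC.ext' (eq_bot h) fun j h1 h2 => by omega
  dimF_s z := dim_sr z.u
  dimF_t z := dim_tg z.u
  ssF z := CdC.ext' (sr_tg z.u).symm fun j h1 h2 => by
    have a1 : dim (z.s hn).u = dim z.u - 1 := dim_sr _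
    have a2 : dim (z.t hn).u = dim z.u - 1 := dim_tg _
    have a3 : dim ((z.s hn).s hn).u = dim (z.s hn).u - 1 := dim_sr _
    rw [CdC.s_gs hn _ (by omega), CdC.s_gs hn _ (by omega), CdC.s_gs hn (z.t hn) (by omega),
      CdC.t_gs hn _ (by omega)]
    refine ⟨rfl, ?_⟩
    by_cases h3 : j + 1 = dim (z.s hn).u
    · rw [CdC.s_gt' hn _ h3, CdC.s_gt' hn (z.t hn) (by omega), CdC.s_gs hn _ (by omega),
        CdC.t_gs hn _ (by omega)]
    · rw [CdC.s_gt hn _ (by omega), CdC.s_gt hn _ (by omega), CdC.s_gt hn (z.t hn) (by omega),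
        CdC.t_gt hn _ (by omega)]
  ttF z := CdC.ext' (tg_sr z.u) fun j h1 h2 => by
    have a1 : dim (z.s hn).u = dim z.u - 1 := dim_sr _
    have a2 : dim (z.t hn).u = dim z.u - 1 := dim_tg _
    have a3 : dim ((z.s hn).t hn).u = dim (z.s hn).u - 1 := dim_tg _
    rw [CdC.t_gt hn _ (by omega), CdC.s_gt hn _ (by omega), CdC.t_gt hn (z.t hn) (by omega),
      CdC.t_gt hn _ (by omega)]
    refine ⟨?_, rfl⟩
    by_cases h3 : j + 1 = dim (z.s hn).u
    · rw [CdC.t_gs' hn _ h3, CdC.t_gs' hn (z.t hn) (by omega), CdC.s_gt hn _ (by omega),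
        CdC.t_gt hn _ (by omega)]
    · rw [CdC.t_gs hn _ (by omega), CdC.s_gs hn _ (by omega), CdC.t_gs hn (z.t hn) (by omega),
        CdC.t_gs hn _ (by omega)]

/-- Image of a cell. -/
def CdC.map (f : Y ⟶ Y') : CdC n Y' where
  u := cm f z.u
  gs j := cm f (z.gs j)
  gt j := cm f (z.gt j)
  out j hj := by
    rw [GS.Hom.dim_app] at hj
    rw [(z.out j hj).1, (z.out j hj).2]
    exact ⟨app_bot _, app_bot _⟩
  top := by rw [GS.Hom.dim_app, z.top]
  good := by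
    rw [GS.Hom.dim_app]
    exact z.good.map hn f le_rfl

lemma CdC.map_dim (f : Y ⟶ Y') : dim (z.map hn f).u = dim z.u :=
  GS.Hom.dim_app ((U E).map f) _

lemma CdC.map_s (f : Y ⟶ Y') : (z.map hn f).s hn = (z.s hn).map hn f :=
  CdC.ext' (GS.Hom.sr_app ((U E).map f) _) fun j h1 h2 => by
    have a1 := z.map_dim hn f
    have a2 : dim ((z.map hn f).s hn).u = dim (z.map hn f).u - 1 := dim_sr _
    rw [CdC.s_gs hn _ (by omega)]
    refine ⟨congrArg (cm f) (z.s_gs hn (by omega)).symm, ?_⟩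
    by_cases h3 : j + 1 = dim z.u
    · rw [CdC.s_gt' hn _ (by omega)]
      exact congrArg (cm f) (z.s_gt' hn h3).symm
    · rw [CdC.s_gt hn _ (by omega)]
      exact congrArg (cm f) (z.s_gt hn (by omega)).symm

lemma CdC.map_t (f : Y ⟶ Y') : (z.map hn f).t hn = (z.t hn).map hn f :=
  CdC.ext' (GS.Hom.tg_app ((U E).map f) _) fun j h1 h2 => by
    have a1 := z.map_dim hn f
    have a2 : dim ((z.map hn f).t hn).u = dim (z.map hn f).u - 1 := dim_tg _
    rw [CdC.t_gt hn _ (by omega)]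
    refine ⟨?_, congrArg (cm f) (z.t_gt hn (by omega)).symm⟩
    by_cases h3 : j + 1 = dim z.u
    · rw [CdC.t_gs' hn _ (by omega)]
      exact congrArg (cm f) (z.t_gs' hn h3).symm
    · rw [CdC.t_gs hn _ (by omega)]
      exact congrArg (cm f) (z.t_gs hn (by omega)).symm

variable (E) in
/-- The cylinder functor. -/
def cdFun : Gpd E ⥤ GS where
  obj Y := cdObj Y hn
  map f := ⟨fun z => CdC.map hn z f, fun z => CdC.map_dim hn z f, fun z => CdC.map_s hn z f,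
    fun z => CdC.map_t hn z f⟩
  map_id Y := GS.hom_ext fun z => by
    have e : ∀ x : cell Y, cm (𝟙 Y) x = x := fun x => by rw [cm, (U E).map_id]; rfl
    exact CdC.ext (e _) (funext fun _ => e _) (funext fun _ => e _)
  map_comp f g := GS.hom_ext fun z => by
    have e : ∀ x, cm (f ≫ g) x = cm g (cm f x) := fun x => by rw [cm, (U E).map_comp]; rfl
    exact CdC.ext (e _) (funext fun _ => e _) (funext fun _ => e _)

/-- The other end of a cylinder. -/
def CdC.q : cell Y := if n ≤ dim z.u then tg (z.gs (dim z.u)) else z.u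

lemma CdC.q_of_le (h : n ≤ dim z.u) : z.q = tg (z.gs (dim z.u)) := if_pos h
lemma CdC.q_of_lt (h : dim z.u < n) : z.q = z.u := if_neg (by omega)

lemma CdC.top_s (h : n ≤ dim z.u) : dim (z.gs (dim z.u)) = dim z.u + 1 ∧
    sr (z.gs (dim z.u)) = cdTh n z.gs z.gt (dim z.u) z.u := by
  have h1 := (z.good _ h (Nat.lt_succ_self _)).1
  rwa [src_of_le le_rfl] at h1

lemma CdC.dim_q : dim z.q = dim z.u := by
  by_cases h : n ≤ dim z.u
  · rw [z.q_of_le h, dim_tg, (z.top_s h).1, Nat.add_sub_cancel]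
  · rw [z.q_of_lt (by omega)]

lemma CdC.sr_tg_q : sr z.q = (z.s hn).q ∧ tg z.q = (z.t hn).q := by
  have a1 : dim (z.s hn).u = dim z.u - 1 := dim_sr _
  have a2 : dim (z.t hn).u = dim z.u - 1 := dim_tg _
  rcases lt_trichotomy (dim z.u) n with h | h | h
  · rw [z.q_of_lt h, CdC.q_of_lt _ (by omega), CdC.q_of_lt _ (by omega)]
    exact ⟨rfl, rfl⟩
  · rw [z.q_of_le h.ge, CdC.q_of_lt _ (by omega), CdC.q_of_lt _ (by omega), sr_tg, ← tg_sr,
      (z.top_s h.ge).2, cdTh_low h.le]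
    exact ⟨rfl, rfl⟩
  · obtain ⟨m, hm⟩ : ∃ m, dim z.u = m + 1 := ⟨dim z.u - 1, by omega⟩
    have h1 := (z.good.mono (k := m + 1) (by omega)).ends hn (by omega) hm
    rw [z.q_of_le h.le, CdC.q_of_le _ (by omega), CdC.q_of_le _ (by omega), sr_tg, ← tg_sr,
      (z.top_s h.le).2, a1, a2, hm, Nat.add_sub_cancel, z.s_gs hn (by omega),
      z.t_gs' hn hm.symm]
    exact h1

lemma CdC.map_q (f : Y ⟶ Y') : (z.map hn f).q = cm f z.q := by
  have a1 := z.map_dim hn f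
  by_cases h : n ≤ dim z.u
  · rw [z.q_of_le h, CdC.q_of_le _ (by omega), a1]
    exact GS.Hom.tg_app ((U E).map f) _
  · rw [z.q_of_lt (by omega), CdC.q_of_lt _ (by omega)]
    rfl

variable {z} {a b : CdC n Y}

lemma CdC.par_eq (h0 : dim a.u = dim b.u) (h1 : a.s hn = b.s hn) (h2 : a.t hn = b.t hn)
    (h : j < dim a.u) : a.gs j = b.gs j ∧ a.gt j = b.gt j := by
  rw [← a.s_gs hn h, ← a.t_gt hn h, h1, h2, b.s_gs hn (by omega), b.t_gt hn (by omega)]
  exact ⟨rfl, rfl⟩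

lemma CdC.par_u (h : Par (G := cdObj Y hn) a b) : Par a.u b.u :=
  ⟨h.1, congrArg CdC.u h.2.1, congrArg CdC.u h.2.2⟩

lemma CdC.par_g (h : Par (G := cdObj Y hn) a b) (hj : j < dim a.u) :
    a.gs j = b.gs j ∧ a.gt j = b.gt j := CdC.par_eq hn h.1 h.2.1 h.2.2 hj

lemma CdC.par_th (h : Par (G := cdObj Y hn) a b) (hj : j ≤ dim a.u) (x : cell Y) :
    cdTh n a.gs a.gt j x = cdTh n a.gs b.gt j x ∧ cdTh n b.gs b.gt j x = cdTh n a.gs b.gt j x :=
  ⟨cdTh_congr (fun _ hi => ⟨rfl, (CdC.par_g hn h (by omega)).2⟩) x,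
    cdTh_congr (fun _ hi => ⟨(CdC.par_g hn h (by omega)).1.symm, rfl⟩) x⟩

lemma CdC.par_good (h : Par (G := cdObj Y hn) a b) (hc : Arr c a.u b.u) :
    CdGood n a.gs b.gt (dim a.u + 1) c := fun j h1 h2 => by
  have h0 : dim a.u = dim b.u := h.1
  rw [hc.src_eq (by omega), hc.tgt_eq (by omega), ← (CdC.par_th hn h (by omega) (src j a.u)).1,
    ← (CdC.par_th hn h (by omega) (tgt j b.u)).2]
  exact ⟨(a.good j h1 h2).1, (b.good j h1 (by omega)).2⟩

lemma CdC.th_bd (h : 1 ≤ dim z.u) (x : cell Y) :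
    cdTh n (z.s hn).gs (z.t hn).gt (dim (z.s hn).u + 1) x = cdTh n z.gs z.gt (dim z.u) x := by
  rw [show dim (z.s hn).u + 1 = dim z.u by rw [CdC.s_u, dim_sr]; omega]
  exact cdTh_congr (fun _ hi => ⟨z.s_gs hn hi, z.t_gt hn hi⟩) x

lemma CdC.bij (h : Par (G := cdObj Y hn) a b) (h1 : n ≤ dim a.u + 1) :
    LocBij (cdTh n a.gs b.gt (dim a.u + 1)) a.u b.u a.q b.q := by
  have h0 : dim a.u = dim b.u := h.1
  by_cases h2 : n ≤ dim a.u
  · have h3 : CdGood n a.gs b.gt (dim a.u) a.u :=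
      (a.good.mono (Nat.le_succ _)).congr fun i hi => ⟨rfl, (CdC.par_g hn h hi).2⟩
    have h4 := h3.bij hn le_rfl (CdC.par_u hn h)
    obtain ⟨a1, a2⟩ := a.top_s h2
    obtain ⟨b1, b2⟩ := b.top_s (by omega)
    rw [b.top, ← h0] at b1 b2
    have a3 := invc_arr (x := a.gs (dim a.u)) (by omega)
    have h5 := wh_bij_bot (a := invc (a.gs (dim a.u))) (b := b.gt (dim a.u)) (j := dim a.u)
      (by omega) ((dim_invc (by omega)).trans a1) b1
    rw [a3.1, a3.2.1, a2, b2, (CdC.par_th hn h le_rfl _).1, (CdC.par_th hn h le_rfl _).2] at h5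
    rw [a.q_of_le h2, b.q_of_le (by omega), b.top, ← h0]
    exact (h4.comp (gpdLike Y) h5).congr fun c _ => (cdTh_succ h2 c).symm
  · rw [a.q_of_lt (by omega), b.q_of_lt (by omega)]
    exact (locBij_id (gpdLike Y) _ _).congr fun c _ => (cdTh_low (by omega) c).symm

lemma CdC.ext_bd {z z' : CdC n Y} (h : z.u = z'.u) (h1 : z.s hn = z'.s hn) (h2 : z.t hn = z'.t hn)
    (h3 : z.gs (dim z.u) = z'.gs (dim z'.u)) : z = z' :=
  CdC.ext' h fun j _ hj => by
    rcases hj.eq_or_lt with rfl | hj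
    · have h4 := z'.top
      rw [← h] at h3 h4
      exact ⟨h3, z.top.symm.trans (h3.trans h4)⟩
    · exact CdC.par_eq hn (congrArg dim h) h1 h2 hj

lemma CdC.exists_mk (h : Par (G := cdObj Y hn) a b) (h1 : n ≤ dim a.u + 1) {u γ : cell Y}
    (hu : Arr u a.u b.u) (h2 : sr γ = cdTh n a.gs b.gt (dim a.u + 1) u) (h3 : dim γ = dim u + 1) :
    ∃ z : CdC n Y, z.s hn = a ∧ z.t hn = b ∧ z.u = u ∧ z.gs (dim z.u) = γ := by
  have h0 : dim a.u = dim b.u := h.1
  have h4 := hu.2.2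
  let z : CdC n Y := CdC.mkC u a.gs b.gt γ
    (fun j hj => ⟨(a.out j (Or.inl hj)).1, (b.out j (Or.inl hj)).2⟩)
    (by rw [h4]; exact CdC.par_good hn h hu) (fun _ => by omega) fun _ => ⟨h3, by rw [h4, h2]⟩
  have e0 : dim z.u = dim a.u + 1 := h4
  have e1 : ∀ j, j ≤ dim a.u → z.gs j = a.gs j := fun j hj => cdCut_lt (by omega)
  have e2 : ∀ j, j ≤ dim a.u → z.gt j = b.gt j := fun j hj => cdCut_lt (by omega)
  refine ⟨z, (CdC.ext' hu.1.symm fun j _ hj => ?_).symm, (CdC.ext' hu.2.1.symm fun j _ hj => ?_).symm,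
    rfl, cdCut_self⟩
  · rw [z.s_gs hn (by omega), e1 j hj]
    refine ⟨rfl, ?_⟩
    rcases hj.eq_or_lt with rfl | hj
    · rw [z.s_gt' hn e0.symm, e1 _ le_rfl, a.top]
    · rw [z.s_gt hn (by omega), e2 j hj.le, (CdC.par_g hn h hj).2]
  · rw [z.t_gt hn (by omega), e2 j (by omega)]
    refine ⟨?_, rfl⟩
    rcases hj.eq_or_lt with rfl | hj
    · rw [z.t_gs' hn (by omega), e2 _ h0.ge, b.top]
    · rw [z.t_gs hn (by omega), e1 j (by omega), (CdC.par_g hn h (by omega)).1]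

variable (E) in
/-- The explicit cylinders. -/
def cdSpec : CylSpec E n where
  Cy := cdFun E hn
  q0 :=
    { app := fun _ => ⟨fun z => z.u, fun _ => rfl, fun _ => rfl, fun _ => rfl⟩
      naturality := fun _ _ _ => rfl }
  q1 :=
    { app := fun _ => ⟨fun z => z.q, fun z => z.dim_q, fun z => (z.sr_tg_q hn).1,
        fun z => (z.sr_tg_q hn).2⟩
      naturality := fun _ _ f => GS.hom_ext fun z => CdC.map_q hn z f }
  g z := z.gs (dim z.u)
  Θ a b := cdTh n a.gs b.gt (dim a.u + 1)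
  low_inj _ z z' h h' := CdC.ext' h' fun j h1 h2 => absurd (h1.trans h2) (not_le.2 h)
  low _ x h := ⟨CdC.lowC x h, rfl, CdC.q_of_lt _ h⟩
  g_nat f z _ := congrArg (fun j => cm f (z.gs j)) (CdC.map_dim hn z f).symm
  Θ_nat f a b u h _ hu := ((CdC.par_good hn h hu).cm_th hn f hu.2.2.ge).trans
    (congrArg (fun j => cdTh n _ _ (j + 1) _) (CdC.map_dim hn a f).symm)
  Θ_low _ _ u h := cdTh_low h.le u
  Θ_bij _ _ h h1 := CdC.bij hn h h1
  Θ_up _ _ _ _ _ h _ hu hx := (CdC.par_good hn h hu).arr hn hu.2.2.ge hx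
  Θ_succ z z' x h h1 _ := by
    have h0 : dim z.u = dim z'.u := h.1
    have h2 := CdC.th_bd hn (z := z) (hn.trans h1) x
    have h3 := z'.top
    refine (cdTh_succ h1 x).trans ?_
    change wh (dim z.u) _ _ _ = wh (dim z.u) _ (cdTh n (CdC.s hn z).gs (CdC.t hn z).gt
      (dim (CdC.s hn z).u + 1) x) (z'.gs (dim z'.u))
    rw [h2, h3, ← h0, (CdC.par_th hn h le_rfl x).1]
    rfl
  g_arr z h := by
    obtain ⟨h1, h2⟩ := CdC.top_s z h
    have h3 := h2.trans (CdC.th_bd hn (z := z) (hn.trans h) z.u).symm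
    refine ⟨h3, (CdC.q_of_le z h).symm, ?_⟩
    refine Eq.trans ?_ (congrArg (fun c => dim c + 1) h3)
    exact (arr_self (by omega)).2.2
  mk' a b u γ h h1 hu h2 h3 := by
    obtain ⟨z, e1, e2, e3, e4⟩ := CdC.exists_mk hn h h1 hu h2 h3
    refine ⟨z, ⟨⟨e1, e2, (congrArg dim e3).trans hu.2.2⟩, e3, e4⟩, fun z' h' => ?_⟩
    exact CdC.ext_bd hn (h'.2.1.trans e3.symm) (h'.1.1.trans e1.symm) (h'.1.2.1.trans e2.symm)
      (h'.2.2.trans e4.symm)

end CylDefAux

theorem exists_cylSpec (E : GlobExt) [Fact E.IsCoherator] {n : ℕ} (hn : 1 ≤ n) :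
    Nonempty (CylSpec E n) := ⟨cdSpec E hn⟩

end Vale.Agent.P259
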