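import Vale.Agent.P259.Tab

/-! P259 task TREP: representing objects of globular sums.

`tabRep_of_discs`: choose `R n, c n`; by recursion on the table build `(R T, univ T, rep T)`;
for `T.snoc j i` let `x : R j ⟶ R T` classify `tgt (j+1) (univ T (lastT T))` and
`y : R j ⟶ R i` classify `src (j+1) (c i)`; take `pushout x y`, `univ` by `tab_snoc`.
`F0.map θ` is the unique map with `univ S ≫ V.map _ = tabGS.map θ ≫ univ S'`; `F0_pres` from
`tabGS_pres` (or `tab_snoc`) and representability. `discIso`: a cell `x : R (disc n) ⟶ X` goes to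
`V.map x (univ (disc n) (topT n))`; bijective by `tab_disc` + `rep`
(`isIso_of_bijective`, `NatIso.ofComponents` or `NatIso.isIso_of_isIso_app`). -/

noncomputable section
namespace Vale.Agent.P259
open CategoryTheory CategoryTheory.Limits
universe u
variable {M : Type u} [Category.{0} M] {V : M ⥤ GS}

lemma Represents.hom_ext {G : GS} {R X : M} {u : G ⟶ V.obj R} (h : Represents V u)
    {f g : R ⟶ X} (e : u ≫ V.map f = u ≫ V.map g) : f = g := by
  exact (h X (u ≫ V.map g)).unique e rfl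

lemma Represents.iso {G : GS} {R R' : M} {u : G ⟶ V.obj R} {u' : G ⟶ V.obj R'}
    (h : Represents V u) (h' : Represents V u') : ∃ e : R ≅ R', u ≫ V.map e.hom = u' := by
  obtain ⟨f, hf, -⟩ := h R' u'
  obtain ⟨g, hg, -⟩ := h' R u
  refine ⟨⟨f, g, h.hom_ext ?_, h'.hom_ext ?_⟩, hf⟩
  · rw [V.map_comp, ← Category.assoc, hf, hg, V.map_id, Category.comp_id]
  · rw [V.map_comp, ← Category.assoc, hg, hf, V.map_id, Category.comp_id]

lemma Represents.of_natIso {V' : M ⥤ GS} (e : V ≅ V') {G : GS} {R : M} {u : G ⟶ V.obj R}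
    (h : Represents V u) : Represents V' (u ≫ e.hom.app R) := by
  intro X φ
  obtain ⟨f, hf, hf'⟩ := h X (φ ≫ e.inv.app X)
  refine ⟨f, ?_, fun g hg => hf' g ?_⟩
  · change (u ≫ e.hom.app R) ≫ V'.map f = φ
    rw [Category.assoc, ← e.hom.naturality, ← Category.assoc, hf, Category.assoc,
      e.inv_hom_id_app, Category.comp_id]
  · change u ≫ V.map g = _
    rw [← hg, Category.assoc, Category.assoc, ← e.hom.naturality_assoc, e.hom_inv_id_app,
      Category.comp_id]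

lemma trep_map_comp {X Y Z : M} (f : X ⟶ Y) (g : Y ⟶ Z) (c : (V.obj X).Cell) :
    (V.map (f ≫ g)).app c = (V.map g).app ((V.map f).app c) := by
  rw [V.map_comp]
  rfl

lemma trep_one [HasPushouts M] (V : M ⥤ GS)
    (h : ∀ n : ℕ, ∃ (R : M) (c : (V.obj R).Cell), dim c = n + 1 ∧
      ∀ (X : M) (x : (V.obj X).Cell), dim x = n + 1 → ∃! f : R ⟶ X, (V.map f).app c = x)
    {l : ℕ} (T : Tab l) : ∃ (R : M) (u : tabGS.obj T.obj ⟶ V.obj R), Represents V u := by
  induction T with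
  | one i =>
    obtain ⟨R, c, hc, hR⟩ := h i
    obtain ⟨u, hu, -⟩ := tab_disc i (V.obj R) c hc
    refine ⟨R, u, fun X φ => ?_⟩
    have hd : dim (φ.app (topT i)) = i + 1 := φ.dim_app _
    obtain ⟨f, hf, hf'⟩ := hR X (φ.app (topT i)) hd
    refine ⟨f, (tab_disc i (V.obj X) _ hd).unique ?_ rfl, fun g hg => hf' g ?_⟩
    · rw [← hf, ← hu]
      rfl
    · rw [← hg, ← hu]
      rfl
  | @snoc l T j i hl hi ih =>
    obtain ⟨R₀, u₀, h₀⟩ := ih
    obtain ⟨Rj, cj, -, hRj⟩ := h j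
    obtain ⟨Ri, ci, hci, hRi⟩ := h i
    obtain ⟨x, hx, -⟩ := hRj R₀ (tgt (j + 1) (u₀.app (lastT T)))
      (dim_tgt (by rw [u₀.dim_app, dim_lastT]; omega))
    obtain ⟨y, hy, -⟩ := hRj Ri (src (j + 1) ci) (dim_src (by omega))
    obtain ⟨ψ, ⟨hψ1, hψ2⟩, -⟩ := tab_snoc T j i hl hi (V.obj (pushout x y))
      (u₀ ≫ V.map (pushout.inl x y)) ((V.map (pushout.inr x y)).app ci)
      (by rw [GS.Hom.dim_app, hci]) (by
        rw [← app_src, ← hy, ← trep_map_comp, ← pushout.condition, trep_map_comp, hx, app_tgt]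
        rfl)
    refine ⟨pushout x y, ψ, fun X φ => ?_⟩
    have hd : dim (φ.app (lastT (T.snoc j i hl hi))) = i + 1 := φ.dim_app _
    obtain ⟨f₀, hf₀, hf₀'⟩ := h₀ X (tabGS.map (initInc T j i hl hi) ≫ φ)
    obtain ⟨f₁, hf₁, hf₁'⟩ := hRi X (φ.app (lastT (T.snoc j i hl hi))) hd
    have hg : src (j + 1) (φ.app (lastT (T.snoc j i hl hi))) =
        tgt (j + 1) ((tabGS.map (initInc T j i hl hi) ≫ φ).app (lastT T)) := by
      rw [← app_src, tab_glue, app_tgt]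
      rfl
    have w : x ≫ f₀ = y ≫ f₁ := by
      refine (hRj X (src (j + 1) (φ.app (lastT (T.snoc j i hl hi))))
        (dim_src (by omega))).unique ?_ ?_
      · rw [trep_map_comp, hx, app_tgt, hg, ← hf₀]
        rfl
      · rw [trep_map_comp, hy, app_src, hf₁]
    refine ⟨pushout.desc f₀ f₁ w, (tab_snoc T j i hl hi (V.obj X) _ _ hd hg).unique ⟨?_, ?_⟩
      ⟨rfl, rfl⟩, fun g hg' => ?_⟩
    · rw [← Category.assoc, hψ1, Category.assoc, ← V.map_comp, pushout.inl_desc, hf₀]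
    · rw [GS.comp_app, hψ2, ← trep_map_comp, pushout.inr_desc, hf₁]
    · refine pushout.hom_ext ?_ ?_
      · rw [pushout.inl_desc]
        refine hf₀' _ ?_
        change u₀ ≫ V.map (pushout.inl x y ≫ g) = _
        rw [V.map_comp, ← Category.assoc, ← hψ1, Category.assoc, hg']
      · rw [pushout.inr_desc]
        refine hf₁' _ ?_
        change (V.map (pushout.inr x y ≫ g)).app ci = _
        rw [trep_map_comp, ← hψ2, ← hg']
        rfl

theorem tabRep_of_discs [HasPushouts M] (V : M ⥤ GS)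
    (h : ∀ n : ℕ, ∃ (R : M) (c : (V.obj R).Cell), dim c = n + 1 ∧
      ∀ (X : M) (x : (V.obj X).Cell), dim x = n + 1 → ∃! f : R ⟶ X, (V.map f).app c = x) :
    Nonempty (TabRep V) := by
  choose R u hu using fun S : Theta => trep_one V h S.2
  exact ⟨⟨R, u, hu⟩⟩

namespace TabRep
variable (T : TabRep V)

/-- The functor `S ↦ R S`. -/
def F0 : Theta ⥤ M where
  obj := T.R
  map θ := (T.rep _ _ (tabGS.map θ ≫ T.univ _)).exists.choose
  map_id S := by
    refine (T.rep S).hom_ext ?_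
    rw [(T.rep _ _ (tabGS.map (𝟙 S) ≫ T.univ _)).exists.choose_spec, tabGS.map_id, V.map_id,
      Category.id_comp, Category.comp_id]
  map_comp {S S' S''} θ θ' := by
    refine (T.rep S).hom_ext ?_
    rw [(T.rep _ _ (tabGS.map (θ ≫ θ') ≫ T.univ _)).exists.choose_spec, V.map_comp,
      ← Category.assoc, (T.rep _ _ (tabGS.map θ ≫ T.univ _)).exists.choose_spec, Category.assoc,
      (T.rep _ _ (tabGS.map θ' ≫ T.univ _)).exists.choose_spec, tabGS.map_comp, Category.assoc]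

lemma F0_map {S S' : Theta} (θ : S ⟶ S') :
    T.univ S ≫ V.map (T.F0.map θ) = tabGS.map θ ≫ T.univ S' :=
  (T.rep _ _ (tabGS.map θ ≫ T.univ _)).exists.choose_spec

/-- `F0.map` with its type in terms of `T.R`. -/
def trM {S S' : Theta} (θ : S ⟶ S') : T.R S ⟶ T.R S' := T.F0.map θ

lemma trM_spec {S S' : Theta} (θ : S ⟶ S') :
    T.univ S ≫ V.map (T.trM θ) = tabGS.map θ ≫ T.univ S' := T.F0_map θ

lemma trep_F0 {S S' : Theta} (θ : S ⟶ S') {X : M} (f : T.R S' ⟶ X) :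
    T.univ S ≫ V.map (T.trM θ ≫ f) = tabGS.map θ ≫ T.univ S' ≫ V.map f := by
  rw [V.map_comp, ← Category.assoc, trM_spec, Category.assoc]

lemma trep_push {A B C D : Theta} {a : A ⟶ B} {b : A ⟶ C} {c : B ⟶ D} {d : C ⟶ D}
    (h : IsPushout (tabGS.map a) (tabGS.map b) (tabGS.map c) (tabGS.map d)) :
    IsPushout (T.trM a) (T.trM b) (T.trM c) (T.trM d) := by
  have w : T.trM a ≫ T.trM c = T.trM b ≫ T.trM d := by
    refine (T.rep A).hom_ext ?_
    rw [trep_F0, trep_F0, trM_spec, trM_spec, ← Category.assoc, h.w, Category.assoc]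
  have ex : ∀ s : PushoutCocone (T.trM a) (T.trM b), ∃ f : T.R D ⟶ s.pt,
      T.trM c ≫ f = s.inl ∧ T.trM d ≫ f = s.inr := by
    intro s
    have w' : tabGS.map a ≫ T.univ B ≫ V.map s.inl = tabGS.map b ≫ T.univ C ≫ V.map s.inr := by
      rw [← trep_F0, ← trep_F0, s.condition]
    obtain ⟨f, hf, -⟩ := T.rep D s.pt (h.desc _ _ w')
    refine ⟨f, (T.rep B).hom_ext ?_, (T.rep C).hom_ext ?_⟩
    · rw [trep_F0, hf, h.inl_desc]
    · rw [trep_F0, hf, h.inr_desc]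
  choose f hf1 hf2 using ex
  refine ⟨⟨w⟩, ⟨PushoutCocone.IsColimit.mk w f hf1 hf2 fun s m h1 h2 => ?_⟩⟩
  refine (T.rep D).hom_ext (h.hom_ext ?_ ?_)
  · rw [← trep_F0, ← trep_F0, h1, hf1]
  · rw [← trep_F0, ← trep_F0, h2, hf2]

lemma F0_pres : PreservesSums T.F0 := by
  intro l T' j i hl hi
  exact T.trep_push (tabGS_pres l T' j i hl hi)

/-- The cell classified by a map out of a disc. -/
def trC {X : M} (n : ℕ) (x : T.R (disc n) ⟶ X) : (V.obj X).Cell :=
  (V.map x).app ((T.univ (disc n)).app (topT n))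

lemma trC_dim {X : M} (n : ℕ) (x : T.R (disc n) ⟶ X) : dim (T.trC n x) = n + 1 := by
  rw [trC, GS.Hom.dim_app, GS.Hom.dim_app, dim_topT]

lemma trC_comp {X Y : M} (n : ℕ) (x : T.R (disc n) ⟶ X) (f : X ⟶ Y) :
    T.trC n (x ≫ f) = (V.map f).app (T.trC n x) := trep_map_comp x f _

lemma trep_top {n : ℕ} {S : Theta} (θ : disc n ⟶ S) :
    T.trC n (T.trM θ) = (T.univ S).app ((discsOf (𝟭 Theta)).cell (n := n) θ) := by
  have h := congrArg (fun φ => GS.Hom.app φ (topT n)) (T.trM_spec θ)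
  simp only [GS.comp_app] at h
  exact h.trans (congrArg (T.univ S).app ((discsOf (𝟭 Theta)).map_top (n := n) θ))

lemma trC_sr {X : M} (n : ℕ) (x : T.R (disc (n + 1)) ⟶ X) :
    sr (T.trC (n + 1) x) = T.trC n (T.trM (dface false n.lt_succ_self) ≫ x) := by
  rw [trC_comp, trep_top, trC, GS.Hom.sr_app, GS.Hom.sr_app]
  exact congrArg (fun θ => (V.map x).app ((T.univ (disc (n + 1))).app
    ((discsOf (𝟭 Theta)).cell (n := n) θ))) (Category.comp_id _)

lemma trC_tg {X : M} (n : ℕ) (x : T.R (disc (n + 1)) ⟶ X) :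
    tg (T.trC (n + 1) x) = T.trC n (T.trM (dface true n.lt_succ_self) ≫ x) := by
  rw [trC_comp, trep_top, trC, GS.Hom.tg_app, GS.Hom.tg_app]
  exact congrArg (fun θ => (V.map x).app ((T.univ (disc (n + 1))).app
    ((discsOf (𝟭 Theta)).cell (n := n) θ))) (Category.comp_id _)

/-- The comparison map on cells. -/
def trepApp (X : M) : (discsOf T.F0).hom.obj X ⟶ V.obj X where
  app := fun
    | none => (V.obj X).bot
    | some ⟨n, x⟩ => T.trC n x
  dim_app := by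
    rintro (_ | ⟨n, x⟩)
    · exact dim_bot
    · exact T.trC_dim n x
  sr_app := by
    rintro (_ | ⟨_ | n, x⟩)
    · exact sr_bot
    · exact eq_bot ((dim_sr (T.trC 0 x)).trans (congrArg (· - 1) (T.trC_dim 0 x)))
    · exact T.trC_sr n x
  tg_app := by
    rintro (_ | ⟨_ | n, x⟩)
    · exact tg_bot
    · exact eq_bot ((dim_tg (T.trC 0 x)).trans (congrArg (· - 1) (T.trC_dim 0 x)))
    · exact T.trC_tg n x

lemma trepApp_cell (X : M) (n : ℕ) (x : T.R (disc n) ⟶ X) :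
    (T.trepApp X).app ((discsOf T.F0).cell (n := n) x) =
      (V.map x).app ((T.univ (disc n)).app (topT n)) := rfl

lemma trepApp_bij (X : M) : Function.Bijective (T.trepApp X).app := by
  constructor
  · intro c c' h
    have hd : dim c = dim c' := by
      rw [← (T.trepApp X).dim_app c, h, GS.Hom.dim_app]
    rcases hn : dim c with _ | n
    · rw [eq_bot hn, eq_bot (hd.symm.trans hn)]
    · obtain ⟨x, rfl⟩ := (discsOf T.F0).exists_cell c hn
      obtain ⟨y, rfl⟩ := (discsOf T.F0).exists_cell c' (hd.symm.trans hn)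
      have e : x = y := by
        exact (T.rep (disc n)).hom_ext ((tab_disc n (V.obj X) (T.trC n y)
          (T.trC_dim n y)).unique h rfl)
      rw [e]
  · intro z
    rcases hn : dim z with _ | n
    · exact ⟨none, (eq_bot hn).symm⟩
    · obtain ⟨φ, hφ, -⟩ := tab_disc n (V.obj X) z hn
      obtain ⟨f, hf, -⟩ := T.rep (disc n) X φ
      refine ⟨(discsOf T.F0).cell (n := n) f, ?_⟩
      rw [trepApp_cell, ← hφ, ← hf]
      rfl

/-- The comparison transformation. -/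
def trepNat : (discsOf T.F0).hom ⟶ V where
  app := T.trepApp
  naturality X Y f := by
    apply GS.hom_ext
    rintro (_ | ⟨n, x⟩)
    · exact (app_bot (V.map f)).symm
    · exact trep_map_comp x f _

lemma exists_discIso : ∃ e : (discsOf T.F0).hom ≅ V,
    (∀ S, gen T.F0 S ≫ e.hom.app (T.R S) = T.univ S) ∧
    ∀ (X : M) (n : ℕ) (x : T.R (disc n) ⟶ X),
      (e.hom.app X).app ((discsOf T.F0).cell (n := n) x) =
        (V.map x).app ((T.univ (disc n)).app (topT n)) := by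
  have : ∀ X, IsIso (T.trepNat.app X) := fun X => isIso_of_bijective _ (T.trepApp_bij X)
  have := NatIso.isIso_of_isIso_app T.trepNat
  refine ⟨asIso T.trepNat, fun S => ?_, fun _ _ _ => rfl⟩
  apply GS.hom_ext
  rintro (_ | ⟨n, θ⟩)
  · exact (app_bot (T.univ S)).symm
  · exact T.trep_top θ

end TabRep

lemma trep_yoneda (𝔻 𝔻' : CoGlob M) (α : 𝔻.hom ⟶ 𝔻'.hom) :
    ∃ a : ∀ n, 𝔻'.obj n ⟶ 𝔻.obj n, ∀ (X : M) (n : ℕ) (x : 𝔻.obj n ⟶ X),
      (α.app X).app (𝔻.cell x) = 𝔻'.cell (a n ≫ x) := by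
  choose a ha using fun n => 𝔻'.exists_cell (n := n) ((α.app (𝔻.obj n)).app (𝔻.top n))
    ((α.app (𝔻.obj n)).dim_app _)
  refine ⟨a, fun X n x => ?_⟩
  have h := congrArg (fun φ => GS.Hom.app φ (𝔻.top n)) (α.naturality x)
  simp only [GS.comp_app] at h
  rw [← 𝔻.map_top, h, ← ha]
  rfl

/-- The transformation induced by compatible maps of discs. -/
def trepOf (𝔻 𝔻' : CoGlob M) (a : ∀ n, 𝔻'.obj n ⟶ 𝔻.obj n)
    (hσ : ∀ n, 𝔻'.σ n ≫ a (n + 1) = a n ≫ 𝔻.σ n)
    (hτ : ∀ n, 𝔻'.τ n ≫ a (n + 1) = a n ≫ 𝔻.τ n) : 𝔻.hom ⟶ 𝔻'.hom where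
  app X :=
    { app := Option.map fun p => ⟨p.1, a p.1 ≫ p.2⟩
      dim_app := by rintro (_ | ⟨n, x⟩) <;> rfl
      sr_app := by
        rintro (_ | ⟨_ | n, x⟩) <;> try rfl
        exact congrArg (fun y => some (Sigma.mk n y))
          (by rw [← Category.assoc, hσ, Category.assoc])
      tg_app := by
        rintro (_ | ⟨_ | n, x⟩) <;> try rfl
        exact congrArg (fun y => some (Sigma.mk n y))
          (by rw [← Category.assoc, hτ, Category.assoc]) }
  naturality X Y f := by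
    apply GS.hom_ext
    rintro (_ | ⟨n, x⟩)
    · rfl
    · exact congrArg (fun y => some (Sigma.mk n y)) (Category.assoc _ _ _).symm

/-- An isomorphism of the represented globular sets comes from compatible isomorphisms of discs
(Yoneda). -/
lemma CoGlob.iso_of_homIso (𝔻 𝔻' : CoGlob M) (e : 𝔻.hom ≅ 𝔻'.hom) :
    ∃ i : ∀ n, 𝔻'.obj n ≅ 𝔻.obj n,
      (∀ n, 𝔻'.σ n ≫ (i (n + 1)).hom = (i n).hom ≫ 𝔻.σ n) ∧
      (∀ n, 𝔻'.τ n ≫ (i (n + 1)).hom = (i n).hom ≫ 𝔻.τ n) ∧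
      ∀ (X : M) (n : ℕ) (x : 𝔻.obj n ⟶ X),
        (e.hom.app X).app (𝔻.cell x) = 𝔻'.cell ((i n).hom ≫ x) := by
  obtain ⟨a, ha⟩ := trep_yoneda 𝔻 𝔻' e.hom
  obtain ⟨b, hb⟩ := trep_yoneda 𝔻' 𝔻 e.inv
  refine ⟨fun n => ⟨a n, b n, ?_, ?_⟩, fun n => ?_, fun n => ?_, ha⟩
  · have h := congrArg (fun φ => GS.Hom.app φ (𝔻'.cell (𝟙 (𝔻'.obj n)))) (e.inv_hom_id_app _)
    simp only [GS.comp_app, GS.id_app] at h
    rw [hb, ha, Category.comp_id] at h
    exact 𝔻'.cell_inj h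
  · have h := congrArg (fun φ => GS.Hom.app φ (𝔻.cell (𝟙 (𝔻.obj n)))) (e.hom_inv_id_app _)
    simp only [GS.comp_app, GS.id_app] at h
    rw [ha, hb, Category.comp_id] at h
    exact 𝔻.cell_inj h
  · have h := (e.hom.app _).sr_app (𝔻.cell (𝟙 (𝔻.obj (n + 1))))
    rw [ha, 𝔻'.sr_cell, 𝔻.sr_cell, ha, Category.comp_id, Category.comp_id] at h
    exact 𝔻'.cell_inj h
  · have h := (e.hom.app _).tg_app (𝔻.cell (𝟙 (𝔻.obj (n + 1))))
    rw [ha, 𝔻'.tg_cell, 𝔻.tg_cell, ha, Category.comp_id, Category.comp_id] at h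
    exact 𝔻'.cell_inj h

/-- Compatible isomorphisms of discs give an isomorphism of the represented globular sets. -/
lemma CoGlob.homIso_of_iso (𝔻 𝔻' : CoGlob M) (i : ∀ n, 𝔻'.obj n ≅ 𝔻.obj n)
    (hσ : ∀ n, 𝔻'.σ n ≫ (i (n + 1)).hom = (i n).hom ≫ 𝔻.σ n)
    (hτ : ∀ n, 𝔻'.τ n ≫ (i (n + 1)).hom = (i n).hom ≫ 𝔻.τ n) :
    ∃ e : 𝔻.hom ≅ 𝔻'.hom, ∀ (X : M) (n : ℕ) (x : 𝔻.obj n ⟶ X),
      (e.hom.app X).app (𝔻.cell x) = 𝔻'.cell ((i n).hom ≫ x) := by
  have hσ' : ∀ n, 𝔻.σ n ≫ (i (n + 1)).inv = (i n).inv ≫ 𝔻'.σ n := fun n => by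
    rw [Iso.comp_inv_eq, Category.assoc, hσ, Iso.inv_hom_id_assoc]
  have hτ' : ∀ n, 𝔻.τ n ≫ (i (n + 1)).inv = (i n).inv ≫ 𝔻'.τ n := fun n => by
    rw [Iso.comp_inv_eq, Category.assoc, hτ, Iso.inv_hom_id_assoc]
  refine ⟨⟨trepOf 𝔻 𝔻' (fun n => (i n).hom) hσ hτ, trepOf 𝔻' 𝔻 (fun n => (i n).inv) hσ' hτ',
    ?_, ?_⟩, fun _ _ _ => rfl⟩
  · ext X c
    rcases c with _ | ⟨n, x⟩
    · rfl
    · exact congrArg (fun y => some (Sigma.mk n y)) ((i n).inv_hom_id_assoc x)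
  · ext X c
    rcases c with _ | ⟨n, x⟩
    · rfl
    · exact congrArg (fun y => some (Sigma.mk n y)) ((i n).hom_inv_id_assoc x)

end Vale.Agent.P259
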