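import Vale.Agent.P259.Push
import Vale.Agent.P259.TRep

/-! P259 task DISC: topological discs and spheres, the singular globular set `Sg`.

`isPushout_sp`: the sphere is the union of two closed hemispheres, each the homeomorphic image of the
ball (inverse = drop the last coordinate); define the glued map by cases on the sign of the last
coordinate, continuity by `Continuous.if_le`. `isSph_sp`: induction with `isSph_zero`, `isSph_succ_iff`.
`sg_ctr`: a parallel pair of `dim n` is a map `g : Sp n ⟶ T` (`isSph_sp`), null-homotopic, so it extends over the ball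
(cone: `x ↦ H (1 - ‖x‖.., x / ‖x‖)`; a painless way is the quotient map `I × Sp n → Ball n`, `(t, y) ↦ t • y`
(continuous surjection compact to Hausdorff for `n ≥ 1`, `IsQuotientMap.lift`), `n = 0` is `Nonempty T`). -/

noncomputable section
namespace Vale.Agent.P259
open CategoryTheory CategoryTheory.Limits

/-- The closed disc. -/
abbrev Dk (n : ℕ) : TopCat.{0} := TopCat.of (Ball n)
/-- The boundary sphere of the `n`-disc. -/
abbrev Sp (n : ℕ) : TopCat.{0} :=
  TopCat.of (Metric.sphere (0 : EuclideanSpace ℝ (Fin n)) 1)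
/-- The inclusion of the boundary. -/
def spInc (n : ℕ) : Sp n ⟶ Dk n :=
  TopCat.ofHom ⟨Set.inclusion Metric.sphere_subset_closedBall, continuous_inclusion _⟩
/-- The point over `x` on the lower (`false`) or upper (`true`) hemisphere. -/
def up {n : ℕ} (ε : Bool) (x : EuclideanSpace ℝ (Fin n)) : EuclideanSpace ℝ (Fin (n + 1)) :=
  WithLp.toLp 2 (Fin.snoc (α := fun _ => ℝ) x.ofLp ((if ε then 1 else -1) * √(1 - ‖x‖ ^ 2)))
lemma up_castSucc {n : ℕ} (ε : Bool) (x : EuclideanSpace ℝ (Fin n)) (i : Fin n) :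
    up ε x i.castSucc = x i := by simp [up]
lemma up_last {n : ℕ} (ε : Bool) (x : EuclideanSpace ℝ (Fin n)) :
    up ε x (Fin.last n) = (if ε then 1 else -1) * √(1 - ‖x‖ ^ 2) := by simp [up]
/-- Drop the last coordinate. -/
def dn {n : ℕ} (y : EuclideanSpace ℝ (Fin (n + 1))) : EuclideanSpace ℝ (Fin n) :=
  WithLp.toLp 2 fun i => y i.castSucc
lemma norm_sq_dn {n : ℕ} (y : EuclideanSpace ℝ (Fin (n + 1))) :
    ‖y‖ ^ 2 = ‖dn y‖ ^ 2 + y (Fin.last n) ^ 2 := by
  rw [EuclideanSpace.real_norm_sq_eq, EuclideanSpace.real_norm_sq_eq, Fin.sum_univ_castSucc]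
  rfl
lemma dn_up {n : ℕ} (ε : Bool) (x : EuclideanSpace ℝ (Fin n)) : dn (up ε x) = x :=
  PiLp.ext fun i => up_castSucc ε x i
lemma continuous_dn {n : ℕ} : Continuous (dn (n := n)) := by
  unfold dn
  fun_prop
lemma up_dn {n : ℕ} (ε : Bool) (y : EuclideanSpace ℝ (Fin (n + 1))) (hy : ‖y‖ = 1)
    (h : 0 ≤ (if ε then 1 else -1) * y (Fin.last n)) : up ε (dn y) = y := by
  refine PiLp.ext fun i => Fin.lastCases ?_ (fun j => up_castSucc ε _ j) i
  have h1 := norm_sq_dn y
  have h2 : 1 - ‖dn y‖ ^ 2 = ((if ε then 1 else -1) * y (Fin.last n)) ^ 2 := by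
    rw [hy] at h1
    cases ε <;> simp <;> linarith
  rw [up_last, h2, Real.sqrt_sq h]
  cases ε <;> simp

lemma norm_up {n : ℕ} (ε : Bool) (x : EuclideanSpace ℝ (Fin n)) (hx : ‖x‖ ≤ 1) :
    ‖up ε x‖ = 1 := by
  have h1 := norm_sq_dn (up ε x)
  have h2 := Real.sq_sqrt (sub_nonneg.2 (pow_le_one₀ (n := 2) (norm_nonneg x) hx))
  rw [dn_up, up_last, mul_pow, h2] at h1
  refine (pow_eq_one_iff_of_nonneg (norm_nonneg _) two_ne_zero).1 (h1.trans ?_)
  cases ε <;> simp
lemma continuous_up {n : ℕ} (ε : Bool) : Continuous (up (n := n) ε) := by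
  unfold up
  refine (PiLp.continuous_toLp 2 _).comp (Continuous.finSnoc (A := fun _ => ℝ) ?_ ?_) <;> fun_prop
/-- The hemispheres. -/
def hemiS (n : ℕ) (ε : Bool) : Dk n ⟶ Sp (n + 1) :=
  TopCat.ofHom ⟨fun x => ⟨up ε x.1, by
      simpa using norm_up ε x.1 (mem_closedBall_zero_iff.1 x.2)⟩,
    ((continuous_up ε).comp continuous_subtype_val).subtype_mk _⟩
lemma spInc_hemiS (n : ℕ) : spInc n ≫ hemiS n false = spInc n ≫ hemiS n true := by
  ext x : 2
  change up false x.1 = up true x.1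
  simp only [up, mem_sphere_zero_iff_norm.1 x.2, one_pow, sub_self, Real.sqrt_zero, mul_zero]

/-- The coglobular space of discs. -/
def discs : CoGlob TopCat.{0} where
  obj := Dk
  σ n := hemiS n false ≫ spInc (n + 1)
  τ n := hemiS n true ≫ spInc (n + 1)
  σσ n := by
    rw [Category.assoc, Category.assoc, reassoc_of% spInc_hemiS]
  ττ n := by
    rw [Category.assoc, Category.assoc, reassoc_of% spInc_hemiS]

/-- The singular globular set. -/
abbrev Sg : TopCat.{0} ⥤ GS := discs.hom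

/-- First universal cell of the sphere. -/
def spA : ∀ n, (Sg.obj (Sp n)).Cell
  | 0 => (Sg.obj (Sp 0)).bot
  | n + 1 => discs.cell (n := n) (hemiS n false)
/-- Second universal cell of the sphere. -/
def spB : ∀ n, (Sg.obj (Sp n)).Cell
  | 0 => (Sg.obj (Sp 0)).bot
  | n + 1 => discs.cell (n := n) (hemiS n true)

/-- The projection of the sphere onto the disc. -/
def dnS (n : ℕ) : C(Sp (n + 1), Dk n) :=
  ⟨fun y => ⟨dn y.1, mem_closedBall_zero_iff.2 ((sq_le_one_iff₀ (norm_nonneg _)).1 (by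
      have h1 := norm_sq_dn y.1
      rw [mem_sphere_zero_iff_norm.1 y.2] at h1
      nlinarith [sq_nonneg (y.1 (Fin.last n))]))⟩,
    (continuous_dn.comp continuous_subtype_val).subtype_mk _⟩
lemma dnS_hemiS (n : ℕ) (ε : Bool) (x : Dk n) : dnS n (hemiS n ε x) = x := Subtype.ext (dn_up ε x.1)
lemma hemiS_dnS (n : ℕ) (ε : Bool) (y : Sp (n + 1))
    (h : 0 ≤ (if ε then 1 else -1) * y.1 (Fin.last n)) : hemiS n ε (dnS n y) = y :=
  Subtype.ext (up_dn ε y.1 (mem_sphere_zero_iff_norm.1 y.2) h)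
lemma dnS_eq (n : ℕ) (y : Sp (n + 1)) (h : y.1 (Fin.last n) = 0) : ∃ z, spInc n z = dnS n y := by
  have h1 := norm_sq_dn y.1
  rw [mem_sphere_zero_iff_norm.1 y.2, h] at h1
  exact ⟨⟨dn y.1, mem_sphere_zero_iff_norm.2
    ((pow_eq_one_iff_of_nonneg (norm_nonneg _) two_ne_zero).1 (by linarith))⟩, rfl⟩

lemma isPushout_sp (n : ℕ) : IsPushout (spInc n) (spInc n) (hemiS n false) (hemiS n true) := by
  refine IsPushout.mk' (spInc_hemiS n) (fun T φ φ' h1 h2 => ?_) fun T a b w => ?_
  · ext y : 2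
    rcases le_total (y.1 (Fin.last n)) 0 with h | h
    · rw [← hemiS_dnS n false y (by simpa using h)]
      exact ConcreteCategory.congr_hom h1 _
    · rw [← hemiS_dnS n true y (by simpa using h)]
      exact ConcreteCategory.congr_hom h2 _
  have key : ∀ y : Sp (n + 1), y.1 (Fin.last n) = 0 → a (dnS n y) = b (dnS n y) := fun y h => by
    obtain ⟨z, hz⟩ := dnS_eq n y h
    rw [← hz]
    exact ConcreteCategory.congr_hom w z
  refine ⟨TopCat.ofHom ⟨fun y => if y.1 (Fin.last n) ≤ 0 then a (dnS n y) else b (dnS n y),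
    Continuous.if_le (a.hom.comp (dnS n)).continuous (b.hom.comp (dnS n)).continuous
      (by fun_prop) continuous_const key⟩, ?_, ?_⟩
  · ext x : 2
    refine (if_pos ?_).trans (congrArg a (dnS_hemiS n false x))
    exact (up_last false x.1).trans_le (by simp)
  · ext x : 2
    refine Eq.trans ?_ (congrArg b (dnS_hemiS n true x))
    refine ite_eq_right_iff.2 fun h => key _ (le_antisymm h ?_)
    exact le_of_le_of_eq (by simp) (up_last true x.1).symm
lemma spInc_spec (n : ℕ) : (Sg.map (spInc n)).app (spA n) = sr (discs.top n) ∧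
    (Sg.map (spInc n)).app (spB n) = tg (discs.top n) := by
  cases n with
  | zero => exact ⟨rfl, rfl⟩
  | succ n =>
    exact ⟨congrArg (discs.cell (n := n)) (Category.comp_id _).symm,
      congrArg (discs.cell (n := n)) (Category.comp_id _).symm⟩
lemma isSph_sp (n : ℕ) : IsSph Sg n (spA n) (spB n) := by
  induction n with
  | zero =>
    have : IsEmpty (Sp 0) := Metric.sphere_isEmpty_of_subsingleton
    exact isSph_zero discs (IsInitial.ofUniqueHom
      (fun Y => TopCat.ofHom ⟨isEmptyElim, continuous_of_discreteTopology⟩)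
      fun Y m => by ext x; exact isEmptyElim x)
  | succ n ih =>
    exact (isSph_succ_iff discs ih (spInc n) (spInc_spec n).1 (spInc_spec n).2 _ _).2
      (isPushout_sp n)
instance (n : ℕ) : ContractibleSpace (Ball n) :=
  Metric.contractibleSpace_closedBall zero_le_one

/-- The cone on the sphere maps onto the disc. -/
def coneMap (n : ℕ) : C(unitInterval × Sp n, Dk n) :=
  ⟨fun p => ⟨(p.1 : ℝ) • p.2.1, mem_closedBall_zero_iff.2 (by
      rw [norm_smul, mem_sphere_zero_iff_norm.1 p.2.2, mul_one, Real.norm_of_nonneg p.1.2.1]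
      exact p.1.2.2)⟩, Continuous.subtype_mk (by fun_prop) _⟩

lemma coneMap_surj (n : ℕ) : Function.Surjective (coneMap (n + 1)) := by
  rintro ⟨x, hx⟩
  by_cases h : x = 0
  · obtain ⟨s, hs⟩ := (NormedSpace.sphere_nonempty (x := (0 : EuclideanSpace ℝ (Fin (n + 1))))
      (r := 1)).2 zero_le_one
    exact ⟨(0, ⟨s, hs⟩), Subtype.ext ((zero_smul ℝ s).trans h.symm)⟩
  · exact ⟨(⟨‖x‖, norm_nonneg x, mem_closedBall_zero_iff.1 hx⟩,
      ⟨‖x‖⁻¹ • x, mem_sphere_zero_iff_norm.2 (norm_smul_inv_norm (𝕜 := ℝ) h)⟩),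
      Subtype.ext (smul_inv_smul₀ (norm_ne_zero_iff.2 h) x)⟩

lemma exists_extend {n : ℕ} {T : TopCat.{0}} (g : Sp n ⟶ T) (hg : g.hom.Nullhomotopic) :
    ∃ l : Dk n ⟶ T, spInc n ≫ l = g := by
  obtain ⟨y, ⟨H⟩⟩ := hg
  cases n with
  | zero =>
    have : IsEmpty (Sp 0) := Metric.sphere_isEmpty_of_subsingleton
    exact ⟨TopCat.ofHom (ContinuousMap.const _ y), by ext x; exact isEmptyElim x⟩
  | succ n =>
    have hq := Topology.IsQuotientMap.of_surjective_continuous (coneMap_surj n)
      (coneMap (n + 1)).continuous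
    have hf : Function.FactorsThrough H.symm.toContinuousMap (coneMap (n + 1)) := by
      rintro ⟨t, s⟩ ⟨t', s'⟩ h
      have h1 : (t : ℝ) • s.1 = (t' : ℝ) • s'.1 := congrArg Subtype.val h
      have h2 := congrArg norm h1
      rw [norm_smul, norm_smul, mem_sphere_zero_iff_norm.1 s.2, mem_sphere_zero_iff_norm.1 s'.2,
        mul_one, mul_one, Real.norm_of_nonneg t.2.1, Real.norm_of_nonneg t'.2.1] at h2
      obtain rfl : t = t' := Subtype.ext h2
      by_cases h0 : t = 0
      · subst h0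
        exact (H.symm.apply_zero s).trans (H.symm.apply_zero s').symm
      · rw [Subtype.ext (smul_right_injective _ (fun h => h0 (Subtype.ext h)) h1 : s.1 = s'.1)]
    refine ⟨TopCat.ofHom (hq.lift _ hf), ?_⟩
    ext s
    have h1 : spInc (n + 1) s = coneMap (n + 1) (1, s) := Subtype.ext (one_smul ℝ s.1).symm
    exact (congrArg (hq.lift _ hf) h1).trans
      ((DFunLike.congr_fun (hq.lift_comp _ hf) (1, s)).trans (H.symm.apply_one s))

theorem sg_ctr (T : TopCat.{0}) [ContractibleSpace T] : Ctr (Sg.obj T) := by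
  intro a b h
  obtain ⟨g, ⟨ha, hb⟩, -⟩ := (isSph_sp _).desc T a b h rfl
  obtain ⟨l, rfl⟩ := exists_extend g ((id_nullhomotopic T).comp_left g.hom)
  have h1 := (arr_self (c := discs.top (dim a)) (Nat.le_add_left _ _)).map (Sg.map l)
  rw [← (spInc_spec _).1, ← (spInc_spec _).2, ← GS.comp_app, ← GS.comp_app, ← Functor.map_comp,
    ha, hb] at h1
  exact ⟨_, h1⟩

end Vale.Agent.P259
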