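import Vale.Agent.P259.Disc

/-! P259 task DISC2: realisations of globular sums are contractible; a test for compact generation.

`contractible_of_represents`: by `Represents.iso` it is enough to treat one representing space; induction on
the table, directly with `tab_disc`, `tab_snoc`: let `T0` represent `|T|` (exists by `tabRep_of_discs`), `x : Dk i ⟶ T`
the last cell and `s = Dk j ⟶ Dk i` the iterated source map. Truncation of coordinates `π : Dk i ⟶ Dk j` is a
retraction of `s`; `T0 ⟶ T` has the retraction `r` given on the last cell by `π` followed by the gluing cell; the homotopy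
`𝟙 ≃ r ≫ inc` is a map `T ⟶ TopCat.of C(I, T)` defined by the universal property (constant paths on `T0`,
straight lines `y ↦ (t ↦ x ((1-t) y + t s (π y)))` on the last disc), then `ContinuousMap.uncurry`.
`cg_of_lift`: let `T'` be `T` with the topology `⨆ (n, f : Dk n ⟶ T), coinduced f`; it is compactly generated
(`uCompactlyGeneratedSpace_of_continuous_maps` or `_of_isClosed`), `id : T' ⟶ T` is bijective on cells; the section `g` is the
identity function, so the two topologies agree. -/

noncomputable section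
namespace Vale.Agent.P259
open CategoryTheory CategoryTheory.Limits

namespace Disc2
open scoped unitInterval

/-- Forget the last coordinate. -/
def dr {n : ℕ} (x : EuclideanSpace ℝ (Fin (n + 1))) : EuclideanSpace ℝ (Fin n) :=
  WithLp.toLp 2 fun i => x i.castSucc

lemma norm_dr {n : ℕ} (x : EuclideanSpace ℝ (Fin (n + 1))) : ‖dr x‖ ≤ ‖x‖ := by
  rw [EuclideanSpace.norm_eq, EuclideanSpace.norm_eq]
  refine Real.sqrt_le_sqrt ?_
  rw [Fin.sum_univ_castSucc]
  exact le_add_of_nonneg_right (sq_nonneg _)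

lemma continuous_dr {n : ℕ} : Continuous (dr (n := n)) := by
  unfold dr
  fun_prop

/-- The projection of a disc onto the disc of one dimension less. -/
def drop (n : ℕ) : Dk (n + 1) ⟶ Dk n :=
  TopCat.ofHom ⟨fun x => ⟨dr x.1, mem_closedBall_zero_iff.2
      ((norm_dr x.1).trans (mem_closedBall_zero_iff.1 x.2))⟩,
    (continuous_dr.comp continuous_subtype_val).subtype_mk _⟩

lemma σ_drop (n : ℕ) : discs.σ n ≫ drop n = 𝟙 (Dk n) := by
  ext x i
  exact up_castSucc false x.1 i

/-- The cell of a map out of a disc. -/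
def cl {X : TopCat.{0}} {n : ℕ} (x : Dk n ⟶ X) : (Sg.obj X).Cell := discs.cell (n := n) x

lemma cl_inj {X : TopCat.{0}} {n : ℕ} {x y : Dk n ⟶ X} (h : cl x = cl y) : x = y :=
  discs.cell_inj (n := n) h
lemma exists_cl {X : TopCat.{0}} {n : ℕ} (c : (Sg.obj X).Cell) (h : dim c = n + 1) :
    ∃ x : Dk n ⟶ X, cl x = c := discs.exists_cell c h
lemma map_cl {X Y : TopCat.{0}} (f : X ⟶ Y) {n : ℕ} (x : Dk n ⟶ X) :
    (Sg.map f).app (cl x) = cl (x ≫ f) := rfl
lemma dim_cl {X : TopCat.{0}} {n : ℕ} (x : Dk n ⟶ X) : dim (cl x) = n + 1 := rfl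

lemma exists_src (j k : ℕ) : ∃ (s : Dk j ⟶ Dk (j + k)) (π : Dk (j + k) ⟶ Dk j),
    s ≫ π = 𝟙 _ ∧ ∀ (X : TopCat.{0}) (x : Dk (j + k) ⟶ X),
      src (j + 1) (cl x) = cl (s ≫ x) := by
  induction k with
  | zero =>
    refine ⟨𝟙 _, 𝟙 _, Category.id_comp _, fun X x => ?_⟩
    rw [src_of_le (le_of_eq (dim_cl x))]
    exact congrArg cl (Category.id_comp x).symm
  | succ k ih =>
    obtain ⟨s, π, h, hs⟩ := ih
    refine ⟨s ≫ discs.σ (j + k), drop (j + k) ≫ π, ?_, fun X x => ?_⟩
    · have e : discs.σ (j + k) ≫ drop (j + k) ≫ π = π := by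
        exact (Category.assoc _ _ _).symm.trans
          ((congrArg (· ≫ π) (σ_drop (j + k))).trans (Category.id_comp π))
      exact (Category.assoc _ _ _).trans ((congrArg (s ≫ ·) e).trans h)
    · rw [← src_sr (by rw [dim_cl]; omega)]
      exact hs X (discs.σ (j + k) ≫ x)

lemma ctr_of_homotopic {T T0 : TopCat.{0}} [ContractibleSpace T0] (r : T ⟶ T0) (inc : T0 ⟶ T)
    (h : (𝟙 T : T ⟶ T).hom.Homotopic (r ≫ inc).hom) : ContractibleSpace T := by
  obtain ⟨y, hy⟩ := ((id_nullhomotopic T0).comp_left r.hom).comp_right inc.hom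
  exact (contractible_iff_id_nullhomotopic T).2 ⟨y, h.trans hy⟩

/-- Straight line in a disc. -/
def line {n : ℕ} (a : I) (y z : Ball n) : Ball n :=
  ⟨(1 - (a : ℝ)) • y.1 + (a : ℝ) • z.1,
    convex_closedBall _ _ y.2 z.2 (sub_nonneg.2 a.2.2) a.2.1 (sub_add_cancel _ _)⟩

lemma line_zero {n : ℕ} (y z : Ball n) : line 0 y z = y := Subtype.ext (by simp [line])
lemma line_one {n : ℕ} (y z : Ball n) : line 1 y z = z := Subtype.ext (by simp [line])
lemma line_self {n : ℕ} (a : I) (y : Ball n) : line a y y = y :=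
  Subtype.ext (by simp only [line]; rw [← add_smul, sub_add_cancel, one_smul])

lemma continuous_line {n : ℕ} {X : Type} [TopologicalSpace X] {a : X → I} {y z : X → Ball n}
    (ha : Continuous a) (hy : Continuous y) (hz : Continuous z) :
    Continuous fun p => line (a p) (y p) (z p) := by
  refine Continuous.subtype_mk ?_ _
  fun_prop

lemma ctr_of_pushout {A T0 T : TopCat.{0}} {i : ℕ} [ContractibleSpace T0] {t : A ⟶ T0}
    {s : A ⟶ Dk i} {inc : T0 ⟶ T} {x : Dk i ⟶ T} (h : IsPushout t s inc x) (π : Dk i ⟶ A)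
    (hπ : s ≫ π = 𝟙 _) : ContractibleSpace T := by
  have hπ' : ∀ a : A, π (s a) = a := fun a => ConcreteCategory.congr_hom hπ a
  have hw : ∀ a : A, inc (t a) = x (s a) := fun a => ConcreteCategory.congr_hom h.w a
  let r : T ⟶ T0 := h.desc (𝟙 _) (π ≫ t) (by rw [← Category.assoc, hπ]; simp)
  let H0 : T0 ⟶ TopCat.of C(I, T) :=
    TopCat.ofHom (ContinuousMap.curry ⟨fun p : T0 × I => inc p.1,
      inc.hom.continuous.comp continuous_fst⟩)
  let H1 : Dk i ⟶ TopCat.of C(I, T) :=
    TopCat.ofHom (ContinuousMap.curry ⟨fun p : Ball i × I => x (line p.2 p.1 (s (π p.1))),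
      x.hom.continuous.comp (continuous_line continuous_snd continuous_fst
        (s.hom.continuous.comp (π.hom.continuous.comp continuous_fst)))⟩)
  have hH : t ≫ H0 = s ≫ H1 := by
    ext a τ
    change inc (t a) = x (line τ (s a) (s (π (s a))))
    rw [hπ', line_self, hw]
  let H : T ⟶ TopCat.of C(I, T) := h.desc H0 H1 hH
  let ev : I → (TopCat.of C(I, T) ⟶ T) := fun τ =>
    TopCat.ofHom ⟨fun γ => γ τ, continuous_eval_const τ⟩
  have e0 : H ≫ ev 0 = 𝟙 T := by
    refine h.hom_ext ?_ ?_
    · rw [← Category.assoc, h.inl_desc]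
      rfl
    · rw [← Category.assoc, h.inr_desc]
      ext y
      change x (line 0 y (s (π y))) = x y
      rw [line_zero]
  have e1 : H ≫ ev 1 = r ≫ inc := by
    refine h.hom_ext ?_ ?_
    · rw [← Category.assoc, h.inl_desc, ← Category.assoc, h.inl_desc]
      rfl
    · rw [← Category.assoc, h.inr_desc, ← Category.assoc, h.inr_desc]
      ext y
      change x (line 1 y (s (π y))) = inc (t (π y))
      rw [line_one, hw]
  refine ctr_of_homotopic r inc ⟨⟨⟨fun p => H.hom p.2 p.1, ?_⟩, fun p => ?_, fun p => ?_⟩⟩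
  · exact continuous_eval.comp
      ((H.hom.continuous.comp continuous_snd).prodMk continuous_fst)
  · exact ConcreteCategory.congr_hom e0 p
  · exact ConcreteCategory.congr_hom e1 p

lemma ctr_tab {l : ℕ} (S : Tab l) : ∀ (T : TopCat.{0}) (u : tabGS.obj S.obj ⟶ Sg.obj T),
    Represents Sg u → ContractibleSpace T := by
  induction S with
  | one i =>
    intro T u h
    have hd : dim (u.app (topT i)) = i + 1 := u.dim_app _
    obtain ⟨x, hx⟩ := exists_cl _ hd
    obtain ⟨φ, hφ, -⟩ := tab_disc i (Sg.obj (Dk i)) (discs.top i) rfl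
    obtain ⟨g, hg, -⟩ := h (Dk i) φ
    have e : g ≫ x = 𝟙 T := by
      refine h.hom_ext ?_
      rw [Sg.map_id, Category.comp_id, Sg.map_comp, ← Category.assoc, hg]
      refine (tab_disc i (Sg.obj T) _ hd).unique ?_ rfl
      change (Sg.map x).app (φ.app (topT i)) = _
      rw [hφ, ← hx]
      exact discs.map_top x
    have : ContractibleSpace (Dk i) := inferInstanceAs (ContractibleSpace (Ball i))
    refine ctr_of_homotopic g x ?_
    rw [e]
  | @snoc l S j i hl hi ih =>
    intro T u h
    obtain ⟨T0, u0, h0⟩ := trep_one Sg (fun n => ⟨Dk n, discs.top n, rfl,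
      fun X c hc => discs.existsUnique_top c hc⟩) S
    have := ih T0 u0 h0
    obtain ⟨k, rfl⟩ := Nat.exists_eq_add_of_le hi.le
    obtain ⟨s, π, hπ, hs⟩ := exists_src j k
    obtain ⟨inc, hinc, -⟩ := h0 T (tabGS.map (initInc S j (j + k) hl hi) ≫ u)
    obtain ⟨x, hx⟩ := exists_cl (n := j + k) (u.app (lastT (S.snoc j (j + k) hl hi)))
      (u.dim_app _)
    obtain ⟨t, ht⟩ := exists_cl (n := j) (tgt (j + 1) (u0.app (lastT S)))
      (dim_tgt (by rw [u0.dim_app, dim_lastT]; omega))
    have key : ∀ (Y : TopCat.{0}) (g : T0 ⟶ Y), cl (t ≫ g) =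
        tgt (j + 1) ((u0 ≫ Sg.map g).app (lastT S)) := by
      intro Y g
      rw [← map_cl, ht, app_tgt]
      rfl
    have hP : IsPushout t s inc x := by
      have w : t ≫ inc = s ≫ x := by
        refine cl_inj ?_
        rw [key, hinc, ← hs, hx, ← app_src, tab_glue, app_tgt]
        rfl
      refine ⟨⟨w⟩, ⟨PushoutCocone.isColimitAux' _ fun c => ?_⟩⟩
      have hc : src (j + 1) (cl c.inr) =
          tgt (j + 1) ((u0 ≫ Sg.map c.inl).app (lastT S)) := by
        rw [hs, ← key, c.condition]
      have hu := tab_snoc S j (j + k) hl hi (Sg.obj c.pt) (u0 ≫ Sg.map c.inl)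
        (cl c.inr) rfl hc
      have hg := h c.pt hu.exists.choose
      have spec : ∀ g : T ⟶ c.pt, (tabGS.map (initInc S j (j + k) hl hi) ≫ u ≫ Sg.map g =
          u0 ≫ Sg.map (inc ≫ g)) ∧ (u ≫ Sg.map g).app (lastT (S.snoc j (j + k) hl hi)) =
            cl (x ≫ g) := by
        intro g
        refine ⟨by rw [Sg.map_comp, ← Category.assoc, ← hinc, Category.assoc], ?_⟩
        rw [← map_cl, hx]
        rfl
      refine ⟨hg.exists.choose, ?_, ?_, fun {m} h1 h2 => ?_⟩
      · refine h0.hom_ext ?_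
        refine (spec _).1.symm.trans ?_
        rw [hg.exists.choose_spec, hu.exists.choose_spec.1]
      · refine cl_inj ?_
        refine (spec _).2.symm.trans ?_
        rw [hg.exists.choose_spec, hu.exists.choose_spec.2]
      · refine hg.unique ?_ hg.exists.choose_spec
        refine hu.unique ⟨?_, ?_⟩ hu.exists.choose_spec
        · exact (spec m).1.trans (congrArg (fun g => u0 ≫ Sg.map g) h1)
        · exact (spec m).2.trans (congrArg (cl) h2)
    exact ctr_of_pushout hP π hπ

/-- The points of a space, with the final topology for the maps from discs. -/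
def Fine (T : TopCat.{0}) : Type := T

/-- The identity. -/
def toF {T : TopCat.{0}} (y : T) : Fine T := y
/-- The identity. -/
def ofF {T : TopCat.{0}} (y : Fine T) : T := y

instance (T : TopCat.{0}) : TopologicalSpace (Fine T) :=
  ⨆ p : Σ n, C(Ball n, T),
    TopologicalSpace.coinduced (fun y : Ball p.1 => toF (p.2 y)) inferInstance

lemma fine_in {T : TopCat.{0}} {n : ℕ} (f : C(Ball n, T)) :
    Continuous (fun y => toF (f y)) :=
  continuous_iSup_rng (i := (⟨n, f⟩ : Σ n, C(Ball n, T))) continuous_coinduced_rng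

lemma fine_out {T : TopCat.{0}} {Y : Type} [TopologicalSpace Y] {g : T → Y}
    (h : ∀ (n : ℕ) (f : C(Ball n, T)), Continuous (g ∘ f)) : Continuous fun y => g (ofF y) :=
  continuous_iSup_dom.2 fun p => continuous_coinduced_dom.2 (h p.1 p.2)

end Disc2

theorem contractible_of_represents {S : Theta} {T : TopCat.{0}} {u : tabGS.obj S ⟶ Sg.obj T}
    (h : Represents Sg u) : ContractibleSpace T := by
  obtain ⟨l, S⟩ := S
  exact Disc2.ctr_tab S T u h

theorem cg_of_lift (T : TopCat.{0})
    (h : ∀ (T' : TopCat.{0}) (j : T' ⟶ T), IsIso (Sg.map j) → ∃ g : T ⟶ T', g ≫ j = 𝟙 T) :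
    UCompactlyGeneratedSpace.{0} T := by
  let j : TopCat.of (Disc2.Fine T) ⟶ T :=
    TopCat.ofHom ⟨Disc2.ofF, Disc2.fine_out (g := id) fun _ f => f.continuous⟩
  have hj : IsIso (Sg.map j) := by
    refine isIso_of_bijective _ ⟨?_, ?_⟩
    · intro c d e
      have hd : dim c = dim d := by simpa using congrArg dim e
      rcases hn : dim c with _ | n
      · rw [eq_bot hn, eq_bot (hd.symm.trans hn)]
      · obtain ⟨a, rfl⟩ := Disc2.exists_cl c hn
        obtain ⟨b, rfl⟩ := Disc2.exists_cl d (hd.symm.trans hn)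
        have e' : a ≫ j = b ≫ j := Disc2.cl_inj e
        congr 1
        ext y
        exact ConcreteCategory.congr_hom e' y
    · intro c
      rcases hn : dim c with _ | n
      · exact ⟨_, (app_bot _).trans (eq_bot hn).symm⟩
      · obtain ⟨a, rfl⟩ := Disc2.exists_cl c hn
        exact ⟨Disc2.cl (TopCat.ofHom ⟨fun y => Disc2.toF (a.hom y), Disc2.fine_in a.hom⟩), rfl⟩
  obtain ⟨g, hg⟩ := h _ j hj
  refine uCompactlyGeneratedSpace_of_continuous_maps fun {Y} _ f hf => ?_
  have h1 : Continuous fun y => f (Disc2.ofF y) :=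
    Disc2.fine_out fun n p => hf (CompHaus.of (Ball n)) p
  have h2 := h1.comp g.hom.continuous
  have e : (fun y => f (Disc2.ofF y)) ∘ g.hom = f := by
    funext y
    exact congrArg f (ConcreteCategory.congr_hom hg y)
  rwa [e] at h2

end Vale.Agent.P259
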