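import Vale.Agent.P259.Disc2
import Vale.Agent.P259.Elim
import Vale.Agent.P259.Colim

/-! P259 task DISCF: the disc functor and the realisation.

`exists_discData`: `T : TabRep Sg` by `tabRep_of_discs` (`existsUnique_top`); `elim_rel` with `F0 = T.F0`,
`ρ = True`; lifting by `sg_ctr`, `contractible_of_represents`, `exists_discIso`; `cg` by `cg_of_lift` and
representability (transfer along `α`); `e` from `exists_homU`, `CoGlob.homIso_of_iso`, `exists_discIso`.
`isDisc`: pushouts are reflected by the fully faithful `compactlyGeneratedToTop`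
(`IsPushout.of_map_of_fullyFaithful` or `IsPushout.of_map`); the homeomorphisms come from
`CoGlob.iso_of_homIso` applied to `exists_homU⁻¹ ≪≫ e`, `TopCat.homeoOfIso`, `up_castSucc`, `up_last`.
`exists_real`: `Re = (IsGpd E).ι ⋙ Lan`, where `Lan = yoneda.leftKanExtension d.D` is left adjoint to the restricted
Yoneda functor (`Presheaf.uliftYonedaAdjunction` / `yonedaAdjunction`); restrict the adjunction
(`Adjunction.mkOfHomEquiv` or `Adjunction.restrictFullyFaithful`).
`cg_real`: `cg_of_lift`: if `Sg j` is iso then `Pi.map j` is iso (`isIso_of_cells`), lift the unit. -/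

noncomputable section
namespace Vale.Agent.P259
open CategoryTheory CategoryTheory.Limits GlobExt Opposite
variable {E : GlobExt}

/-- A disc functor with values in all spaces. -/
structure DiscData (E : GlobExt) where
  D : E.C ⥤ TopCat.{0}
  pres : PreservesSums (E.ι ⋙ D)
  cg : ∀ c, UCompactlyGeneratedSpace.{0} (D.obj c)
  e : homGpd D pres ⋙ U E ≅ Sg

theorem exists_discData (E : GlobExt) [Fact E.IsCoherator] : Nonempty (DiscData E) := by
  obtain ⟨T⟩ := tabRep_of_discs Sg fun n =>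
    ⟨Dk n, discs.top n, rfl, fun X x hx => discs.existsUnique_top x hx⟩
  obtain ⟨e0, -, -⟩ := T.exists_discIso
  obtain ⟨F, α, -⟩ := elim_rel (E := E) Fact.out T.F0 T.F0_pres (fun _ _ => True)
    (fun _ => trivial) (fun _ _ _ _ _ _ => trivial) (fun _ _ _ _ _ _ _ _ _ _ _ => trivial)
    (fun n S _ _ _ f' g' _ _ hp _ _ => by
      have := contractible_of_represents (T.rep S)
      obtain ⟨c, hc⟩ := Ctr.of_iso (e0.app (T.R S)).symm (sg_ctr (T.R S)) _ _ hp
      obtain ⟨h', rfl⟩ := (discsOf T.F0).exists_cell (n := n + 1) c hc.2.2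
      exact ⟨h', (((discsOf T.F0).arr_cell_iff _ _ _).1 hc).1,
        (((discsOf T.F0).arr_cell_iff _ _ _).1 hc).2, trivial⟩)
  have hp : PreservesSums (E.ι ⋙ F) := PreservesSums.of_iso α.symm T.F0_pres
  obtain ⟨e1, -⟩ := exists_homU F hp
  obtain ⟨e2, -⟩ := CoGlob.homIso_of_iso (discsOf (E.ι ⋙ F)) (discsOf T.F0)
    (fun n => (α.app (disc n)).symm) (fun n => α.inv.naturality _) fun n => α.inv.naturality _
  refine ⟨⟨F, hp, fun c => ?_, e1 ≪≫ e2 ≪≫ e0⟩⟩
  obtain ⟨S, rfl⟩ := E.bij.2 c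
  refine cg_of_lift _ fun T' j hj => ?_
  let β : T.R S ≅ F.obj (E.ι.obj S) := (α.app S).symm
  obtain ⟨g, hg, -⟩ := T.rep S T' (T.univ S ≫ Sg.map β.hom ≫ inv (Sg.map j))
  refine ⟨β.inv ≫ g, ?_⟩
  rw [Category.assoc, Iso.inv_comp_eq, Category.comp_id]
  refine (T.rep S).hom_ext ?_
  rw [Sg.map_comp, ← Category.assoc, hg, Category.assoc, Category.assoc, IsIso.inv_hom_id,
    Category.comp_id]

namespace DiscData
variable (d : DiscData E)

/-- The fundamental model of a space. -/
abbrev Pi : TopCat.{0} ⥤ Gpd E := homGpd d.D d.pres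

/-- The disc functor with values in compactly generated spaces. -/
def DC : E.C ⥤ CG where
  obj c := @CompactlyGenerated.mk (d.D.obj c) (d.cg c)
  map f := InducedCategory.homMk (d.D.map f)
  map_id c := InducedCategory.hom_ext (d.D.map_id c)
  map_comp f g := InducedCategory.hom_ext (d.D.map_comp f g)

theorem isDisc : IsDiscFunctor E d.DC := by
  refine ⟨fun l T j i hl hi => IsPushout.of_map_of_faithful
    CompactlyGenerated.compactlyGeneratedToTop (d.pres l T j i hl hi), ?_⟩
  obtain ⟨e1, -⟩ := exists_homU d.D d.pres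
  obtain ⟨i, hσ, hτ, -⟩ := CoGlob.iso_of_homIso discs (discsOf (E.ι ⋙ d.D)) (d.e.symm ≪≫ e1)
  have key : ∀ (ε : Bool) (n : ℕ) (x : Ball n) (y : Ball (n + 1)), y = (hemiS n ε ≫ spInc (n + 1)) x →
      OverHemi (if ε then 1 else -1) x y := by
    rintro ε n x _ rfl
    exact ⟨fun k => up_castSucc ε _ k, up_last ε _⟩
  exact ⟨fun n => TopCat.homeoOfIso (i n), fun n x =>
    ⟨key false n _ _ (ConcreteCategory.congr_hom (hσ n) x),
      key true n _ _ (ConcreteCategory.congr_hom (hτ n) x)⟩⟩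

theorem exists_piIso : Nonempty (homGpd d.DC d.isDisc.pres ≅
    CompactlyGenerated.compactlyGeneratedToTop ⋙ d.Pi) := by
  refine ⟨NatIso.ofComponents (fun Y => (IsGpd E).isoMk (NatIso.ofComponents (fun c =>
    (CompactlyGenerated.fullyFaithfulCompactlyGeneratedToTop.homEquiv
      (X := d.DC.obj c.unop) (Y := Y)).toIso) fun _ => rfl)) fun _ => rfl⟩

lemma pi_ctr (T : TopCat.{0}) [ContractibleSpace T] : MCtr (d.Pi.obj T) := by
  exact Ctr.of_iso (d.e.app T).symm (sg_ctr T)

theorem exists_real : ∃ Re : Gpd E ⥤ TopCat.{0}, Nonempty (Re ⊣ d.Pi) := by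
  let adj := Presheaf.uliftYonedaAdjunction.{0} _ (uliftYoneda.{0}.leftKanExtensionUnit d.D)
  exact ⟨(IsGpd E).ι ⋙ uliftYoneda.{0}.leftKanExtension d.D,
    ⟨adj.restrictFullyFaithful (IsGpd E).fullyFaithfulι (Functor.FullyFaithful.id _)
      (Functor.rightUnitor _).symm (Functor.leftUnitor _ ≪≫
        Functor.isoWhiskerRight uliftYonedaIsoYoneda.{0} _)⟩⟩

theorem cg_real {Re : Gpd E ⥤ TopCat.{0}} (adj : Re ⊣ d.Pi) (X : Gpd E) :
    UCompactlyGeneratedSpace.{0} (Re.obj X) := by
  refine cg_of_lift _ fun T' j hj => ?_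
  have h1 : IsIso ((U E).map (d.Pi.map j)) := (NatIso.isIso_map_iff d.e j).2 hj
  have h2 : IsIso (d.Pi.map j) := isIso_of_cells _ (bijective_of_isIso _)
  refine ⟨(adj.homEquiv X T').symm (adj.unit.app X ≫ inv (d.Pi.map j)),
    (adj.homEquiv X _).injective ?_⟩
  rw [adj.homEquiv_naturality_right, Equiv.apply_symm_apply, Category.assoc, IsIso.inv_hom_id,
    Category.comp_id, adj.homEquiv_id]

end DiscData

end Vale.Agent.P259
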