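import Vale.Agent.P259.Ops

/-! P259 task DIV: the division lemma, whiskering is bijective on classes in every dimension.

Call `φ : ∀ Y, cell Y → cell Y → cell Y → cell Y` an `L`-operation for `j0 ≤ j` if for all
`Wh j0 a x b` with `j + 1 ≤ dim x`: it is natural, `Arr (φ a x b) (sr x) (tg x)` if `dim x = j + 1`,
`Arr (φ a x b) (φ a (sr x) b) (φ a (tg x) b)` if `j + 1 < dim x` (and `dim φ = dim x`).
Prove by induction on `d` simultaneously
* `(L d)`: for all `j0 ≤ j`, all `L`-operations `φ`, all parallel `x, y` of `dim j + d` such that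
  cells `c : x → y` are in `Wh j0 a c b` (say `1 ≤ j0`, `dim a = dim b = j0 + 1`,
  `tg a = src j0 x`, `sr b = tgt j0 y`): `LocBij (φ a · b) x y x' y'` where `(x', y') = (x, y)` for `d = 0`
  and `(φ a x b, φ a y b)` for `d > 0`;
* `(W d)`: the statements `wh_bij_bot` (`d = 0`) / `wh_bij` (`dim x = j + d`, `d > 0`).
`(L 0)`: `wh_univ` gives `Con (φ a c b) c`, then `locBij_of_con`.
`(L d) → (W d)`: `LocBij.two_of_six` with `wh a · b`, `wh (invc a) · (invc b)`,
`wh (invc (invc a)) · (invc (invc b))`; the composites are the `L`-operation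
`wh j (invc a) (wh j a x b) (invc b)` (`j0 = j`) for `(a, b)` and for `(invc a, invc b)`.
`(L d) ∧ (W d) → (L (d+1))`: `wh_natop` gives a natural `γ a x b : φ a x b → x` for `dim x = j + 1`;
`φ' a x b := wh (j+1) (invc (γ a (src (j+1) x) b)) (φ a x b) (γ a (tgt (j+1) x) b)` is an
`L`-operation for `j0 ≤ j + 1`; on cells `c : x → y` with `dim x = j + 1 + d` it is
`θ ∘ φ` with `θ` a fixed whiskering at level `j + 1`; use `LocBij.congr`, `LocBij.of_comp_left`. -/

noncomputable section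
namespace Vale.Agent.P259
open CategoryTheory CategoryTheory.Limits GlobExt Opposite
variable {E : GlobExt} [hE : Fact E.IsCoherator] {Y : Gpd E}

/-- Natural operations that fix the boundaries of dimension `j`. -/
structure LOp (j0 j : ℕ) (φ : ∀ Y : Gpd E, cell Y → cell Y → cell Y → cell Y) : Prop where
  le : j0 ≤ j
  nat : ∀ (Y Y' : Gpd E) (f : Y ⟶ Y') (a x b : cell Y), Wh j0 a x b → j + 1 ≤ dim x →
    cm f (φ Y a x b) = φ Y' (cm f a) (cm f x) (cm f b)
  bot : ∀ (Y : Gpd E) (a x b : cell Y), Wh j0 a x b → dim x = j + 1 →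
    Arr (φ Y a x b) (sr x) (tg x)
  succ : ∀ (Y : Gpd E) (a x b : cell Y), Wh j0 a x b → j + 1 < dim x →
    Arr (φ Y a x b) (φ Y a (sr x) b) (φ Y a (tg x) b)

section
variable {j0 j : ℕ} {φ : ∀ Y : Gpd E, cell Y → cell Y → cell Y → cell Y} {a b x y : cell Y}

omit hE in
lemma LOp.dim_eq (h : LOp j0 j φ) (n : ℕ) : ∀ {x : cell Y}, Wh j0 a x b → dim x = j + 1 + n →
    dim (φ Y a x b) = dim x := by
  have := h.le
  induction n with
  | zero =>
    intro x hw hx
    have h1 := (h.bot Y a x b hw hx).2.2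
    rw [h1, dim_sr]
    omega
  | succ n ih =>
    intro x hw hx
    have h1 := (h.succ Y a x b hw (by omega)).2.2
    rw [h1, ih (hw.of_sr (by omega)) (by rw [dim_sr]; omega), dim_sr]
    omega

omit hE in
lemma LOp.dim_eq' (h : LOp j0 j φ) (hw : Wh j0 a x b) (hx : j + 1 ≤ dim x) :
    dim (φ Y a x b) = dim x := h.dim_eq (dim x - (j + 1)) hw (by omega)

omit hE in
lemma LOp.src_eq (h : LOp j0 j φ) (n : ℕ) : ∀ {x : cell Y}, Wh j0 a x b → dim x = j + 1 + n →
    src (j + 1) (φ Y a x b) = φ Y a (src (j + 1) x) b := by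
  have := h.le
  induction n with
  | zero =>
    intro x hw hx
    rw [src_of_le (x := x) (by omega), src_of_le (by rw [h.dim_eq 0 hw hx]; omega)]
  | succ n ih =>
    intro x hw hx
    have h1 := hw.of_sr (by omega)
    have h2 : dim (sr x) = j + 1 + n := by rw [dim_sr]; omega
    rw [(h.succ Y a x b hw (by omega)).src_eq (by rw [h.dim_eq n h1 h2]; omega), ih h1 h2,
      src_sr (by omega)]

omit hE in
lemma LOp.tgt_eq (h : LOp j0 j φ) (n : ℕ) : ∀ {x : cell Y}, Wh j0 a x b → dim x = j + 1 + n →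
    tgt (j + 1) (φ Y a x b) = φ Y a (tgt (j + 1) x) b := by
  have := h.le
  induction n with
  | zero =>
    intro x hw hx
    rw [tgt_of_le (x := x) (by omega), tgt_of_le (by rw [h.dim_eq 0 hw hx]; omega)]
  | succ n ih =>
    intro x hw hx
    have h1 := hw.of_sr (by omega)
    have h2 : dim (sr x) = j + 1 + n := by rw [dim_sr]; omega
    rw [(h.succ Y a x b hw (by omega)).tgt_eq (by rw [h.dim_eq n h1 h2]; omega),
      ih (hw.of_tg (by omega)) (by rw [dim_tg]; omega), tgt_tg (by omega)]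

omit hE in
lemma LOp.arr (h : LOp j0 j φ) (hw : Wh j0 a x b) (hx : j + 1 ≤ dim x) {c : cell Y}
    (hc : Arr c x y) : Arr (φ Y a c b) (φ Y a x b) (φ Y a y b) := by
  have h1 := h.succ Y a c b (hw.of_arr hc) (by rw [hc.2.2]; omega)
  rwa [hc.1, hc.2.1] at h1

omit hE in
lemma LOp.locMap (h : LOp j0 j φ) (hw : Wh j0 a x b) (hx : j + 1 ≤ dim x) :
    LocMap (fun c => φ Y a c b) x y (φ Y a x b) (φ Y a y b) :=
  ⟨fun _ hc => h.arr hw hx hc, fun _ _ hc _ ⟨_, he⟩ =>
    ⟨_, h.arr (hw.of_arr hc) (by rw [hc.2.2]; omega) he⟩⟩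

omit hE in
lemma LOp.par (h : LOp j0 j φ) (hw : Wh j0 a x b) (hx : j + 1 < dim x) (hxy : Par x y) :
    Par (φ Y a x b) (φ Y a y b) := by
  have h1 := h.succ Y a y b (hw.of_par hxy) (hxy.1 ▸ hx)
  rw [← hxy.2.1, ← hxy.2.2] at h1
  exact (h.succ Y a x b hw hx).par_of_arr h1

lemma LOp.bij_bot (h : LOp j0 j φ) (hw : ∀ c, Arr c x y → Wh j0 a c b) (hx : dim x = j) :
    LocBij (fun c => φ Y a c b) x y x y := by
  refine locBij_of_con (gpdLike Y) fun c hc => ?_
  refine wh_univ j0 (j + 1) (fun Y a c b => Con (φ Y a c b) c) (fun Y Y' f a c b h1 h2 h3 => ?_)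
    (fun Y hY a c b h1 h2 => ?_) Y a c b (hw c hc) (by rw [hc.2.2, hx])
  · rw [← h.nat Y Y' f a c b h1 h2.ge]
    exact h3.map _
  · exact hY _ _ ((h.bot Y a c b h1 h2).par_of_arr (arr_self (by omega)))

lemma div_locMap (h : Wh j a x b) :
    LocMap (fun c => wh j a c b) x y (wh j a x b) (wh j a y b) :=
  ⟨fun _ hc => wh_arr h hc, fun _ _ hc _ ⟨_, he⟩ => ⟨_, wh_arr (h.of_arr hc) he⟩⟩

omit hE in
lemma div_bottom {a0 a1 b0 b1 c : cell Y} (hj : 1 ≤ j) (ha : Arr a a0 a1) (hb : Arr b b0 b1)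
    (ha' : dim a = j + 1) (hb' : dim b = j + 1) (hc : Arr c a1 b0) : Wh j a c b :=
  Wh.bottom hj ha' hb' (by rw [ha.2.1, hb.1]; exact hc)

lemma div_locMap_bot {a0 a1 b0 b1 : cell Y} (hj : 1 ≤ j) (ha : Arr a a0 a1) (hb : Arr b b0 b1)
    (ha' : dim a = j + 1) (hb' : dim b = j + 1) :
    LocMap (fun c => wh j a c b) a1 b0 a0 b1 := by
  refine ⟨fun c hc => ?_, fun c d hc _ ⟨_, he⟩ =>
    ⟨_, wh_arr (div_bottom hj ha hb ha' hb' hc) he⟩⟩
  have h1 := wh_bot (div_bottom hj ha hb ha' hb' hc) (by rw [hc.2.2, ← ha.dim_tgt, ha'])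
  rwa [ha.1, hb.2.1] at h1

lemma div_wh_inv (h : Wh j a x b) : Wh j (invc a) (wh j a x b) (invc b) := by
  have ha : 1 ≤ dim a := by rw [h.da]; omega
  have hb : 1 ≤ dim b := by rw [h.db]; omega
  exact ⟨h.pos, (dim_invc ha).trans h.da, (dim_invc hb).trans h.db, (dim_wh h).symm ▸ h.dx,
    (invc_arr ha).2.1.trans (src_wh h).symm, (invc_arr hb).1.trans (tgt_wh h).symm⟩

lemma div_lop (j : ℕ) :
    LOp (E := E) j j fun _ a x b => wh j (invc a) (wh j a x b) (invc b) := by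
  refine ⟨le_rfl, fun Y Y' f a x b h _ => ?_, fun Y a x b h hx => ?_, fun Y a x b h hx => ?_⟩
  · rw [cm_wh f (div_wh_inv h), cm_wh f h, cm_invc f (by rw [h.da]; omega),
      cm_invc f (by rw [h.db]; omega)]
  · have h1 := wh_bot (div_wh_inv h) ((dim_wh h).trans hx)
    rwa [(invc_arr (by rw [h.da]; omega)).1, (invc_arr (by rw [h.db]; omega)).2.1, h.ha, h.hb,
      src_eq_sr hx, tgt_eq_tg hx] at h1
  · exact wh_arr (div_wh_inv (h.of_sr hx)) (wh_succ h hx)

lemma div_bot {a0 a1 b0 b1 : cell Y} (hj : 1 ≤ j) (ha : Arr a a0 a1) (hb : Arr b b0 b1)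
    (ha' : dim a = j + 1) (hb' : dim b = j + 1) :
    LocBij (fun c => wh j a c b) a1 b0 a0 b1 := by
  have ha1 : dim (invc a) = j + 1 := (dim_invc ha.pos).trans ha'
  have hb1 : dim (invc b) = j + 1 := (dim_invc hb.pos).trans hb'
  have ha2 : dim (invc (invc a)) = j + 1 := (dim_invc ha.invc.pos).trans ha1
  have hb2 : dim (invc (invc b)) = j + 1 := (dim_invc hb.invc.pos).trans hb1
  refine LocBij.two_of_six (div_locMap_bot hj ha hb ha' hb')
    (div_locMap_bot hj ha.invc hb.invc ha1 hb1)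
    (div_locMap_bot hj ha.invc.invc hb.invc.invc ha2 hb2)
    ((div_lop j).bij_bot (fun c hc => div_bottom hj ha hb ha' hb' hc) ?_)
    ((div_lop j).bij_bot (fun c hc => div_bottom hj ha.invc hb.invc ha1 hb1 hc) ?_)
  · have := ha.dim_tgt
    omega
  · have := ha.2.2
    omega

end

variable (E) in
/-- The inductive statement for `L`-operations. -/
def DivL (d : ℕ) : Prop :=
  ∀ (j0 j : ℕ) (φ : ∀ Y : Gpd E, cell Y → cell Y → cell Y → cell Y), LOp j0 j φ →
    ∀ (Y : Gpd E) (a b x y : cell Y), Wh j0 a x b → Par x y → dim x = j + 1 + d →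
      LocBij (fun c => φ Y a c b) x y (φ Y a x b) (φ Y a y b)

lemma DivL.wh {d : ℕ} (hd : DivL E d) {j : ℕ} {a b x y : cell Y} (h : Wh j a x b) (hxy : Par x y)
    (hx : dim x = j + 1 + d) :
    LocBij (fun c => wh j a c b) x y (wh j a x b) (wh j a y b) :=
  LocBij.two_of_six (div_locMap h) (div_locMap (div_wh_inv h))
    (div_locMap (div_wh_inv (div_wh_inv h))) (hd j j _ (div_lop j) Y a b x y h hxy hx)
    (hd j j _ (div_lop j) Y _ _ _ _ (div_wh_inv h) (wh_par h hxy) ((dim_wh h).trans hx))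

lemma LOp.step {j0 j : ℕ} {φ : ∀ Y : Gpd E, cell Y → cell Y → cell Y → cell Y} (h : LOp j0 j φ) :
    ∃ γ : ∀ Y : Gpd E, cell Y → cell Y → cell Y → cell Y,
      (∀ (Y : Gpd E) (a x b : cell Y), Wh j0 a x b → dim x = j + 1 →
        Arr (γ Y a x b) (φ Y a x b) x) ∧
      (∀ (Y : Gpd E) (a x b : cell Y), Wh j0 a x b → j + 1 < dim x →
        Wh (j + 1) (invc (γ Y a (src (j + 1) x) b)) (φ Y a x b) (γ Y a (tgt (j + 1) x) b)) ∧
      LOp j0 (j + 1) fun Y a x b => wh (j + 1) (invc (γ Y a (src (j + 1) x) b)) (φ Y a x b)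
        (γ Y a (tgt (j + 1) x) b) := by
  have hle := h.le
  obtain ⟨γ, h1, h2⟩ := wh_natop (U E) j0 (j + 1) (fun Y a x b z => Arr z (φ Y a x b) x)
    (fun Y Y' f a x b z hw hx hz => by
      rw [← h.nat Y Y' f a x b hw hx.ge]
      exact hz.map _)
    fun Y hY a x b hw hx => hY _ _ ((h.bot Y a x b hw hx).par_of_arr (arr_self (by omega)))
  have hs : ∀ (Y : Gpd E) (a x b : cell Y), Wh j0 a x b → j + 1 < dim x →
      Wh j0 a (src (j + 1) x) b := fun Y a x b hw hx =>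
    ⟨hw.pos, hw.da, hw.db, by rw [dim_src hx.le]; omega, by rw [src_src x (by omega), hw.ha],
      by rw [tgt_src x (by omega), hw.hb]⟩
  have ht : ∀ (Y : Gpd E) (a x b : cell Y), Wh j0 a x b → j + 1 < dim x →
      Wh j0 a (tgt (j + 1) x) b := fun Y a x b hw hx =>
    ⟨hw.pos, hw.da, hw.db, by rw [dim_tgt hx.le]; omega, by rw [src_tgt x (by omega), hw.ha],
      by rw [tgt_tgt x (by omega), hw.hb]⟩
  have h3 : ∀ (Y : Gpd E) (a x b : cell Y), Wh j0 a x b → j + 1 < dim x →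
      Wh (j + 1) (invc (γ Y a (src (j + 1) x) b)) (φ Y a x b) (γ Y a (tgt (j + 1) x) b) := by
    intro Y a x b hw hx
    have e1 := h1 Y a _ b (hs Y a x b hw hx) (dim_src hx.le)
    have e2 := h1 Y a _ b (ht Y a x b hw hx) (dim_tgt hx.le)
    refine ⟨by omega, ?_, ?_, ?_, ?_, ?_⟩
    · rw [e1.invc.2.2, dim_src hx.le]
    · rw [e2.dim_tgt, dim_tgt hx.le]
    · rw [h.dim_eq' hw hx.le]
      exact hx
    · rw [e1.invc.2.1, h.src_eq (dim x - (j + 1)) hw (by omega)]
    · rw [e2.1, h.tgt_eq (dim x - (j + 1)) hw (by omega)]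
  refine ⟨γ, h1, h3, by omega, fun Y Y' f a x b hw hx => ?_, fun Y a x b hw hx => ?_,
    fun Y a x b hw hx => ?_⟩
  · have hx' : j + 1 < dim x := hx
    have e1 := h1 Y a _ b (hs Y a x b hw hx') (dim_src hx'.le)
    have e2 : cm f (γ Y a (src (j + 1) x) b) = γ Y' (cm f a) (src (j + 1) (cm f x)) (cm f b) :=
      (h2 Y Y' f a _ b (hs Y a x b hw hx') (dim_src hx'.le)).trans
        (congrArg (γ Y' (cm f a) · (cm f b)) (app_src _ _ _))
    have e3 : cm f (γ Y a (tgt (j + 1) x) b) = γ Y' (cm f a) (tgt (j + 1) (cm f x)) (cm f b) :=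
      (h2 Y Y' f a _ b (ht Y a x b hw hx') (dim_tgt hx'.le)).trans
        (congrArg (γ Y' (cm f a) · (cm f b)) (app_tgt _ _ _))
    rw [cm_wh f (h3 Y a x b hw hx'), cm_invc f e1.pos, e2, e3, h.nat Y Y' f a x b hw hx'.le]
  · have hx' : j + 1 < dim x := by omega
    have e1 := h1 Y a _ b (hs Y a x b hw hx') (dim_src hx'.le)
    have e2 := h1 Y a _ b (ht Y a x b hw hx') (dim_tgt hx'.le)
    have e3 := wh_bot (h3 Y a x b hw hx') ((h.dim_eq' hw hx'.le).trans hx)
    rw [e1.invc.1, e2.2.1] at e3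
    rwa [← src_eq_sr hx, ← tgt_eq_tg hx]
  · have e1 := wh_arr (h3 Y a _ b (hw.of_sr (by omega)) (by rw [dim_sr]; omega))
      (h.succ Y a x b hw (by omega))
    rw [src_sr (by omega), tgt_sr hx] at e1
    rw [src_sr (by omega), tgt_sr hx, src_tg hx, tgt_tg (by omega)]
    exact e1

lemma divL (d : ℕ) : DivL E d := by
  induction d with
  | zero =>
    intro j0 j φ h Y a b x y hw hxy hx
    obtain ⟨γ, h1, -, h3⟩ := h.step
    have e1 := h1 Y a x b hw hx
    have e2 := h1 Y a y b (hw.of_par hxy) (hxy.1 ▸ hx)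
    refine LocBij.of_comp_left (h.locMap hw hx.ge)
      (div_bot (j := j + 1) (by omega) e1.invc e2 (by rw [e1.invc.2.2, hx])
        (by rw [e2.dim_tgt, ← hxy.1, hx]))
      ((h3.bij_bot (fun c hc => hw.of_arr hc) hx).congr fun c hc => ?_)
    have hc' : dim c = j + 1 + 1 := by rw [hc.2.2, hx]
    rw [src_eq_sr hc', tgt_eq_tg hc', hc.1, hc.2.1]
  | succ d ih =>
    intro j0 j φ h Y a b x y hw hxy hx
    obtain ⟨γ, -, h2, h3⟩ := h.step
    have hx' : j + 1 < dim x := by omega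
    have e1 := ih j0 (j + 1) _ h3 Y a b x y hw hxy (by omega)
    rw [← hxy.src_eq hx', ← hxy.tgt_eq hx'] at e1
    refine LocBij.of_comp_left (h.locMap hw hx'.le)
      (ih.wh (h2 Y a x b hw hx') (h.par hw hx' hxy) (by rw [h.dim_eq' hw hx'.le]; omega))
      (e1.congr fun c hc => ?_)
    rw [hc.src_eq hx'.le, hc.tgt_eq hx'.le, ← hxy.tgt_eq hx']

theorem wh_bij_bot {j : ℕ} {a b : cell Y} (hj : 1 ≤ j) (ha : dim a = j + 1) (hb : dim b = j + 1) :
    LocBij (fun c => wh j a c b) (tg a) (sr b) (sr a) (tg b) := by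
  exact div_bot hj (arr_self (by omega)) (arr_self (by omega)) ha hb

theorem wh_bij {j : ℕ} {a b x y : cell Y} (hx : Wh j a x b) (hxy : Par x y) :
    LocBij (fun c => wh j a c b) x y (wh j a x b) (wh j a y b) := by
  exact (divL (dim x - (j + 1))).wh hx hxy (by have := hx.dx; omega)

end Vale.Agent.P259
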