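import Vale.Agent.P259.JObj

/-! P259 task GCOMMA: the comma category of triples `(T, M, L T ⟶ M)` and its globular set.

`HasPushouts`: for `X1 ← X0 → X2` take `T = pushout` of the spaces, `M0 = pushout` of the models,
`M = pushout (pushout (L f) (L g) ⟶ M0) (pushout (L f) (L g) ⟶ L T)`.
`isSph_dX`: induction with `isSph_zero` (a map out of `dX 0` is unique: `Sp 0` is empty, `iso0`) and `isSph_succ_iff`
(`isPushout_sp` and `univ`). `jb`: `trivFib_iff_rlp` with `isSph_dX`, and `Jb`. `q1_iso`: cells `XJ n ⟶ X` are maps `Dk n ⟶ X.left` if `X.right` is terminal.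
`q1_trivFib`: `q1 = V (X ⟶ (X.left, ⊤)) ≫ q1` (naturality), `jb` with `fb_terminal`, `q1_iso`.
`jm`: classify the pair by `g : dX n ⟶ X`; `x` is a map `Dk n ⟶ X.left` with `spInc ≫ x = g.left` (`isSph_sp.hom_ext`), `y` a map
`rep (disc n) ⟶ X.right` with `bd ≫ y = da ≫ g.right` (`isSph.hom_ext`, `q2_dA`, `q2_dB`); apply `JM`.
`left_represents`: maps to `(T, ⊤)`. `tc_of_represents`: given `p : M ⟶ M'` in `FB` and a square `(f, g)`, lift
`u ≫ V (𝟙, g)` along `V (𝟙, p)` (`TrivFib.lift`, `jb`), represent it, and use uniqueness. -/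

noncomputable section
namespace Vale.Agent.P259
open CategoryTheory CategoryTheory.Limits GlobExt Opposite
universe u u'

/-- A map of represented globular sets from compatible maps of discs. -/
def CoGlob.mapHom {M : Type u} [Category.{0} M] {N : Type u'} [Category.{0} N] (𝔻 : CoGlob M)
    (𝔻' : CoGlob N) (T : M ⥤ N) (i : ∀ n, 𝔻'.obj n ⟶ T.obj (𝔻.obj n))
    (hσ : ∀ n, 𝔻'.σ n ≫ i (n + 1) = i n ≫ T.map (𝔻.σ n))
    (hτ : ∀ n, 𝔻'.τ n ≫ i (n + 1) = i n ≫ T.map (𝔻.τ n)) : 𝔻.hom ⟶ T ⋙ 𝔻'.hom where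
  app X :=
    { app := Option.map fun p => ⟨p.1, i p.1 ≫ T.map p.2⟩
      dim_app := by rintro (_ | ⟨n, x⟩) <;> rfl
      sr_app := by
        rintro (_ | ⟨_ | n, x⟩) <;> try rfl
        exact congrArg (fun y => some (Sigma.mk n y)) (by simp [reassoc_of% hσ])
      tg_app := by
        rintro (_ | ⟨_ | n, x⟩) <;> try rfl
        exact congrArg (fun y => some (Sigma.mk n y)) (by simp [reassoc_of% hτ]) }
  naturality X Y f := by
    apply GS.hom_ext
    rintro (_ | ⟨n, x⟩)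
    · rfl
    · exact congrArg (fun y => some (Sigma.mk n y)) (by simp)

variable {E : GlobExt} {L : TopCat.{0} ⥤ Gpd E}

/-- Triples `(T, M, L T ⟶ M)`. -/
abbrev XC (L : TopCat.{0} ⥤ Gpd E) := Comma L (𝟭 (Gpd E))

/-- The structure map of a triple. -/
abbrev xh (X : XC L) : L.obj X.left ⟶ X.right := X.hom

lemma xw {X Y : XC L} (f : X ⟶ Y) : L.map f.left ≫ xh Y = xh X ≫ f.right := f.w

/-- A map of triples. -/
def xmk {X Y : XC L} (l : X.left ⟶ Y.left) (r : X.right ⟶ Y.right)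
    (w : L.map l ≫ xh Y = xh X ≫ r) : X ⟶ Y := ⟨l, r, w⟩

lemma xc_isPushout {Z X Y P : XC L} {f : Z ⟶ X} {g : Z ⟶ Y} {l : X ⟶ P} {r : Y ⟶ P}
    (w : f ≫ l = g ≫ r) (h1 : IsPushout f.left g.left l.left r.left)
    (h2 : ∀ (M : Gpd E) (a : X.right ⟶ M) (b : Y.right ⟶ M) (c : L.obj P.left ⟶ M),
      f.right ≫ a = g.right ≫ b → xh X ≫ a = L.map l.left ≫ c → xh Y ≫ b = L.map r.left ≫ c →
      ∃! d : P.right ⟶ M, l.right ≫ d = a ∧ r.right ≫ d = b ∧ xh P ≫ d = c) :
    IsPushout f g l r := by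
  refine push_isPushout_iff.2 ⟨w, fun W a b e => ?_⟩
  have e1 : f.left ≫ a.left = g.left ≫ b.left := congrArg CommaMorphism.left e
  have e2 : f.right ≫ a.right = g.right ≫ b.right := congrArg CommaMorphism.right e
  obtain ⟨d, ⟨d1, d2, d3⟩, hd⟩ := h2 W.right a.right b.right
    (L.map (h1.desc a.left b.left e1) ≫ xh W) e2
    (by rw [← L.map_comp_assoc, h1.inl_desc, xw]) (by rw [← L.map_comp_assoc, h1.inr_desc, xw])
  refine ⟨xmk (h1.desc a.left b.left e1) d d3.symm,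
    ⟨CommaMorphism.ext (h1.inl_desc _ _ _) d1, CommaMorphism.ext (h1.inr_desc _ _ _) d2⟩,
    fun d' hd' => ?_⟩
  have e3 : d'.left = h1.desc a.left b.left e1 := h1.hom_ext
    ((congrArg CommaMorphism.left hd'.1).trans (h1.inl_desc _ _ _).symm)
    ((congrArg CommaMorphism.left hd'.2).trans (h1.inr_desc _ _ _).symm)
  exact CommaMorphism.ext e3 (hd d'.right ⟨congrArg CommaMorphism.right hd'.1,
    congrArg CommaMorphism.right hd'.2, by rw [← xw, e3]⟩)

lemma xc_hasPushout {Z X Y : XC L} (f : Z ⟶ X) (g : Z ⟶ Y) : HasPushout f g := by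
  let α : pushout (L.map f.left) (L.map g.left) ⟶ pushout f.right g.right :=
    pushout.desc (xh X ≫ pushout.inl _ _) (xh Y ≫ pushout.inr _ _) (by
      rw [reassoc_of% xw f, reassoc_of% xw g, pushout.condition])
  let β : pushout (L.map f.left) (L.map g.left) ⟶ L.obj (pushout f.left g.left) :=
    pushout.desc (L.map (pushout.inl _ _)) (L.map (pushout.inr _ _)) (by
      rw [← L.map_comp, ← L.map_comp, pushout.condition])
  have a1 : pushout.inl _ _ ≫ α = xh X ≫ pushout.inl _ _ := pushout.inl_desc _ _ _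
  have a2 : pushout.inr _ _ ≫ α = xh Y ≫ pushout.inr _ _ := pushout.inr_desc _ _ _
  have b1 : pushout.inl _ _ ≫ β = L.map (pushout.inl _ _) := pushout.inl_desc _ _ _
  have b2 : pushout.inr _ _ ≫ β = L.map (pushout.inr _ _) := pushout.inr_desc _ _ _
  let P : XC L := ⟨pushout f.left g.left, pushout α β, pushout.inr α β⟩
  let l : X ⟶ P := xmk (pushout.inl _ _) (pushout.inl _ _ ≫ pushout.inl α β) (by
    change _ ≫ pushout.inr α β = _
    rw [← b1, Category.assoc, ← pushout.condition, reassoc_of% a1])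
  let r : Y ⟶ P := xmk (pushout.inr _ _) (pushout.inr _ _ ≫ pushout.inl α β) (by
    change _ ≫ pushout.inr α β = _
    rw [← b2, Category.assoc, ← pushout.condition, reassoc_of% a2])
  refine (xc_isPushout (l := l) (r := r) (CommaMorphism.ext pushout.condition
    (pushout.condition_assoc _)) (IsPushout.of_hasPushout f.left g.left)
    fun M a b c e e1 e2 => ?_).hasPushout
  revert c
  intro (c : L.obj (pushout f.left g.left) ⟶ M) e1 e2
  change _ = L.map (pushout.inl _ _) ≫ c at e1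
  change _ = L.map (pushout.inr _ _) ≫ c at e2
  have w : α ≫ pushout.desc a b e = β ≫ c := pushout.hom_ext
    (by rw [reassoc_of% a1, reassoc_of% b1, pushout.inl_desc, e1])
    (by rw [reassoc_of% a2, reassoc_of% b2, pushout.inr_desc, e2])
  change ∃! d : pushout α β ⟶ M, (pushout.inl _ _ ≫ pushout.inl α β) ≫ d = a ∧
    (pushout.inr _ _ ≫ pushout.inl α β) ≫ d = b ∧ pushout.inr α β ≫ d = c
  refine ⟨pushout.desc _ _ w, ⟨by rw [Category.assoc, pushout.inl_desc, pushout.inl_desc],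
    by rw [Category.assoc, pushout.inl_desc, pushout.inr_desc], pushout.inr_desc _ _ _⟩,
    fun d hd => pushout.hom_ext (pushout.hom_ext ?_ ?_) ?_⟩
  · rw [pushout.inl_desc, pushout.inl_desc, ← Category.assoc, hd.1]
  · rw [pushout.inl_desc, pushout.inr_desc, ← Category.assoc, hd.2.1]
  · rw [pushout.inr_desc, hd.2.2]

instance : HasPushouts (XC L) :=
  haveI := fun {Z X Y : XC L} {f : Z ⟶ X} {g : Z ⟶ Y} => xc_hasPushout f g
  hasPushouts_of_hasColimit_span _

/-- The triple `(T, L T, 𝟙)`. -/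
def diagX (L : TopCat.{0} ⥤ Gpd E) : TopCat.{0} ⥤ XC L where
  obj T := ⟨T, L.obj T, 𝟙 _⟩
  map f := ⟨f, L.map f, by simp⟩

namespace JData
variable (j : JData L)

/-- The disc triples. -/
def XJ (n : ℕ) : XC L := ⟨Dk n, j.J n, j.b n⟩
/-- The sphere triples. -/
def dX (n : ℕ) : XC L := ⟨Sp n, j.dJ n, j.db n⟩
/-- Boundary inclusion. -/
def bdX (n : ℕ) : j.dX n ⟶ j.XJ n := ⟨spInc n, j.inc n, (j.db_inc n).symm⟩
/-- Hemispheres. -/
def hemiX (n : ℕ) (ε : Bool) : j.XJ n ⟶ j.dX (n + 1) := ⟨hemiS n ε, j.h n ε, (j.b_h n ε).symm⟩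
lemma bdX_hemiX (n : ℕ) : j.bdX n ≫ j.hemiX n false = j.bdX n ≫ j.hemiX n true :=
  CommaMorphism.ext (spInc_hemiS n) (j.inc_h n)

/-- The coglobular triple. -/
def co : CoGlob (XC L) where
  obj := j.XJ
  σ n := j.hemiX n false ≫ j.bdX (n + 1)
  τ n := j.hemiX n true ≫ j.bdX (n + 1)
  σσ n := by rw [Category.assoc, Category.assoc, reassoc_of% bdX_hemiX]
  ττ n := by rw [Category.assoc, Category.assoc, reassoc_of% bdX_hemiX]

/-- The globular set of a triple. -/
abbrev V : XC L ⥤ GS := j.co.hom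

/-- Projection to the singular globular set. -/
def q1 : j.V ⟶ Comma.fst _ _ ⋙ Sg :=
  j.co.mapHom discs (Comma.fst _ _) (fun _ => 𝟙 _)
    (fun _ => (Category.comp_id _).trans (Category.id_comp _).symm)
    (fun _ => (Category.comp_id _).trans (Category.id_comp _).symm)

lemma a_σ (n : ℕ) : (discsOf (rep E)).σ n ≫ j.a (n + 1) = j.a n ≫ j.h n false ≫ j.inc (n + 1) := by
  rw [← hemiR_bd_false]
  change (hemiR E n false ≫ bd E (n + 1)) ≫ j.a (n + 1) = _
  exact (Category.assoc _ _ _).trans (by rw [← j.da_inc, reassoc_of% j.a_h])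
lemma a_τ (n : ℕ) : (discsOf (rep E)).τ n ≫ j.a (n + 1) = j.a n ≫ j.h n true ≫ j.inc (n + 1) := by
  rw [← hemiR_bd_true]
  change (hemiR E n true ≫ bd E (n + 1)) ≫ j.a (n + 1) = _
  exact (Category.assoc _ _ _).trans (by rw [← j.da_inc, reassoc_of% j.a_h])

/-- Projection to the cells of the model. -/
def q2 : j.V ⟶ Comma.snd _ _ ⋙ U E :=
  j.co.mapHom (discsOf (rep E)) (Comma.snd _ _) j.a j.a_σ j.a_τ

/-- First universal cell of the sphere triple. -/
def dA : ∀ n, (j.V.obj (j.dX n)).Cell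
  | 0 => (j.V.obj (j.dX 0)).bot
  | n + 1 => j.co.cell (n := n) (j.hemiX n false)
/-- Second universal cell of the sphere triple. -/
def dB : ∀ n, (j.V.obj (j.dX n)).Cell
  | 0 => (j.V.obj (j.dX 0)).bot
  | n + 1 => j.co.cell (n := n) (j.hemiX n true)

lemma q1_cell {X : XC L} {n : ℕ} (x : j.XJ n ⟶ X) :
    (j.q1.app X).app (j.co.cell (n := n) x) = discs.cell (n := n) x.left :=
  congrArg (discs.cell (n := n)) (Category.id_comp _)
lemma q2_cell {X : XC L} {n : ℕ} (x : j.XJ n ⟶ X) :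
    (j.q2.app X).app (j.co.cell (n := n) x) = (discsOf (rep E)).cell (n := n) (j.a n ≫ x.right) :=
  rfl
lemma bdX_spec (n : ℕ) : (j.V.map (j.bdX n)).app (j.dA n) = sr (j.co.top n) ∧
    (j.V.map (j.bdX n)).app (j.dB n) = tg (j.co.top n) := by
  cases n with
  | zero => exact ⟨rfl, rfl⟩
  | succ n =>
    exact ⟨congrArg (j.co.cell (n := n)) (Category.comp_id _).symm,
      congrArg (j.co.cell (n := n)) (Category.comp_id _).symm⟩
lemma isPushout_dX (n : ℕ) :
    IsPushout (j.bdX n) (j.bdX n) (j.hemiX n false) (j.hemiX n true) := by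
  refine xc_isPushout (j.bdX_hemiX n) (isPushout_sp n) fun M a b c e e1 e2 => ?_
  refine (existsUnique_congr fun d => ?_).1
    (j.univ n M (fun ε => cond ε b a) c e (Bool.forall_bool.2 ⟨e1, e2⟩))
  exact ⟨fun h => ⟨h.1 false, h.1 true, h.2⟩, fun h => ⟨Bool.forall_bool.2 ⟨h.1, h.2.1⟩, h.2.2⟩⟩
lemma isSph_dX (n : ℕ) : IsSph j.V n (j.dA n) (j.dB n) := by
  induction n with
  | zero =>
    obtain ⟨h0⟩ := IsSph.isInitial (𝔻 := discs) (isSph_sp 0)
    let i := @asIso _ _ _ _ (j.db 0) j.iso0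
    refine isSph_zero j.co (Z := j.dX 0) (IsInitial.ofUniqueHom
      (fun Y => xmk (h0.to Y.left) (i.inv ≫ L.map (h0.to Y.left) ≫ xh Y)
        (i.hom_inv_id_assoc (L.map (h0.to Y.left) ≫ xh Y)).symm) fun Y m => ?_)
    have e : m.left = h0.to Y.left := h0.hom_ext _ _
    have e' : j.db 0 ≫ m.right = L.map (h0.to Y.left) ≫ xh Y := e ▸ (xw m).symm
    exact CommaMorphism.ext e ((i.inv_hom_id_assoc m.right).symm.trans
      (congrArg (i.inv ≫ ·) e'))
  | succ n ih =>
    exact (isSph_succ_iff j.co ih (j.bdX n) (j.bdX_spec n).1 (j.bdX_spec n).2 _ _).2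
      (j.isPushout_dX n)
lemma q1_dA (n : ℕ) : (j.q1.app (j.dX n)).app (j.dA n) = spA n := by
  cases n with
  | zero => rfl
  | succ n => exact j.q1_cell _
lemma q1_dB (n : ℕ) : (j.q1.app (j.dX n)).app (j.dB n) = spB n := by
  cases n with
  | zero => rfl
  | succ n => exact j.q1_cell _
lemma q2_dA (n : ℕ) : (j.q2.app (j.dX n)).app (j.dA n) = cm (j.da n) (sa E n) := by
  cases n with
  | zero =>
    rw [eq_bot (isSph E 0).dim_eq]
    rfl
  | succ n =>
    exact (congrArg ((discsOf (rep E)).cell (n := n)) (j.a_h n false)).trans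
      (congrArg (cm (j.da (n + 1))) (((discsOf (rep E)).map_top _).symm.trans (hemiR_false n)))
lemma q2_dB (n : ℕ) : (j.q2.app (j.dX n)).app (j.dB n) = cm (j.da n) (sb E n) := by
  cases n with
  | zero =>
    rw [eq_bot ((isSph E 0).par.1.symm.trans (isSph E 0).dim_eq)]
    rfl
  | succ n =>
    exact (congrArg ((discsOf (rep E)).cell (n := n)) (j.a_h n true)).trans
      (congrArg (cm (j.da (n + 1))) (((discsOf (rep E)).map_top _).symm.trans (hemiR_true n)))

lemma jb_aux {X Y : XC L} (f : X ⟶ Y) [IsIso f.left] (hf : FB E f.right) (n : ℕ)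
    (ul : Sp n ⟶ X.left) (ur : j.dJ n ⟶ X.right) (vl : Dk n ⟶ Y.left) (vr : j.J n ⟶ Y.right)
    (hu : L.map ul ≫ xh X = j.db n ≫ ur) (hv : L.map vl ≫ xh Y = j.b n ≫ vr)
    (e1 : ul ≫ f.left = spInc n ≫ vl) (e2 : ur ≫ f.right = j.inc n ≫ vr) :
    ∃ (k : Dk n ⟶ X.left) (l : j.J n ⟶ X.right), L.map k ≫ xh X = j.b n ≫ l ∧
      spInc n ≫ k = ul ∧ j.inc n ≫ l = ur ∧ k ≫ f.left = vl ∧ l ≫ f.right = vr := by
  have e3 : spInc n ≫ vl ≫ inv f.left = ul := by
    rw [← reassoc_of% e1, IsIso.hom_inv_id, Category.comp_id]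
  have e4 : (vl ≫ inv f.left) ≫ f.left = vl := by simp
  obtain ⟨l, l1, l2, l3⟩ := j.Jb n X.right Y.right f.right hf ur
    (L.map (vl ≫ inv f.left) ≫ xh X) vr (by rw [← L.map_comp_assoc, e3, hu]) e2
    (by rw [Category.assoc, ← xw, ← L.map_comp_assoc, e4, hv])
  exact ⟨_, l, l2.symm, e3, l1, e4, l3⟩
lemma jb {X Y : XC L} (f : X ⟶ Y) [IsIso f.left] (hf : FB E f.right) : TrivFib (j.V.map f) := by
  refine (trivFib_iff_rlp j.co j.isSph_dX j.bdX j.bdX_spec f).2 fun n => ⟨fun {u v} sq => ?_⟩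
  obtain ⟨k, l, w, e1, e2, e3, e4⟩ := j.jb_aux f hf n u.left u.right v.left v.right (xw u) (xw v)
    (congrArg CommaMorphism.left sq.w) (congrArg CommaMorphism.right sq.w)
  exact CommSq.HasLift.mk' ⟨xmk (X := j.XJ n) k l w, CommaMorphism.ext e1 e2,
    CommaMorphism.ext e3 e4⟩
lemma q1_iso (X : XC L) (h : IsTerminal X.right) : IsIso (j.q1.app X) := by
  refine isIso_of_bijective _ ⟨fun c d e => ?_, fun c => ?_⟩
  · have hd : dim c = dim d := by simpa using congrArg dim e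
    rcases hn : dim c with _ | n
    · rw [eq_bot hn, eq_bot (hd.symm.trans hn)]
    · obtain ⟨a, rfl⟩ := j.co.exists_cell c hn
      obtain ⟨b, rfl⟩ := j.co.exists_cell d (hd.symm.trans hn)
      have e' := discs.cell_inj ((j.q1_cell a).symm.trans (e.trans (j.q1_cell b)))
      exact congrArg j.co.cell (CommaMorphism.ext e' (h.hom_ext _ _))
  · rcases hn : dim c with _ | n
    · exact ⟨_, (app_bot _).trans (eq_bot hn).symm⟩
    · obtain ⟨a, rfl⟩ := discs.exists_cell (X := X.left) c hn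
      exact ⟨_, j.q1_cell (xmk (X := j.XJ n) a (h.from _) (h.hom_ext _ _))⟩
lemma q1_nat {X Y : XC L} (f : X ⟶ Y) :
    j.V.map f ≫ j.q1.app Y = j.q1.app X ≫ Sg.map f.left := j.q1.naturality f
lemma q1_trivFib [Fact E.IsCoherator] (X : XC L) : TrivFib (j.q1.app X) := by
  let Y : XC L := ⟨X.left, ⊤_ _, terminal.from _⟩
  let f : X ⟶ Y := xmk (𝟙 _) (terminal.from _) (terminal.hom_ext _ _)
  have : IsIso f.left := inferInstanceAs (IsIso (𝟙 X.left))
  have := j.q1_iso Y terminalIsTerminal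
  have h := (j.jb f (fb_terminal terminalIsTerminal _)).comp (TrivFib.of_isIso (j.q1.app Y))
  have e : j.V.map f ≫ j.q1.app Y = j.q1.app X :=
    (j.q1_nat f).trans ((congrArg (j.q1.app X ≫ ·) (Sg.map_id X.left)).trans (Category.comp_id _))
  rwa [e] at h
lemma jm (X : XC L) (hX : MCtr X.right) (a b : (j.V.obj X).Cell) (h : Par a b)
    (x : (Sg.obj X.left).Cell) (y : cell X.right)
    (hx : Arr x ((j.q1.app X).app a) ((j.q1.app X).app b))
    (hy : Arr y ((j.q2.app X).app a) ((j.q2.app X).app b)) :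
    ∃ z, Arr z a b ∧ (j.q1.app X).app z = x ∧ (j.q2.app X).app z = y := by
  obtain ⟨n, hn⟩ : ∃ n, dim a = n := ⟨_, rfl⟩
  obtain ⟨x, rfl⟩ := discs.exists_cell (n := n) x
    (hx.2.2.trans (congrArg (· + 1) (((j.q1.app X).dim_app a).trans hn)))
  obtain ⟨y, rfl⟩ := (discsOf (rep E)).exists_cell (n := n) y
    (hy.2.2.trans (congrArg (· + 1) (((j.q2.app X).dim_app a).trans hn)))
  obtain ⟨g, ⟨rfl, rfl⟩, -⟩ := (j.isSph_dX n).desc X a b h hn
  rw [← push_nat, ← push_nat, q1_dA, q1_dB] at hx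
  rw [← push_nat, ← push_nat, q2_dA, q2_dB] at hy
  have e1 : g.left = spInc n ≫ x :=
    (push_arr_iff discs (isSph_sp n) (spInc_spec n).1 (spInc_spec n).2 g.left x).1 hx
  have e2 : j.da n ≫ g.right = bd E n ≫ y :=
    (push_arr_iff (discsOf (rep E)) (isSph E n) (bd_spec E n).1 (bd_spec E n).2 _ y).1
      ⟨hy.1.trans (cm_comp _ _ _).symm, hy.2.1.trans (cm_comp _ _ _).symm,
        hy.2.2.trans (congrArg (fun c => dim c + 1) (cm_comp _ _ _).symm)⟩
  obtain ⟨l, l1, l2, l3⟩ := j.JM n X.right hX g.right (L.map x ≫ xh X) y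
    ((xw g).symm.trans ((congrArg (fun t => L.map t ≫ xh X) e1).trans
      (L.map_comp_assoc _ _ _))) e2
  let z : j.XJ n ⟶ X := xmk x l l2.symm
  exact ⟨j.co.cell (n := n) z, (push_arr_iff j.co (j.isSph_dX n) (j.bdX_spec n).1
    (j.bdX_spec n).2 g z).2 (CommaMorphism.ext e1 l1.symm), j.q1_cell z,
    congrArg ((discsOf (rep E)).cell (n := n)) l3⟩
lemma left_represents {G : GS} {R : XC L} {u : G ⟶ j.V.obj R} (h : Represents j.V u) :
    Represents Sg (R := R.left) (u ≫ j.q1.app R) := by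
  intro T φ
  let Y : XC L := ⟨T, ⊤_ _, terminal.from _⟩
  have := j.q1_iso Y terminalIsTerminal
  have key : ∀ f : R ⟶ Y, u ≫ j.V.map f = φ ≫ inv (j.q1.app Y) ↔
      (u ≫ j.q1.app R) ≫ Sg.map f.left = φ := fun f => by
    rw [IsIso.eq_comp_inv, Category.assoc, q1_nat]
    exact Iff.of_eq (congrArg (· = φ) (Category.assoc _ _ _).symm)
  obtain ⟨f, hf, hf'⟩ := h Y (φ ≫ inv (j.q1.app Y))
  exact ⟨f.left, (key f).1 hf, fun g hg => congrArg CommaMorphism.left
    (hf' (xmk g (terminal.from _) (terminal.hom_ext _ _)) ((key _).2 hg))⟩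
lemma tc_of_represents {G : GS} {R : XC L} {u : G ⟶ j.V.obj R} (h : Represents j.V u) :
    TC E (show L.obj R.left ⟶ R.right from R.hom) := by
  refine tc_of_lift fun X Y p hp f g w => ?_
  let A : XC L := ⟨R.left, X, f⟩
  let B : XC L := ⟨R.left, Y, f ≫ p⟩
  let P : A ⟶ B := xmk (𝟙 _) p (by rw [L.map_id]; exact Category.id_comp _)
  let Q : R ⟶ B := xmk (𝟙 _) g (by rw [L.map_id]; exact (Category.id_comp _).trans w)
  have : IsIso P.left := inferInstanceAs (IsIso (𝟙 R.left))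
  obtain ⟨l, hl⟩ := (j.jb P hp).lift (u ≫ j.V.map Q)
  obtain ⟨k, hk, -⟩ := h A l
  have e : k ≫ P = Q := h.hom_ext (by rw [Functor.map_comp, reassoc_of% hk, hl])
  have e1 : k.left = 𝟙 _ := (Category.comp_id _).symm.trans (congrArg CommaMorphism.left e)
  refine ⟨k.right, (xw k).symm.trans ?_, congrArg CommaMorphism.right e⟩
  rw [e1, L.map_id]
  exact Category.id_comp _

end JData

end Vale.Agent.P259
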