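import Vale.Agent.P259.Model
import Vale.Agent.P259.Elim

/-! P259 task LT: the lifting theorem.

Let `u1 S : rep S ⟶ T1 (R S)` be the map with `gn S ≫ U (u1 S) = univ S ≫ q1` (hypothesis
`hu1`), same for `u2`. Apply `elim_rel` to `F0 := T.F0` and
`ρ h f := repC.map h ≫ u1 S' = u1 S ≫ T1.map f ∧ repC.map h ≫ u2 S' = u2 S ≫ T2.map f`.
`hι`: `hom_ext_gen`, `gen_nat`, `F0_map`, naturality of `q1`. `hglue`: `rep_pres` pushout `hom_ext`.
`hlift`: translate `f', g'` through `exists_discIso` into cells `a, b` of `V (R S)`; with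
`h0 := cell (repC.map h)` apply `hl`; translate the filler back.
`P := homGpd F _`; `p1.app X` by `exists_fromHom` with
`φ (ι S) y := u1 S ≫ T1.map (α.inv.app S ≫ y)` (for general `c` choose `S` with `ι S = c`, e.g.
via `Function.surjInv` and `eqToHom`, or `obtain ⟨S, rfl⟩` inside an existence statement
`∀ c, ∃ u : repC c ⟶ T1 (F c), ∀ S (e : ι S = c), ...`). `e` is `exists_homU`, then
`CoGlob.homIso_of_iso` for `α`, then `exists_discIso`. -/

noncomputable section
namespace Vale.Agent.P259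
open CategoryTheory CategoryTheory.Limits GlobExt Opposite
universe u
variable {E : GlobExt}

section LTAux

variable {M : Type u} [Category.{0} M] {V : M ⥤ GS} (T : TabRep V) {T1 : M ⥤ Gpd E}
  {q : V ⟶ T1 ⋙ U E} (w : ∀ S, (repC E).obj (E.ι.obj S) ⟶ T1.obj (T.R S))

/-- The relation used for the elimination principle. -/
def LtRel {S S' : Theta} (h : E.ι.obj S ⟶ E.ι.obj S') (f : T.R S ⟶ T.R S') : Prop :=
  (repC E).map h ≫ w S' = w S ≫ T1.map f

variable (q) in
/-- The maps `w` are induced by `q`. -/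
def LtW : Prop := ∀ S, gn E S ≫ (U E).map (X := (rep E).obj S) (w S) = T.univ S ≫ q.app _

variable {T w}

lemma LtRel.comp {S S' S'' : Theta} {h : E.ι.obj S ⟶ E.ι.obj S'} {h' : E.ι.obj S' ⟶ E.ι.obj S''}
    {f : T.R S ⟶ T.R S'} {f' : T.R S' ⟶ T.R S''} (a : LtRel T w h f) (b : LtRel T w h' f') :
    LtRel T w (h ≫ h') (f ≫ f') := by
  unfold LtRel at *
  rw [(repC E).map_comp, T1.map_comp, ← Category.assoc (w S), ← a, Category.assoc, Category.assoc,
    b]

lemma ltRel_ι (hw : LtW T q w) {S S' : Theta} (θ : S ⟶ S') :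
    LtRel T w (E.ι.map θ) (T.trM θ) := by
  refine hom_ext_gen fun c => ?_
  have h1 := congrArg (fun φ => GS.Hom.app φ c) (gen_nat (rep E) θ)
  have h2 := congrArg (fun φ => GS.Hom.app φ ((T.univ S).app c)) (q.naturality (T.trM θ))
  have h3 := congrArg (fun φ => GS.Hom.app φ c) (T.trM_spec θ)
  have h4 := congrArg (fun φ => GS.Hom.app φ c) (hw S)
  have h5 := congrArg (fun φ => GS.Hom.app φ ((tabGS.map θ).app c)) (hw S')
  refine (cm_comp _ _ _).trans (Eq.trans ?_ (cm_comp _ _ _).symm)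
  exact (congrArg (cm (w S')) h1).trans (h5.trans ((congrArg (q.app _).app h3.symm).trans
    (h2.trans (congrArg (cm (T1.map (T.trM θ))) h4.symm))))

lemma ltRel_glue (hw : LtW T q w) {l : ℕ} (A : Tab l)
    (j i : ℕ) (hl : j < l) (hi : j < i) (S : Theta)
    (h : E.ι.obj (A.snoc j i hl hi).obj ⟶ E.ι.obj S) (f : T.R (A.snoc j i hl hi).obj ⟶ T.R S)
    (h1 : LtRel T w (E.ι.map (initInc A j i hl hi) ≫ h) (T.trM (initInc A j i hl hi) ≫ f))
    (h2 : LtRel T w (E.ι.map (lastInc (A.snoc j i hl hi)) ≫ h)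
      (T.trM (lastInc (A.snoc j i hl hi)) ≫ f)) : LtRel T w h f := by
  have key : ∀ {S0 : Theta} (θ : S0 ⟶ (A.snoc j i hl hi).obj),
      LtRel T w (E.ι.map θ ≫ h) (T.trM θ ≫ f) →
      (repC E).map (E.ι.map θ) ≫ (repC E).map h ≫ w S =
        (repC E).map (E.ι.map θ) ≫ w _ ≫ T1.map f := by
    intro S0 θ a
    have b := ltRel_ι hw θ
    unfold LtRel at a b
    rwa [(repC E).map_comp, T1.map_comp, ← Category.assoc (w S0), ← b, Category.assoc,
      Category.assoc] at a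
  exact (rep_pres E l A j i hl hi).hom_ext (key _ h1) (key _ h2)

lemma lt_cell (hw : LtW T q w) {X : M} (n : ℕ) (x : T.R (disc n) ⟶ X) :
    (q.app X).app (T.trC n x) = (discsOf (rep E)).cell (n := n) (w (disc n) ≫ T1.map x) := by
  have h1 := congrArg (fun φ => GS.Hom.app φ ((T.univ (disc n)).app (topT n))) (q.naturality x)
  have h2 := congrArg (fun φ => GS.Hom.app φ (topT n)) (hw (disc n))
  have h3 := congrArg (cm (w (disc n))) (gen_topT (rep E) n)
  exact h1.trans (congrArg (cm (T1.map x)) (h2.symm.trans (h3.trans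
    ((discsOf (rep E)).map_top (w (disc n))))))

lemma ltRel_iff (hw : LtW T q w) {n : ℕ} {S : Theta}
    (h : E.D n ⟶ E.ι.obj S) (f : T.R (disc n) ⟶ T.R S) : LtRel T w h f ↔
      (q.app _).app (T.trC n f) = cm (w S) ((discsOf (rep E)).cell (n := n) ((repC E).map h)) := by
  rw [lt_cell hw]
  exact ⟨fun a => congrArg (discsOf (rep E)).cell a.symm,
    fun a => ((discsOf (rep E)).cell_inj a).symm⟩

lemma lt_side {F : E.C ⥤ M} (ai : ∀ S, T.R S ⟶ F.obj (E.ι.obj S))
    (ah : ∀ S, F.obj (E.ι.obj S) ⟶ T.R S) (ha : ∀ S, ah S ≫ ai S = 𝟙 _)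
    (hF : PreservesSums (E.ι ⋙ F))
    (hρ : ∀ (S S' : Theta) (h : E.ι.obj S ⟶ E.ι.obj S'), LtRel T w h (ai S ≫ F.map h ≫ ah S')) :
    ∃ p : homGpd F hF ⟶ T1, ∀ (X : M) (S : Theta)
      (x : (repC E).obj (E.ι.obj S) ⟶ (homGpd F hF).obj X),
      x ≫ p.app X = w S ≫ T1.map (ai S ≫ homEl F hF x) := by
  have h1 : ∀ c : E.C, ∃ v : (repC E).obj c ⟶ T1.obj (F.obj c), ∀ (S : Theta) (e : E.ι.obj S = c),
      (repC E).map (eqToHom e) ≫ v = w S ≫ T1.map (ai S ≫ F.map (eqToHom e)) := by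
    intro c
    obtain ⟨S, rfl⟩ := E.bij.2 c
    refine ⟨w S ≫ T1.map (ai S), fun S' e => ?_⟩
    obtain rfl := E.bij.1 e
    rw [eqToHom_refl, (repC E).map_id, F.map_id, Category.id_comp, Category.comp_id]
  choose v hv using h1
  have h2 : ∀ S, v (E.ι.obj S) = w S ≫ T1.map (ai S) := fun S => by
    have := hv _ S rfl
    rwa [eqToHom_refl, (repC E).map_id, F.map_id, Category.id_comp, Category.comp_id] at this
  have h3 : ∀ (c c' : E.C) (h : c ⟶ c'), v c ≫ T1.map (F.map h) = (repC E).map h ≫ v c' := by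
    intro c c' h
    obtain ⟨S, rfl⟩ := E.bij.2 c
    obtain ⟨S', rfl⟩ := E.bij.2 c'
    have a := hρ S S' h
    unfold LtRel at a
    rw [h2, h2, ← Category.assoc ((repC E).map h), a, Category.assoc, Category.assoc,
      ← T1.map_comp, ← T1.map_comp, Category.assoc, Category.assoc, ha, Category.comp_id]
  choose p hp using fun X : M => exists_fromHom F hF (T1.obj X) X (fun c y => v c ≫ T1.map y)
    fun c c' h y => by rw [T1.map_comp, ← Category.assoc, h3, Category.assoc]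
  have h4 : ∀ {X Y : M} (f : X ⟶ Y) (c : E.C) (x : (repC E).obj c ⟶ (homGpd F hF).obj X),
      x ≫ (homGpd F hF).map f ≫ p Y = x ≫ p X ≫ T1.map f := fun f c x => by
    rw [← Category.assoc, ← Category.assoc, hp, hp, homEl_comp, T1.map_comp, Category.assoc]
  refine ⟨⟨p, fun X Y f => hom_ext_rep fun S x => h4 f _ x⟩, fun X S x => ?_⟩
  refine (hp X _ x).trans ?_
  rw [h2, Category.assoc, ← T1.map_comp]

end LTAux

theorem lifting_theorem [hE : Fact E.IsCoherator] {M : Type u} [Category.{0} M] {V : M ⥤ GS}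
    (T : TabRep V) (T1 T2 : M ⥤ Gpd E) (q1 : V ⟶ T1 ⋙ U E) (q2 : V ⟶ T2 ⋙ U E)
    (hl : ∀ (S : Theta) (u1 : (rep E).obj S ⟶ T1.obj (T.R S))
      (u2 : (rep E).obj S ⟶ T2.obj (T.R S)),
      gn E S ≫ (U E).map u1 = T.univ S ≫ q1.app _ → gn E S ≫ (U E).map u2 = T.univ S ≫ q2.app _ →
      ∀ (h0 : cell ((rep E).obj S)), S.2.dim + 1 ≤ dim h0 →
      ∀ (a b : (V.obj (T.R S)).Cell), Par a b →
      (q1.app _).app a = cm u1 (sr h0) → (q1.app _).app b = cm u1 (tg h0) →
      (q2.app _).app a = cm u2 (sr h0) → (q2.app _).app b = cm u2 (tg h0) →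
      ∃ z, Arr z a b ∧ (q1.app _).app z = cm u1 h0 ∧ (q2.app _).app z = cm u2 h0) :
    ∃ (P : M ⥤ Gpd E) (p1 : P ⟶ T1) (p2 : P ⟶ T2) (e : P ⋙ U E ≅ V),
      (∀ X, (U E).map (p1.app X) = e.hom.app X ≫ q1.app X) ∧
      (∀ X, (U E).map (p2.app X) = e.hom.app X ≫ q2.app X) := by
  choose u1 hu1 using fun S => (gn_represents S (T1.obj (T.R S)) (T.univ S ≫ q1.app _)).exists
  choose u2 hu2 using fun S => (gn_represents S (T2.obj (T.R S)) (T.univ S ≫ q2.app _)).exists
  obtain ⟨F, α, hρ⟩ := elim_rel hE.out T.F0 T.F0_pres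
    (fun h f => LtRel T u1 h f ∧ LtRel T u2 h f) (fun θ => ⟨ltRel_ι hu1 θ, ltRel_ι hu2 θ⟩)
    (fun _ _ _ _ a b => ⟨a.1.comp b.1, a.2.comp b.2⟩)
    (fun l A j i h1 h2 S h f a b => ⟨ltRel_glue hu1 A j i h1 h2 S h f a.1 b.1,
      ltRel_glue hu2 A j i h1 h2 S h f a.2 b.2⟩) (by
      intro n S hS f g f' g' hf hg hp h hh
      have e1 : sr ((discsOf (rep E)).cell (n := n + 1)
          ((repC E).map h : (rep E).obj (disc (n + 1)) ⟶ (rep E).obj S)) =
          (discsOf (rep E)).cell (n := n) ((repC E).map f : (rep E).obj _ ⟶ (rep E).obj S) := by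
        rw [← hh.1, (repC E).map_comp]
        rfl
      have e2 : tg ((discsOf (rep E)).cell (n := n + 1)
          ((repC E).map h : (rep E).obj (disc (n + 1)) ⟶ (rep E).obj S)) =
          (discsOf (rep E)).cell (n := n) ((repC E).map g : (rep E).obj _ ⟶ (rep E).obj S) := by
        rw [← hh.2, (repC E).map_comp]
        rfl
      obtain ⟨z, hz, z1, z2⟩ := hl S (u1 S) (u2 S) (hu1 S) (hu2 S)
        ((discsOf (rep E)).cell (n := n + 1)
          ((repC E).map h : (rep E).obj (disc (n + 1)) ⟶ (rep E).obj S))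
        (Nat.succ_le_succ hS) (T.trC n f') (T.trC n g') (hp.map (T.trepApp _))
        (((ltRel_iff hu1 f f').1 hf.1).trans (congrArg _ e1.symm))
        (((ltRel_iff hu1 g g').1 hg.1).trans (congrArg _ e2.symm))
        (((ltRel_iff hu2 f f').1 hf.2).trans (congrArg _ e1.symm))
        (((ltRel_iff hu2 g g').1 hg.2).trans (congrArg _ e2.symm))
      obtain ⟨c, rfl⟩ := (T.trepApp_bij _).2 z
      obtain ⟨h', rfl⟩ := (discsOf T.F0).exists_cell (n := n + 1) c
        ((GS.Hom.dim_app _ c).symm.trans (hz.2.2.trans (congrArg (· + 1) (T.trC_dim n f'))))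
      refine ⟨h', (discsOf T.F0).cell_inj ((T.trepApp_bij _).1 ?_),
        (discsOf T.F0).cell_inj ((T.trepApp_bij _).1 ?_), (ltRel_iff hu1 h h').2 z1,
        (ltRel_iff hu2 h h').2 z2⟩
      · exact (GS.Hom.sr_app _ _).symm.trans hz.1
      · exact (GS.Hom.tg_app _ _).symm.trans hz.2.1)
  have hF : PreservesSums (E.ι ⋙ F) := T.F0_pres.of_iso α.symm
  obtain ⟨p1, hp1⟩ := lt_side (T := T) (w := u1) α.inv.app α.hom.app α.hom_inv_id_app hF
    fun S S' h => (hρ S S' h).1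
  obtain ⟨p2, hp2⟩ := lt_side (T := T) (w := u2) α.inv.app α.hom.app α.hom_inv_id_app hF
    fun S S' h => (hρ S S' h).2
  obtain ⟨e1, he1⟩ := exists_homU F hF
  obtain ⟨e2, he2⟩ := CoGlob.homIso_of_iso (discsOf (E.ι ⋙ F)) (discsOf T.F0)
    (fun n => α.symm.app (disc n)) (fun n => α.inv.naturality _) fun n => α.inv.naturality _
  obtain ⟨e3, -, he3⟩ := T.exists_discIso
  have he : ∀ (X : M) (n : ℕ) (x : (rep E).obj (disc n) ⟶ (homGpd F hF).obj X),
      ((e1 ≪≫ e2 ≪≫ e3).hom.app X).app ((discsOf (rep E)).cell (n := n) x) =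
        T.trC n (α.inv.app (disc n) ≫ homEl F hF x) := fun X n x => by
    exact (congrArg (e3.hom.app X).app ((congrArg (e2.hom.app X).app (he1 X n x)).trans
      (he2 X n _))).trans (he3 X n _)
  refine ⟨homGpd F hF, p1, p2, e1 ≪≫ e2 ≪≫ e3, fun X => GS.hom_ext ?_, fun X => GS.hom_ext ?_⟩
  · rintro (_ | ⟨n, x⟩)
    · exact (app_bot _).trans (app_bot _).symm
    · exact (congrArg (discsOf (rep E)).cell (hp1 X _ x)).trans
        ((lt_cell hu1 n _).symm.trans (congrArg _ (he X n x).symm))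
  · rintro (_ | ⟨n, x⟩)
    · exact (app_bot _).trans (app_bot _).symm
    · exact (congrArg (discsOf (rep E)).cell (hp2 X _ x)).trans
        ((lt_cell hu2 n _).symm.trans (congrArg _ (he X n x).symm))

end Vale.Agent.P259
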