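import Vale.Agent.P259.Step
import Vale.Agent.P259.DiscF
import Vale.Agent.P259.LT

/-! P259 task GMOD: the correspondence `Pi ⟵ G ⟶ L`.

Take `j` (`exists_jData`), `T : TabRep j.V` (`tabRep_of_discs`, `existsUnique_top`), and apply `lifting_theorem` with `T1 = fst ⋙ Pi`,
`T2 = snd`, `q1' = j.q1 ≫ whiskerLeft fst d.e.inv`, `q2`. Lifting hypothesis: `jm`, where `(T.R S).right` is contractible because
`(T.R S).left` is a contractible space (`left_represents`, `contractible_of_represents`), `L_ctr`, and `tc_of_represents`, `TC.wk`,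
`Wk.ctr_right'`. This gives `G0 : XC L ⥤ Gpd E`; `G = diagX ⋙ G0`. `tf`: `q1_trivFib`.
`wk`: let `ε` be from `exists_eps` (`pi_ctr`), `Y T = (T, Pi T, ε T)`, `κ = (𝟙, ε T) : diagX T ⟶ Y T`. `G0 κ` is `Wk` by two out of three over `p1`;
`p2 ≫ ε = G0 κ ≫ p2 (Y T)`; `p2 (Y T)` is `Wk` by `wk_of_section`: build `ρ n : XJ n ⟶ Y (Dk n)` by recursion on `n` with `q1 (ρ n) = top n`, `q2 (ρ n) = e⁻¹ (top n)`,
`sr (ρ (n+1)) = V (Y σ) (ρ n)`, `tg (ρ (n+1)) = V (Y τ) (ρ n)` (`jm`, `pi_ctr`), and let `Δ (cell x) = V (Y x) (ρ n)`.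
`step`: transport `step_wk` along `e` (`IsAtt.of_natIso`). -/

noncomputable section
namespace Vale.Agent.P259
open CategoryTheory CategoryTheory.Limits GlobExt Opposite
variable {E : GlobExt}

/-- The correspondence between `Pi` and `L`. -/
structure GData (Pi L : TopCat.{0} ⥤ Gpd E) where
  G : TopCat.{0} ⥤ Gpd E
  p1 : G ⟶ Pi
  p2 : G ⟶ L
  ε : L ⟶ Pi
  tf : ∀ T, TF E (p1.app T)
  wk : ∀ T, Wk E (p2.app T ≫ ε.app T)
  step : ∀ {A A' : TopCat.{0}} (i : A ⟶ A') {ι : Type} (a b : ι → cell (G.obj A))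
    (e : ι → cell (G.obj A')), (∀ k, Par (a k) (b k)) →
    (∀ k, Arr (e k) (cm (G.map i) (a k)) (cm (G.map i) (b k))) →
    IsAtt (Pi ⋙ U E) i (fun k => cm (p1.app A) (a k)) (fun k => cm (p1.app A) (b k))
      (fun k => cm (p1.app A') (e k)) →
    ∀ {Z' : Gpd E} {i' : L.obj A ⟶ Z'} {e' : ι → cell Z'},
    IsAtt (U E) i' (fun k => cm (p2.app A) (a k)) (fun k => cm (p2.app A) (b k)) e' →
    ∀ {g : Z' ⟶ L.obj A'}, i' ≫ g = L.map i → (∀ k, cm g (e' k) = cm (p2.app A') (e k)) → Wk E g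

lemma gm_rec {α : ℕ → Type*} (P : ∀ n, α n → Prop) (R : ∀ n, α n → α (n + 1) → Prop)
    (h0 : ∃ a, P 0 a) (hs : ∀ n a, P n a → ∃ b, P (n + 1) b ∧ R n a b) :
    ∃ f : ∀ n, α n, (∀ n, P n (f n)) ∧ ∀ n, R n (f n) (f (n + 1)) := by
  choose g hg using hs
  let F : ∀ n, {a // P n a} := fun n =>
    Nat.rec ⟨h0.choose, h0.choose_spec⟩ (fun n a => ⟨g n a.1 a.2, (hg n a.1 a.2).1⟩) n
  exact ⟨fun n => (F n).1, fun n => (F n).2, fun n => (hg n _ (F n).2).2⟩

lemma gm_arr {G : GS} {c a b a' b' : G.Cell} (h : Arr c a b) (ha : a' = a) (hb : b' = b) :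
    Arr c a' b' := ha ▸ hb ▸ h

/-- The triple `(T, Pi T, ε T)`. -/
def epsX {L Pi : TopCat.{0} ⥤ Gpd E} (ε : L ⟶ Pi) : TopCat.{0} ⥤ XC L where
  obj T := ⟨T, Pi.obj T, ε.app T⟩
  map f := ⟨f, Pi.map f, ε.naturality f⟩
  map_id T := CommaMorphism.ext rfl (Pi.map_id T)
  map_comp f g := CommaMorphism.ext rfl (Pi.map_comp f g)

section
variable {L Pi : TopCat.{0} ⥤ Gpd E} (j : JData L) (ε : L ⟶ Pi) (r : Sg ⟶ Pi ⋙ U E)

/-- `z` lies over `x`. -/
def GmOver {T : TopCat.{0}} (x : (Sg.obj T).Cell) (z : (j.V.obj ((epsX ε).obj T)).Cell) : Prop :=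
  (j.q1.app _).app z = x ∧ (j.q2.app _).app z = (r.app T).app x

variable {j ε r}

lemma GmOver.map {T T' : TopCat.{0}} (f : T ⟶ T') {x : (Sg.obj T).Cell}
    {z : (j.V.obj ((epsX ε).obj T)).Cell} (h : GmOver j ε r x z) :
    GmOver j ε r ((Sg.map f).app x) ((j.V.map ((epsX ε).map f)).app z) :=
  ⟨(push_nat j.q1 ((epsX ε).map f) z).symm.trans (congrArg (Sg.map f).app h.1),
    (push_nat j.q2 ((epsX ε).map f) z).symm.trans
      ((congrArg (cm (Pi.map f)) h.2).trans (push_nat r f x))⟩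

lemma gm_fill {n : ℕ} (hc : MCtr (Pi.obj (discs.obj n))) {a b : (j.V.obj ((epsX ε).obj (discs.obj n))).Cell}
    (h : Par a b) (ha : GmOver j ε r (sr (discs.top n)) a) (hb : GmOver j ε r (tg (discs.top n)) b) :
    ∃ ρ : j.co.obj n ⟶ (epsX ε).obj (discs.obj n), Arr (j.co.cell (n := n) ρ) a b ∧
      GmOver j ε r (discs.top n) (j.co.cell (n := n) ρ) := by
  have h0 : Arr (discs.top n) (sr (discs.top n)) (tg (discs.top n)) := arr_self (Nat.succ_pos n)
  obtain ⟨z, h1, h2⟩ := j.jm ((epsX ε).obj (discs.obj n)) hc a b h (discs.top n)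
    ((r.app _).app (discs.top n)) (gm_arr h0 ha.1 hb.1)
    (gm_arr (h0.map (r.app _)) ha.2 hb.2)
  obtain ⟨ρ, rfl⟩ := j.co.exists_cell (n := n) z
    (((j.q1.app _).dim_app z).symm.trans (congrArg dim h2.1))
  exact ⟨ρ, h1, h2⟩

lemma gm_section (hc : ∀ n, MCtr (Pi.obj (discs.obj n))) (T : TopCat.{0}) :
    ∃ Δ : Sg.obj T ⟶ j.V.obj ((epsX ε).obj T), ∀ x, GmOver j ε r x (Δ.app x) := by
  have hb : ∀ T, GmOver j ε r (Sg.obj T).bot (j.V.obj ((epsX ε).obj T)).bot := fun T =>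
    ⟨app_bot _, (app_bot _).trans (app_bot _).symm⟩
  obtain ⟨ρ, h1, h2⟩ := gm_rec (α := fun n => j.co.obj n ⟶ (epsX ε).obj (discs.obj n))
    (fun n ρ => GmOver j ε r (discs.top n) (j.co.cell (n := n) ρ) ∧
      Par (j.co.cell (n := n) (ρ ≫ (epsX ε).map (discs.σ n)))
        (j.co.cell (n := n) (ρ ≫ (epsX ε).map (discs.τ n))))
    (fun n ρ ρ' => j.co.σ n ≫ ρ' = ρ ≫ (epsX ε).map (discs.σ n) ∧
      j.co.τ n ≫ ρ' = ρ ≫ (epsX ε).map (discs.τ n))
    (by
      obtain ⟨ρ, -, h⟩ := gm_fill (hc 0) (Par.refl _) (hb _) (hb _)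
      exact ⟨ρ, h, par_of_dim_one rfl rfl⟩)
    (fun n ρ h => by
      have e1 : (Sg.map (discs.σ n)).app (discs.top n) = sr (discs.top (n + 1)) :=
        congrArg discs.cell ((Category.id_comp _).trans (Category.comp_id _).symm)
      have e2 : (Sg.map (discs.τ n)).app (discs.top n) = tg (discs.top (n + 1)) :=
        congrArg discs.cell ((Category.id_comp _).trans (Category.comp_id _).symm)
      obtain ⟨ρ', h1, h2⟩ := gm_fill (hc (n + 1)) h.2 (e1 ▸ h.1.map (discs.σ n))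
        (e2 ▸ h.1.map (discs.τ n))
      obtain ⟨h3, h4⟩ := (j.co.arr_cell_iff _ _ _).1 h1
      refine ⟨ρ', ⟨h2, (j.co.par_cell_succ_iff _ _).2 ⟨?_, ?_⟩⟩, h3, h4⟩
      · rw [← Category.assoc, ← Category.assoc, h3, Category.assoc, Category.assoc,
          ← Functor.map_comp, ← Functor.map_comp, discs.σσ]
      · rw [← Category.assoc, ← Category.assoc, h4, Category.assoc, Category.assoc,
          ← Functor.map_comp, ← Functor.map_comp, discs.ττ])
  refine ⟨(discs.mapHom j.co (epsX ε) ρ (fun n => (h2 n).1) fun n => (h2 n).2).app T, ?_⟩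
  rintro (_ | ⟨n, x⟩)
  · exact hb T
  · have := (h1 n).1.map x
    rwa [discs.map_top] at this

end

lemma gm_lift [Fact E.IsCoherator] (d : DiscData E) (s : ShData E) (j : JData s.L) :
    ∃ (P : XC s.L ⥤ Gpd E) (p1 : P ⟶ Comma.fst _ _ ⋙ d.Pi) (p2 : P ⟶ Comma.snd _ _)
      (e : P ⋙ U E ≅ j.V),
      (∀ X, (U E).map (p1.app X) = e.hom.app X ≫ j.q1.app X ≫ d.e.inv.app X.left) ∧
      (∀ X, (U E).map (p2.app X) = e.hom.app X ≫ j.q2.app X) := by
  obtain ⟨T⟩ := tabRep_of_discs j.V fun n =>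
    ⟨j.co.obj n, j.co.top n, rfl, fun X x hx => j.co.existsUnique_top x hx⟩
  refine lifting_theorem T (Comma.fst _ _ ⋙ d.Pi) (Comma.snd _ _)
    (j.q1 ≫ Functor.whiskerLeft (Comma.fst _ _) d.e.inv) j.q2
    fun S u1 u2 _ _ h0 hd a b hab a1 b1 a2 b2 => ?_
  have := contractible_of_represents (j.left_represents (T.rep S))
  have hc := ((j.tc_of_represents (T.rep S)).wk (s.L_cofib _)).ctr_right' (s.L_ctr _)
  have h1 : Arr h0 (sr h0) (tg h0) := arr_self (by omega)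
  have h2 := (h1.map ((U E).map u1)).map (d.e.hom.app _)
  have k : ∀ {c x}, (d.e.inv.app (T.R S).left).app c = x → (d.e.hom.app _).app x = c := by
    rintro c _ rfl
    exact push_hom_inv d.e.symm _ c
  obtain ⟨z, z0, z1, z2⟩ := j.jm (T.R S) hc a b hab ((d.e.hom.app _).app (cm u1 h0)) (cm u2 h0)
    (by rw [← k a1, ← k b1]; exact h2) (by rw [a2, b2]; exact h1.map _)
  exact ⟨z, z0, (congrArg (d.e.inv.app _).app z1).trans (push_hom_inv d.e _ _), z2⟩

theorem exists_gData [Fact E.IsCoherator] (d : DiscData E) (s : ShData E) :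
    Nonempty (GData d.Pi s.L) := by
  obtain ⟨j⟩ := exists_jData s
  obtain ⟨ε⟩ := s.exists_eps d.Pi fun n => d.pi_ctr _
  obtain ⟨P, p1, p2, e, h1, h2⟩ := gm_lift d s j
  have tf : ∀ X, TF E (p1.app X) := fun X => by
    unfold TF
    rw [h1]
    exact (TrivFib.of_isIso _).comp ((j.q1_trivFib X).comp (TrivFib.of_isIso _))
  have c1 : ∀ X z, (d.e.hom.app _).app (cm (p1.app X) z) = (j.q1.app X).app ((e.hom.app X).app z) :=
    fun X z => (congrArg (fun φ => (d.e.hom.app _).app (GS.Hom.app φ z)) (h1 X)).trans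
      (push_hom_inv d.e.symm _ _)
  have c2 : ∀ X z, cm (p2.app X) z = (j.q2.app X).app ((e.hom.app X).app z) :=
    fun X z => congrArg (fun φ => GS.Hom.app φ z) (h2 X)
  refine ⟨⟨diagX s.L ⋙ P, Functor.whiskerLeft (diagX s.L) p1, Functor.whiskerLeft (diagX s.L) p2,
    ε, fun T => tf _, fun T => ?_, ?_⟩⟩
  · let κ : (diagX s.L).obj T ⟶ (epsX ε).obj T :=
      ⟨𝟙 T, ε.app T, (congrArg (· ≫ ε.app T) (s.L.map_id T))⟩
    have w1 : Wk E (P.map κ) := by
      refine (Wk E).of_postcomp _ (p1.app _) (tf _).wk ?_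
      rw [p1.naturality]
      exact (Wk E).comp_mem _ _ (tf _).wk ((d.Pi.map_id T).symm ▸ (Wk E).id_mem (d.Pi.obj T))
    obtain ⟨Δ, hΔ⟩ := gm_section (j := j) (ε := ε) (r := d.e.inv) (fun n => d.pi_ctr (Dk n)) T
    have w2 : Wk E (p2.app ((epsX ε).obj T)) := by
      refine wk_of_section (tf ((epsX ε).obj T)) _ (d.e.hom.app T ≫ Δ ≫ e.inv.app _)
        (GS.hom_ext fun x => (push_bij d.e T).1 ?_) (GS.hom_ext fun x => ?_)
      · exact (c1 _ _).trans ((congrArg _ (push_hom_inv e.symm _ _)).trans (hΔ _).1)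
      · exact (c2 _ _).trans ((congrArg _ (push_hom_inv e.symm _ _)).trans
          ((hΔ _).2.trans (push_hom_inv d.e T x)))
    have := (Wk E).comp_mem _ _ w1 w2
    rwa [p2.naturality] at this
  · intro A A' i ι a b c hp ha hT Z' i' e' hZ g hg hg'
    refine step_wk s j i (fun k => (e.hom.app _).app (a k)) (fun k => (e.hom.app _).app (b k))
      (fun k => (e.hom.app _).app (c k)) (fun k => (hp k).map _) (fun k => ?_) ?_ (e' := e') ?_ hg
      fun k => (hg' k).trans (c2 _ _)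
    · rw [push_nat e.hom, push_nat e.hom]
      exact (ha k).map _
    · simp only [← c1]
      exact hT.of_natIso d.e
    · simp only [← c2]
      exact hZ

end Vale.Agent.P259
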