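import Vale.Agent.P259.Base

/-! P259 task GSL: elementary lemmas on globular sets (pure bookkeeping, no categories).
Hints: `src j x = sr^[dim x - j] x`; use `Function.iterate_succ_apply` (inner) and
`Function.iterate_succ_apply'` (outer), `sr_tg`, `tg_sr`.
`exists_map`: build `l` on cells of `dim ≤ m` by recursion on `m` (a function
`Cell → Cell` with the invariants on `dim ≤ m`, extended by choice without changing old values),
or define `l` by well-founded recursion on `dim` with an `if h : ∃ z, .. then choose` body and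
prove the invariant by strong induction. -/

noncomputable section
namespace Vale.Agent.P259
open CategoryTheory CategoryTheory.Limits

variable {G H K L : GS}

lemma Arr.par {c a b : G.Cell} (h : Arr c a b) : Par a b := by
  obtain ⟨rfl, rfl, -⟩ := h
  exact ⟨by simp, (sr_tg c).symm, tg_sr c⟩
lemma Arr.pos {c a b : G.Cell} (h : Arr c a b) : 1 ≤ dim c := by
  rw [h.2.2]
  omega
lemma Arr.dim_tgt {c a b : G.Cell} (h : Arr c a b) : dim c = dim b + 1 := by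
  rw [h.2.2, h.par.1]
lemma arr_self {c : G.Cell} (h : 1 ≤ dim c) : Arr c (sr c) (tg c) := by
  refine ⟨rfl, rfl, ?_⟩
  rw [dim_sr]
  omega
lemma Par.refl (a : G.Cell) : Par a a := by
  exact ⟨rfl, rfl, rfl⟩
lemma Par.symm {a b : G.Cell} (h : Par a b) : Par b a := by
  exact ⟨h.1.symm, h.2.1.symm, h.2.2.symm⟩
lemma Par.trans {a b c : G.Cell} (h : Par a b) (h' : Par b c) : Par a c := by
  exact ⟨h.1.trans h'.1, h.2.1.trans h'.2.1, h.2.2.trans h'.2.2⟩
lemma par_sr_tg (c : G.Cell) : Par (sr c) (tg c) := by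
  exact ⟨by simp, (sr_tg c).symm, tg_sr c⟩
lemma Arr.par_of_arr {c d a b : G.Cell} (h : Arr c a b) (h' : Arr d a b) : Par c d := by
  exact ⟨h.2.2.trans h'.2.2.symm, h.1.trans h'.1.symm, h.2.1.trans h'.2.1.symm⟩
lemma Arr.of_par {c d a b : G.Cell} (h : Arr c a b) (h' : Par c d) : Arr d a b := by
  exact ⟨h'.2.1.symm.trans h.1, h'.2.2.symm.trans h.2.1, h'.1.symm.trans h.2.2⟩
lemma Con.par {a b : G.Cell} (h : Con a b) : Par a b := by
  exact h.elim fun _ hc => hc.par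
@[simp] lemma sr_bot : sr G.bot = G.bot := by
  exact eq_bot (by simp)
@[simp] lemma tg_bot : tg G.bot = G.bot := by
  exact eq_bot (by simp)
lemma arr_bot_iff {c : G.Cell} : Arr c G.bot G.bot ↔ dim c = 1 := by
  exact ⟨fun h => by simpa using h.2.2,
    fun h => ⟨eq_bot (by simp [h]), eq_bot (by simp [h]), by simp [h]⟩⟩
lemma par_of_dim_one {a b : G.Cell} (ha : dim a = 1) (hb : dim b = 1) : Par a b := by
  exact (arr_bot_iff.2 ha).par_of_arr (arr_bot_iff.2 hb)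

@[simp] lemma app_bot (f : G ⟶ H) : f.app G.bot = H.bot := by
  exact eq_bot (by simp)
lemma Arr.map (f : G ⟶ H) {c a b : G.Cell} (h : Arr c a b) :
    Arr (f.app c) (f.app a) (f.app b) := by
  exact ⟨by rw [f.sr_app, h.1], by rw [f.tg_app, h.2.1], by simpa using h.2.2⟩
lemma Par.map (f : G ⟶ H) {a b : G.Cell} (h : Par a b) : Par (f.app a) (f.app b) := by
  exact ⟨by simpa using h.1, by rw [f.sr_app, f.sr_app, h.2.1], by rw [f.tg_app, f.tg_app, h.2.2]⟩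
lemma Con.map (f : G ⟶ H) {a b : G.Cell} (h : Con a b) : Con (f.app a) (f.app b) := by
  exact h.elim fun c hc => ⟨_, hc.map f⟩
lemma app_src (f : G ⟶ H) (j : ℕ) (x : G.Cell) : f.app (src j x) = src j (f.app x) := by
  rw [src, src, f.dim_app]
  exact (Function.Semiconj.iterate_right (fun y => (f.sr_app y).symm) _) x
lemma app_tgt (f : G ⟶ H) (j : ℕ) (x : G.Cell) : f.app (tgt j x) = tgt j (f.app x) := by
  rw [tgt, tgt, f.dim_app]
  exact (Function.Semiconj.iterate_right (fun y => (f.tg_app y).symm) _) x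

lemma gsl_dim_sr (n : ℕ) (x : G.Cell) : dim (sr^[n] x) = dim x - n := by
  induction n with
  | zero => rfl
  | succ n ih => rw [Function.iterate_succ_apply', dim_sr, ih, Nat.sub_sub]
lemma gsl_dim_tg (n : ℕ) (x : G.Cell) : dim (tg^[n] x) = dim x - n := by
  induction n with
  | zero => rfl
  | succ n ih => rw [Function.iterate_succ_apply', dim_tg, ih, Nat.sub_sub]
lemma gsl_tg_sr (n : ℕ) (x : G.Cell) : tg (sr^[n] x) = tg^[n + 1] x := by
  induction n with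
  | zero => rfl
  | succ n ih => rw [Function.iterate_succ_apply', tg_sr, ih, ← Function.iterate_succ_apply' tg]
lemma gsl_sr_tg (n : ℕ) (x : G.Cell) : sr (tg^[n] x) = sr^[n + 1] x := by
  induction n with
  | zero => rfl
  | succ n ih => rw [Function.iterate_succ_apply', sr_tg, ih, ← Function.iterate_succ_apply' sr]

lemma src_of_le {j : ℕ} {x : G.Cell} (h : dim x ≤ j) : src j x = x := by
  rw [src, Nat.sub_eq_zero_of_le h, Function.iterate_zero_apply]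
lemma tgt_of_le {j : ℕ} {x : G.Cell} (h : dim x ≤ j) : tgt j x = x := by
  rw [tgt, Nat.sub_eq_zero_of_le h, Function.iterate_zero_apply]
lemma dim_src {j : ℕ} {x : G.Cell} (h : j ≤ dim x) : dim (src j x) = j := by
  rw [src, gsl_dim_sr]
  omega
lemma dim_tgt {j : ℕ} {x : G.Cell} (h : j ≤ dim x) : dim (tgt j x) = j := by
  rw [tgt, gsl_dim_tg]
  omega
lemma src_eq_sr {j : ℕ} {x : G.Cell} (h : dim x = j + 1) : src j x = sr x := by
  rw [src, h, Nat.add_sub_cancel_left, Function.iterate_one]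
lemma tgt_eq_tg {j : ℕ} {x : G.Cell} (h : dim x = j + 1) : tgt j x = tg x := by
  rw [tgt, h, Nat.add_sub_cancel_left, Function.iterate_one]
lemma src_sr {j : ℕ} {x : G.Cell} (h : j < dim x) : src j (sr x) = src j x := by
  rw [src, src, ← Function.iterate_succ_apply, dim_sr]
  congr 1
  omega
lemma tgt_tg {j : ℕ} {x : G.Cell} (h : j < dim x) : tgt j (tg x) = tgt j x := by
  rw [tgt, tgt, ← Function.iterate_succ_apply, dim_tg]
  congr 1
  omega
lemma src_tg {j : ℕ} {x : G.Cell} (h : j + 1 < dim x) : src j (tg x) = src j x := by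
  rw [← src_sr (x := tg x) (by rw [dim_tg]; omega), sr_tg, src_sr (by rw [dim_sr]; omega),
    src_sr (by omega)]
lemma tgt_sr {j : ℕ} {x : G.Cell} (h : j + 1 < dim x) : tgt j (sr x) = tgt j x := by
  rw [← tgt_tg (x := sr x) (by rw [dim_sr]; omega), tg_sr, tgt_tg (by rw [dim_tg]; omega),
    tgt_tg (by omega)]
lemma sr_src {j : ℕ} {x : G.Cell} (h : j + 1 ≤ dim x) : sr (src (j + 1) x) = src j x := by
  rw [src, src, ← Function.iterate_succ_apply' sr]
  congr 1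
  omega
lemma tg_src {j : ℕ} {x : G.Cell} (h : j + 1 ≤ dim x) : tg (src (j + 1) x) = tgt j x := by
  rw [src, tgt, gsl_tg_sr]
  congr 1
  omega
lemma sr_tgt {j : ℕ} {x : G.Cell} (h : j + 1 ≤ dim x) : sr (tgt (j + 1) x) = src j x := by
  rw [src, tgt, gsl_sr_tg]
  congr 1
  omega
lemma tg_tgt {j : ℕ} {x : G.Cell} (h : j + 1 ≤ dim x) : tg (tgt (j + 1) x) = tgt j x := by
  rw [tgt, tgt, ← Function.iterate_succ_apply' tg]
  congr 1
  omega
lemma src_src {i j : ℕ} (x : G.Cell) (h : i ≤ j) : src i (src j x) = src i x := by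
  rcases le_total (dim x) j with h1 | h1
  · rw [src_of_le h1]
  · rw [src, dim_src h1, src, src, ← Function.iterate_add_apply]
    congr 1
    omega
lemma tgt_tgt {i j : ℕ} (x : G.Cell) (h : i ≤ j) : tgt i (tgt j x) = tgt i x := by
  rcases le_total (dim x) j with h1 | h1
  · rw [tgt_of_le h1]
  · rw [tgt, dim_tgt h1, tgt, tgt, ← Function.iterate_add_apply]
    congr 1
    omega
lemma src_tgt {i j : ℕ} (x : G.Cell) (h : i < j) : src i (tgt j x) = src i x := by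
  rcases le_total (dim x) j with h1 | h1
  · rw [tgt_of_le h1]
  · obtain ⟨j, rfl⟩ := Nat.exists_eq_add_one_of_ne_zero (Nat.ne_zero_of_lt h)
    rw [← src_sr (by rwa [dim_tgt h1]), sr_tgt h1, src_src _ (by omega)]
lemma tgt_src {i j : ℕ} (x : G.Cell) (h : i < j) : tgt i (src j x) = tgt i x := by
  rcases le_total (dim x) j with h1 | h1
  · rw [src_of_le h1]
  · obtain ⟨j, rfl⟩ := Nat.exists_eq_add_one_of_ne_zero (Nat.ne_zero_of_lt h)
    rw [← tgt_tg (by rwa [dim_src h1]), tg_src h1, tgt_tgt _ (by omega)]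
lemma par_src_tgt (j : ℕ) (x : G.Cell) : Par (src j x) (tgt j x) := by
  rcases le_or_gt (dim x) j with h1 | h1
  · rw [src_of_le h1, tgt_of_le h1]
    exact Par.refl x
  · rw [← sr_src h1, ← tg_src h1]
    exact par_sr_tg _
lemma Par.src_eq {j : ℕ} {a b : G.Cell} (h : Par a b) (hj : j < dim a) : src j a = src j b := by
  rw [← src_sr hj, h.2.1, src_sr (h.1 ▸ hj)]
lemma Par.tgt_eq {j : ℕ} {a b : G.Cell} (h : Par a b) (hj : j < dim a) : tgt j a = tgt j b := by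
  rw [← tgt_tg hj, h.2.2, tgt_tg (h.1 ▸ hj)]
lemma Arr.src_eq {j : ℕ} {c a b : G.Cell} (h : Arr c a b) (hj : j ≤ dim a) :
    src j c = src j a := by
  rw [← src_sr (x := c) (by rw [h.2.2]; omega), h.1]
lemma Arr.tgt_eq {j : ℕ} {c a b : G.Cell} (h : Arr c a b) (hj : j ≤ dim a) :
    tgt j c = tgt j b := by
  rw [← tgt_tg (x := c) (by rw [h.2.2]; omega), h.2.1]

lemma Wh.map (f : G ⟶ H) {j : ℕ} {a x b : G.Cell} (h : Wh j a x b) :
    Wh j (f.app a) (f.app x) (f.app b) := by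
  exact ⟨h.pos, by simpa using h.da, by simpa using h.db, by simpa using h.dx,
    by rw [f.tg_app, h.ha, app_src], by rw [f.sr_app, h.hb, app_tgt]⟩
lemma Wh.of_sr {j : ℕ} {a x b : G.Cell} (h : Wh j a x b) (hx : j + 1 < dim x) :
    Wh j a (sr x) b := by
  exact ⟨h.pos, h.da, h.db, by rw [dim_sr]; omega, by rw [src_sr h.dx, h.ha],
    by rw [tgt_sr hx, h.hb]⟩
lemma Wh.of_tg {j : ℕ} {a x b : G.Cell} (h : Wh j a x b) (hx : j + 1 < dim x) :
    Wh j a (tg x) b := by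
  exact ⟨h.pos, h.da, h.db, by rw [dim_tg]; omega, by rw [src_tg hx, h.ha],
    by rw [tgt_tg h.dx, h.hb]⟩
lemma Wh.of_par {j : ℕ} {a x y b : G.Cell} (h : Wh j a x b) (hxy : Par x y) : Wh j a y b := by
  exact ⟨h.pos, h.da, h.db, hxy.1 ▸ h.dx, h.ha.trans (hxy.src_eq h.dx),
    h.hb.trans (hxy.tgt_eq h.dx)⟩
lemma Wh.of_arr {j : ℕ} {a x y c b : G.Cell} (h : Wh j a x b) (hc : Arr c x y) : Wh j a c b := by
  have h1 := h.dx
  exact ⟨h.pos, h.da, h.db, by rw [hc.2.2]; omega, by rw [hc.src_eq (by omega), h.ha],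
    by rw [hc.tgt_eq (by omega), h.hb, hc.par.tgt_eq h1]⟩
lemma Wh.bottom {j : ℕ} {a c b : G.Cell} (hj : 1 ≤ j) (ha : dim a = j + 1) (hb : dim b = j + 1)
    (hc : Arr c (tg a) (sr b)) : Wh j a c b := by
  have h1 : dim c = j + 1 := by rw [hc.2.2, dim_tg, ha, Nat.add_sub_cancel]
  exact ⟨hj, ha, hb, h1.ge, by rw [src_eq_sr h1, hc.1], by rw [tgt_eq_tg h1, hc.2.1]⟩
lemma Wh.par_ends {j : ℕ} {a x b : G.Cell} (h : Wh j a x b) : Par (sr a) (tg b) := by
  have h1 := par_src_tgt j x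
  rw [← h.ha, ← h.hb] at h1
  exact ((par_sr_tg a).trans h1).trans (par_sr_tg b)

open Classical in
/-- the recursion for `exists_map` -/
def gslRec (Φ : G.Cell → H.Cell → Prop) : ℕ → G.Cell → H.Cell
  | 0, _ => H.bot
  | m + 1, c => if h : ∃ z, Arr z (gslRec Φ m (sr c)) (gslRec Φ m (tg c)) ∧ Φ c z then h.choose
      else H.bot

/-- Maps of globular sets by recursion on the dimension. -/
lemma exists_map (Φ : G.Cell → H.Cell → Prop) (h0 : Φ G.bot H.bot)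
    (hs : ∀ c : G.Cell, 1 ≤ dim c → ∀ z0 z1 : H.Cell, dim z0 + 1 = dim c → Par z0 z1 →
      Φ (sr c) z0 → Φ (tg c) z1 → ∃ z, Arr z z0 z1 ∧ Φ c z) :
    ∃ l : G ⟶ H, ∀ c, Φ c (l.app c) := by
  have key : ∀ m c, dim c = m → dim (gslRec Φ m c) = m ∧ Φ c (gslRec Φ m c) ∧
      sr (gslRec Φ m c) = gslRec Φ (m - 1) (sr c) ∧ tg (gslRec Φ m c) = gslRec Φ (m - 1) (tg c) := by
    intro m
    induction m with
    | zero => exact fun c hc => ⟨dim_bot, eq_bot hc ▸ h0, sr_bot, tg_bot⟩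
    | succ m ih =>
      intro c hc
      obtain ⟨a1, a2, a3, a4⟩ := ih (sr c) (by simp [hc])
      obtain ⟨b1, b2, b3, b4⟩ := ih (tg c) (by simp [hc])
      have h := hs c (by omega) _ _ (by omega)
        ⟨a1.trans b1.symm, by rw [a3, b3, sr_tg], by rw [a4, b4, tg_sr]⟩ a2 b2
      have h1 := h.choose_spec
      rw [gslRec, dif_pos h]
      exact ⟨by rw [h1.1.2.2, a1], h1.2, h1.1.1, h1.1.2.1⟩
  exact ⟨⟨fun c => gslRec Φ (dim c) c, fun c => (key _ c rfl).1,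
    fun c => by rw [(key _ c rfl).2.2.1, dim_sr], fun c => by rw [(key _ c rfl).2.2.2, dim_tg]⟩,
    fun c => (key _ c rfl).2.1⟩

/-- Two maps agree if agreement propagates from boundaries. -/
lemma map_ext_rec {f g : G ⟶ H}
    (h : ∀ c : G.Cell, 1 ≤ dim c → f.app (sr c) = g.app (sr c) → f.app (tg c) = g.app (tg c) →
      f.app c = g.app c) : f = g := by
  have key : ∀ m (c : G.Cell), dim c = m → f.app c = g.app c := by
    intro m
    induction m with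
    | zero => exact fun c hc => by rw [eq_bot hc, app_bot, app_bot]
    | succ m ih =>
      exact fun c hc => h c (by omega) (ih _ (by simp [hc])) (ih _ (by simp [hc]))
  exact GS.hom_ext fun c => key _ c rfl

@[simp] lemma gsl_hom_inv (e : G ≅ H) (x : G.Cell) : e.inv.app (e.hom.app x) = x := by
  rw [← GS.comp_app, e.hom_inv_id, GS.id_app]
@[simp] lemma gsl_inv_hom (e : G ≅ H) (x : H.Cell) : e.hom.app (e.inv.app x) = x := by
  rw [← GS.comp_app, e.inv_hom_id, GS.id_app]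

lemma isIso_of_bijective (f : G ⟶ H) (h : Function.Bijective f.app) : IsIso f := by
  obtain ⟨g, h1, h2⟩ := Function.bijective_iff_has_inverse.1 h
  exact ⟨⟨⟨g, fun y => by rw [← f.dim_app, h2 y],
    fun y => h.1 (by rw [← f.sr_app, h2 y, h2 (sr y)]),
    fun y => h.1 (by rw [← f.tg_app, h2 y, h2 (tg y)])⟩, GS.hom_ext h1, GS.hom_ext h2⟩⟩
lemma bijective_of_isIso (f : G ⟶ H) [IsIso f] : Function.Bijective f.app := by
  exact Function.bijective_iff_has_inverse.2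
    ⟨(asIso f).inv.app, gsl_hom_inv (asIso f), gsl_inv_hom (asIso f)⟩

lemma TrivFib.of_isIso (f : G ⟶ H) [IsIso f] : TrivFib f := by
  intro a b _ c' hc
  have h := hc.map (asIso f).inv
  have h1 : ∀ x, (asIso f).inv.app (f.app x) = x := gsl_hom_inv (asIso f)
  rw [h1, h1] at h
  exact ⟨_, h, gsl_inv_hom (asIso f) c'⟩
lemma TrivFib.comp {f : G ⟶ H} {g : H ⟶ K} (hf : TrivFib f) (hg : TrivFib g) :
    TrivFib (f ≫ g) := by
  intro a b h c hc
  obtain ⟨c, h1, rfl⟩ := hg _ _ (h.map f) c hc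
  obtain ⟨c, h2, rfl⟩ := hf _ _ h c h1
  exact ⟨c, h2, rfl⟩
lemma TrivFib.lift {p : H ⟶ K} (hp : TrivFib p) (g : G ⟶ K) : ∃ l : G ⟶ H, l ≫ p = g := by
  obtain ⟨l, hl⟩ := exists_map (fun c z => p.app z = g.app c) (by simp)
    fun c hc z0 z1 _ h h0 h1 => hp _ _ h _ (by rw [h0, h1]; exact (arr_self hc).map g)
  exact ⟨l, GS.hom_ext hl⟩
lemma TrivFib.surj {p : H ⟶ K} (hp : TrivFib p) : Function.Surjective p.app := by
  obtain ⟨l, hl⟩ := hp.lift (𝟙 K)
  exact fun y => ⟨l.app y, by rw [← GS.comp_app, hl, GS.id_app]⟩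
lemma TrivFib.fib {p : H ⟶ K} (hp : TrivFib p) : Fib p := by
  intro a ha c h1 h2
  obtain ⟨b, h3, h4⟩ := hp _ _ (par_sr_tg a) (tg c)
    (((arr_self ha).map p).of_par (h1 ▸ par_sr_tg c))
  obtain ⟨e, h5, h6⟩ := hp _ _ ((arr_self ha).par_of_arr h3) c ⟨h1, h4.symm, by simpa using h2⟩
  exact ⟨e, h5.1, h5.2.2, h6⟩
lemma TrivFib.reflect {p : H ⟶ K} (hp : TrivFib p) {a b : H.Cell} (h : Par a b)
    (h' : Con (p.app a) (p.app b)) : Con a b := by
  obtain ⟨c, hc⟩ := h'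
  obtain ⟨c, h1, -⟩ := hp _ _ h c hc
  exact ⟨c, h1⟩
lemma TrivFib.weq {p : H ⟶ K} (hK : GpdLike K) (hp : TrivFib p) : WEq p := by
  intro a b h c hc
  obtain ⟨d, h1, h2⟩ := hp _ _ h c hc
  exact ⟨d, h1, h2 ▸ hK.refl _ (h2 ▸ hc.pos)⟩
lemma TrivFib.ctr {p : H ⟶ K} (hp : TrivFib p) (hK : Ctr K) : Ctr H := by
  exact fun a b h => hp.reflect h (hK _ _ (h.map p))
lemma Fib.trivFib {p : H ⟶ K} (hp : Fib p) (hw : WEq p) : TrivFib p := by
  intro a b h c hc
  obtain ⟨d, h1, e, he⟩ := hw _ _ h c hc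
  obtain ⟨e', h2, -, h3⟩ := hp d h1.pos e he.1 (by simpa using he.2.2)
  exact ⟨tg e', h1.of_par (h2 ▸ par_sr_tg e'), by rw [← p.tg_app, h3, he.2.1]⟩
lemma Fib.of_isIso (f : G ⟶ H) [IsIso f] : Fib f := by
  exact (TrivFib.of_isIso f).fib
lemma Fib.comp {f : G ⟶ H} {g : H ⟶ K} (hf : Fib f) (hg : Fib g) : Fib (f ≫ g) := by
  intro a ha c h1 h2
  obtain ⟨c, h3, h4, rfl⟩ := hg (f.app a) (by simpa using ha) c h1 (by simpa using h2)
  obtain ⟨c, h5, h6, rfl⟩ := hf a ha c h3 (by simpa using h4)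
  exact ⟨c, h5, h6, rfl⟩
lemma Ctr.of_iso (e : G ≅ H) (h : Ctr G) : Ctr H := by
  intro a b hab
  simpa using (h _ _ (hab.map e.inv)).map e.hom
lemma Ctr.of_retract (i : G ⟶ H) (r : H ⟶ G) (h : i ≫ r = 𝟙 G) (hH : Ctr H) : Ctr G := by
  intro a b hab
  have h1 := (hH _ _ (hab.map i)).map r
  rwa [← GS.comp_app, ← GS.comp_app, h] at h1
lemma GpdLike.of_iso (e : G ≅ H) (h : GpdLike G) : GpdLike H := by
  refine ⟨fun x hx => ?_, fun x y h1 => ?_, fun x y z h1 h2 => ?_⟩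
  · simpa using (h.refl (e.inv.app x) (by simpa using hx)).map e.hom
  · simpa using (h.symm _ _ (h1.map e.inv)).map e.hom
  · simpa using (h.trans _ _ _ (h1.map e.inv) (h2.map e.inv)).map e.hom
lemma IsCosk.of_iso {k : ℕ∞} (e : G ≅ H) (h : IsCosk k G) : IsCosk k H := by
  intro a b hab hk
  obtain ⟨c, h1, h2⟩ := h _ _ (hab.map e.inv) (by simpa using hk)
  refine ⟨e.hom.app c, by simpa using h1.map e.hom, fun d hd => ?_⟩
  rw [← h2 _ (hd.map e.inv), gsl_inv_hom]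
lemma PathAx.of_iso {n : ℕ} {P P' Y : GS} (e : P' ≅ P) {q0 q1 : P ⟶ Y} (h : PathAx n q0 q1) :
    PathAx n (e.hom ≫ q0) (e.hom ≫ q1) := by
  refine ⟨(TrivFib.of_isIso _).comp h.triv0, (TrivFib.of_isIso _).comp h.triv1,
    fun z z' hz h1 => ?_, fun x hx => ?_, fun hY a b hab hn x y hx hy => ?_,
    fun a ha x y h1 h2 h3 h4 => ?_⟩
  · exact (bijective_of_isIso e.hom).1 (h.low_inj _ _ (by simpa using hz) h1)
  · obtain ⟨z, h1⟩ := h.low x hx
    exact ⟨e.inv.app z, by simpa using h1⟩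
  · obtain ⟨z, h1, h2⟩ := h.fill hY _ _ (hab.map e.hom) (by simpa using hn) x y hx hy
    exact ⟨e.inv.app z, by simpa using h1.map e.inv, by simpa using h2⟩
  · obtain ⟨z, h5, h6, h7⟩ := h.fib (e.hom.app a) (by simpa using ha) x y h1 (by simpa using h2) h3
      (by simpa using h4)
    exact ⟨e.inv.app z, by rw [e.inv.sr_app, h5, gsl_hom_inv], by simpa using h6,
      by simpa using h7⟩
lemma PathAx.low_eq {n : ℕ} {P Y : GS} {q0 q1 : P ⟶ Y} (h : PathAx n q0 q1) (z : P.Cell)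
    (hz : dim z < n) : q0.app z = q1.app z := by
  obtain ⟨z', h1, h2⟩ := h.low (q0.app z) (by simpa using hz)
  rw [← h2, ← h.low_inj z z' hz h1.symm]
lemma WEq.reflect {p : H ⟶ K} (hp : WEq p) {a b : H.Cell} (h : Par a b)
    (h' : Con (p.app a) (p.app b)) : Con a b := by
  obtain ⟨c, hc⟩ := h'
  obtain ⟨c, h1, -⟩ := hp _ _ h c hc
  exact ⟨c, h1⟩
lemma WEq.of_ctr (f : G ⟶ H) (hG : Ctr G) (hH : Ctr H) : WEq f := by
  intro a b h c hc
  obtain ⟨d, hd⟩ := hG _ _ h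
  exact ⟨d, hd, hH _ _ ((hd.map f).par_of_arr hc)⟩
lemma WEq.ctr {f : G ⟶ H} (hf : WEq f) (hH : Ctr H) : Ctr G := by
  exact fun a b h => hf.reflect h (hH _ _ (h.map f))
lemma WEq.of_iso_iso {G' H' : GS} (f : G ⟶ H) (f' : G' ⟶ H') (e : G ≅ G') (e' : H ≅ H')
    (w : f ≫ e'.hom = e.hom ≫ f') (h : WEq f) : WEq f' := by
  intro a b hab c hc
  have w1 : ∀ x, f'.app (e.hom.app x) = e'.hom.app (f.app x) := fun x => by
    rw [← GS.comp_app, ← w, GS.comp_app]
  have w2 : ∀ x, f.app (e.inv.app x) = e'.inv.app (f'.app x) := fun x => by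
    rw [← gsl_hom_inv e' (f.app _), ← w1, gsl_inv_hom]
  obtain ⟨d, h1, h2⟩ := h _ _ (hab.map e.inv) (e'.inv.app c) (by rw [w2, w2]; exact hc.map _)
  exact ⟨e.hom.app d, by simpa using h1.map e.hom, by simpa [w1] using h2.map e'.hom⟩

section Loc
variable {φ φ' : G.Cell → H.Cell} {ψ : H.Cell → K.Cell} {χ : K.Cell → L.Cell}
  {x y : G.Cell} {x' y' : H.Cell} {x'' y'' : K.Cell} {x''' y''' : L.Cell}

lemma locMap_app (f : G ⟶ H) (x y : G.Cell) : LocMap f.app x y (f.app x) (f.app y) := by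
  exact ⟨fun _ h => h.map f, fun _ _ _ _ h => h.map f⟩
lemma LocMap.comp (h : LocMap φ x y x' y') (h' : LocMap ψ x' y' x'' y'') :
    LocMap (fun c => ψ (φ c)) x y x'' y'' := by
  exact ⟨fun c hc => h'.arr _ (h.arr c hc),
    fun c d hc hd e => h'.con _ _ (h.arr c hc) (h.arr d hd) (h.con c d hc hd e)⟩
lemma LocMap.congr (h : LocMap φ x y x' y') (e : ∀ c, Arr c x y → φ c = φ' c) :
    LocMap φ' x y x' y' := by
  exact ⟨fun c hc => e c hc ▸ h.arr c hc,
    fun c d hc hd h1 => e c hc ▸ e d hd ▸ h.con c d hc hd h1⟩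
lemma LocBij.congr (h : LocBij φ x y x' y') (e : ∀ c, Arr c x y → φ c = φ' c) :
    LocBij φ' x y x' y' := by
  refine ⟨h.toLocMap.congr e, fun c hc => ?_, fun c d hc hd h1 => ?_⟩
  · obtain ⟨d, h1, h2⟩ := h.surj c hc
    exact ⟨d, h1, e d h1 ▸ h2⟩
  · exact h.inj c d hc hd (by rwa [e c hc, e d hd])
lemma locBij_id (hG : GpdLike G) (x y : G.Cell) : LocBij (fun c => c) x y x y := by
  exact ⟨⟨fun _ h => h, fun _ _ _ _ h => h⟩, fun c hc => ⟨c, hc, hG.refl c hc.pos⟩,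
    fun _ _ _ _ h => h⟩
lemma locBij_of_con (hG : GpdLike G) {φ : G.Cell → G.Cell} {x y : G.Cell}
    (h : ∀ c, Arr c x y → Con (φ c) c) : LocBij φ x y x y := by
  exact ⟨⟨fun c hc => hc.of_par (h c hc).par.symm, fun c d hc hd e =>
    hG.trans _ _ _ (hG.trans _ _ _ (h c hc) e) (hG.symm _ _ (h d hd))⟩,
    fun c hc => ⟨c, hc, h c hc⟩, fun c d hc hd e =>
    hG.trans _ _ _ (hG.trans _ _ _ (hG.symm _ _ (h c hc)) e) (h d hd)⟩
lemma LocBij.comp (hK : GpdLike K) (h : LocBij φ x y x' y') (h' : LocBij ψ x' y' x'' y'') :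
    LocBij (fun c => ψ (φ c)) x y x'' y'' := by
  refine ⟨h.toLocMap.comp h'.toLocMap, fun c hc => ?_, fun c d hc hd e =>
    h.inj c d hc hd (h'.inj _ _ (h.arr c hc) (h.arr d hd) e)⟩
  obtain ⟨c', h1, h2⟩ := h'.surj c hc
  obtain ⟨d, h3, h4⟩ := h.surj c' h1
  exact ⟨d, h3, hK.trans _ _ _ (h'.con _ _ (h.arr d h3) h1 h4) h2⟩
lemma LocBij.of_comp_left (h : LocMap φ x y x' y') (h' : LocBij ψ x' y' x'' y'')
    (h'' : LocBij (fun c => ψ (φ c)) x y x'' y'') : LocBij φ x y x' y' := by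
  refine ⟨h, fun c hc => ?_, fun c d hc hd e =>
    h''.inj c d hc hd (h'.con _ _ (h.arr c hc) (h.arr d hd) e)⟩
  obtain ⟨d, h1, h2⟩ := h''.surj _ (h'.arr c hc)
  exact ⟨d, h1, h'.inj _ _ (h.arr d h1) hc h2⟩
lemma LocBij.of_comp_right (hH : GpdLike H) (hK : GpdLike K) (h : LocBij φ x y x' y')
    (h' : LocMap ψ x' y' x'' y'') (h'' : LocBij (fun c => ψ (φ c)) x y x'' y'') :
    LocBij ψ x' y' x'' y'' := by
  refine ⟨h', fun c hc => ?_, fun c d hc hd e => ?_⟩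
  · obtain ⟨d, h1, h2⟩ := h''.surj c hc
    exact ⟨φ d, h.arr d h1, h2⟩
  · obtain ⟨c', h1, h2⟩ := h.surj c hc
    obtain ⟨d', h3, h4⟩ := h.surj d hd
    have h5 := h''.inj c' d' h1 h3 (hK.trans _ _ _ (hK.trans _ _ _
      (h'.con _ _ (h.arr c' h1) hc h2) e) (hK.symm _ _ (h'.con _ _ (h.arr d' h3) hd h4)))
    exact hH.trans _ _ _ (hH.trans _ _ _ (hH.symm _ _ h2) (h.con _ _ h1 h3 h5)) h4
lemma LocBij.two_of_six (h : LocMap φ x y x' y') (h' : LocMap ψ x' y' x'' y'')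
    (h'' : LocMap χ x'' y'' x''' y''') (h1 : LocBij (fun c => ψ (φ c)) x y x'' y'')
    (h2 : LocBij (fun c => χ (ψ c)) x' y' x''' y''') : LocBij φ x y x' y' := by
  refine ⟨h, fun c hc => ?_, fun c d hc hd e =>
    h1.inj c d hc hd (h'.con _ _ (h.arr c hc) (h.arr d hd) e)⟩
  obtain ⟨d, h3, h4⟩ := h1.surj _ (h'.arr c hc)
  exact ⟨d, h3, h2.inj _ _ (h.arr d h3) hc (h''.con _ _ (h1.arr d h3) (h'.arr c hc) h4)⟩
end Loc

lemma weq_iff_lb {f : G ⟶ H} : WEq f ↔ ∀ a b, Par a b → LB f a b := by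
  exact ⟨fun h a b hab => ⟨locMap_app f a b, h a b hab,
    fun c d hc hd => h.reflect (hc.par_of_arr hd)⟩, fun h a b hab => (h a b hab).surj⟩
lemma WEq.comp (hK : GpdLike K) {f : G ⟶ H} {g : H ⟶ K} (hf : WEq f) (hg : WEq g) :
    WEq (f ≫ g) := by
  exact weq_iff_lb.2 fun a b h =>
    LocBij.comp (φ := f.app) (ψ := g.app) hK (weq_iff_lb.1 hf a b h)
      (weq_iff_lb.1 hg _ _ (h.map f))
lemma WEq.of_comp_left {f : G ⟶ H} {g : H ⟶ K} (hg : WEq g) (hfg : WEq (f ≫ g)) : WEq f := by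
  exact weq_iff_lb.2 fun a b h => LocBij.of_comp_left (locMap_app f a b)
    (weq_iff_lb.1 hg _ _ (h.map f)) (weq_iff_lb.1 hfg a b h)
lemma WEq.two_of_six {f : G ⟶ H} {g : H ⟶ K} {h : K ⟶ L} (h1 : WEq (f ≫ g))
    (h2 : WEq (g ≫ h)) : WEq f := by
  exact weq_iff_lb.2 fun a b hab => LocBij.two_of_six (locMap_app f a b) (locMap_app g _ _)
    (locMap_app h _ _) (weq_iff_lb.1 h1 a b hab) (weq_iff_lb.1 h2 _ _ (hab.map f))
lemma gsl_lb {G' H' : GS} (f : G ⟶ H) (f' : G' ⟶ H') (e : G ≅ G') (e' : H ≅ H')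
    (w : f ≫ e'.hom = e.hom ≫ f') (a b : G.Cell) (h : LB f a b) :
    LB f' (e.hom.app a) (e.hom.app b) := by
  have w1 : ∀ x, f'.app (e.hom.app x) = e'.hom.app (f.app x) := fun x => by
    rw [← GS.comp_app, ← w, GS.comp_app]
  have w2 : ∀ x, f.app (e.inv.app x) = e'.inv.app (f'.app x) := fun x => by
    rw [← gsl_hom_inv e' (f.app _), ← w1, gsl_inv_hom]
  refine ⟨locMap_app f' _ _, fun c hc => ?_, fun c d hc hd h1 => ?_⟩
  · obtain ⟨d, h1, h2⟩ := h.surj (e'.inv.app c) (by simpa [w1] using hc.map e'.inv)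
    exact ⟨e.hom.app d, h1.map _, by simpa [w1] using h2.map e'.hom⟩
  · simpa using (h.inj (e.inv.app c) (e.inv.app d) (by simpa using hc.map e.inv)
      (by simpa using hd.map e.inv) (by rw [w2, w2]; exact h1.map _)).map e.hom

lemma LB.of_iso_iso {G' H' : GS} (f : G ⟶ H) (f' : G' ⟶ H') (e : G ≅ G') (e' : H ≅ H')
    (w : f ≫ e'.hom = e.hom ≫ f') (a b : G.Cell) :
    LB f a b ↔ LB f' (e.hom.app a) (e.hom.app b) := by
  refine ⟨gsl_lb f f' e e' w a b, fun h => ?_⟩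
  simpa using gsl_lb f' f e.symm e'.symm
    (by rw [Iso.symm_hom, Iso.symm_hom, Iso.comp_inv_eq, Category.assoc, w, e.inv_hom_id_assoc])
    _ _ h

lemma gsl_map (F : ℕ ⥤ GS) {k m n : ℕ} (h : k ≤ m) (h' : m ≤ n) (y : (F.obj k).Cell) :
    (F.map (homOfLE h')).app ((F.map (homOfLE h)).app y) = (F.map (homOfLE (h.trans h'))).app y := by
  rw [← GS.comp_app, ← F.map_comp, homOfLE_comp]

lemma gsl_w {F : ℕ ⥤ GS} (c : Cocone F) {k m : ℕ} (h : k ≤ m) (y : (F.obj k).Cell) :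
    (c.ι.app m).app ((F.map (homOfLE h)).app y) = (c.ι.app k).app y := by
  rw [← GS.comp_app, c.w]

lemma gsl_surj {F : ℕ ⥤ GS} {c : Cocone F} (hc : SeqColim c) (k : ℕ) (x : c.pt.Cell) :
    ∃ (m : ℕ) (_ : k ≤ m) (y : (F.obj m).Cell), (c.ι.app m).app y = x := by
  obtain ⟨m, y, rfl⟩ := hc.surj x
  exact ⟨max k m, le_max_left _ _, _, gsl_w c (le_max_right _ _) y⟩

lemma gsl_inj {F : ℕ ⥤ GS} {c : Cocone F} (hc : SeqColim c) {k : ℕ} {y y' z z' : (F.obj k).Cell}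
    (h : (c.ι.app k).app y = (c.ι.app k).app y') (h' : (c.ι.app k).app z = (c.ι.app k).app z') :
    ∃ (m : ℕ) (hm : k ≤ m), (F.map (homOfLE hm)).app y = (F.map (homOfLE hm)).app y' ∧
      (F.map (homOfLE hm)).app z = (F.map (homOfLE hm)).app z' := by
  obtain ⟨m, hm, h1⟩ := hc.inj k y y' h
  obtain ⟨n, hn, h2⟩ := hc.inj m ((F.map (homOfLE hm)).app z) ((F.map (homOfLE hm)).app z')
    (by rw [gsl_w, gsl_w, h'])
  exact ⟨n, hm.trans hn, by rw [← gsl_map F hm hn, h1, gsl_map], by rwa [gsl_map, gsl_map] at h2⟩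

/-- Finitely many data of a sequential colimit come from a stage: a parallel pair. -/
lemma SeqColim.par {F : ℕ ⥤ GS} {c : Cocone F} (hc : SeqColim c) {a b : c.pt.Cell}
    (h : Par a b) : ∃ k a' b', Par a' b' ∧ (c.ι.app k).app a' = a ∧ (c.ι.app k).app b' = b := by
  obtain ⟨k, a0, rfl⟩ := hc.surj a
  obtain ⟨m, hm, b0, rfl⟩ := gsl_surj hc k b
  rw [← gsl_w c hm] at h ⊢
  generalize (F.map (homOfLE hm)).app a0 = a1 at h ⊢
  obtain ⟨n, hn, h1, h2⟩ := gsl_inj hc (y := sr a1) (y' := sr b0) (z := tg a1) (z' := tg b0)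
    (by rw [← GS.Hom.sr_app, ← GS.Hom.sr_app, h.2.1])
    (by rw [← GS.Hom.tg_app, ← GS.Hom.tg_app, h.2.2])
  exact ⟨n, (F.map (homOfLE hn)).app a1, (F.map (homOfLE hn)).app b0, ⟨by simpa using h.1,
    by rw [GS.Hom.sr_app, GS.Hom.sr_app, h1], by rw [GS.Hom.tg_app, GS.Hom.tg_app, h2]⟩,
    gsl_w c hn _, gsl_w c hn _⟩

/-- A filler in the colimit of a pair of stage `k` comes from a filler at a later stage. -/
lemma SeqColim.arr {F : ℕ ⥤ GS} {c : Cocone F} (hc : SeqColim c) {k : ℕ} {a b : (F.obj k).Cell}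
    {e : c.pt.Cell} (h : Arr e ((c.ι.app k).app a) ((c.ι.app k).app b)) :
    ∃ (m : ℕ) (hm : k ≤ m) (e' : (F.obj m).Cell),
      Arr e' ((F.map (homOfLE hm)).app a) ((F.map (homOfLE hm)).app b) ∧
      (c.ι.app m).app e' = e := by
  obtain ⟨m, hm, e0, rfl⟩ := gsl_surj hc k e
  obtain ⟨n, hn, h1, h2⟩ := gsl_inj hc (y := sr e0) (y' := (F.map (homOfLE hm)).app a)
    (z := tg e0) (z' := (F.map (homOfLE hm)).app b)
    (by rw [← GS.Hom.sr_app, h.1, gsl_w]) (by rw [← GS.Hom.tg_app, h.2.1, gsl_w])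
  exact ⟨n, hm.trans hn, (F.map (homOfLE hn)).app e0, ⟨by rw [GS.Hom.sr_app, h1, gsl_map],
    by rw [GS.Hom.tg_app, h2, gsl_map], by simpa using h.2.2⟩, gsl_w c hn _⟩

lemma SeqColim.weq {F F' : ℕ ⥤ GS} {c : Cocone F} {c' : Cocone F'} (hc : SeqColim c)
    (hc' : SeqColim c') (α : F ⟶ F') (hα : ∀ k, WEq (α.app k)) (f : c.pt ⟶ c'.pt)
    (w : ∀ k, c.ι.app k ≫ f = α.app k ≫ c'.ι.app k) : WEq f := by
  intro a b h e he
  obtain ⟨k, a, b, hab, rfl, rfl⟩ := hc.par h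
  have w1 : ∀ k y, f.app ((c.ι.app k).app y) = (c'.ι.app k).app ((α.app k).app y) := fun k y =>
    congrArg (fun g : F.obj k ⟶ c'.pt => g.app y) (w k)
  rw [w1, w1] at he
  obtain ⟨m, hm, e', h1, rfl⟩ := hc'.arr he
  have w2 : ∀ y, (α.app m).app ((F.map (homOfLE hm)).app y) =
      (F'.map (homOfLE hm)).app ((α.app k).app y) := fun y =>
    congrArg (fun g : F.obj k ⟶ F'.obj m => g.app y) (α.naturality _)
  obtain ⟨d, h2, h3⟩ := hα m _ _ (hab.map (F.map (homOfLE hm))) e' (by rwa [w2, w2])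
  refine ⟨(c.ι.app m).app d, ?_, ?_⟩
  · rw [← gsl_w c hm, ← gsl_w c hm b]
    exact h2.map _
  · rw [w1]
    exact h3.map _

end Vale.Agent.P259
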