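import Vale.Agent.P259.CellTop

/-! P259 task JOBJ: the comparison discs `J n` between `L (Dk n)` and `rep (disc n)`.

Recursion on `n` with the bundle `(dJ, db, da)`, `db ∈ TC`, `da ∈ Wk` (a structure `JB n`; define `next : JB n → JB (n+1)` by choice and
all other fields from it). `n = 0`: `dJ = L (Sp 0)`, `db = 𝟙`, `da` is a map of initial objects (`sph_zero_initial`, `L_initial`).
From the bundle: `P1 = pushout db (L spInc)`, `P2 = pushout (da ≫ inl) bd`, factor `P2 ⟶ ⊤` as `P2 ⟶ J ⟶ ⊤` (`exists_cof_tf`), so `J` is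
contractible (`TrivFib.ctr`). `Jb`: `P1 ⟶ J` is `Cof`, `P1` is cofibrant and contractible (`L (Dk n) ⟶ P1` is `TC`), so `tc_of_cof_wk`, `SqTC.of_tc`.
`Ja`: `P3 = pushout da bd ⟶ P2` is a pushout of `dJ ⟶ P1` (a pushout of `L spInc`, `L_cof`), `rep (disc n) ⟶ P3` is `Wk` by `wk_pushout`. `JM`: `Cof.extend`.
Next bundle: `P4 = pushout inc inc`, `P5 = pushout (L spInc) (L spInc)`, `dJ' = pushout (P5 ⟶ P4) (P5 ⟶ L (Sp (n+1)))`.
`P5 ⟶ P4` is `TC` (`tc_of_lift`: lift on `dJ` by `db`, then on each `J` by `Jb`), so `db'` is `TC`.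
`da' : sph (n+1) ⟶ P4 ⟶ dJ'`: `glue` with `isPushout_sph`, and a pushout of `sph_tc`. -/

noncomputable section
namespace Vale.Agent.P259
open CategoryTheory CategoryTheory.Limits GlobExt Opposite
variable {E : GlobExt}

/-- Comparison discs and spheres. -/
structure JData (L : TopCat.{0} ⥤ Gpd E) where
  J : ℕ → Gpd E
  dJ : ℕ → Gpd E
  b : ∀ n, L.obj (Dk n) ⟶ J n
  db : ∀ n, L.obj (Sp n) ⟶ dJ n
  inc : ∀ n, dJ n ⟶ J n
  h : ∀ n, Bool → (J n ⟶ dJ (n + 1))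
  a : ∀ n, (rep E).obj (disc n) ⟶ J n
  da : ∀ n, sph E n ⟶ dJ n
  db_inc : ∀ n, db n ≫ inc n = L.map (spInc n) ≫ b n
  da_inc : ∀ n, da n ≫ inc n = bd E n ≫ a n
  b_h : ∀ n ε, b n ≫ h n ε = L.map (hemiS n ε) ≫ db (n + 1)
  a_h : ∀ n ε, a n ≫ h n ε = hemiR E n ε ≫ da (n + 1)
  inc_h : ∀ n, inc n ≫ h n false = inc n ≫ h n true
  iso0 : IsIso (db 0)
  univ : ∀ n (M : Gpd E) (j : Bool → (J n ⟶ M)) (l : L.obj (Sp (n + 1)) ⟶ M),
    inc n ≫ j false = inc n ≫ j true → (∀ ε, b n ≫ j ε = L.map (hemiS n ε) ≫ l) →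
    ∃! g : dJ (n + 1) ⟶ M, (∀ ε, h n ε ≫ g = j ε) ∧ db (n + 1) ≫ g = l
  Jb : ∀ n, SqTC (db n) (L.map (spInc n)) (inc n) (b n)
  Ja : ∀ n, SqTC (da n) (bd E n) (inc n) (a n)
  JM : ∀ n (M : Gpd E), MCtr M → ∀ (u : dJ n ⟶ M) (v : L.obj (Dk n) ⟶ M)
    (w : (rep E).obj (disc n) ⟶ M), db n ≫ u = L.map (spInc n) ≫ v → da n ≫ u = bd E n ≫ w →
    ∃ l : J n ⟶ M, inc n ≫ l = u ∧ b n ≫ l = v ∧ a n ≫ l = w

namespace JObj

/-- The sphere data at level `n`. -/
structure JB (L : TopCat.{0} ⥤ Gpd E) (n : ℕ) where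
  dJ : Gpd E
  db : L.obj (Sp n) ⟶ dJ
  da : sph E n ⟶ dJ
  tc : TC E db
  wk : Wk E da

/-- The disc data at level `n`. -/
structure JD {L : TopCat.{0} ⥤ Gpd E} {n : ℕ} (B : JB L n) where
  J : Gpd E
  b : L.obj (Dk n) ⟶ J
  inc : B.dJ ⟶ J
  a : (rep E).obj (disc n) ⟶ J
  db_inc : B.db ≫ inc = L.map (spInc n) ≫ b
  da_inc : B.da ≫ inc = bd E n ≫ a
  Jb : SqTC B.db (L.map (spInc n)) inc b
  Ja : SqTC B.da (bd E n) inc a
  JM : ∀ (M : Gpd E), MCtr M → ∀ (u : B.dJ ⟶ M) (v : L.obj (Dk n) ⟶ M)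
    (w : (rep E).obj (disc n) ⟶ M), B.db ≫ u = L.map (spInc n) ≫ v → B.da ≫ u = bd E n ≫ w →
    ∃ l : J ⟶ M, inc ≫ l = u ∧ b ≫ l = v ∧ a ≫ l = w
  cof : Cof E inc
  ctr : MCtr J

/-- The passage to the next level. -/
structure JN {L : TopCat.{0} ⥤ Gpd E} {n : ℕ} {B : JB L n} (D : JD B) where
  B' : JB L (n + 1)
  h : Bool → (D.J ⟶ B'.dJ)
  b_h : ∀ ε, D.b ≫ h ε = L.map (hemiS n ε) ≫ B'.db
  a_h : ∀ ε, D.a ≫ h ε = hemiR E n ε ≫ B'.da
  inc_h : D.inc ≫ h false = D.inc ≫ h true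
  univ : ∀ (M : Gpd E) (j : Bool → (D.J ⟶ M)) (l : L.obj (Sp (n + 1)) ⟶ M),
    D.inc ≫ j false = D.inc ≫ j true → (∀ ε, D.b ≫ j ε = L.map (hemiS n ε) ≫ l) →
    ∃! g : B'.dJ ⟶ M, (∀ ε, h ε ≫ g = j ε) ∧ B'.db ≫ g = l

variable [Fact E.IsCoherator] (s : ShData E)

omit [Fact E.IsCoherator] in
lemma cof_sp (n : ℕ) : Cof E (s.L.map (spInc n)) :=
  s.L_cof _ (Set.inclusion_injective Metric.sphere_subset_closedBall)

omit [Fact E.IsCoherator] in
lemma JB.cofib {n : ℕ} (B : JB s.L n) : Cofib B.dJ :=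
  (s.L_cofib _).of_cof (TC_le_Cof _ B.tc)

lemma exists_jd {n : ℕ} (B : JB s.L n) : Nonempty (JD B) := by
  have hT := terminalIsTerminal (C := Gpd E)
  have h1 := IsPushout.of_hasPushout B.db (s.L.map (spInc n))
  generalize pushout.inl B.db (s.L.map (spInc n)) = l1 at h1
  generalize pushout.inr B.db (s.L.map (spInc n)) = r1 at h1
  generalize pushout B.db (s.L.map (spInc n)) = P1 at l1 r1 h1
  have h2 := IsPushout.of_hasPushout (B.da ≫ l1) (bd E n)
  generalize pushout.inl (B.da ≫ l1) (bd E n) = l2 at h2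
  generalize pushout.inr (B.da ≫ l1) (bd E n) = r2 at h2
  generalize pushout (B.da ≫ l1) (bd E n) = P2 at l2 r2 h2
  have h3 := IsPushout.of_hasPushout B.da (bd E n)
  generalize pushout.inl B.da (bd E n) = l3 at h3
  generalize pushout.inr B.da (bd E n) = r3 at h3
  generalize pushout B.da (bd E n) = P3 at l3 r3 h3
  obtain ⟨J, i, p, hi, hp, -⟩ := exists_cof_tf (terminal.from P2)
  have hJ : MCtr J := TrivFib.ctr hp ((discsOf (rep E)).terminal_ctr hT)
  have hdJ := B.cofib s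
  have c1 : Cof E l1 := MorphismProperty.of_isPushout h1 (cof_sp s n)
  have c2 : Cof E l2 := MorphismProperty.of_isPushout h2 (cof_bd n)
  have c3 : Cof E l3 := MorphismProperty.of_isPushout h3 (cof_bd n)
  have t1 : TC E r1 := MorphismProperty.of_isPushout h1.flip B.tc
  have hD : ContractibleSpace (Dk n) := inferInstanceAs (ContractibleSpace (Ball n))
  have k1 : MCtr P1 := (t1.wk (s.L_cofib _)).ctr_right (s.L_ctr _) hT
  have k3 : MCtr P3 :=
    (wk_pushout (cofib_sph n) hdJ h3 (cof_bd n) B.wk).ctr_right (rep_ctr _) hT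
  let d3 : P3 ⟶ P2 := h3.desc (l1 ≫ l2) r2 (by rw [← Category.assoc, h2.w])
  have e3 : l3 ≫ d3 = l1 ≫ l2 := h3.inl_desc _ _ _
  have e3' : r3 ≫ d3 = r2 := h3.inr_desc _ _ _
  have h4 : IsPushout l1 l3 l2 d3 := IsPushout.of_left (by rw [e3']; exact h2) e3.symm h3
  have c4 : Cof E d3 := MorphismProperty.of_isPushout h4.flip c1
  refine ⟨{
    J := J
    b := r1 ≫ l2 ≫ i
    inc := l1 ≫ l2 ≫ i
    a := r2 ≫ i
    db_inc := by rw [h1.w_assoc]
    da_inc := by rw [← h2.w_assoc, Category.assoc]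
    Jb := SqTC.of_tc h1 (l2 ≫ i) rfl rfl
      (tc_of_cof_wk (hdJ.of_cof c1) ((Cof E).comp_mem _ _ c2 hi) (wk_of_ctr _ k1 hJ))
    Ja := SqTC.of_tc h3 (d3 ≫ i) (by rw [reassoc_of% e3]) (by rw [reassoc_of% e3'])
      (tc_of_cof_wk (hdJ.of_cof c3) ((Cof E).comp_mem _ _ c4 hi) (wk_of_ctr _ k3 hJ))
    JM := ?_
    cof := (Cof E).comp_mem _ _ c1 ((Cof E).comp_mem _ _ c2 hi)
    ctr := hJ }⟩
  intro M hM u v w hv hw
  obtain ⟨l, hl⟩ := hi.extend hM (h2.desc (h1.desc u v hv) w (by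
    rw [Category.assoc, h1.inl_desc, hw]))
  refine ⟨l, ?_, ?_, ?_⟩
  · rw [Category.assoc, Category.assoc, hl, h2.inl_desc, h1.inl_desc]
  · rw [Category.assoc, Category.assoc, hl, h2.inl_desc, h1.inr_desc]
  · rw [Category.assoc, hl, h2.inr_desc]

lemma exists_jn {n : ℕ} {B : JB s.L n} (D : JD B) : Nonempty (JN D) := by
  have h4 := IsPushout.of_hasPushout D.inc D.inc
  generalize pushout.inl D.inc D.inc = l4 at h4
  generalize pushout.inr D.inc D.inc = r4 at h4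
  generalize pushout D.inc D.inc = P4 at l4 r4 h4
  have h5 := IsPushout.of_hasPushout (s.L.map (spInc n)) (s.L.map (spInc n))
  generalize pushout.inl (s.L.map (spInc n)) (s.L.map (spInc n)) = l5 at h5
  generalize pushout.inr (s.L.map (spInc n)) (s.L.map (spInc n)) = r5 at h5
  generalize pushout (s.L.map (spInc n)) (s.L.map (spInc n)) = P5 at l5 r5 h5
  obtain ⟨e, el, er⟩ : ∃ e : P5 ⟶ P4, l5 ≫ e = D.b ≫ l4 ∧ r5 ≫ e = D.b ≫ r4 :=
    ⟨h5.desc (D.b ≫ l4) (D.b ≫ r4) (by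
      rw [← Category.assoc, ← Category.assoc, ← D.db_inc, Category.assoc, Category.assoc, h4.w]), h5.inl_desc _ _ _,
      h5.inr_desc _ _ _⟩
  obtain ⟨c, cl, cr⟩ : ∃ c : P5 ⟶ s.L.obj (Sp (n + 1)),
      l5 ≫ c = s.L.map (hemiS n false) ∧ r5 ≫ c = s.L.map (hemiS n true) :=
    ⟨h5.desc _ _ (by rw [← s.L.map_comp, ← s.L.map_comp, spInc_hemiS]), h5.inl_desc _ _ _,
      h5.inr_desc _ _ _⟩
  obtain ⟨g, gl, gr⟩ : ∃ g : sph E (n + 1) ⟶ P4,
      hemiR E n false ≫ g = D.a ≫ l4 ∧ hemiR E n true ≫ g = D.a ≫ r4 :=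
    ⟨(isPushout_sph n).desc (D.a ≫ l4) (D.a ≫ r4) (by
      rw [← reassoc_of% D.da_inc, ← reassoc_of% D.da_inc, h4.w]),
      (isPushout_sph n).inl_desc _ _ _, (isPushout_sph n).inr_desc _ _ _⟩
  have h6 := IsPushout.of_hasPushout e c
  generalize pushout.inl e c = l6 at h6
  generalize pushout.inr e c = r6 at h6
  generalize pushout e c = P6 at l6 r6 h6
  have hdJ := B.cofib s
  have hJ : Cofib D.J := hdJ.of_cof D.cof
  have te : TC E e := by
    refine tc_of_lift fun X Y p hp u v w => ?_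
    obtain ⟨k, hk, hk'⟩ := B.tc.lift hp (s.L.map (spInc n) ≫ l5 ≫ u) (D.inc ≫ l4 ≫ v) (by
      rw [Category.assoc, Category.assoc, w, reassoc_of% el, reassoc_of% D.db_inc]
      rfl)
    obtain ⟨x, x1, x2, x3⟩ := D.Jb X Y p hp k (l5 ≫ u) (l4 ≫ v) hk hk' (by
      rw [Category.assoc, w, reassoc_of% el])
    obtain ⟨y, y1, y2, y3⟩ := D.Jb X Y p hp k (r5 ≫ u) (r4 ≫ v) (by rw [hk, h5.w_assoc])
      (by rw [hk', h4.w_assoc]) (by rw [Category.assoc, w, reassoc_of% er])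
    refine ⟨h4.desc x y (x1.trans y1.symm), h5.hom_ext ?_ ?_, h4.hom_ext ?_ ?_⟩
    · rw [reassoc_of% el, h4.inl_desc, x2]
    · rw [reassoc_of% er, h4.inr_desc, y2]
    · rw [h4.inl_desc_assoc, x3]
    · rw [h4.inr_desc_assoc, y3]
  have wa : Wk E D.a := wk_of_ctr _ (rep_ctr _) D.ctr
  have wg : Wk E g := glue (cofib_sph n) (cofib_rep _) hdJ hJ (isPushout_sph n) h4 (cof_bd n)
    D.cof B.wk wa wa D.da_inc.symm D.da_inc.symm gl gr
  have t6 : TC E l6 := MorphismProperty.of_isPushout h6 (sph_tc s n h5 cl cr)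
  have c4 : Cof E l4 := MorphismProperty.of_isPushout h4 D.cof
  refine ⟨{
    B' :=
      { dJ := P6
        db := r6
        da := g ≫ l6
        tc := MorphismProperty.of_isPushout h6.flip te
        wk := (Wk E).comp_mem _ _ wg (t6.wk (hJ.of_cof c4)) }
    h := fun ε => (bif ε then r4 else l4) ≫ l6
    b_h := ?_
    a_h := ?_
    inc_h := h4.w_assoc l6
    univ := ?_ }⟩
  · rintro (_ | _)
    · change D.b ≫ l4 ≫ l6 = _ ≫ r6
      rw [← reassoc_of% el, h6.w, ← Category.assoc, cl]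
    · change D.b ≫ r4 ≫ l6 = _ ≫ r6
      rw [← reassoc_of% er, h6.w, ← Category.assoc, cr]
  · rintro (_ | _)
    · change D.a ≫ l4 ≫ l6 = _ ≫ g ≫ l6
      rw [reassoc_of% gl]
    · change D.a ≫ r4 ≫ l6 = _ ≫ g ≫ l6
      rw [reassoc_of% gr]
  · intro M j l hj hb
    have w : e ≫ h4.desc (j false) (j true) hj = c ≫ l := by
      refine h5.hom_ext ?_ ?_
      · rw [reassoc_of% el, h4.inl_desc, ← Category.assoc, cl, hb]
      · rw [reassoc_of% er, h4.inr_desc, ← Category.assoc, cr, hb]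
    refine ⟨h6.desc _ l w, ⟨?_, h6.inr_desc _ _ _⟩, fun g' hg' => h6.hom_ext ?_ ?_⟩
    · rintro (_ | _)
      · change (l4 ≫ l6) ≫ _ = _
        rw [Category.assoc, h6.inl_desc, h4.inl_desc]
      · change (r4 ≫ l6) ≫ _ = _
        rw [Category.assoc, h6.inl_desc, h4.inr_desc]
    · rw [h6.inl_desc]
      refine h4.hom_ext ?_ ?_
      · rw [h4.inl_desc, ← Category.assoc]
        exact hg'.1 false
      · rw [h4.inr_desc, ← Category.assoc]
        exact hg'.1 true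
    · rw [h6.inr_desc]
      exact hg'.2

instance : IsEmpty (Sp 0) := ⟨fun x => by
  have h : ‖x.1‖ = 1 := mem_sphere_zero_iff_norm.1 x.2
  rw [Subsingleton.elim x.1 0, norm_zero] at h
  exact zero_ne_one h⟩

/-- The bundle at level zero. -/
def bun0 : JB s.L 0 where
  dJ := s.L.obj (Sp 0)
  db := 𝟙 _
  da := (Classical.choice sph_zero_initial).to _
  tc := (TC E).id_mem _
  wk := by
    have h := Classical.choice (s.L_initial (Sp 0))
    have := isIso_of_isInitial (Classical.choice (sph_zero_initial (E := E))) h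
      ((Classical.choice sph_zero_initial).to _)
    exact wk_of_isIso _

/-- A choice of disc data. -/
def dsc' {n : ℕ} (B : JB s.L n) : JD B := Classical.choice (exists_jd s B)

/-- A choice of the next level. -/
def nxt {n : ℕ} (B : JB s.L n) : JN (dsc' s B) := Classical.choice (exists_jn s _)

/-- The bundles. -/
def bun : ∀ n, JB s.L n
  | 0 => bun0 s
  | n + 1 => (nxt s (bun n)).B'

/-- The discs. -/
abbrev dsc (n : ℕ) : JD (bun s n) := dsc' s (bun s n)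

end JObj

theorem exists_jData [Fact E.IsCoherator] (s : ShData E) : Nonempty (JData s.L) := by
  exact ⟨{
    J := fun n => (JObj.dsc s n).J
    dJ := fun n => (JObj.bun s n).dJ
    b := fun n => (JObj.dsc s n).b
    db := fun n => (JObj.bun s n).db
    inc := fun n => (JObj.dsc s n).inc
    h := fun n => (JObj.nxt s (JObj.bun s n)).h
    a := fun n => (JObj.dsc s n).a
    da := fun n => (JObj.bun s n).da
    db_inc := fun n => (JObj.dsc s n).db_inc
    da_inc := fun n => (JObj.dsc s n).da_inc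
    b_h := fun n => (JObj.nxt s (JObj.bun s n)).b_h
    a_h := fun n => (JObj.nxt s (JObj.bun s n)).a_h
    inc_h := fun n => (JObj.nxt s (JObj.bun s n)).inc_h
    iso0 := (inferInstance : IsIso (𝟙 (s.L.obj (Sp 0))))
    univ := fun n => (JObj.nxt s (JObj.bun s n)).univ
    Jb := fun n => (JObj.dsc s n).Jb
    Ja := fun n => (JObj.dsc s n).Ja
    JM := fun n => (JObj.dsc s n).JM }⟩

end Vale.Agent.P259
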