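import Vale.Agent.P259.DiscF
import Vale.Agent.P259.Weq

/-! P259 task PITOP: `Pi f` is a weak equivalence iff `f` is a weak homotopy equivalence.

`con_iff_homotopicRel`: the map `q : I × Ball m → Ball (m+1)`, `(t, x) ↦ (x, (2t - 1) √(1 - ‖x‖²))` is a continuous
surjection from a compact space to a Hausdorff space, hence a quotient map, and identifies exactly
`(t, x) ~ (t', x)` for `‖x‖ = 1`. `exists_cube_ball`: `exists_homeomorph_image_interior_closure_frontier_eq_unitBall`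
(Mathlib/Analysis/Convex/GaugeRescale.lean) for the cube `{x | ∀ i, x i ∈ Icc 0 1}` in `EuclideanSpace ℝ (Fin m)`, or by hand
`x ↦ (‖x‖_∞ / ‖x‖_2) x`. Cells `cst n x → cst n x` are the maps `Ball (n+1) → T` sending the sphere to `x`
(the hemispheres cover the sphere, `isPushout_sp` or directly), i.e. `GenLoop (Fin (n+1)) T x`.
`wk_pi_iff`: `LB.of_iso_iso` with `d.e`, `wk_of_lb`, `Wk.lb`; every cell of `dim 1` is `cst 0 x`, `src 1 (cst m x) = cst 0 x`. -/

noncomputable section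
namespace Vale.Agent.P259
open CategoryTheory CategoryTheory.Limits GlobExt Opposite

/-- The constant cell. -/
def cst {T : TopCat.{0}} (n : ℕ) (x : T) : (Sg.obj T).Cell :=
  discs.cell (n := n) (TopCat.ofHom (ContinuousMap.const (Ball n) x))

lemma pt_norm_snoc {m : ℕ} (x : EuclideanSpace ℝ (Fin m)) (a : ℝ) :
    ‖(WithLp.toLp 2 (Fin.snoc (α := fun _ => ℝ) x.ofLp a) : EuclideanSpace ℝ (Fin (m + 1)))‖ ^ 2
      = ‖x‖ ^ 2 + a ^ 2 := by
  rw [EuclideanSpace.real_norm_sq_eq, EuclideanSpace.real_norm_sq_eq, Fin.sum_univ_castSucc]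
  simp

/-- The point of height `s` over `x`. -/
def ptv {m : ℕ} (s : ℝ) (x : EuclideanSpace ℝ (Fin m)) : EuclideanSpace ℝ (Fin (m + 1)) :=
  WithLp.toLp 2 (Fin.snoc (α := fun _ => ℝ) x.ofLp (s * √(1 - ‖x‖ ^ 2)))

lemma ptv_castSucc {m : ℕ} (s : ℝ) (x : EuclideanSpace ℝ (Fin m)) (i : Fin m) :
    ptv s x i.castSucc = x i := by simp [ptv]

lemma ptv_last {m : ℕ} (s : ℝ) (x : EuclideanSpace ℝ (Fin m)) :
    ptv s x (Fin.last m) = s * √(1 - ‖x‖ ^ 2) := by simp [ptv]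

lemma ptv_norm {m : ℕ} {s : ℝ} (hs : s ^ 2 ≤ 1) {x : EuclideanSpace ℝ (Fin m)} (hx : ‖x‖ ≤ 1) :
    ‖ptv s x‖ ≤ 1 := by
  have h1 : 0 ≤ 1 - ‖x‖ ^ 2 := by nlinarith [norm_nonneg x]
  have h2 : ‖ptv s x‖ ^ 2 ≤ 1 := by
    rw [ptv, pt_norm_snoc, mul_pow, Real.sq_sqrt h1]
    nlinarith
  nlinarith [norm_nonneg (ptv s x)]

lemma ptv_continuous {m : ℕ} :
    Continuous fun p : ℝ × EuclideanSpace ℝ (Fin m) => ptv p.1 p.2 := by
  refine (PiLp.continuous_toLp 2 _).comp (continuous_pi fun i => ?_)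
  refine Fin.lastCases ?_ (fun j => ?_) i
  · simp only [Fin.snoc_last]
    fun_prop
  · simp only [Fin.snoc_castSucc]
    fun_prop

lemma ptv_surj {m : ℕ} (y : EuclideanSpace ℝ (Fin (m + 1))) (hy : ‖y‖ ≤ 1) :
    ∃ (s : ℝ) (x : EuclideanSpace ℝ (Fin m)), s ^ 2 ≤ 1 ∧ ‖x‖ ≤ 1 ∧ ptv s x = y ∧
      (‖y‖ = 1 → ∃ ε, up ε x = y) := by
  set x : EuclideanSpace ℝ (Fin m) := WithLp.toLp 2 (Fin.init y.ofLp) with hx
  set a : ℝ := y (Fin.last m) with ha
  have hxy : ∀ b : ℝ, b = a →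
      (WithLp.toLp 2 (Fin.snoc (α := fun _ => ℝ) x.ofLp b) : EuclideanSpace ℝ (Fin (m + 1))) = y := by
    rintro b rfl
    have : Fin.snoc (α := fun _ => ℝ) x.ofLp a = y.ofLp := Fin.snoc_init_self y.ofLp
    rw [this]
  have hn : ‖y‖ ^ 2 = ‖x‖ ^ 2 + a ^ 2 := by rw [← pt_norm_snoc, hxy a rfl]
  have hy2 : ‖y‖ ^ 2 ≤ 1 := by nlinarith [norm_nonneg y]
  have h1 : 0 ≤ 1 - ‖x‖ ^ 2 := by nlinarith [sq_nonneg a]
  have hr : √(1 - ‖x‖ ^ 2) ^ 2 = 1 - ‖x‖ ^ 2 := Real.sq_sqrt h1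
  refine ⟨a / √(1 - ‖x‖ ^ 2), x, ?_, by nlinarith [norm_nonneg x, sq_nonneg a], ?_, fun h => ?_⟩
  · rw [div_pow, hr]
    exact div_le_one_of_le₀ (by linarith) h1
  · refine hxy _ ?_
    by_cases h0 : √(1 - ‖x‖ ^ 2) = 0
    · rw [h0] at hr ⊢
      have : a ^ 2 = 0 := by nlinarith [sq_nonneg a]
      rw [mul_zero, pow_eq_zero_iff two_ne_zero |>.1 this]
    · exact div_mul_cancel₀ _ h0
  · have h2 : a ^ 2 = √(1 - ‖x‖ ^ 2) ^ 2 := by rw [hr]; rw [h] at hn; linarith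
    rcases sq_eq_sq_iff_eq_or_eq_neg.1 h2 with h3 | h3
    · exact ⟨true, hxy _ (by simp [h3])⟩
    · exact ⟨false, hxy _ (by simp [h3])⟩

lemma pt_sq (t : unitInterval) : (2 * (t : ℝ) - 1) ^ 2 ≤ 1 := by
  nlinarith [t.2.1, t.2.2]

/-- The quotient map from the cylinder to the ball. -/
def ptq (m : ℕ) : C(unitInterval × Ball m, Ball (m + 1)) :=
  ⟨fun p => ⟨ptv (2 * (p.1 : ℝ) - 1) p.2.1,
      mem_closedBall_zero_iff.2 (ptv_norm (pt_sq _) (mem_closedBall_zero_iff.1 p.2.2))⟩,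
    (ptv_continuous.comp (f := fun p : unitInterval × Ball m => (2 * (p.1 : ℝ) - 1, p.2.1))
      (by fun_prop)).subtype_mk _⟩

lemma ptq_zero {m : ℕ} (x : Ball m) : ptq m (0, x) = discs.σ m x := by
  apply Subtype.ext
  change ptv _ _ = up false x.1
  simp [ptv, up]

lemma ptq_one {m : ℕ} (x : Ball m) : ptq m (1, x) = discs.τ m x := by
  apply Subtype.ext
  change ptv _ _ = up true x.1
  have : (2 : ℝ) - 1 = 1 := by norm_num
  simp [ptv, up, this]

lemma ptq_rel {m : ℕ} (t t' : unitInterval) (x : Ball m) (hx : ‖x.1‖ = 1) :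
    ptq m (t, x) = ptq m (t', x) := by
  apply Subtype.ext
  change ptv _ x.1 = ptv _ x.1
  simp [ptv, hx]

lemma ptq_surj (m : ℕ) : Function.Surjective (ptq m) := by
  intro y
  obtain ⟨s, x, hs, hx, h, -⟩ := ptv_surj y.1 (mem_closedBall_zero_iff.1 y.2)
  refine ⟨(⟨(s + 1) / 2, by nlinarith, by nlinarith⟩, ⟨x, mem_closedBall_zero_iff.2 hx⟩), ?_⟩
  apply Subtype.ext
  change ptv (2 * ((s + 1) / 2) - 1) x = y.1
  rw [← h]
  congr 1
  ring

lemma ptq_inj {m : ℕ} {p p' : unitInterval × Ball m} (h : ptq m p = ptq m p') :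
    p.2 = p'.2 ∧ (p.1 = p'.1 ∨ ‖p.2.1‖ = 1) := by
  have h1 : ptv (2 * (p.1 : ℝ) - 1) p.2.1 = ptv (2 * (p'.1 : ℝ) - 1) p'.2.1 :=
    congrArg Subtype.val h
  have h2 : p.2 = p'.2 := by
    apply Subtype.ext
    ext i
    rw [← ptv_castSucc (2 * (p.1 : ℝ) - 1) p.2.1 i, h1, ptv_castSucc]
  refine ⟨h2, ?_⟩
  have h3 := ptv_last (2 * (p.1 : ℝ) - 1) p.2.1
  rw [h1, ptv_last, ← h2] at h3
  rcases mul_eq_mul_right_iff.1 h3 with h4 | h4
  · left
    apply Subtype.ext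
    linarith
  · right
    have h5 := Real.sqrt_eq_zero'.1 h4
    have h6 := mem_closedBall_zero_iff.1 p.2.2
    nlinarith [norm_nonneg p.2.1]

lemma ptq_quot (m : ℕ) : Topology.IsQuotientMap (ptq m) :=
  (ptq m).continuous.isClosedMap.isQuotientMap (ptq m).continuous (ptq_surj m)

lemma con_iff_homotopicRel {T : TopCat.{0}} {m : ℕ} (c c' : Dk m ⟶ T) :
    Con (discs.cell (n := m) c) (discs.cell (n := m) c') ↔
      c.hom.HomotopicRel c'.hom {x : Ball m | ‖x.1‖ = 1} := by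
  constructor
  · rintro ⟨e, he⟩
    obtain ⟨e, rfl⟩ := discs.exists_cell (n := m + 1) e he.2.2
    obtain ⟨rfl, rfl⟩ := (discs.arr_cell_iff _ _ _).1 he
    refine ⟨⟨⟨e.hom.comp (ptq m), fun x => ?_, fun x => ?_⟩, fun t x hx => ?_⟩⟩
    · exact congrArg e.hom (ptq_zero x)
    · exact congrArg e.hom (ptq_one x)
    · exact congrArg e.hom ((ptq_rel t 0 x hx).trans (ptq_zero x))
  · rintro ⟨H⟩
    have hf : Function.FactorsThrough H.toHomotopy.toContinuousMap (ptq m) := by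
      rintro ⟨t, x⟩ ⟨t', x'⟩ h
      obtain ⟨h1, h2⟩ := ptq_inj h
      dsimp only at h1 h2
      subst h1
      rcases h2 with rfl | h2
      · rfl
      · exact (H.eq_fst t h2).trans (H.eq_fst t' h2).symm
    let e : Dk (m + 1) ⟶ T := TopCat.ofHom ((ptq_quot m).lift _ hf)
    have he : ∀ p, e (ptq m p) = H p := fun p =>
      congrArg (fun g : C(unitInterval × Ball m, T) => g p) ((ptq_quot m).lift_comp _ hf)
    refine ⟨discs.cell (n := m + 1) e, (discs.arr_cell_iff _ _ _).2 ⟨?_, ?_⟩⟩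
    · ext x
      exact ((congrArg e (ptq_zero x)).symm.trans (he _)).trans (H.apply_zero x)
    · ext x
      exact ((congrArg e (ptq_one x)).symm.trans (he _)).trans (H.apply_one x)

lemma exists_cube_ball (m : ℕ) : ∃ e : (Fin m → unitInterval) ≃ₜ Ball m,
    ∀ y, y ∈ Cube.boundary (Fin m) ↔ ‖(e y).1‖ = 1 := by
  let φ : EuclideanSpace ℝ (Fin m) ≃L[ℝ] (Fin m → ℝ) := EuclideanSpace.equiv (Fin m) ℝ
  let s : Set (EuclideanSpace ℝ (Fin m)) := φ ⁻¹' Set.pi Set.univ fun _ => Set.Icc (0 : ℝ) 1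
  have hi : interior s = φ ⁻¹' Set.pi Set.univ fun _ => Set.Ioo (0 : ℝ) 1 := by
    have := φ.toHomeomorph.preimage_interior (Set.pi Set.univ fun _ => Set.Icc (0 : ℝ) 1)
    rw [interior_pi_set Set.finite_univ] at this
    simp only [interior_Icc] at this
    exact this.symm
  have hk : IsCompact s :=
    φ.toHomeomorph.isCompact_preimage.2 (isCompact_univ_pi fun _ => isCompact_Icc)
  have hc : Convex ℝ s :=
    (convex_pi fun _ _ => convex_Icc (0 : ℝ) 1).linear_preimage φ.toLinearMap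
  have hne : (interior s).Nonempty := by
    refine ⟨φ.symm fun _ => 1 / 2, ?_⟩
    rw [hi, Set.mem_preimage, φ.apply_symm_apply]
    intro i _
    constructor <;> norm_num
  obtain ⟨h, h1, h2, -⟩ :=
    exists_homeomorph_image_interior_closure_frontier_eq_unitBall hc hne hk.isBounded
  rw [hk.isClosed.closure_eq] at h2
  have a1 : ∀ x, h x ∈ Metric.ball (0 : EuclideanSpace ℝ (Fin m)) 1 ↔ x ∈ interior s := fun x => by
    rw [← h1, h.injective.mem_set_image]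
  have a2 : ∀ x, h x ∈ Metric.closedBall (0 : EuclideanSpace ℝ (Fin m)) 1 ↔ x ∈ s := fun x => by
    rw [← h2, h.injective.mem_set_image]
  have b1 : ∀ y : Fin m → unitInterval, φ.symm (fun i => (y i : ℝ)) ∈ s := fun y => by
    change φ (φ.symm _) ∈ Set.pi _ _
    rw [φ.apply_symm_apply]
    exact fun i _ => (y i).2
  have b2 : ∀ z : Ball m, h.symm z.1 ∈ s := fun z => by
    rw [← a2, h.apply_symm_apply]
    exact z.2
  refine ⟨⟨⟨fun y => ⟨h (φ.symm fun i => (y i : ℝ)), (a2 _).2 (b1 y)⟩,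
    fun z i => ⟨φ (h.symm z.1) i, b2 z i trivial⟩, fun y => ?_, fun z => ?_⟩, ?_, ?_⟩, fun y => ?_⟩
  · ext i
    simp
  · apply Subtype.ext
    change h (φ.symm (φ (h.symm z.1))) = z.1
    simp
  · exact Continuous.subtype_mk (by fun_prop) _
  · exact continuous_pi fun i => Continuous.subtype_mk (by fun_prop) _
  · change _ ↔ ‖h (φ.symm fun i => (y i : ℝ))‖ = 1
    have c1 := mem_closedBall_zero_iff.1 ((a2 _).2 (b1 y))
    have c2 := a1 (φ.symm fun i => (y i : ℝ))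
    rw [mem_ball_zero_iff, hi, Set.mem_preimage, φ.apply_symm_apply] at c2
    constructor
    · rintro ⟨i, hy⟩
      refine le_antisymm c1 (not_lt.1 fun h3 => ?_)
      have h4 := c2.1 h3 i trivial
      rcases hy with hy | hy <;> simp [hy] at h4
    · intro h3
      by_contra h4
      refine (c2.2 fun i _ => ⟨?_, ?_⟩).ne h3
      · exact lt_of_le_of_ne (y i).2.1 fun h5 => h4 ⟨i, Or.inl (Subtype.ext h5.symm)⟩
      · exact lt_of_le_of_ne (y i).2.2 fun h5 => h4 ⟨i, Or.inr (Subtype.ext h5)⟩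

lemma pt_bij {G H : GS} (φ : G ⟶ H) (a b : G.Cell) {A B : Type} {sA : Setoid A} {sB : Setoid B}
    (iA : A → G.Cell) (iB : B → H.Cell) (g : A → B) (hg : ∀ ⦃p q⦄, sA.r p q → sB.r (g p) (g q))
    (hA : ∀ c, Arr c a b ↔ ∃ p, iA p = c)
    (hB : ∀ c, Arr c (φ.app a) (φ.app b) ↔ ∃ p, iB p = c)
    (cA : ∀ p q, Con (iA p) (iA q) ↔ sA.r p q) (cB : ∀ p q, Con (iB p) (iB q) ↔ sB.r p q)
    (comm : ∀ p, φ.app (iA p) = iB (g p)) :
    LB φ a b ↔ Function.Bijective (Quotient.map (sa := sA) (sb := sB) g hg) := by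
  constructor
  · intro h
    constructor
    · intro p q
      induction p using Quotient.inductionOn with | _ p => ?_
      induction q using Quotient.inductionOn with | _ q => ?_
      intro h1
      refine Quotient.sound ((cA p q).1 (h.inj _ _ ((hA _).2 ⟨p, rfl⟩) ((hA _).2 ⟨q, rfl⟩) ?_))
      rw [comm, comm]
      exact (cB _ _).2 (Quotient.exact h1)
    · intro q
      induction q using Quotient.inductionOn with | _ q => ?_
      obtain ⟨c, h1, h2⟩ := h.surj (iB q) ((hB _).2 ⟨q, rfl⟩)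
      obtain ⟨p, rfl⟩ := (hA c).1 h1
      rw [comm] at h2
      exact ⟨Quotient.mk _ p, Quotient.sound ((cB _ _).1 h2)⟩
  · intro h
    refine ⟨locMap_app φ a b, fun c hc => ?_, fun c d hc hd h1 => ?_⟩
    · obtain ⟨q, rfl⟩ := (hB c).1 hc
      obtain ⟨p, hp⟩ := h.2 (Quotient.mk _ q)
      induction p using Quotient.inductionOn with | _ p => ?_
      refine ⟨iA p, (hA _).2 ⟨p, rfl⟩, ?_⟩
      rw [comm]
      exact (cB _ _).2 (Quotient.exact hp)
    · obtain ⟨p, rfl⟩ := (hA c).1 hc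
      obtain ⟨q, rfl⟩ := (hA d).1 hd
      rw [comm, comm] at h1
      exact (cA _ _).2 (Quotient.exact
        (h.1 (a₁ := Quotient.mk _ p) (a₂ := Quotient.mk _ q) (Quotient.sound ((cB _ _).1 h1))))

lemma pt_dim_one {T : TopCat.{0}} (c : (Sg.obj T).Cell) : dim c = 1 ↔ ∃ x, cst 0 x = c := by
  constructor
  · intro h
    obtain ⟨c, rfl⟩ := discs.exists_cell (n := 0) c h
    refine ⟨c ⟨0, Metric.mem_closedBall_self zero_le_one⟩, congrArg discs.cell ?_⟩
    ext y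
    exact congrArg c (Subtype.ext (Subsingleton.elim _ _))
  · rintro ⟨x, rfl⟩
    rfl

lemma pt_con_zero {T : TopCat.{0}} (x y : T) : Con (cst 0 x) (cst 0 y) ↔ Joined x y := by
  refine (con_iff_homotopicRel _ _).trans ⟨?_, ?_⟩
  · rintro ⟨H⟩
    exact ⟨H.toHomotopy.evalAt ⟨0, Metric.mem_closedBall_self zero_le_one⟩⟩
  · rintro ⟨p⟩
    refine ⟨⟨⟨⟨fun z => p z.1, by fun_prop⟩, fun _ => p.source, fun _ => p.target⟩,
      fun t z hz => ?_⟩⟩
    have h1 : z.1 = 0 := Subsingleton.elim _ _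
    have h2 : ‖z.1‖ = 1 := hz
    simp [h1] at h2

lemma lb_bot_iff {T T' : TopCat.{0}} (f : T ⟶ T') :
    LB (Sg.map f) (Sg.obj T).bot (Sg.obj T).bot ↔ Function.Bijective (zeroMap f.hom) :=
  pt_bij (Sg.map f) _ _ (sA := pathSetoid T) (sB := pathSetoid T') (cst 0) (cst 0) f.hom _
    (fun c => arr_bot_iff.trans (pt_dim_one c))
    (fun c => by rw [app_bot]; exact arr_bot_iff.trans (pt_dim_one c))
    pt_con_zero pt_con_zero (fun _ => rfl)

lemma pt_precomp {X Y Z : Type} [TopologicalSpace X] [TopologicalSpace Y] [TopologicalSpace Z]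
    {f₀ f₁ : C(X, Y)} {S : Set X} (h : f₀.HomotopicRel f₁ S) (g : C(Z, X)) {S' : Set Z}
    (hS : ∀ z ∈ S', g z ∈ S) : (f₀.comp g).HomotopicRel (f₁.comp g) S' := by
  obtain ⟨H⟩ := h
  exact ⟨⟨⟨⟨fun z => H (z.1, g z.2), by fun_prop⟩, fun _ => H.apply_zero _, fun _ => H.apply_one _⟩,
    fun t z hz => H.eq_fst t (hS z hz)⟩⟩

/-- The cell of a cubical loop. -/
def ptLoop {m : ℕ} (e : (Fin m → unitInterval) ≃ₜ Ball m) {T : TopCat.{0}} (x : T)
    (p : GenLoop (Fin m) T x) : (Sg.obj T).Cell :=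
  discs.cell (n := m) (TopCat.ofHom (p.1.comp ⟨e.symm, e.symm.continuous⟩))

lemma pt_arr_loop {n : ℕ} {e : (Fin (n + 1) → unitInterval) ≃ₜ Ball (n + 1)}
    (he : ∀ y, y ∈ Cube.boundary (Fin (n + 1)) ↔ ‖(e y).1‖ = 1) {T : TopCat.{0}} (x : T)
    (c : (Sg.obj T).Cell) : Arr c (cst n x) (cst n x) ↔ ∃ p, ptLoop e x p = c := by
  constructor
  · intro h
    obtain ⟨c, rfl⟩ := discs.exists_cell (n := n + 1) c h.2.2
    obtain ⟨h1, h2⟩ := (discs.arr_cell_iff _ _ _).1 h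
    refine ⟨⟨c.hom.comp ⟨e, e.continuous⟩, fun y hy => ?_⟩, congrArg discs.cell ?_⟩
    · obtain ⟨-, z, -, hz, -, h3⟩ := ptv_surj (e y).1 (mem_closedBall_zero_iff.1 (e y).2)
      obtain ⟨_ | _, h4⟩ := h3 ((he y).1 hy)
      · exact (congrArg c (Subtype.ext h4.symm)).trans
          (congrArg (fun g : Dk n ⟶ T => g ⟨z, mem_closedBall_zero_iff.2 hz⟩) h1)
      · exact (congrArg c (Subtype.ext h4.symm)).trans
          (congrArg (fun g : Dk n ⟶ T => g ⟨z, mem_closedBall_zero_iff.2 hz⟩) h2)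
    · ext y
      exact congrArg c (e.apply_symm_apply y)
  · rintro ⟨p, rfl⟩
    refine (discs.arr_cell_iff _ _ _).2 ⟨?_, ?_⟩
    · ext y
      refine p.2 _ ((he _).2 ?_)
      exact (congrArg (fun z : Ball (n + 1) => ‖z.1‖) (e.apply_symm_apply _)).trans
        (norm_up false y.1 (mem_closedBall_zero_iff.1 y.2))
    · ext y
      refine p.2 _ ((he _).2 ?_)
      exact (congrArg (fun z : Ball (n + 1) => ‖z.1‖) (e.apply_symm_apply _)).trans
        (norm_up true y.1 (mem_closedBall_zero_iff.1 y.2))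

lemma pt_con_loop {m : ℕ} {e : (Fin m → unitInterval) ≃ₜ Ball m}
    (he : ∀ y, y ∈ Cube.boundary (Fin m) ↔ ‖(e y).1‖ = 1) {T : TopCat.{0}} (x : T)
    (p q : GenLoop (Fin m) T x) : Con (ptLoop e x p) (ptLoop e x q) ↔ GenLoop.Homotopic p q := by
  refine (con_iff_homotopicRel _ _).trans ⟨fun h => ?_, fun h => ?_⟩
  · have h1 := pt_precomp h ⟨e, e.continuous⟩ (S' := Cube.boundary (Fin m)) fun z hz => (he z).1 hz
    have h2 : ∀ r : GenLoop (Fin m) T x,
        (r.1.comp ⟨e.symm, e.symm.continuous⟩).comp ⟨e, e.continuous⟩ = r.1 := fun r => by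
      ext y
      exact congrArg r.1 (e.symm_apply_apply y)
    have h3 : ((p.1.comp ⟨e.symm, e.symm.continuous⟩).comp ⟨e, e.continuous⟩).HomotopicRel
        ((q.1.comp ⟨e.symm, e.symm.continuous⟩).comp ⟨e, e.continuous⟩) (Cube.boundary (Fin m)) := h1
    rw [h2, h2] at h3
    exact h3
  · refine pt_precomp h ⟨e.symm, e.symm.continuous⟩ fun z hz => (he _).2 ?_
    exact (congrArg (fun z : Ball m => ‖z.1‖) (e.apply_symm_apply _)).trans hz

lemma lb_cst_iff {T T' : TopCat.{0}} (f : T ⟶ T') (x : T) (n : ℕ) :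
    LB (Sg.map f) (cst n x) (cst n x) ↔ Function.Bijective (piMap f.hom x (n + 1)) := by
  obtain ⟨e, he⟩ := exists_cube_ball (n + 1)
  exact pt_bij (Sg.map f) _ _ (sA := GenLoop.Homotopic.setoid (Fin (n + 1)) x)
    (sB := GenLoop.Homotopic.setoid (Fin (n + 1)) (f.hom x)) (ptLoop e x) (ptLoop e (f.hom x))
    (fun p => ⟨f.hom.comp p.1, fun y hy => congrArg f.hom (p.2 y hy)⟩) _
    (pt_arr_loop he x) (pt_arr_loop he (f.hom x)) (pt_con_loop he x) (pt_con_loop he (f.hom x))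
    (fun _ => rfl)

lemma pt_src_cst {T : TopCat.{0}} (x : T) : ∀ m, src 1 (cst m x) = cst 0 x
  | 0 => src_of_le le_rfl
  | m + 1 => by
    rw [← src_sr (Nat.lt_succ_of_le (Nat.le_add_left 1 m))]
    exact pt_src_cst x m

theorem wk_pi_iff {E : GlobExt} [Fact E.IsCoherator] (d : DiscData E) {T T' : TopCat.{0}}
    (f : T ⟶ T') : Wk E (d.Pi.map f) ↔
      Function.Bijective (zeroMap f.hom) ∧ ∀ x n, Function.Bijective (piMap f.hom x (n + 1)) := by
  let e : (U E).obj (d.Pi.obj T) ≅ Sg.obj T := d.e.app T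
  let e' : (U E).obj (d.Pi.obj T') ≅ Sg.obj T' := d.e.app T'
  have key := LB.of_iso_iso ((U E).map (d.Pi.map f)) (Sg.map f) e e' (d.e.hom.naturality f)
  have key' : ∀ u, LB ((U E).map (d.Pi.map f)) (e.inv.app u) (e.inv.app u) ↔ LB (Sg.map f) u u :=
    fun u => by rw [key, gsl_inv_hom]
  constructor
  · intro h
    exact ⟨(lb_bot_iff f).1 ((key' _).1 (h.lb (Par.refl _))),
      fun x n => (lb_cst_iff f x n).1 ((key' _).1 (h.lb (Par.refl _)))⟩
  · rintro ⟨h0, h1⟩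
    refine wk_of_lb _ ?_ fun x hx m => ?_
    · have := (key' _).2 ((lb_bot_iff f).2 h0)
      rwa [app_bot] at this
    · obtain ⟨y, hy⟩ := (pt_dim_one (e.hom.app x)).1 (by simpa using hx)
      refine ⟨e.inv.app (cst m y), by rw [GS.Hom.dim_app]; rfl, ?_,
        (key' _).2 ((lb_cst_iff f y m).2 (h1 y m))⟩
      rw [← app_src, pt_src_cst, hy, gsl_hom_inv]
      exact (gpdLike _).refl x hx.ge

end Vale.Agent.P259
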