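import Vale.Agent.P259.Weq

/-! P259 task WBRIDGE: the weak equivalences of the statement are `Wk`.

An element `c : Cell X n` is the cell `ofEl c := cell (repEquiv.symm c)` of `dim n + 1`; every cell of
positive `dim` is of this form, injectively; `Arrow' c x y ↔ Arr (ofEl c) (ofEl x) (ofEl y)`
(`arr_cell_iff`, `repEquiv_map`), `ofEl (cellMap f c) = cm f (ofEl c)`. The relations defining
`pi0`, `piSucc` are `Con`, an equivalence relation (`gpdLike`), so `Quot.mk a = Quot.mk b ↔ Con`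
(`Equivalence.eqvGen_iff`, `Quot.eqvGen_exact`), and bijectivity of `pi0Map f` is `LB f bot bot`,
bijectivity of `piSuccMap k f x n` is `LB f u u` for `u = ofEl (one k x n)` (`cellMap_one`), which has
`dim u = n + 1` and `src 1 u = ofEl x` (`k.lift`). Conclude with `wk_of_lb` and `Wk.lb`. -/

noncomputable section
namespace Vale.Agent.P259
open CategoryTheory CategoryTheory.Limits GlobExt Opposite

lemma wb_quot {G : GS} (hG : GpdLike G) {α : Type} (i : α → G.Cell) (hi : ∀ a, 1 ≤ dim (i a))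
    {r : α → α → Prop} (hr : ∀ a a', r a a' ↔ Con (i a) (i a')) (a a' : α) :
    Quot.mk r a = Quot.mk r a' ↔ Con (i a) (i a') := by
  have he : Equivalence r :=
    ⟨fun a => (hr _ _).2 (hG.refl _ (hi a)), fun h => (hr _ _).2 (hG.symm _ _ ((hr _ _).1 h)),
      fun h h' => (hr _ _).2 (hG.trans _ _ _ ((hr _ _).1 h) ((hr _ _).1 h'))⟩
  exact ⟨fun h => (hr _ _).1 (he.eqvGen_iff.1 (Quot.eqvGen_exact h)),
    fun h => Quot.sound ((hr _ _).2 h)⟩

lemma wb_bij {G H : GS} (hG : GpdLike G) (hH : GpdLike H) (f : G ⟶ H) {x y : G.Cell}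
    {α β : Type} (i : α → G.Cell) (j : β → H.Cell) (hi : ∀ c, Arr c x y ↔ ∃ a, i a = c)
    (hj : ∀ c, Arr c (f.app x) (f.app y) ↔ ∃ b, j b = c) {r : α → α → Prop} {s : β → β → Prop}
    (hr : ∀ a a', r a a' ↔ Con (i a) (i a')) (hs : ∀ b b', s b b' ↔ Con (j b) (j b'))
    (m : α → β) (hm : ∀ a, j (m a) = f.app (i a)) (h : ∀ a a', r a a' → s (m a) (m a')) :
    Function.Bijective (Quot.map m h) ↔ LB f x y := by
  have qi := wb_quot hG i (fun a => ((hi _).2 ⟨a, rfl⟩).pos) hr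
  have qj := wb_quot hH j (fun b => ((hj _).2 ⟨b, rfl⟩).pos) hs
  constructor
  · rintro ⟨h₁, h₂⟩
    refine ⟨locMap_app f x y, fun c' hc' => ?_, fun c d hc hd e => ?_⟩
    · obtain ⟨b, rfl⟩ := (hj _).1 hc'
      obtain ⟨⟨a⟩, ha⟩ := h₂ (Quot.mk s b)
      refine ⟨i a, (hi _).2 ⟨a, rfl⟩, ?_⟩
      rw [← hm]
      exact (qj _ _).1 ha
    · obtain ⟨a, rfl⟩ := (hi _).1 hc
      obtain ⟨a', rfl⟩ := (hi _).1 hd
      rw [← hm, ← hm] at e
      exact (qi _ _).1 (h₁ ((qj _ _).2 e))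
  · intro hl
    refine ⟨?_, ?_⟩
    · rintro ⟨a⟩ ⟨a'⟩ e
      have e' := (qj _ _).1 e
      rw [hm, hm] at e'
      exact (qi _ _).2 (hl.inj _ _ ((hi _).2 ⟨a, rfl⟩) ((hi _).2 ⟨a', rfl⟩) e')
    · rintro ⟨b⟩
      obtain ⟨c, hc, e⟩ := hl.surj _ ((hj _).2 ⟨b, rfl⟩)
      obtain ⟨a, rfl⟩ := (hi _).1 hc
      rw [← hm] at e
      exact ⟨Quot.mk r a, (qj _ _).2 e⟩

variable {E : GlobExt}

/-- The cell given by an element. -/
def ofEl {X : Gpd E} {n : ℕ} (c : Cell X n) : cell X :=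
  (discsOf (rep E)).cell (n := n) (repEquiv (c := E.D n).symm c)

lemma dim_ofEl {X : Gpd E} {n : ℕ} (c : Cell X n) : dim (ofEl c) = n + 1 := rfl

lemma ofEl_surj {X : Gpd E} {n : ℕ} (x : cell X) (h : dim x = n + 1) :
    ∃ c : Cell X n, ofEl c = x := by
  obtain ⟨y, rfl⟩ := (discsOf (rep E)).exists_cell x h
  exact ⟨repEquiv (c := E.D n) y, congrArg (discsOf (rep E)).cell (Equiv.symm_apply_apply _ _)⟩

lemma ofEl_map {X Y : Gpd E} (f : X ⟶ Y) {n : ℕ} (c : Cell X n) :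
    ofEl (cellMap f c) = cm f (ofEl c) := by
  obtain ⟨y, rfl⟩ := (repEquiv (c := E.D n) (X := X)).surjective c
  have h : cellMap f (repEquiv y) = repEquiv (y ≫ f) := rfl
  rw [h, ofEl, ofEl, Equiv.symm_apply_apply, Equiv.symm_apply_apply]
  rfl

lemma arr_ofEl {X : Gpd E} {n : ℕ} (c : Cell X (n + 1)) (x y : Cell X n) :
    Arr (ofEl c) (ofEl x) (ofEl y) ↔ Arrow' c x y := by
  obtain ⟨c, rfl⟩ := (repEquiv (c := E.D (n + 1)) (X := X)).surjective c
  obtain ⟨x, rfl⟩ := (repEquiv (c := E.D n) (X := X)).surjective x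
  obtain ⟨y, rfl⟩ := (repEquiv (c := E.D n) (X := X)).surjective y
  rw [Arrow', opr, opr, ← repEquiv_map, ← repEquiv_map, repEquiv.apply_eq_iff_eq,
    repEquiv.apply_eq_iff_eq,
    ofEl, ofEl, ofEl, Equiv.symm_apply_apply, Equiv.symm_apply_apply, Equiv.symm_apply_apply]
  exact (discsOf (rep E)).arr_cell_iff _ _ _

lemma arr_ofEl_iff {X : Gpd E} {n : ℕ} (c : cell X) (x y : Cell X n) :
    Arr c (ofEl x) (ofEl y) ↔ ∃ a : {a : Cell X (n + 1) // Arrow' a x y}, ofEl a.1 = c := by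
  constructor
  · intro h
    obtain ⟨a, rfl⟩ := ofEl_surj (n := n + 1) c h.2.2
    exact ⟨⟨a, (arr_ofEl _ _ _).1 h⟩, rfl⟩
  · rintro ⟨a, rfl⟩
    exact (arr_ofEl _ _ _).2 a.2

lemma con_ofEl {X : Gpd E} {n : ℕ} (x y : Cell X n) :
    (∃ c, Arrow' c x y) ↔ Con (ofEl x) (ofEl y) :=
  ⟨fun ⟨c, hc⟩ => ⟨ofEl c, (arr_ofEl _ _ _).2 hc⟩,
    fun ⟨_, hc⟩ => ((arr_ofEl_iff _ _ _).1 hc).elim fun a _ => ⟨a.1, a.2⟩⟩

lemma arr_bot_ofEl {X : Gpd E} (c : cell X) :
    Arr c ((U E).obj X).bot ((U E).obj X).bot ↔ ∃ a : Cell X 0, ofEl a = c :=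
  arr_bot_iff.trans ⟨fun h => ofEl_surj c h, fun ⟨a, h⟩ => h ▸ dim_ofEl a⟩

lemma arrow_one (k : Units E) {X : Gpd E} (x : Cell X 0) (n : ℕ) :
    Arrow' (one k x (n + 1)) (one k x n) (one k x n) := by
  constructor
  · rw [one, opr, opr, ← Functor.map_comp_apply, ← op_comp, (k.lift n).1, op_id, Functor.map_id_apply]
  · rw [one, opr, opr, ← Functor.map_comp_apply, ← op_comp, (k.lift n).2, op_id, Functor.map_id_apply]

lemma src_one (k : Units E) {X : Gpd E} (x : Cell X 0) (n : ℕ) :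
    src 1 (ofEl (one k x n)) = ofEl x := by
  induction n with
  | zero => exact src_of_le (dim_ofEl _).le
  | succ n ih =>
    rw [← ih]
    exact ((arr_ofEl _ _ _).2 (arrow_one k x n)).src_eq (by rw [dim_ofEl]; omega)

variable [hE : Fact E.IsCoherator]

lemma pi0_bij {X Y : Gpd E} (f : X ⟶ Y) : Function.Bijective (pi0Map f) ↔
    LB ((U E).map f) ((U E).obj X).bot ((U E).obj X).bot :=
  wb_bij (gpdLike X) (gpdLike Y) ((U E).map f) (ofEl (n := 0)) (ofEl (n := 0)) arr_bot_ofEl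
    (fun c => by rw [app_bot]; exact arr_bot_ofEl c) con_ofEl con_ofEl _ (ofEl_map f) _

lemma piSucc_bij (k : Units E) {X Y : Gpd E} (f : X ⟶ Y) (x : Cell X 0) (n : ℕ) :
    Function.Bijective (piSuccMap k f x n) ↔
      LB ((U E).map f) (ofEl (one k x n)) (ofEl (one k x n)) :=
  wb_bij (gpdLike X) (gpdLike Y) ((U E).map f) (fun a => ofEl a.1) (fun a => ofEl a.1)
    (fun c => arr_ofEl_iff c _ _)
    (fun c => by
      have h : ((U E).map f).app (ofEl (one k x n)) = ofEl (one k (cellMap f x) n) := by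
        rw [← cellMap_one, ofEl_map]
      rw [h]
      exact arr_ofEl_iff c _ _)
    (fun a a' => con_ofEl a.1 a'.1) (fun a a' => con_ofEl a.1 a'.1) _
    (fun a => ofEl_map f a.1) _

theorem W_eq_Wk (k : Units E) : W k = Wk E := by
  ext X Y f
  constructor
  · rintro ⟨h₀, h⟩
    refine wk_of_lb f ((pi0_bij f).1 h₀) fun x hx m => ?_
    obtain ⟨x, rfl⟩ := ofEl_surj (n := 0) x hx
    refine ⟨ofEl (one k x m), rfl, ?_, (piSucc_bij k f x m).1 (h x m)⟩
    rw [src_one]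
    exact (gpdLike X).refl _ hx.ge
  · intro h
    exact ⟨(pi0_bij f).2 (h.lb (Par.refl _)), fun x n => (piSucc_bij k f x n).2 (h.lb (Par.refl _))⟩

end Vale.Agent.P259
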