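import Vale.Agent.P259.Unit
import Vale.Agent.P259.PiTop
import Vale.Agent.P259.WBridge

/-! P259: assembly. -/

noncomputable section
namespace Vale.Agent.P259
open CategoryTheory CategoryTheory.Limits GlobExt Opposite

lemma loc_equiv {C D : Type*} [Category C] [Category D] (W1 : MorphismProperty C)
    (W2 : MorphismProperty D) (P : C ⥤ D) (R : D ⥤ C) (Q : D ⥤ D)
    (hP : ∀ {X Y : C} (f : X ⟶ Y), W1 f → W2 (P.map f))
    (hR : ∀ {X Y : D} (f : X ⟶ Y), W2 f → W1 (R.map f))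
    (ε : P ⋙ R ⟶ 𝟭 C) (hε : ∀ X, W1 (ε.app X)) (η : Q ⟶ R ⋙ P) (hη : ∀ X, W2 (η.app X))
    (q : Q ⟶ 𝟭 D) (hq : ∀ X, W2 (q.app X)) :
    ∃ F : W1.Localization ⥤ W2.Localization, W1.Q ⋙ F = P ⋙ W2.Q ∧ F.IsEquivalence := by
  have h1 : W1.IsInvertedBy (P ⋙ W2.Q) := fun _ _ f hf =>
    Localization.inverts W2.Q W2 _ (hP f hf)
  have h2 : W2.IsInvertedBy (R ⋙ W1.Q) := fun _ _ f hf =>
    Localization.inverts W1.Q W1 _ (hR f hf)
  let G' := Localization.Construction.lift _ h1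
  let F' := Localization.Construction.lift _ h2
  have e1 : W1.Q ⋙ G' = P ⋙ W2.Q := Localization.Construction.fac _ h1
  have e2 : W2.Q ⋙ F' = R ⋙ W1.Q := Localization.Construction.fac _ h2
  letI : Localization.Lifting W1.Q W1 (P ⋙ W2.Q) G' := ⟨eqToIso e1⟩
  letI : Localization.Lifting W2.Q W2 (R ⋙ W1.Q) F' := ⟨eqToIso e2⟩
  haveI : IsIso (Functor.whiskerRight ε W1.Q) := by
    rw [NatTrans.isIso_iff_isIso_app]
    exact fun X => Localization.inverts W1.Q W1 _ (hε X)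
  haveI : IsIso (Functor.whiskerRight η W2.Q) := by
    rw [NatTrans.isIso_iff_isIso_app]
    exact fun X => Localization.inverts W2.Q W2 _ (hη X)
  haveI : IsIso (Functor.whiskerRight q W2.Q) := by
    rw [NatTrans.isIso_iff_isIso_app]
    exact fun X => Localization.inverts W2.Q W2 _ (hq X)
  refine ⟨G', e1, Localization.isEquivalence W1.Q W1 W2.Q W2 (P ⋙ W2.Q) G' (R ⋙ W1.Q) F' ?_ ?_⟩
  · exact Functor.associator _ _ _ ≪≫ Functor.isoWhiskerLeft P (eqToIso e2) ≪≫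
      (Functor.associator _ _ _).symm ≪≫ asIso (Functor.whiskerRight ε W1.Q) ≪≫
      Functor.leftUnitor _
  · exact Functor.associator _ _ _ ≪≫ Functor.isoWhiskerLeft R (eqToIso e1) ≪≫
      (Functor.associator _ _ _).symm ≪≫ (asIso (Functor.whiskerRight η W2.Q)).symm ≪≫
      asIso (Functor.whiskerRight q W2.Q) ≪≫ Functor.leftUnitor _

variable {E : GlobExt}

/-- The realisation of the cellular replacement, as a compactly generated space. -/
def realCG (d : DiscData E) {Re : Gpd E ⥤ TopCat.{0}} (adj : Re ⊣ d.Pi) (Q : Gpd E ⥤ Gpd E) :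
    Gpd E ⥤ CG where
  obj X := @CompactlyGenerated.mk (Re.obj (Q.obj X)) (d.cg_real adj _)
  map f := InducedCategory.homMk (Re.map (Q.map f))
  map_id X := InducedCategory.hom_ext (by simp; rfl)
  map_comp f g := InducedCategory.hom_ext (by simp; rfl)

lemma parallel_refl (E : GlobExt) {X : E.C} : ∀ {n : ℕ} (f : E.D n ⟶ X), E.Parallel f f
  | 0, _ => trivial
  | _ + 1, _ => ⟨rfl, rfl⟩

lemma nonempty_units (E : GlobExt) (hE : E.IsCoherator) : Nonempty (Units E) :=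
  ⟨⟨fun n => (hE.2 ⟨n, disc n, 𝟙 _, 𝟙 _, parallel_refl E _⟩).choose,
    fun n => (hE.2 ⟨n, disc n, 𝟙 _, 𝟙 _, parallel_refl E _⟩).choose_spec⟩⟩

theorem main (E : GlobExt) (hE : E.IsCoherator) :
    Nonempty (Units E) ∧ ∃ (D : E.C ⥤ CG) (hD : IsDiscFunctor E D), ∀ k : Units E,
      WHE ≤ (W k).inverseImage (homGpd D hD.pres) ∧
      ∃ F : WHE.Localization ⥤ (W k).Localization,
        WHE.Q ⋙ F = homGpd D hD.pres ⋙ (W k).Q ∧ F.IsEquivalence := by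
  haveI : Fact E.IsCoherator := ⟨hE⟩
  obtain ⟨d⟩ := exists_discData E
  obtain ⟨Re, ⟨adj⟩⟩ := d.exists_real
  obtain ⟨Q, q, hQ⟩ := exists_Q E
  obtain ⟨ι⟩ := d.exists_piIso
  refine ⟨nonempty_units E hE, d.DC, d.isDisc, fun k => ?_⟩
  rw [W_eq_Wk]
  set P := homGpd d.DC d.isDisc.pres with hPdef
  obtain ⟨i, hi⟩ : ∃ i : ∀ T : CG, P.obj T ≅ d.Pi.obj T.toTop, ∀ (T T' : CG) (f : T ⟶ T'),
      P.map f ≫ (i T').hom = (i T).hom ≫ d.Pi.map f.hom :=
    ⟨fun T => ι.app T, fun T T' f => ι.hom.naturality f⟩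
  obtain ⟨u, c, hu, hun, hcn, huc⟩ : ∃ (u : ∀ X : Gpd E, X ⟶ d.Pi.obj (Re.obj X))
      (c : ∀ T : TopCat.{0}, Re.obj (d.Pi.obj T) ⟶ T), (∀ X, Cellular X → Wk E (u X)) ∧
      (∀ (X Y : Gpd E) (f : X ⟶ Y), f ≫ u Y = u X ≫ d.Pi.map (Re.map f)) ∧
      (∀ (T T' : TopCat.{0}) (f : T ⟶ T'), Re.map (d.Pi.map f) ≫ c T' = c T ≫ f) ∧
      ∀ T, u (d.Pi.obj T) ≫ d.Pi.map (c T) = 𝟙 _ :=
    ⟨adj.unit.app, adj.counit.app, fun X hX => unit_wk d adj hX,
      fun X Y f => adj.unit.naturality f, fun T T' f => adj.counit.naturality f,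
      fun T => adj.right_triangle_components T⟩
  obtain ⟨qq, hq, hqn⟩ : ∃ qq : ∀ X : Gpd E, Q.obj X ⟶ X, (∀ X, Wk E (qq X)) ∧
      ∀ (X Y : Gpd E) (f : X ⟶ Y), Q.map f ≫ qq Y = qq X ≫ f :=
    ⟨q.app, fun X => (hQ X).1.wk, fun X Y f => q.naturality f⟩
  have hW : ∀ {X Y : CG} (f : X ⟶ Y), Wk E (P.map f) ↔ WHE f := by
    intro X Y f
    rw [show (WHE f ↔ Wk E (d.Pi.map f.hom)) from (wk_pi_iff d f.hom).symm]
    exact (Wk E).arrow_mk_iso_iff (Arrow.isoMk (i X) (i Y) (hi X Y f).symm)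
  let R := realCG d adj Q
  let i' : ∀ X : Gpd E, P.obj (R.obj X) ≅ d.Pi.obj (Re.obj (Q.obj X)) := fun X => i (R.obj X)
  have hi' : ∀ (X Y : Gpd E) (f : X ⟶ Y),
      P.map (R.map f) ≫ (i' Y).hom = (i' X).hom ≫ d.Pi.map (Re.map (Q.map f)) :=
    fun X Y f => hi _ _ (R.map f)
  let η0 : ∀ X : Gpd E, Q.obj X ⟶ P.obj (R.obj X) := fun X => u (Q.obj X) ≫ (i' X).inv
  have hη0 : ∀ (X Y : Gpd E) (f : X ⟶ Y), Q.map f ≫ η0 Y = η0 X ≫ P.map (R.map f) := by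
    intro X Y f
    rw [← cancel_mono (i' Y).hom]
    simp only [η0, Category.assoc, Iso.inv_hom_id, Category.comp_id, hi', Iso.inv_hom_id_assoc]
    exact hun _ _ _
  let η : Q ⟶ R ⋙ P := { app := η0, naturality := fun X Y f => hη0 X Y f }
  have hη : ∀ X, Wk E (η0 X) := fun X =>
    (Wk E).comp_mem _ _ (hu _ (hQ X).2) (wk_of_isIso _)
  let ε0 : ∀ T : CG, Re.obj (Q.obj (P.obj T)) ⟶ T.toTop := fun T =>
    Re.map (qq (P.obj T) ≫ (i T).hom) ≫ c T.toTop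
  have hε0 : ∀ (T T' : CG) (f : T ⟶ T'), Re.map (Q.map (P.map f)) ≫ ε0 T' = ε0 T ≫ f.hom := by
    intro T T' f
    simp only [ε0]
    rw [← Category.assoc, ← Re.map_comp, ← Category.assoc, hqn, Category.assoc, hi,
      Category.assoc, ← hcn, ← Category.assoc, ← Category.assoc, ← Re.map_comp, Category.assoc]
  let ε : P ⋙ R ⟶ 𝟭 CG :=
    { app := fun T => InducedCategory.homMk (ε0 T)
      naturality := fun T T' f => InducedCategory.hom_ext (hε0 T T' f) }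
  have hε : ∀ T, WHE (ε.app T) := by
    intro T
    refine (wk_pi_iff d (ε0 T)).1 ?_
    refine (Wk E).of_precomp (u (Q.obj (P.obj T))) _ (hu _ (hQ _).2) ?_
    have : u (Q.obj (P.obj T)) ≫ d.Pi.map (ε0 T) = qq (P.obj T) ≫ (i T).hom := by
      simp only [ε0]
      rw [d.Pi.map_comp, ← Category.assoc, ← hun, Category.assoc, huc, Category.comp_id]
    rw [this]
    exact (Wk E).comp_mem _ _ (hq _) (wk_of_isIso _)
  have hR : ∀ {X Y : Gpd E} (f : X ⟶ Y), Wk E f → WHE (R.map f) := by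
    intro X Y f hf
    have hQf : Wk E (Q.map f) := by
      refine (Wk E).of_postcomp _ (qq Y) (hq Y) ?_
      rw [hqn]
      exact (Wk E).comp_mem _ _ (hq X) hf
    refine (hW _).1 ((Wk E).of_precomp (η0 X) _ (hη X) ?_)
    rw [← hη0]
    exact (Wk E).comp_mem _ _ hQf (hη Y)
  exact ⟨fun _ _ f hf => (hW f).2 hf,
    loc_equiv WHE (Wk E) P R Q (fun f hf => (hW f).2 hf) hR ε hε η hη q
      fun X => (hQ X).1.wk⟩

end Vale.Agent.P259
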