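import Vale.Agent.P259.TRep

/-! P259 task MODEL: models, free models, underlying globular sets.

`repEquiv` is Yoneda (`yonedaEquiv` through the full subcategory: morphisms of `Gpd E` are
structures, `ObjectProperty.homMk`, `.hom`). `rep_pres`: `Hom(rep S, X) = X (ι S)` and `X` sends
the pushout squares to pullbacks of types (`IsPushout.of_exists..`/`IsPushout.of_isColimit'`,
`Types.isPullback` lemmas or `IsPullback.lift` on `PUnit`-points). `hom_ext_cells`: an element of
`X (ι S)` is a map `x : rep S ⟶ X` (every object of `E.C` is `ι S`, `E.bij.2`), and `x ≫ f = x ≫ g`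
by uniqueness in `gen_represents`. `isIso_of_cells`: `X (ι S) ≃ Hom(|S|, U X)`.
`rep_ctr`: parallel cells of `rep S` are parallel maps in `E.C` (`repC` is fully faithful);
for `(bot, bot)` use `exists_point`. `homU`: Yoneda. -/

noncomputable section
namespace Vale.Agent.P259
open CategoryTheory CategoryTheory.Limits GlobExt Opposite
universe u
variable {E : GlobExt}

/-- Yoneda for models. -/
def repEquiv {c : E.C} {X : Gpd E} : ((repC E).obj c ⟶ X) ≃ X.obj.obj (op c) :=
  ((IsGpd E).fullyFaithfulι.homEquiv).trans yonedaEquiv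

lemma repEquiv_comp {c : E.C} {X Y : Gpd E} (x : (repC E).obj c ⟶ X) (f : X ⟶ Y) :
    repEquiv (x ≫ f) = f.hom.app (op c) (repEquiv x) := rfl
lemma repEquiv_map {c c' : E.C} {X : Gpd E} (h : c ⟶ c') (x : (repC E).obj c' ⟶ X) :
    repEquiv ((repC E).map h ≫ x) = X.obj.map h.op (repEquiv x) :=
  (yonedaEquiv_naturality x.hom h).symm

instance : (repC E).Full :=
  ⟨fun f => (yoneda.map_surjective f.hom).imp fun _ h => ObjectProperty.hom_ext _ h⟩
instance : (repC E).Faithful :=
  ⟨fun h => yoneda.map_injective (congrArg (fun f => f.hom) h)⟩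

lemma model_push {A B B' P : E.C} {a : A ⟶ B} {b : A ⟶ B'} {c : B ⟶ P} {d : B' ⟶ P}
    (w : a ≫ c = b ≫ d)
    (h : ∀ X : Gpd E, IsPullback (X.obj.map c.op) (X.obj.map d.op) (X.obj.map a.op)
      (X.obj.map b.op)) :
    IsPushout ((repC E).map a) ((repC E).map b) ((repC E).map c) ((repC E).map d) := by
  have w' : (repC E).map a ≫ (repC E).map c = (repC E).map b ≫ (repC E).map d := by
    rw [← Functor.map_comp, w, Functor.map_comp]
  have key : ∀ s : PushoutCocone ((repC E).map a) ((repC E).map b), ∃ l : (repC E).obj P ⟶ s.pt,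
      (repC E).map c ≫ l = s.inl ∧ (repC E).map d ≫ l = s.inr := fun s => by
    obtain ⟨x, h₁, h₂⟩ := ((Types.isPullback_iff _ _ _ _).1 (h s.pt)).2.2 (repEquiv s.inl)
      (repEquiv s.inr) (by rw [← repEquiv_map, ← repEquiv_map, s.condition])
    refine ⟨repEquiv.symm x, repEquiv.injective ?_, repEquiv.injective ?_⟩
    · rw [repEquiv_map, Equiv.apply_symm_apply, h₁]
    · rw [repEquiv_map, Equiv.apply_symm_apply, h₂]
  choose l hl hl' using key
  refine ⟨⟨w'⟩, ⟨PushoutCocone.IsColimit.mk w' l hl hl' fun s m h₁ h₂ => repEquiv.injective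
    (((Types.isPullback_iff _ _ _ _).1 (h s.pt)).2.1 _ _ ⟨?_, ?_⟩)⟩⟩
  · rw [← repEquiv_map, ← repEquiv_map, h₁, hl]
  · rw [← repEquiv_map, ← repEquiv_map, h₂, hl']

lemma rep_pres (E : GlobExt) : PreservesSums (rep E) := fun l T j i hl hi =>
  model_push (E.pres l T j i hl hi).w fun X => X.property l T j i hl hi

/-- `rep S` is free on `|S|`. -/
lemma gn_represents (S : Theta) : Represents (U E) (gn E S) := gen_represents _ (rep_pres E) S

lemma cm_comp {X Y Z : Gpd E} (f : X ⟶ Y) (g : Y ⟶ Z) (x : cell X) :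
    cm (f ≫ g) x = cm g (cm f x) := trep_map_comp f g x
@[simp] lemma cm_id {X : Gpd E} (x : cell X) : cm (𝟙 X) x = x := by
  rw [cm, CategoryTheory.Functor.map_id]; rfl

lemma model_ext_rep {X Y : Gpd E} {f g : X ⟶ Y}
    (h : ∀ (S : Theta) (x : (rep E).obj S ⟶ X), x ≫ f = x ≫ g) : f = g := by
  refine ObjectProperty.hom_ext _ (NatTrans.ext (funext fun ⟨c⟩ => ?_))
  obtain ⟨S, rfl⟩ := E.bij.2 c
  ext x
  obtain ⟨x, rfl⟩ := repEquiv.surjective x
  exact congrArg repEquiv (h S x)

lemma hom_ext_cells {X Y : Gpd E} {f g : X ⟶ Y} (h : ∀ x, cm f x = cm g x) : f = g :=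
  model_ext_rep fun S x => (gn_represents S).hom_ext (GS.hom_ext fun _ =>
    (cm_comp x f _).trans ((h _).trans (cm_comp x g _).symm))
lemma hom_ext_gen {S : Theta} {Y : Gpd E} {f g : (rep E).obj S ⟶ Y}
    (h : ∀ c, cm f ((gn E S).app c) = cm g ((gn E S).app c)) : f = g :=
  (gn_represents S).hom_ext (GS.hom_ext h)
lemma isIso_of_cells {X Y : Gpd E} (f : X ⟶ Y) (h : Function.Bijective (cm f)) : IsIso f := by
  have h₁ : IsIso ((U E).map f) := isIso_of_bijective _ h
  have h₂ : IsIso ((IsGpd E).ι.map f) := by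
    rw [NatTrans.isIso_iff_isIso_app]
    rintro ⟨c⟩
    obtain ⟨S, rfl⟩ := E.bij.2 c
    rw [isIso_iff_bijective]
    refine ⟨fun x x' e => ?_, fun y => ?_⟩
    · obtain ⟨x, rfl⟩ := repEquiv.surjective x
      obtain ⟨x', rfl⟩ := repEquiv.surjective x'
      have e' : x ≫ f = x' ≫ f := repEquiv.injective e
      exact congrArg repEquiv (hom_ext_cells fun z => h.1 (by rw [← cm_comp, e', cm_comp]))
    · obtain ⟨y, rfl⟩ := repEquiv.surjective y
      obtain ⟨x, hx, -⟩ := gn_represents S X (gn E S ≫ (U E).map y ≫ inv ((U E).map f))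
      refine ⟨repEquiv x, congrArg repEquiv ((gn_represents S).hom_ext (f := x ≫ f) ?_)⟩
      rw [Functor.map_comp, reassoc_of% hx, IsIso.inv_hom_id, Category.comp_id]
  exact isIso_of_reflects_iso f (IsGpd E).ι

/-- The universal cell of `dim n + 1`. -/
abbrev topR (E : GlobExt) (n : ℕ) : cell ((rep E).obj (disc n)) := (discsOf (rep E)).top n

lemma existsUnique_classify {X : Gpd E} {n : ℕ} (x : cell X) (h : dim x = n + 1) :
    ∃! f : (rep E).obj (disc n) ⟶ X, cm f (topR E n) = x :=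
  (discsOf (rep E)).existsUnique_top x h

lemma rep_ctr [hE : Fact E.IsCoherator] (S : Theta) : MCtr ((rep E).obj S) := by
  intro a b h
  rcases hd : dim a with _ | n
  · obtain ⟨θ⟩ := exists_point S
    rw [eq_bot hd, eq_bot (h.1.symm.trans hd)]
    exact ⟨(discsOf (rep E)).cell (n := 0) ((rep E).map θ), arr_bot_iff.2 rfl⟩
  · obtain ⟨x, rfl⟩ := (discsOf (rep E)).exists_cell a hd
    obtain ⟨y, rfl⟩ := (discsOf (rep E)).exists_cell b (h.1.symm.trans hd)
    obtain ⟨x, rfl⟩ := (repC E).map_surjective x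
    obtain ⟨y, rfl⟩ := (repC E).map_surjective y
    have hp : E.Parallel x y := by
      cases n with
      | zero => trivial
      | succ n =>
        obtain ⟨h₁, h₂⟩ := ((discsOf (rep E)).par_cell_succ_iff _ _).1 h
        exact ⟨(repC E).map_injective (by rw [Functor.map_comp, Functor.map_comp]; exact h₁),
          (repC E).map_injective (by rw [Functor.map_comp, Functor.map_comp]; exact h₂)⟩
    obtain ⟨l, h₁, h₂⟩ := hE.out.2 ⟨n, S, x, y, hp⟩
    exact ⟨(discsOf (rep E)).cell (n := n + 1) ((repC E).map l),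
      ((discsOf (rep E)).arr_cell_iff _ _ _).2
        ⟨((repC E).map_comp _ _).symm.trans (congrArg _ h₁),
          ((repC E).map_comp _ _).symm.trans (congrArg _ h₂)⟩⟩

lemma cofib_rep (S : Theta) : Cofib ((rep E).obj S) := by
  intro Y Z p hp g
  obtain ⟨l', hl'⟩ := TrivFib.lift hp (gn E S ≫ (U E).map g)
  obtain ⟨l, hl, -⟩ := gn_represents S Y l'
  exact ⟨l, (gn_represents S).hom_ext (by rw [Functor.map_comp, reassoc_of% hl, hl'])⟩

section homGpd
variable {M : Type u} [Category.{0} M] (F : E.C ⥤ M) (hF : PreservesSums (E.ι ⋙ F))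

/-- Maps from a representable model to `Hom(F -, X)`. -/
def homEl {c : E.C} {X : M} : ((repC E).obj c ⟶ (homGpd F hF).obj X) ≃ (F.obj c ⟶ X) := repEquiv

lemma homEl_comp {c : E.C} {X Y : M} (x : (repC E).obj c ⟶ (homGpd F hF).obj X) (f : X ⟶ Y) :
    homEl F hF (x ≫ (homGpd F hF).map f) = homEl F hF x ≫ f := rfl
lemma homEl_map {c c' : E.C} {X : M} (h : c ⟶ c') (x : (repC E).obj c' ⟶ (homGpd F hF).obj X) :
    homEl F hF ((repC E).map h ≫ x) = F.map h ≫ homEl F hF x := repEquiv_map h x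

/-- The comparison map on cells. -/
def modelHomU (X : M) : (U E).obj ((homGpd F hF).obj X) ⟶ (discsOf (E.ι ⋙ F)).hom.obj X where
  app := Option.map fun p => ⟨p.1, homEl F hF p.2⟩
  dim_app := by rintro (_ | ⟨n, x⟩) <;> rfl
  sr_app := by
    rintro (_ | ⟨_ | n, x⟩) <;> try rfl
    exact congrArg (fun y => some (Sigma.mk n y)) (homEl_map F hF _ x).symm
  tg_app := by
    rintro (_ | ⟨_ | n, x⟩) <;> try rfl
    exact congrArg (fun y => some (Sigma.mk n y)) (homEl_map F hF _ x).symm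

lemma modelHomU_bij (X : M) : Function.Bijective (modelHomU F hF X).app :=
  (Equiv.optionCongr (Equiv.sigmaCongrRight fun n =>
    homEl F hF (c := E.ι.obj (disc n)) (X := X))).bijective

/-- The cells of `Hom(F -, X)` are the maps from the discs. -/
lemma exists_homU : ∃ e : homGpd F hF ⋙ U E ≅ (discsOf (E.ι ⋙ F)).hom,
    ∀ (X : M) (n : ℕ) (x : (rep E).obj (disc n) ⟶ (homGpd F hF).obj X),
      (e.hom.app X).app ((discsOf (rep E)).cell (n := n) x) =
        (discsOf (E.ι ⋙ F)).cell (n := n) (homEl F hF x) :=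
  ⟨NatIso.ofComponents (fun X => @asIso _ _ _ _ (modelHomU F hF X)
    (isIso_of_bijective _ (modelHomU_bij F hF X))) (fun f => GS.hom_ext (by
      rintro (_ | ⟨n, x⟩) <;> rfl)), fun _ _ _ => rfl⟩

/-- A map of models `X ⟶ Hom(F -, Y)` from a natural family. -/
lemma exists_toHom (X : Gpd E) (Y : M) (φ : ∀ c : E.C, ((repC E).obj c ⟶ X) → (F.obj c ⟶ Y))
    (hφ : ∀ (c c' : E.C) (h : c ⟶ c') (x : (repC E).obj c' ⟶ X),
      φ c ((repC E).map h ≫ x) = F.map h ≫ φ c' x) :
    ∃ f : X ⟶ (homGpd F hF).obj Y, ∀ c x, homEl F hF (x ≫ f) = φ c x := by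
  refine ⟨ObjectProperty.homMk
    { app := fun c => TypeCat.ofHom fun x => φ c.unop (repEquiv.symm x)
      naturality := fun c c' h => ?_ }, fun c x => congrArg (φ c) (repEquiv.symm_apply_apply x)⟩
  ext x
  obtain ⟨x, rfl⟩ := (repEquiv (c := c.unop) (X := X)).surjective x
  change φ c'.unop (repEquiv.symm (X.obj.map h.unop.op (repEquiv x))) =
    F.map h.unop ≫ φ c.unop (repEquiv.symm (repEquiv x))
  rw [← repEquiv_map, Equiv.symm_apply_apply, Equiv.symm_apply_apply, hφ]

/-- A map of models `Hom(F -, Y) ⟶ X` from a natural family. -/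
lemma exists_fromHom (X : Gpd E) (Y : M) (φ : ∀ c : E.C, (F.obj c ⟶ Y) → ((repC E).obj c ⟶ X))
    (hφ : ∀ (c c' : E.C) (h : c ⟶ c') (y : F.obj c' ⟶ Y),
      φ c (F.map h ≫ y) = (repC E).map h ≫ φ c' y) :
    ∃ f : (homGpd F hF).obj Y ⟶ X, ∀ c x, x ≫ f = φ c (homEl F hF x) := by
  refine ⟨ObjectProperty.homMk
    { app := fun c => TypeCat.ofHom fun y => repEquiv (φ c.unop y)
      naturality := fun c c' h => ?_ }, fun c x => repEquiv.injective rfl⟩
  ext y
  exact (congrArg repEquiv (hφ _ _ h.unop y)).trans (repEquiv_map _ _)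

end homGpd

lemma hom_ext_rep {X Y : Gpd E} {f g : X ⟶ Y}
    (h : ∀ (S : Theta) (x : (rep E).obj S ⟶ X), x ≫ f = x ≫ g) : f = g := model_ext_rep h

end Vale.Agent.P259
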