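import Vale.Agent.P259.Model

/-! P259 task OPS: natural operations on cells of models from universal contexts.

`exists_whCtx`: `j = j' + 1`, `m = m' + 1`, table
`((Tab.one j).snoc j' m' _ _).snoc j' j _ _` (needs `j' < j`, `j' < m'`), `R = rep` of it,
`tab_disc`, `tab_snoc` twice and `gn_represents`; contractible by `rep_ctr`.
`cell_natop` / `wh_natop`: choose the cell in the universal context, push it along the
classifying map (`if h : .. then cm (classify h) w else bot`); naturality by uniqueness of the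
classifying map. `wh_natfam`: choose contexts `R m` for all `m ≥ m0`; by recursion on `m` choose
`w m` in `V (R m)`; for `m + 1` let `is, it : R m ⟶ R (m+1)` classify `(a, sr x, b)`,
`(a, tg x, b)`; `V is (w m)` and `V it (w m)` are parallel (for `m = m0` by `hβpar`, otherwise
because `is ∘ is = it ∘ is`-type identities hold by uniqueness); apply `step`.
`exists_ops`: `idc` from `cell_natop` with `Φ x z := Arr z x x`, `inv` with
`Φ x z := Arr z (tg x) (sr x)` (one operation per dimension `m`, then `idc x := op (dim x) x`),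
`wh` from `wh_natfam` with `V = U E`, `m0 = j + 1`, `β0 = sr a`, `β1 = tg b`, `Φ z := dim z = dim x`.
`gpdLike`: `idc`, `invc`, and `wh j c (idc ..) d` (dimension `0` is trivial). -/

noncomputable section
namespace Vale.Agent.P259
open CategoryTheory CategoryTheory.Limits GlobExt Opposite
variable {E : GlobExt}

/-- Universal whiskering context. -/
structure WhCtx (E : GlobExt) (j m : ℕ) where
  R : Gpd E
  a : cell R
  x : cell R
  b : cell R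
  wh : Wh j a x b
  dim_x : dim x = m
  ctr : MCtr R
  desc : ∀ (Y : Gpd E) (a' x' b' : cell Y), Wh j a' x' b' → dim x' = m →
    ∃! f : R ⟶ Y, cm f a = a' ∧ cm f x = x' ∧ cm f b = b'

lemma ops_tab (j m : ℕ) (h1 : j < j + 1) (h2 : j < m) :
    ∃ (S : Theta) (a x b : (tabGS.obj S).Cell), Wh (j + 1) a x b ∧ dim x = m + 1 ∧
      ∀ (G : GS) (a' x' b' : G.Cell), Wh (j + 1) a' x' b' → dim x' = m + 1 →
        ∃! φ : tabGS.obj S ⟶ G, φ.app a = a' ∧ φ.app x = x' ∧ φ.app b = b' := by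
  let T1 : Tab (j + 1) := Tab.one (j + 1)
  let T2 : Tab m := T1.snoc j m h1 h2
  let T3 : Tab (j + 1) := T2.snoc j (j + 1) h2 h1
  let i1 : tabGS.obj T1.obj ⟶ tabGS.obj T2.obj := tabGS.map (initInc T1 j m h1 h2)
  let i2 : tabGS.obj T2.obj ⟶ tabGS.obj T3.obj := tabGS.map (initInc T2 j (j + 1) h2 h1)
  have g1 : src (j + 1) (lastT T2) = tgt (j + 1) (i1.app (lastT T1)) := tab_glue T1 j m h1 h2
  have g2 : src (j + 1) (lastT T3) = tgt (j + 1) (i2.app (lastT T2)) :=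
    tab_glue T2 j (j + 1) h2 h1
  refine ⟨T3.obj, i2.app (i1.app (lastT T1)), i2.app (lastT T2), lastT T3,
    ⟨by omega, by simp, by simp, by simp; omega, ?_, ?_⟩, by simp, ?_⟩
  · rw [← app_src, g1, tgt_eq_tg (by simp), i2.tg_app]
  · rw [← g2, src_eq_sr (by simp)]
  · intro G a' x' b' hw hx
    obtain ⟨φ1, e1, u1⟩ := tab_disc (j + 1) G a' hw.da
    have e1' : GS.Hom.app (G := tabGS.obj T1.obj) φ1 (lastT T1) = a' := e1
    obtain ⟨φ2, ⟨e2, e2'⟩, u2⟩ := tab_snoc T1 j m h1 h2 G φ1 x' hx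
      (by rw [e1', tgt_eq_tg hw.da, hw.ha])
    obtain ⟨φ3, ⟨e3, e3'⟩, u3⟩ := tab_snoc T2 j (j + 1) h2 h1 G φ2 b' hw.db
      (by rw [e2', src_eq_sr hw.db, hw.hb])
    refine ⟨φ3, ⟨?_, ?_, e3'⟩, fun ψ hψ => u3 ψ ⟨u2 _ ⟨u1 _ hψ.1, hψ.2.1⟩, hψ.2.2⟩⟩
    · rw [← e1', ← e2, ← e3]
      rfl
    · rw [← e2', ← e3]
      rfl

lemma ops_rec {α : Type*} (P : ℕ → α → Prop) (Q : α → Prop) (R : ℕ → α → α → Prop)
    (h0 : ∃ a, P 0 a ∧ Q a) (hs : ∀ n a, P n a → ∃ b, P (n + 1) b ∧ R n a b) :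
    ∃ f : ℕ → α, (∀ n, P n (f n)) ∧ Q (f 0) ∧ ∀ n, R n (f n) (f (n + 1)) := by
  obtain ⟨a0, h1, h2⟩ := h0
  choose g hg hg' using hs
  let F : ∀ n, {a // P n a} := fun n =>
    Nat.rec (motive := fun n => {a // P n a}) ⟨a0, h1⟩ (fun n a => ⟨g n a.1 a.2, hg n a.1 a.2⟩) n
  exact ⟨fun n => (F n).1, fun n => (F n).2, h2, fun n => hg' n (F n).1 (F n).2⟩

lemma ops_vcomp (V : Gpd E ⥤ GS) {X Y Z : Gpd E} (f : X ⟶ Y) (g : Y ⟶ Z) (c : (V.obj X).Cell) :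
    (V.map (f ≫ g)).app c = (V.map g).app ((V.map f).app c) := by
  rw [V.map_comp]
  rfl

lemma ops_sr {X Y : Gpd E} (f : X ⟶ Y) (c : cell X) : sr (cm f c) = cm f (sr c) :=
  ((U E).map f).sr_app c
lemma ops_tg {X Y : Gpd E} (f : X ⟶ Y) (c : cell X) : tg (cm f c) = cm f (tg c) :=
  ((U E).map f).tg_app c
lemma ops_dim {X Y : Gpd E} (f : X ⟶ Y) (c : cell X) : dim (cm f c) = dim c :=
  ((U E).map f).dim_app c

variable [hE : Fact E.IsCoherator]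

lemma exists_whCtx {j m : ℕ} (hj : 1 ≤ j) (hm : j + 1 ≤ m) : Nonempty (WhCtx E j m) := by
  obtain ⟨j, rfl⟩ : ∃ k, j = k + 1 := ⟨j - 1, by omega⟩
  obtain ⟨m, rfl⟩ : ∃ k, m = k + 1 := ⟨m - 1, by omega⟩
  obtain ⟨S, a, x, b, hw, hx, hd⟩ := ops_tab j m j.lt_succ_self (by omega)
  refine ⟨⟨(rep E).obj S, (gn E S).app a, (gn E S).app x, (gn E S).app b, hw.map _,
    by rw [GS.Hom.dim_app, hx], rep_ctr S, fun Y a' x' b' hw' hx' => ?_⟩⟩
  obtain ⟨φ, ⟨h1, h2, h3⟩, hu⟩ := hd _ a' x' b' hw' hx'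
  obtain ⟨f, hf, hf'⟩ := gn_represents S Y φ
  subst hf
  exact ⟨f, ⟨h1, h2, h3⟩, fun g hg => hf' g (hu _ hg)⟩

/-- A natural property of one cell that holds in contractible models holds in all models. -/
lemma cell_univ (m : ℕ) (hm : 1 ≤ m) (Ψ : ∀ Y : Gpd E, cell Y → Prop)
    (hΨ : ∀ (Y Y' : Gpd E) (f : Y ⟶ Y') (x : cell Y), dim x = m → Ψ Y x → Ψ Y' (cm f x))
    (h : ∀ Y : Gpd E, MCtr Y → ∀ x : cell Y, dim x = m → Ψ Y x) (Y : Gpd E) (x : cell Y)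
    (hx : dim x = m) : Ψ Y x := by
  obtain ⟨m, rfl⟩ : ∃ k, m = k + 1 := ⟨m - 1, by omega⟩
  obtain ⟨f, hf, -⟩ := existsUnique_classify x hx
  rw [← hf]
  exact hΨ _ _ f _ rfl (h _ (rep_ctr _) _ rfl)

/-- A natural property of whiskering contexts that holds in contractible models holds always. -/
lemma wh_univ (j m : ℕ) (Ψ : ∀ Y : Gpd E, cell Y → cell Y → cell Y → Prop)
    (hΨ : ∀ (Y Y' : Gpd E) (f : Y ⟶ Y') (a x b : cell Y), Wh j a x b → dim x = m →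
      Ψ Y a x b → Ψ Y' (cm f a) (cm f x) (cm f b))
    (h : ∀ Y : Gpd E, MCtr Y → ∀ a x b : cell Y, Wh j a x b → dim x = m → Ψ Y a x b)
    (Y : Gpd E) (a x b : cell Y) (hw : Wh j a x b) (hx : dim x = m) : Ψ Y a x b := by
  obtain ⟨C⟩ := exists_whCtx (E := E) (m := m) hw.pos (hx ▸ hw.dx)
  obtain ⟨f, ⟨h1, h2, h3⟩, -⟩ := C.desc Y a x b hw hx
  rw [← h1, ← h2, ← h3]
  exact hΨ _ _ f _ _ _ C.wh C.dim_x (h _ C.ctr _ _ _ C.wh C.dim_x)

lemma cell_natop (V : Gpd E ⥤ GS) (m : ℕ) (hm : 1 ≤ m)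
    (Φ : ∀ Y : Gpd E, cell Y → (V.obj Y).Cell → Prop)
    (hΦ : ∀ (Y Y' : Gpd E) (f : Y ⟶ Y') (x : cell Y) (z : (V.obj Y).Cell), dim x = m →
      Φ Y x z → Φ Y' (cm f x) ((V.map f).app z))
    (h : ∀ Y : Gpd E, MCtr Y → ∀ x : cell Y, dim x = m → ∃ z, Φ Y x z) :
    ∃ ω : ∀ Y : Gpd E, cell Y → (V.obj Y).Cell,
      (∀ (Y : Gpd E) (x : cell Y), dim x = m → Φ Y x (ω Y x)) ∧
      ∀ (Y Y' : Gpd E) (f : Y ⟶ Y') (x : cell Y), dim x = m →
        (V.map f).app (ω Y x) = ω Y' (cm f x) := by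
  classical
  obtain ⟨m, rfl⟩ : ∃ k, m = k + 1 := ⟨m - 1, by omega⟩
  obtain ⟨w, hw⟩ := h _ (rep_ctr (disc m)) (topR E m) rfl
  have key : ∀ (Y : Gpd E) (x : cell Y), ∃ z : (V.obj Y).Cell,
      ∀ f : (rep E).obj (disc m) ⟶ Y, cm f (topR E m) = x → (V.map f).app w = z := by
    intro Y x
    by_cases hx : dim x = m + 1
    · obtain ⟨f, hf, hu⟩ := existsUnique_classify x hx
      exact ⟨(V.map f).app w, fun g hg => by rw [hu g hg]⟩
    · exact ⟨(V.obj Y).bot, fun f hf => absurd (by rw [← hf, ops_dim]; rfl) hx⟩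
  choose ω hω using key
  refine ⟨ω, fun Y x hx => ?_, fun Y Y' g x hx => ?_⟩
  · obtain ⟨f, hf, -⟩ := existsUnique_classify x hx
    rw [← hω Y x f hf, ← hf]
    exact hΦ _ _ f _ _ rfl hw
  · obtain ⟨f, hf, -⟩ := existsUnique_classify x hx
    rw [← hω Y x f hf, ← ops_vcomp]
    exact hω _ _ _ (by rw [cm_comp, hf])

lemma wh_natop (V : Gpd E ⥤ GS) (j m : ℕ)
    (Φ : ∀ Y : Gpd E, cell Y → cell Y → cell Y → (V.obj Y).Cell → Prop)
    (hΦ : ∀ (Y Y' : Gpd E) (f : Y ⟶ Y') (a x b : cell Y) (z : (V.obj Y).Cell), Wh j a x b →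
      dim x = m → Φ Y a x b z → Φ Y' (cm f a) (cm f x) (cm f b) ((V.map f).app z))
    (h : ∀ Y : Gpd E, MCtr Y → ∀ a x b : cell Y, Wh j a x b → dim x = m → ∃ z, Φ Y a x b z) :
    ∃ ω : ∀ Y : Gpd E, cell Y → cell Y → cell Y → (V.obj Y).Cell,
      (∀ (Y : Gpd E) (a x b : cell Y), Wh j a x b → dim x = m → Φ Y a x b (ω Y a x b)) ∧
      ∀ (Y Y' : Gpd E) (f : Y ⟶ Y') (a x b : cell Y), Wh j a x b → dim x = m →
        (V.map f).app (ω Y a x b) = ω Y' (cm f a) (cm f x) (cm f b) := by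
  classical
  by_cases hjm : 1 ≤ j ∧ j + 1 ≤ m
  swap
  · exact ⟨fun Y _ _ _ => (V.obj Y).bot, fun Y a x b hw hx => absurd ⟨hw.pos, hx ▸ hw.dx⟩ hjm,
      fun Y Y' f a x b hw hx => absurd ⟨hw.pos, hx ▸ hw.dx⟩ hjm⟩
  obtain ⟨C⟩ := exists_whCtx (E := E) hjm.1 hjm.2
  obtain ⟨w, hw⟩ := h _ C.ctr _ _ _ C.wh C.dim_x
  have key : ∀ (Y : Gpd E) (a x b : cell Y), ∃ z : (V.obj Y).Cell,
      ∀ f : C.R ⟶ Y, cm f C.a = a ∧ cm f C.x = x ∧ cm f C.b = b → (V.map f).app w = z := by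
    intro Y a x b
    by_cases hx : Wh j a x b ∧ dim x = m
    · obtain ⟨f, hf, hu⟩ := C.desc Y a x b hx.1 hx.2
      exact ⟨(V.map f).app w, fun g hg => by rw [hu g hg]⟩
    · refine ⟨(V.obj Y).bot, fun f hf => absurd ?_ hx⟩
      rw [← hf.1, ← hf.2.1, ← hf.2.2]
      exact ⟨C.wh.map _, (ops_dim _ _).trans C.dim_x⟩
  choose ω hω using key
  refine ⟨ω, fun Y a x b hc hx => ?_, fun Y Y' g a x b hc hx => ?_⟩
  · obtain ⟨f, hf, -⟩ := C.desc Y a x b hc hx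
    rw [← hω Y a x b f hf, ← hf.1, ← hf.2.1, ← hf.2.2]
    exact hΦ _ _ f _ _ _ _ C.wh C.dim_x hw
  · obtain ⟨f, hf, -⟩ := C.desc Y a x b hc hx
    rw [← hω Y a x b f hf, ← ops_vcomp]
    exact hω _ _ _ _ _ (by rw [cm_comp, cm_comp, cm_comp, hf.1, hf.2.1, hf.2.2]; simp)

/-- A natural family of cells over one cell of any dimension `≥ m0`, compatible with boundaries. -/
lemma cell_natfam (V : Gpd E ⥤ GS) (Φ : ∀ Y : Gpd E, cell Y → (V.obj Y).Cell → Prop)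
    (hΦ : ∀ (Y Y' : Gpd E) (f : Y ⟶ Y') (x : cell Y) (z : (V.obj Y).Cell),
      Φ Y x z → Φ Y' (cm f x) ((V.map f).app z))
    (h0 : ∀ Y : Gpd E, Φ Y ((U E).obj Y).bot (V.obj Y).bot)
    (step : ∀ Y : Gpd E, MCtr Y → ∀ x : cell Y, 1 ≤ dim x → ∀ z0 z1 : (V.obj Y).Cell,
      dim z0 + 1 = dim x → Par z0 z1 → Φ Y (sr x) z0 → Φ Y (tg x) z1 →
      ∃ z, Arr z z0 z1 ∧ Φ Y x z) :
    ∃ ω : U E ⟶ V, ∀ (Y : Gpd E) (x : cell Y), Φ Y x ((ω.app Y).app x) := by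
  obtain ⟨ω, hP, hQ, hR⟩ := ops_rec (α := ∀ Y : Gpd E, cell Y → (V.obj Y).Cell)
    (fun n ω => (∀ (Y : Gpd E) (x : cell Y), dim x = n → Φ Y x (ω Y x) ∧ dim (ω Y x) = n) ∧
      (∀ (Y Y' : Gpd E) (f : Y ⟶ Y') (x : cell Y), dim x = n →
        (V.map f).app (ω Y x) = ω Y' (cm f x)) ∧
      ∀ (Y : Gpd E) (x : cell Y), dim x = n + 1 → Par (ω Y (sr x)) (ω Y (tg x)))
    (fun ω => ∀ (Y : Gpd E) (x : cell Y), ω Y x = (V.obj Y).bot)
    (fun n ω ω' => ∀ (Y : Gpd E) (x : cell Y), dim x = n + 1 →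
      Arr (ω' Y x) (ω Y (sr x)) (ω Y (tg x)))
    ⟨fun Y _ => (V.obj Y).bot, ⟨fun Y x hx => ⟨by rw [eq_bot hx]; exact h0 Y, dim_bot⟩,
      fun Y Y' f x _ => app_bot _, fun Y x _ => Par.refl _⟩, fun _ _ => rfl⟩
    (by
      rintro n ω ⟨h1, h2, h3⟩
      obtain ⟨ω', h4, h5⟩ := cell_natop V (n + 1) (by omega)
        (fun Y x z => Arr z (ω Y (sr x)) (ω Y (tg x)) ∧ Φ Y x z)
        (fun Y Y' f x z hx hz => ⟨by
          rw [ops_sr, ops_tg, ← h2 _ _ f _ (by simp [hx]), ← h2 _ _ f _ (by simp [hx])]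
          exact hz.1.map _, hΦ _ _ f _ _ hz.2⟩)
        (fun Y hY x hx => step Y hY x (by omega) _ _
          (by rw [(h1 Y _ (by simp [hx])).2, hx]) (h3 Y x hx) (h1 Y _ (by simp [hx])).1
          (h1 Y _ (by simp [hx])).1)
      refine ⟨ω', ⟨fun Y x hx => ⟨(h4 Y x hx).2, ?_⟩, h5, fun Y x hx => ?_⟩,
        fun Y x hx => (h4 Y x hx).1⟩
      · rw [(h4 Y x hx).1.2.2, (h1 Y _ (by simp [hx])).2]
      · refine (h4 Y _ (by simp [hx])).1.par_of_arr ?_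
        rw [← sr_tg, tg_sr]
        exact (h4 Y _ (by simp [hx])).1)
  have hb : ∀ (Y : Gpd E) (x : cell Y), sr (ω (dim x) Y x) = ω (dim (sr x)) Y (sr x) ∧
      tg (ω (dim x) Y x) = ω (dim (tg x)) Y (tg x) := by
    intro Y x
    rcases hx : dim x with _ | n
    · rw [dim_sr, dim_tg, hx, hQ, hQ, hQ]
      exact ⟨sr_bot, tg_bot⟩
    · rw [dim_sr, dim_tg, hx]
      exact ⟨(hR n Y x hx).1, (hR n Y x hx).2.1⟩
  refine ⟨⟨fun Y => ⟨fun x => ω (dim x) Y x, fun x => ((hP _).1 Y x rfl).2, fun x => (hb Y x).1,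
    fun x => (hb Y x).2⟩, fun Y Y' f => GS.hom_ext fun x => ?_⟩, fun Y x => ((hP _).1 Y x rfl).1⟩
  change ω (dim (cm f x)) Y' (cm f x) = (V.map f).app (ω (dim x) Y x)
  rw [ops_dim, (hP _).2.1 Y Y' f x rfl]

lemma wh_natfam (V : Gpd E ⥤ GS) (j m0 : ℕ) (hm : j + 1 ≤ m0)
    (β0 β1 : ∀ Y : Gpd E, cell Y → cell Y → cell Y → (V.obj Y).Cell)
    (hβ : ∀ (Y Y' : Gpd E) (f : Y ⟶ Y') (a x b : cell Y), Wh j a x b → dim x = m0 →
      (V.map f).app (β0 Y a x b) = β0 Y' (cm f a) (cm f x) (cm f b) ∧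
      (V.map f).app (β1 Y a x b) = β1 Y' (cm f a) (cm f x) (cm f b))
    (hβpar : ∀ (Y : Gpd E) (a x b : cell Y), Wh j a x b → dim x = m0 + 1 →
      β0 Y a (sr x) b = β0 Y a (tg x) b ∧ β1 Y a (sr x) b = β1 Y a (tg x) b)
    (Φ : ∀ Y : Gpd E, cell Y → cell Y → cell Y → (V.obj Y).Cell → Prop)
    (hΦ : ∀ (Y Y' : Gpd E) (f : Y ⟶ Y') (a x b : cell Y) (z : (V.obj Y).Cell), Wh j a x b →
      m0 ≤ dim x → Φ Y a x b z → Φ Y' (cm f a) (cm f x) (cm f b) ((V.map f).app z))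
    (base : ∀ Y : Gpd E, MCtr Y → ∀ a x b : cell Y, Wh j a x b → dim x = m0 →
      ∃ z, Arr z (β0 Y a x b) (β1 Y a x b) ∧ Φ Y a x b z)
    (step : ∀ Y : Gpd E, MCtr Y → ∀ a x b : cell Y, Wh j a x b → m0 < dim x →
      ∀ z0 z1 : (V.obj Y).Cell, Par z0 z1 → Φ Y a (sr x) b z0 → Φ Y a (tg x) b z1 →
      ∃ z, Arr z z0 z1 ∧ Φ Y a x b z) :
    ∃ ω : ∀ Y : Gpd E, cell Y → cell Y → cell Y → (V.obj Y).Cell,
      (∀ (Y : Gpd E) (a x b : cell Y), Wh j a x b → m0 ≤ dim x → Φ Y a x b (ω Y a x b)) ∧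
      (∀ (Y : Gpd E) (a x b : cell Y), Wh j a x b → dim x = m0 →
        Arr (ω Y a x b) (β0 Y a x b) (β1 Y a x b)) ∧
      (∀ (Y : Gpd E) (a x b : cell Y), Wh j a x b → m0 < dim x →
        Arr (ω Y a x b) (ω Y a (sr x) b) (ω Y a (tg x) b)) ∧
      ∀ (Y Y' : Gpd E) (f : Y ⟶ Y') (a x b : cell Y), Wh j a x b → m0 ≤ dim x →
        (V.map f).app (ω Y a x b) = ω Y' (cm f a) (cm f x) (cm f b) := by
  obtain ⟨ω, hP, hQ, hR⟩ := ops_rec (α := ∀ Y : Gpd E, cell Y → cell Y → cell Y → (V.obj Y).Cell)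
    (fun n ω => (∀ (Y : Gpd E) (a x b : cell Y), Wh j a x b → dim x = m0 + n →
        Φ Y a x b (ω Y a x b)) ∧
      (∀ (Y Y' : Gpd E) (f : Y ⟶ Y') (a x b : cell Y), Wh j a x b → dim x = m0 + n →
        (V.map f).app (ω Y a x b) = ω Y' (cm f a) (cm f x) (cm f b)) ∧
      ∀ (Y : Gpd E) (a x b : cell Y), Wh j a x b → dim x = m0 + n + 1 →
        Par (ω Y a (sr x) b) (ω Y a (tg x) b))
    (fun ω => ∀ (Y : Gpd E) (a x b : cell Y), Wh j a x b → dim x = m0 →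
      Arr (ω Y a x b) (β0 Y a x b) (β1 Y a x b))
    (fun n ω ω' => ∀ (Y : Gpd E) (a x b : cell Y), Wh j a x b → dim x = m0 + n + 1 →
      Arr (ω' Y a x b) (ω Y a (sr x) b) (ω Y a (tg x) b))
    (by
      obtain ⟨ω', h4, h5⟩ := wh_natop V j m0
        (fun Y a x b z => Arr z (β0 Y a x b) (β1 Y a x b) ∧ Φ Y a x b z)
        (fun Y Y' f a x b z hw hx hz => ⟨by
          rw [← (hβ _ _ f _ _ _ hw hx).1, ← (hβ _ _ f _ _ _ hw hx).2]
          exact hz.1.map _, hΦ _ _ f _ _ _ _ hw hx.ge hz.2⟩) base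
      refine ⟨ω', ⟨fun Y a x b hw hx => (h4 Y a x b hw hx).2, h5, fun Y a x b hw hx => ?_⟩,
        fun Y a x b hw hx => (h4 Y a x b hw hx).1⟩
      refine (h4 Y a _ b (hw.of_sr (by omega)) (by simp [hx])).1.par_of_arr ?_
      rw [(hβpar Y a x b hw hx).1, (hβpar Y a x b hw hx).2]
      exact (h4 Y a _ b (hw.of_tg (by omega)) (by simp [hx])).1)
    (by
      rintro n ω ⟨h1, h2, h3⟩
      obtain ⟨ω', h4, h5⟩ := wh_natop V j (m0 + n + 1)
        (fun Y a x b z => Arr z (ω Y a (sr x) b) (ω Y a (tg x) b) ∧ Φ Y a x b z)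
        (fun Y Y' f a x b z hw hx hz => ⟨by
          rw [ops_sr, ops_tg, ← h2 _ _ f _ _ _ (hw.of_sr (by omega)) (by simp [hx]),
            ← h2 _ _ f _ _ _ (hw.of_tg (by omega)) (by simp [hx])]
          exact hz.1.map _, hΦ _ _ f _ _ _ _ hw (by omega) hz.2⟩)
        (fun Y hY a x b hw hx => step Y hY a x b hw (by omega) _ _ (h3 Y a x b hw hx)
          (h1 Y a _ b (hw.of_sr (by omega)) (by simp [hx]))
          (h1 Y a _ b (hw.of_tg (by omega)) (by simp [hx])))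
      refine ⟨ω', ⟨fun Y a x b hw hx => (h4 Y a x b hw hx).2, h5, fun Y a x b hw hx => ?_⟩,
        fun Y a x b hw hx => (h4 Y a x b hw hx).1⟩
      refine (h4 Y a _ b (hw.of_sr (by omega)) (by rw [dim_sr, hx]; omega)).1.par_of_arr ?_
      rw [← sr_tg, tg_sr]
      exact (h4 Y a _ b (hw.of_tg (by omega)) (by rw [dim_tg, hx]; omega)).1)
  refine ⟨fun Y a x b => ω (dim x - m0) Y a x b, fun Y a x b hw hx => (hP _).1 Y a x b hw (by omega),
    fun Y a x b hw hx => ?_, fun Y a x b hw hx => ?_, fun Y Y' f a x b hw hx => ?_⟩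
  · simp only [hx, Nat.sub_self]
    exact hQ Y a x b hw hx
  · obtain ⟨n, hn⟩ : ∃ n, dim x = m0 + n + 1 := ⟨dim x - m0 - 1, by omega⟩
    have e1 : dim x - m0 = n + 1 := by omega
    have e2 : dim x - 1 - m0 = n := by omega
    simp only [dim_sr, dim_tg, e1, e2]
    exact hR n Y a x b hw hn
  · simp only [ops_dim]
    exact (hP _).2.1 Y Y' f a x b hw (by omega)

/-- Identities, inverses and two sided whiskering. -/
structure Ops (E : GlobExt) where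
  idc : ∀ Y : Gpd E, cell Y → cell Y
  inv : ∀ Y : Gpd E, cell Y → cell Y
  wh : ℕ → ∀ Y : Gpd E, cell Y → cell Y → cell Y → cell Y
  idc_arr : ∀ (Y : Gpd E) (x : cell Y), 1 ≤ dim x → Arr (idc Y x) x x
  idc_nat : ∀ (Y Y' : Gpd E) (f : Y ⟶ Y') (x : cell Y), 1 ≤ dim x →
    cm f (idc Y x) = idc Y' (cm f x)
  inv_arr : ∀ (Y : Gpd E) (x : cell Y), 1 ≤ dim x → Arr (inv Y x) (tg x) (sr x)
  inv_nat : ∀ (Y Y' : Gpd E) (f : Y ⟶ Y') (x : cell Y), 1 ≤ dim x →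
    cm f (inv Y x) = inv Y' (cm f x)
  wh_dim : ∀ (j : ℕ) (Y : Gpd E) (a x b : cell Y), Wh j a x b → dim (wh j Y a x b) = dim x
  wh_bot : ∀ (j : ℕ) (Y : Gpd E) (a x b : cell Y), Wh j a x b → dim x = j + 1 →
    Arr (wh j Y a x b) (sr a) (tg b)
  wh_succ : ∀ (j : ℕ) (Y : Gpd E) (a x b : cell Y), Wh j a x b → j + 1 < dim x →
    Arr (wh j Y a x b) (wh j Y a (sr x) b) (wh j Y a (tg x) b)
  wh_nat : ∀ (j : ℕ) (Y Y' : Gpd E) (f : Y ⟶ Y') (a x b : cell Y), Wh j a x b →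
    cm f (wh j Y a x b) = wh j Y' (cm f a) (cm f x) (cm f b)

lemma exists_ops : Nonempty (Ops E) := by
  have h1 := fun m : ℕ => cell_natop (U E) (m + 1) (by omega) (fun Y x z => Arr z x x)
    (fun Y Y' f x z _ hz => hz.map _) (fun Y hY x _ => hY x x (Par.refl x))
  choose I hI hI' using h1
  have h2 := fun m : ℕ => cell_natop (U E) (m + 1) (by omega) (fun Y x z => Arr z (tg x) (sr x))
    (fun Y Y' f x z _ hz => by rw [ops_sr, ops_tg]; exact hz.map _)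
    (fun Y hY x _ => hY _ _ (par_sr_tg x).symm)
  choose J hJ hJ' using h2
  have h3 := fun j : ℕ => wh_natfam (U E) j (j + 1) le_rfl (fun Y a _ _ => sr a)
    (fun Y _ _ b => tg b) (fun Y Y' f a x b _ _ => ⟨(ops_sr f a).symm, (ops_tg f b).symm⟩)
    (fun Y a x b _ _ => ⟨rfl, rfl⟩) (fun Y a x b z => dim z = dim x)
    (fun Y Y' f a x b z _ _ hz => by rw [ops_dim f z, ops_dim f x, hz])
    (fun Y hY a x b hw hx => (hY _ _ hw.par_ends).imp fun z hz =>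
      ⟨hz, by rw [hz.2.2, dim_sr, hw.da, hx]; rfl⟩)
    (fun Y hY a x b hw hx z0 z1 hp h0 _ => (hY _ _ hp).imp fun z hz =>
      ⟨hz, by rw [hz.2.2, h0, dim_sr]; omega⟩)
  choose K hK1 hK2 hK3 hK4 using h3
  refine ⟨⟨fun Y x => I (dim x - 1) Y x, fun Y x => J (dim x - 1) Y x, K,
    fun Y x hx => hI _ Y x (by omega), fun Y Y' f x hx => ?_, fun Y x hx => hJ _ Y x (by omega),
    fun Y Y' f x hx => ?_, fun j Y a x b hw => hK1 j Y a x b hw hw.dx, hK2, hK3,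
    fun j Y Y' f a x b hw => hK4 j Y Y' f a x b hw hw.dx⟩⟩
  · rw [ops_dim]
    exact hI' _ Y Y' f x (by omega)
  · rw [ops_dim]
    exact hJ' _ Y Y' f x (by omega)

variable (E) in
/-- A choice of operations. -/
def ops : Ops E := Classical.choice exists_ops

/-- Identity cell. -/
def idc {Y : Gpd E} (x : cell Y) : cell Y := (ops E).idc Y x
/-- Inverse cell. -/
def invc {Y : Gpd E} (x : cell Y) : cell Y := (ops E).inv Y x
/-- Two sided whiskering at level `j`. -/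
def wh (j : ℕ) {Y : Gpd E} (a x b : cell Y) : cell Y := (ops E).wh j Y a x b

section
variable {Y Y' : Gpd E} {j : ℕ} {a x b : cell Y}
lemma idc_arr (h : 1 ≤ dim x) : Arr (idc x) x x := (ops E).idc_arr Y x h
lemma cm_idc (f : Y ⟶ Y') (h : 1 ≤ dim x) : cm f (idc x) = idc (cm f x) :=
  (ops E).idc_nat Y Y' f x h
lemma invc_arr (h : 1 ≤ dim x) : Arr (invc x) (tg x) (sr x) := (ops E).inv_arr Y x h
lemma cm_invc (f : Y ⟶ Y') (h : 1 ≤ dim x) : cm f (invc x) = invc (cm f x) :=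
  (ops E).inv_nat Y Y' f x h
lemma dim_wh (h : Wh j a x b) : dim (wh j a x b) = dim x := (ops E).wh_dim j Y a x b h
lemma wh_bot (h : Wh j a x b) (hx : dim x = j + 1) : Arr (wh j a x b) (sr a) (tg b) :=
  (ops E).wh_bot j Y a x b h hx
lemma wh_succ (h : Wh j a x b) (hx : j + 1 < dim x) :
    Arr (wh j a x b) (wh j a (sr x) b) (wh j a (tg x) b) := (ops E).wh_succ j Y a x b h hx
lemma cm_wh (f : Y ⟶ Y') (h : Wh j a x b) : cm f (wh j a x b) = wh j (cm f a) (cm f x) (cm f b) :=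
  (ops E).wh_nat j Y Y' f a x b h
lemma dim_invc (h : 1 ≤ dim x) : dim (invc x) = dim x := by
  rw [(invc_arr h).2.2, dim_tg]
  omega
lemma Arr.invc {c : cell Y} (h : Arr c a b) : Arr (invc c) b a := by
  have h1 := invc_arr h.pos
  rwa [h.1, h.2.1] at h1
lemma wh_arr {c y : cell Y} (h : Wh j a x b) (hc : Arr c x y) :
    Arr (wh j a c b) (wh j a x b) (wh j a y b) := by
  have h1 := wh_succ (h.of_arr hc) (by have := h.dx; rw [hc.2.2]; omega)
  rwa [hc.1, hc.2.1] at h1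
lemma src_wh (h : Wh j a x b) : src j (wh j a x b) = sr a := by
  obtain ⟨n, hn⟩ : ∃ n, dim x = j + 1 + n := ⟨dim x - (j + 1), by have := h.dx; omega⟩
  induction n generalizing x with
  | zero => rw [src_eq_sr (by rw [dim_wh h, hn]), (wh_bot h hn).1]
  | succ n ih =>
    rw [← src_sr (by rw [dim_wh h]; omega), (wh_succ h (by omega)).1]
    exact ih (h.of_sr (by omega)) (by rw [dim_sr]; omega)
lemma tgt_wh (h : Wh j a x b) : tgt j (wh j a x b) = tg b := by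
  obtain ⟨n, hn⟩ : ∃ n, dim x = j + 1 + n := ⟨dim x - (j + 1), by have := h.dx; omega⟩
  induction n generalizing x with
  | zero => rw [tgt_eq_tg (by rw [dim_wh h, hn]), (wh_bot h hn).2.1]
  | succ n ih =>
    rw [← tgt_tg (by rw [dim_wh h]; omega), (wh_succ h (by omega)).2.1]
    exact ih (h.of_tg (by omega)) (by rw [dim_tg]; omega)
lemma src_succ_wh (h : Wh j a x b) {i : ℕ} (hi : j + 1 ≤ i) :
    src i (wh j a x b) = wh j a (src i x) b := by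
  obtain ⟨n, hn⟩ : ∃ n, dim x ≤ i + n := ⟨dim x, by omega⟩
  induction n generalizing x with
  | zero => rw [src_of_le (by rwa [dim_wh h]), src_of_le (j := i) hn]
  | succ n ih =>
    rcases le_or_gt (dim x) i with h1 | h1
    · rw [src_of_le (by rwa [dim_wh h]), src_of_le h1]
    · rw [← src_sr (by rwa [dim_wh h]), (wh_succ h (by omega)).1, ← src_sr h1]
      exact ih (h.of_sr (by omega)) (by rw [dim_sr]; omega)
lemma tgt_succ_wh (h : Wh j a x b) {i : ℕ} (hi : j + 1 ≤ i) :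
    tgt i (wh j a x b) = wh j a (tgt i x) b := by
  obtain ⟨n, hn⟩ : ∃ n, dim x ≤ i + n := ⟨dim x, by omega⟩
  induction n generalizing x with
  | zero => rw [tgt_of_le (by rwa [dim_wh h]), tgt_of_le (j := i) hn]
  | succ n ih =>
    rcases le_or_gt (dim x) i with h1 | h1
    · rw [tgt_of_le (by rwa [dim_wh h]), tgt_of_le h1]
    · rw [← tgt_tg (by rwa [dim_wh h]), (wh_succ h (by omega)).2.1, ← tgt_tg h1]
      exact ih (h.of_tg (by omega)) (by rw [dim_tg]; omega)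
lemma wh_par {y : cell Y} (h : Wh j a x b) (hxy : Par x y) : Par (wh j a x b) (wh j a y b) := by
  have h' := h.of_par hxy
  rcases h.dx.eq_or_lt with h1 | h1
  · exact (wh_bot h h1.symm).par_of_arr (wh_bot h' (hxy.1 ▸ h1.symm))
  · refine (wh_succ h h1).par_of_arr ?_
    rw [hxy.2.1, hxy.2.2]
    exact wh_succ h' (hxy.1 ▸ h1)
end

lemma gpdLike (Y : Gpd E) : GpdLike ((U E).obj Y) := by
  refine ⟨fun x hx => ⟨_, idc_arr hx⟩, fun x y h => h.elim fun c hc => ⟨_, hc.invc⟩, ?_⟩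
  rintro x y z ⟨c, hc⟩ ⟨d, hd⟩
  rcases Nat.eq_zero_or_pos (dim x) with h0 | h0
  · have h1 : dim y = 0 := hc.par.1 ▸ h0
    have h2 : dim z = 0 := hd.par.1 ▸ h1
    rw [eq_bot h2, ← eq_bot h1]
    exact ⟨c, hc⟩
  · have hy : dim y = dim x := hc.par.1.symm
    have hi : Arr (idc y) (tg c) (sr d) := by
      rw [hc.2.1, hd.1]
      exact idc_arr (by omega)
    have hw : Wh (dim x) c (idc y) d := Wh.bottom h0 hc.2.2 (by rw [hd.2.2, hy]) hi
    have h3 := wh_bot hw (by rw [(idc_arr (by omega)).2.2, hy])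
    rw [hc.1, hd.2.1] at h3
    exact ⟨_, h3⟩

/-- Every model is fibrant. -/
lemma fb_terminal {X T : Gpd E} (hT : IsTerminal T) (p : X ⟶ T) : FB E p := by
  intro a ha c _ h2
  refine ⟨idc a, (idc_arr ha).1, (idc_arr ha).2.2, ?_⟩
  exact ((discsOf (rep E)).terminal_cell hT (dim a + 1)).unique
    ((ops_dim p _).trans (idc_arr ha).2.2) h2

end Vale.Agent.P259
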