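import Vale.Agent.P259.LT
import Vale.Agent.P259.Cosk

/-! P259 task PATHLT: path objects from contractibility of the cylinders on globular sums.

`pathObj_base`: `P = K`, `p0 = p1 = 𝟙`; uniqueness of fillers (`K.cosk`) gives `fill`, `fib`.
`pathObj_of_ctr`: let `Mk` be the full subcategory of `Gpd E` on `IsCosk k (U Y)`, `V = ι ⋙ C.Cy`,
`T.R S = K (R S)`, `T.univ S = u S ≫ Cy (η)`; it represents by `Cosk.reflect`. Apply
`lifting_theorem` with `T1 = T2 = ι`, `q1, q2` the whiskered `C.q0, C.q1`. Lifting hypothesis: if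
`n ≤ dim h0` use `fill`; if `dim h0 < n` all cells of `|S|` have `dim < n` (`dim_tab_le`), so
`u1 = u2` (`hom_ext_gen`, `PathAx.low_eq`); take `z` from `low` and use `low_inj` for the boundary.
`P := lift K ⋙ P'`, `p0, p1` whiskered, axioms by `PathAx.of_iso`. -/

noncomputable section
namespace Vale.Agent.P259
open CategoryTheory CategoryTheory.Limits GlobExt Opposite
variable {E : GlobExt} [hE : Fact E.IsCoherator]

lemma pathLT_base {k : ℕ} {G : GS} (hG : IsCosk k G) : PathAx (k + 1) (𝟙 G) (𝟙 G) := by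
  have huniq : ∀ a b x y : G.Cell, k ≤ dim a → Arr x a b → Arr y a b → x = y := by
    intro a b x y ha hx hy
    exact (hG a b hx.par (by exact_mod_cast ha)).unique hx hy
  refine ⟨TrivFib.of_isIso _, TrivFib.of_isIso _, fun z z' _ h => h, fun x _ => ⟨x, rfl, rfl⟩,
    fun _ a b _ hn x y hx hy => ⟨x, hx, rfl, huniq a b x y (by omega) hx hy⟩,
    fun a hn x y hx dx hy dy => ⟨x, hx, dx, rfl, ?_⟩⟩
  have hx' : sr x = a := hx
  have hy' : sr y = a := hy
  have ax : Arr x a (tg x) := hx' ▸ arr_self (c := x) (by omega)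
  have ay : Arr y a (tg y) := hy' ▸ arr_self (c := y) (by omega)
  have aa : Arr a (sr a) (tg a) := arr_self (by omega)
  have e : tg x = tg y :=
    huniq (sr a) (tg a) _ _ (by rw [dim_sr]; omega) (aa.of_par ax.par) (aa.of_par ay.par)
  exact huniq a (tg x) x y (by omega) ax (e ▸ ay)

theorem pathObj_base {k : ℕ} (K : Cosk E k) : Nonempty (PathObj K.K (k + 1)) := by
  refine ⟨⟨K.K, 𝟙 _, 𝟙 _, fun X => ?_⟩⟩
  rw [NatTrans.id_app, CategoryTheory.Functor.map_id]
  exact pathLT_base (K.cosk X)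

/-- The full subcategory of coskeletal models. -/
abbrev PathLTMk (E : GlobExt) (k : ℕ∞) : ObjectProperty (Gpd E) :=
  fun Y => IsCosk k ((U E).obj Y)

omit hE in
lemma pathLT_lift {n : ℕ} (C : CylData E n) (S : Theta) (Y : Gpd E) (hY : MCtr Y)
    (w : tabGS.obj S ⟶ C.Cy.obj Y) (u1 u2 : (rep E).obj S ⟶ Y)
    (h1 : gn E S ≫ (U E).map u1 = w ≫ C.q0.app Y) (h2 : gn E S ≫ (U E).map u2 = w ≫ C.q1.app Y)
    (h0 : cell ((rep E).obj S)) (hd : S.2.dim + 1 ≤ dim h0) (a b : (C.Cy.obj Y).Cell)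
    (hab : Par a b) (ha1 : (C.q0.app Y).app a = cm u1 (sr h0))
    (hb1 : (C.q0.app Y).app b = cm u1 (tg h0)) (ha2 : (C.q1.app Y).app a = cm u2 (sr h0))
    (hb2 : (C.q1.app Y).app b = cm u2 (tg h0)) :
    ∃ z, Arr z a b ∧ (C.q0.app Y).app z = cm u1 h0 ∧ (C.q1.app Y).app z = cm u2 h0 := by
  have A := C.ax Y
  have da : dim a + 1 = dim h0 := by
    have := congrArg dim ha1
    rw [GS.Hom.dim_app, GS.Hom.dim_app, dim_sr] at this
    omega
  have a0 : Arr h0 (sr h0) (tg h0) := arr_self (by omega)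
  by_cases hn : n ≤ dim h0
  · refine A.fill hY a b hab (by omega) _ _ ?_ ?_
    · rw [ha1, hb1]; exact a0.map _
    · rw [ha2, hb2]; exact a0.map _
  · have e : u1 = u2 := by
      refine hom_ext_gen fun c => ?_
      have e1 : cm u1 ((gn E S).app c) = (C.q0.app Y).app (w.app c) :=
        congrArg (fun f => GS.Hom.app f c) h1
      have e2 : cm u2 ((gn E S).app c) = (C.q1.app Y).app (w.app c) :=
        congrArg (fun f => GS.Hom.app f c) h2
      rw [e1, e2]
      refine A.low_eq _ ?_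
      have := dim_tab_le S c
      rw [GS.Hom.dim_app]; omega
    subst e
    obtain ⟨z, z0, z1⟩ := A.low (cm u1 h0) (by rw [GS.Hom.dim_app]; omega)
    have dz : dim z = dim h0 := by
      have := congrArg dim z0
      rwa [GS.Hom.dim_app, GS.Hom.dim_app] at this
    refine ⟨z, ⟨?_, ?_, by omega⟩, z0, z1⟩
    · refine A.low_inj _ _ (by rw [dim_sr]; omega) ?_
      rw [← GS.Hom.sr_app, z0, ha1, GS.Hom.sr_app]
    · refine A.low_inj _ _ (by rw [dim_tg]; omega) ?_
      rw [← GS.Hom.tg_app, z0, hb1, GS.Hom.tg_app]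

theorem pathObj_of_ctr {k : ℕ∞} (K : Cosk E k) {n : ℕ} (C : CylData E n)
    (h : ∀ S : Theta, ∃ (R : Gpd E) (u : tabGS.obj S ⟶ C.Cy.obj R),
      MCtr (K.K.obj R) ∧ Represents C.Cy u) : Nonempty (PathObj K.K n) := by
  choose R u hR hu using h
  let ι : (PathLTMk E k).FullSubcategory ⥤ Gpd E := (PathLTMk E k).ι
  let T : TabRep (ι ⋙ C.Cy) :=
    { R := fun S => ⟨K.K.obj (R S), K.cosk _⟩
      univ := fun S => u S ≫ C.Cy.map (K.η.app (R S))
      rep := by
        intro S X φ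
        obtain ⟨f, hf, hf'⟩ := hu S X.obj φ
        obtain ⟨g, hg, hg'⟩ := K.reflect X.property f
        refine ⟨ObjectProperty.homMk g, ?_, fun g' h' => ?_⟩
        · show (u S ≫ C.Cy.map (K.η.app (R S))) ≫ C.Cy.map g = φ
          rw [Category.assoc, ← C.Cy.map_comp]
          exact (congrArg (fun t => u S ≫ C.Cy.map t) hg).trans hf
        · have h'' : (u S ≫ C.Cy.map (K.η.app (R S))) ≫ C.Cy.map g'.hom = φ := h'
          rw [Category.assoc, ← C.Cy.map_comp] at h''
          exact ObjectProperty.hom_ext _ (hg' _ (hf' _ h'')) }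
  obtain ⟨P, p1, p2, e, e1, e2⟩ := lifting_theorem T ι ι (Functor.whiskerLeft ι C.q0)
    (Functor.whiskerLeft ι C.q1) (fun S u1 u2 h1 h2 h0 hd a b hab ha1 hb1 ha2 hb2 =>
      pathLT_lift C S (K.K.obj (R S)) (hR S) (T.univ S) u1 u2 h1 h2 h0 hd a b hab ha1 hb1 ha2 hb2)
  let L : Gpd E ⥤ (PathLTMk E k).FullSubcategory := (PathLTMk E k).lift K.K K.cosk
  refine ⟨⟨L ⋙ P, Functor.whiskerLeft L p1, Functor.whiskerLeft L p2, fun X => ?_⟩⟩
  show PathAx n ((U E).map (p1.app (L.obj X))) ((U E).map (p2.app (L.obj X)))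
  rw [e1, e2]
  exact PathAx.of_iso (e.app (L.obj X)) (C.ax (K.K.obj X))

end Vale.Agent.P259
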