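import Vale.Agent.P259.Cof

/-! P259 task SOA: small object arguments.

Use Mathlib's `SmallObject` files with `κ = ℵ₀` (see the instance for `SSet` in
Mathlib/AlgebraicTopology/SimplicialSet/AnodyneExtensions/Basic.lean): for
`I = ofHoms (bd E)` and `J = ofHoms σ` the sources are finitely presentable (`rep` by `Colim`, `sph n`
by induction from `isPushout_sph`, `sph_zero_initial` and `isCardinalPresentable_of_isColimit`), so
`IsCardinalForSmallObjectArgument`; `TF_eq`, `FB_eq` turn the factorisations into the first two lemmas.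
`exists_Q`: either iterate by hand (`SmallObject.functor`, `SmallObject.ε`, `Functor.ofSequence`,
or directly: `step (X, q : X ⟶ Y)` attaches one cell for each `(a, b, c')` with `Par a b`,
`Arr c' (q a) (q b)`, `exists_isAtt`; functorial on `Arrow` by `IsAtt.desc`; `TF` by `seqColim`,
`SeqColim.par`), or reindex `relativeCellComplexιObj` along `ℵ₀.ord.ToType ≃o ℕ` and use
`isAtt_iff_famPush`, `famPush_iff`.
`exists_projCof`: small object argument in `A ⥤ Gpd E` for the maps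
`(evaluationLeftAdjoint a).map (bd E n)` (`evaluationAdjunctionRight`), whose `rlp` is objectwise `TF`;
factor `⊥ ⟶ ⊤`. -/

noncomputable section
namespace Vale.Agent.P259
open CategoryTheory CategoryTheory.Limits GlobExt Opposite
variable {E : GlobExt}

section Aux

open MorphismProperty

attribute [local instance] Cardinal.fact_isRegular_aleph0 Cardinal.orderBotAleph0OrdToType

variable {C : Type 1} [Category.{0} C] [HasColimitsOfSize.{0, 0} C] {α : Type} {Z B : α → C}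

private lemma soa_card (c : ∀ p, Z p ⟶ B p) (hZ : ∀ p, IsFinitelyPresentable.{0} (Z p)) :
    IsCardinalForSmallObjectArgument (ofHoms c) Cardinal.aleph0.{0} where
  isSmall := isSmall_ofHoms ..
  preservesColimit {A' B' X Y} i hi f hf := by
    have : IsFinitelyPresentable.{0} A' := by
      obtain ⟨p⟩ := hi
      exact hZ p
    infer_instance

private lemma soa_factor (c : ∀ p, Z p ⟶ B p) (hZ : ∀ p, IsFinitelyPresentable.{0} (Z p))
    {X Y : C} (f : X ⟶ Y) : ∃ (T : C) (i : X ⟶ T) (p : T ⟶ Y),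
      (ofHoms c).rlp.llp i ∧ (ofHoms c).rlp p ∧ i ≫ p = f := by
  have := soa_card c hZ
  exact ⟨_, _, _, SmallObject.llp_rlp_ιObj (ofHoms c) Cardinal.aleph0 f,
    SmallObject.rlp_πObj (ofHoms c) Cardinal.aleph0 f, SmallObject.ιObj_πObj _ _ f⟩

private lemma soa_functor (c : ∀ p, Z p ⟶ B p) (hZ : ∀ p, IsFinitelyPresentable.{0} (Z p)) :
    ∃ (Q : C ⥤ C) (q : Q ⟶ 𝟭 C), ∀ X, (ofHoms c).rlp (q.app X) ∧ ∃ i : ⊥_ C ⟶ Q.obj X,
      (coproducts.{0} (ofHoms c)).pushouts.transfiniteCompositionsOfShape ℕ i := by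
  have := soa_card c hZ
  let e : ℕ ≃o Cardinal.aleph0.{0}.ord.ToType :=
    OrderIso.ofRelIsoLT (Nonempty.some (by simp [← Ordinal.type_eq]))
  let G : C ⥤ Arrow C :=
    { obj X := Arrow.mk (initial.to X)
      map f := Arrow.homMk (𝟙 _) f (initial.hom_ext _ _) }
  let d := SmallObject.functorialFactorizationData (ofHoms c) Cardinal.aleph0.{0}
  refine ⟨G ⋙ d.Z, { app X := d.p.app (G.obj X), naturality X Y f := d.p.naturality (G.map f) },
    fun X => ⟨d.hp _, d.i.app (G.obj X), ?_⟩⟩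
  rw [transfiniteCompositionsOfShape_eq_of_orderIso _ e]
  exact SmallObject.transfiniteCompositionsOfShape_ιObj _ _ _

omit [HasColimitsOfSize.{0, 0} C] in
private lemma soa_famPush (c : ∀ p, Z p ⟶ B p) {X Y : C} {i : X ⟶ Y}
    (hi : (coproducts.{0} (ofHoms c)).pushouts i) :
    ∃ (ι : Type) (n : ι → α) (φ : ∀ k, Z (n k) ⟶ X) (χ : ∀ k, B (n k) ⟶ Y),
      FamPush (fun k => c (n k)) φ i χ := by
  have key : ∀ {X Y : C} (g : X ⟶ Y), ofHoms c g →
      ∃ (n : α) (e₁ : Z n ≅ X) (e₂ : B n ≅ Y), e₁.hom ≫ g = c n ≫ e₂.hom := by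
    rintro _ _ _ ⟨n⟩
    exact ⟨n, Iso.refl _, Iso.refl _, by simp⟩
  obtain ⟨_, _, p, f, g, hp, sq⟩ := hi
  rw [coproducts_iff] at hp
  obtain ⟨J, X₁, X₂, c₁, c₂, h₁, h₂, t, ht⟩ := hp
  have e : ∀ j, c₁.ι.app j ≫ h₁.desc (Cocone.mk _ (t ≫ c₂.ι)) = t.app j ≫ c₂.ι.app j :=
    fun j => h₁.fac _ j
  generalize h₁.desc (Cocone.mk _ (t ≫ c₂.ι)) = p at e sq
  choose n e₁ e₂ he using fun j => key _ (ht j)
  refine ⟨Discrete J, n, fun j => (e₁ j).hom ≫ c₁.ι.app j ≫ f,
    fun j => (e₂ j).hom ≫ c₂.ι.app j ≫ g, fun j => ?_, fun T u h hw => ?_⟩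
  · rw [Category.assoc, Category.assoc, sq.w, reassoc_of% e, reassoc_of% he]
  obtain ⟨v, hv⟩ : ∃ v : c₂.pt ⟶ T, ∀ j, c₂.ι.app j ≫ v = (e₂ j).inv ≫ h j :=
    ⟨h₂.desc (Cocone.mk T (Discrete.natTrans fun j => (e₂ j).inv ≫ h j)), fun j => h₂.fac _ j⟩
  have w : f ≫ u = p ≫ v := h₁.hom_ext fun j => by
    rw [reassoc_of% e, hv, ← cancel_epi (e₁ j).hom, reassoc_of% he, Iso.hom_inv_id_assoc, ← hw,
      Category.assoc, Category.assoc]
  refine ⟨sq.desc u v w, ⟨sq.inl_desc _ _ _, fun j => ?_⟩, fun d hd => sq.hom_ext ?_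
    (h₂.hom_ext fun j => ?_)⟩
  · rw [Category.assoc, Category.assoc, sq.inr_desc, hv, Iso.hom_inv_id_assoc]
  · rw [sq.inl_desc, hd.1]
  · rw [sq.inr_desc, hv, ← hd.2 j, Category.assoc, Category.assoc, Iso.inv_hom_id_assoc]

private lemma soa_fp_sph (n : ℕ) : IsFinitelyPresentable.{0} (sph E n) := by
  induction n with
  | zero =>
    obtain ⟨h⟩ := sph_zero_initial (E := E)
    apply +allowSynthFailures isCardinalPresentable_of_isColimit' _ h
    · exact hasCardinalLT_of_finite _ _ (by rfl)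
    · rintro ⟨⟨⟩⟩
  | succ n ih =>
    apply +allowSynthFailures isCardinalPresentable_of_isColimit' _
      (isPushout_sph (E := E) n).isColimit
    · exact hasCardinalLT_of_finite _ _ (by rfl)
    · rintro (_ | _ | _)
      · exact ih
      · exact inferInstanceAs (IsFinitelyPresentable.{0} ((rep E).obj (disc n)))
      · exact inferInstanceAs (IsFinitelyPresentable.{0} ((rep E).obj (disc n)))

private lemma soa_fp_ev {A : Type} [SmallCategory A] (a : A) (n : ℕ) :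
    IsFinitelyPresentable.{0} ((evaluationLeftAdjoint (Gpd E) a).obj (sph E n)) := by
  have := soa_fp_sph (E := E) n
  have : ((evaluation A (Gpd E)).obj a).IsCardinalAccessible Cardinal.aleph0.{0} :=
    Functor.IsFinitelyAccessible_iff_preservesFilteredColimitsOfSize.2 inferInstance
  exact (evaluationAdjunctionRight (Gpd E) a).isCardinalPresentable_leftAdjoint_obj _ _

end Aux

private lemma soa_ctr_terminal {T : Gpd E} (hT : IsTerminal T) : MCtr T := by
  rintro (_ | ⟨n, x⟩) (_ | ⟨m, y⟩) ⟨h, -⟩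
  · exact ⟨some ⟨0, hT.from _⟩, rfl, rfl, rfl⟩
  · exact absurd h (Nat.succ_ne_zero m).symm
  · exact absurd h (Nat.succ_ne_zero n)
  · obtain rfl : n = m := Nat.succ_injective h
    exact ⟨some ⟨n + 1, hT.from _⟩, congrArg (fun z => some (Sigma.mk n z)) (hT.hom_ext _ _),
      congrArg (fun z => some (Sigma.mk n z)) (hT.hom_ext _ _), rfl⟩

lemma exists_cof_tf {X Y : Gpd E} (f : X ⟶ Y) :
    ∃ (Z : Gpd E) (i : X ⟶ Z) (p : Z ⟶ Y), Cof E i ∧ TF E p ∧ i ≫ p = f := by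
  rw [Cof, TF_eq]
  exact soa_factor (bd E) soa_fp_sph f

lemma exists_tc_fb {X Y : Gpd E} (f : X ⟶ Y) :
    ∃ (Z : Gpd E) (i : X ⟶ Z) (p : Z ⟶ Y), TC E i ∧ FB E p ∧ i ≫ p = f := by
  rw [TC, FB_eq]
  exact soa_factor (discsOf (rep E)).σ
    (fun n => inferInstanceAs (IsFinitelyPresentable.{0} ((rep E).obj (disc n)))) f

theorem exists_Q (E : GlobExt) : ∃ (Q : Gpd E ⥤ Gpd E) (q : Q ⟶ 𝟭 _),
    ∀ X, TF E (q.app X) ∧ Cellular (Q.obj X) := by
  obtain ⟨Q, q, h⟩ := soa_functor (bd E) soa_fp_sph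
  refine ⟨Q, q, fun X => ⟨by rw [TF_eq]; exact (h X).1, ?_⟩⟩
  obtain ⟨i, ⟨t⟩⟩ := (h X).2
  refine ⟨t.F, _, t.isColimit, initialIsInitial.ofIso t.isoBot.symm, Iso.refl _, fun k => ?_⟩
  obtain ⟨ι, n, φ, χ, hp⟩ := soa_famPush _ (t.map_mem k (not_isMax k))
  exact ⟨ι, _, _, _,
    (isAtt_iff_famPush (discsOf (rep E)) (isSph E) (bd E) (bd_spec E) _ n φ χ).2 hp⟩

theorem exists_projCof (E : GlobExt) (A : Type) [SmallCategory A] : ∃ S : A ⥤ Gpd E,
    (∀ a, MCtr (S.obj a)) ∧ ∀ (F G : A ⥤ Gpd E) (p : F ⟶ G), (∀ a, TF E (p.app a)) →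
      ∀ g : S ⟶ G, ∃ l : S ⟶ F, l ≫ p = g := by
  have key : ∀ {F G : A ⥤ Gpd E} (p : F ⟶ G), (MorphismProperty.ofHoms fun x : A × ℕ =>
      (evaluationLeftAdjoint (Gpd E) x.1).map (bd E x.2)).rlp p ↔ ∀ a, TF E (p.app a) := by
    intro F G p
    rw [TF_eq]
    constructor
    · rintro h a _ _ _ ⟨n⟩
      exact ((evaluationAdjunctionRight (Gpd E) a).hasLiftingProperty_iff _ p).1
        (h _ (MorphismProperty.ofHoms.mk (f := fun x : A × ℕ =>
          (evaluationLeftAdjoint (Gpd E) x.1).map (bd E x.2)) (a, n)))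
    · rintro h _ _ _ ⟨a, n⟩
      exact ((evaluationAdjunctionRight (Gpd E) a).hasLiftingProperty_iff _ p).2
        (h a _ (MorphismProperty.ofHoms.mk n))
  obtain ⟨S, i, q, hi, hq, -⟩ := soa_factor (fun x : A × ℕ =>
    (evaluationLeftAdjoint (Gpd E) x.1).map (bd E x.2)) (fun x => soa_fp_ev x.1 x.2)
    (initial.to ((Functor.const A).obj (⊤_ Gpd E)))
  refine ⟨S, fun a => TrivFib.ctr ((key q).1 hq a) (soa_ctr_terminal terminalIsTerminal),
    fun F G p hp g => ?_⟩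
  have := hi p ((key p).2 hp)
  have sq : CommSq (initial.to F) i p g := ⟨initial.hom_ext _ _⟩
  exact ⟨sq.lift, sq.fac_right⟩

end Vale.Agent.P259
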