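import Vale.Agent.P259.Cube2

/-! P259 task SMALL: the grid-small singular cubes of a cube form a contractible model.

For `l r : Fin n → ℕ` with `l i ≤ r i ≤ M` let `K l r` be the `singSub` of the sets `A` that are `gridSmall M` and lie in
the box `∀ a ∈ A, ∀ i, l i ≤ M * a i ≤ r i`. Show `MCtr (Sh (K l r))` by induction on `∑ i, (r i - l i)`.
If all `r i ≤ l i + 2` then `K l r ≅ Sing (box)` (the box as a subtype; it is nonempty and contractible: straight line
homotopy, or `Convex.contractibleSpace` after embedding in `Fin n → ℝ`), so `L_ctr`. Otherwise pick `i` with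
`l i + 3 ≤ r i`, `c = r i - 2`: `K l r = K l (update r i (c+1)) ⊔ K (update l i c) r`, the intersection is
`K (update l i c) (update r i (c+1))`. `isPushout_sup_inf` + `Sh` left adjoint + `ctr_pushout`, `Sh_cof`, `Sh_cofib`.
Finally `K 0 M` is everything. -/

noncomputable section
namespace Vale.Agent.P259
open CategoryTheory CategoryTheory.Limits GlobExt Opposite

/-- Every coordinate of `A` stays in an interval `[j / M, (j + 2) / M]`. -/
def gridSmall (M : ℕ) {n : ℕ} (A : Set (Fin n → unitInterval)) : Prop :=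
  ∀ i, ∃ j : ℕ, ∀ a ∈ A, (j : ℝ) ≤ M * (a i : ℝ) ∧ M * (a i : ℝ) ≤ j + 2

lemma gridSmall_mono (M : ℕ) {n : ℕ} (A B : Set (Fin n → unitInterval)) (h : A ⊆ B)
    (hB : gridSmall M B) : gridSmall M A := fun i =>
  (hB i).imp fun _ hj a ha => hj a (h ha)

lemma gridSmall_image (M : ℕ) {m n : Cb} (φ : m ⟶ n) (A : Set (Fin m.n → unitInterval))
    (hA : gridSmall M A) : gridSmall M ((cube.map φ).hom '' A) := by
  intro i
  have key : ∀ t : Fin m.n ⊕ Bool, ∃ j : ℕ, ∀ x ∈ A,
      (j : ℝ) ≤ M * ((t.elim x endPt : unitInterval) : ℝ) ∧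
        M * ((t.elim x endPt : unitInterval) : ℝ) ≤ j + 2 := by
    rintro (k | _ | _)
    · exact hA k
    · exact ⟨0, fun x _ => by simp [endPt]⟩
    · exact ⟨M, fun x _ => by simp [endPt]⟩
  obtain ⟨j, hj⟩ := key (φ i)
  refine ⟨j, ?_⟩
  rintro _ ⟨x, hx, rfl⟩
  exact hj x hx

lemma isPushout_sup_inf {K : CSet} (A B : Subfunctor K) :
    IsPushout (Subfunctor.homOfLe (inf_le_left : A ⊓ B ≤ A))
      (Subfunctor.homOfLe (inf_le_right : A ⊓ B ≤ B))
      (Subfunctor.homOfLe (le_sup_left : A ≤ A ⊔ B))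
      (Subfunctor.homOfLe (le_sup_right : B ≤ A ⊔ B)) := by
  refine ⟨⟨rfl⟩, ⟨evaluationJointlyReflectsColimits _
    fun n => (PushoutCocone.isColimitMapCoconeEquiv _ _).2 ?_⟩⟩
  have h : Lattice.BicartSq ((A ⊓ B).obj n) (A.obj n) (B.obj n) ((A ⊔ B).obj n) := ⟨rfl, rfl⟩
  exact (Types.isPushout_of_bicartSq h).isColimit

/-- The grid-small singular cubes of a cube. -/
def smallSub (M : ℕ) (n : Cb) : Subfunctor (Sing.obj (cube.obj n)) :=
  singSub (cube.obj n) (gridSmall M) (gridSmall_mono M)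

/-- The box with corners `l / M` and `r / M`. -/
def smallBox (M : ℕ) {n : ℕ} (l r : Fin n → ℕ) : Set (Fin n → unitInterval) :=
  {a | ∀ i, (l i : ℝ) ≤ M * (a i : ℝ) ∧ M * (a i : ℝ) ≤ r i}

lemma smallBox_ctr {M n : ℕ} (hM : 1 ≤ M) {l r : Fin n → ℕ} (hl : ∀ i, l i ≤ r i)
    (hr : ∀ i, r i ≤ M) : ContractibleSpace (smallBox M l r) := by
  have hM' : (0 : ℝ) < M := by exact_mod_cast hM
  have he : Topology.IsEmbedding fun (a : Fin n → unitInterval) i => (a i : ℝ) :=
    Topology.IsEmbedding.piMap fun _ => Topology.IsEmbedding.subtypeVal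
  have him : (fun (a : Fin n → unitInterval) i => (a i : ℝ)) '' smallBox M l r =
      Set.pi Set.univ fun i => Set.Icc ((l i : ℝ) / M) ((r i : ℝ) / M) := by
    ext x
    simp only [Set.mem_pi, Set.mem_univ, forall_true_left, Set.mem_Icc, div_le_iff₀' hM',
      le_div_iff₀' hM']
    constructor
    · rintro ⟨a, ha, rfl⟩
      exact ha
    · intro hx
      refine ⟨fun i => ⟨x i, ?_, ?_⟩, hx, rfl⟩
      · exact nonneg_of_mul_nonneg_right ((Nat.cast_nonneg _).trans (hx i).1) hM'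
      · have h1 : (r i : ℝ) ≤ M := by exact_mod_cast hr i
        exact le_of_mul_le_mul_left (by linarith [(hx i).2]) hM'
  have hc : ContractibleSpace ((fun (a : Fin n → unitInterval) i => (a i : ℝ)) ''
      smallBox M l r) := by
    rw [him]
    refine (convex_pi fun i _ => convex_Icc _ _).contractibleSpace
      ⟨fun i => (l i : ℝ) / M, fun i _ => ⟨le_rfl, ?_⟩⟩
    exact div_le_div_of_nonneg_right (by exact_mod_cast hl i) hM'.le
  exact (he.homeomorphImage _).contractibleSpace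

/-- The grid-small singular cubes in a box. -/
def smallK (M : ℕ) (n : Cb) (l r : Fin n.n → ℕ) : Subfunctor (Sing.obj (cube.obj n)) :=
  singSub (cube.obj n) (fun A => gridSmall M A ∧ A ⊆ smallBox M l r)
    fun A B h hB => ⟨gridSmall_mono M A B h hB.1, h.trans hB.2⟩

lemma smallK_base {E : GlobExt} [Fact E.IsCoherator] (s : ShData E) {M : ℕ} (hM : 1 ≤ M) (n : Cb)
    {l r : Fin n.n → ℕ} (hl : ∀ i, l i ≤ r i) (hr : ∀ i, r i ≤ M) (h : ∀ i, r i ≤ l i + 2) :
    MCtr (s.Sh.obj (smallK M n l r).toFunctor) := by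
  have := smallBox_ctr hM hl hr
  let T : TopCat.{0} := TopCat.of (smallBox M l r)
  let f : T ⟶ cube.obj n := TopCat.ofHom ⟨Subtype.val, continuous_subtype_val⟩
  have := mono_sing f Subtype.val_injective
  have e : Subfunctor.range (Sing.map f) = smallK M n l r := by
    ext m x
    constructor
    · rintro ⟨y, rfl⟩
      have h1 : Set.range (show cube.obj m.unop ⟶ cube.obj n from
          (Sing.map f).app m y).hom ⊆ smallBox M l r := by
        rintro _ ⟨z, rfl⟩
        exact ((show cube.obj m.unop ⟶ T from y).hom z).2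
      refine ⟨fun i => ⟨l i, fun a ha => ⟨(h1 ha i).1, (h1 ha i).2.trans ?_⟩⟩, h1⟩
      exact_mod_cast h i
    · intro hx
      exact ⟨(TopCat.ofHom ⟨fun z => ⟨(show cube.obj m.unop ⟶ cube.obj n from x).hom z,
        hx.2 ⟨z, rfl⟩⟩, (show cube.obj m.unop ⟶ cube.obj n from x).hom.continuous.subtype_mk _⟩ :
          cube.obj m.unop ⟶ T), rfl⟩
  rw [← e]
  exact (wk_of_isIso (s.Sh.map (Subfunctor.toRange (Sing.map f)))).ctr_right' (s.L_ctr T)

lemma smallK_ctr {E : GlobExt} [Fact E.IsCoherator] (s : ShData E) {M : ℕ} (hM : 1 ≤ M) (n : Cb)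
    (N : ℕ) (l r : Fin n.n → ℕ) (hN : ∑ i, (r i - l i) < N) (hl : ∀ i, l i ≤ r i)
    (hr : ∀ i, r i ≤ M) : MCtr (s.Sh.obj (smallK M n l r).toFunctor) := by
  induction N generalizing l r with
  | zero => exact absurd hN (Nat.not_lt_zero _)
  | succ N ih =>
    by_cases h : ∀ i, r i ≤ l i + 2
    · exact smallK_base s hM n hl hr h
    obtain ⟨i, hi⟩ := not_forall.1 h
    obtain ⟨c, hc⟩ : ∃ c, r i = c + 2 := ⟨r i - 2, by omega⟩
    obtain ⟨l', hl0, hl1⟩ : ∃ l' : Fin n.n → ℕ, l' i = c ∧ ∀ k, k ≠ i → l' k = l k :=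
      ⟨Function.update l i c, Function.update_self _ _ _, fun k hk => Function.update_of_ne hk _ _⟩
    obtain ⟨r', hr0, hr1⟩ : ∃ r' : Fin n.n → ℕ, r' i = c + 1 ∧ ∀ k, k ≠ i → r' k = r k :=
      ⟨Function.update r i (c + 1), Function.update_self _ _ _,
        fun k hk => Function.update_of_ne hk _ _⟩
    have q : ∀ k, l k ≤ l' k ∧ l' k ≤ r' k ∧ r' k ≤ r k := fun k => by
      by_cases hk : k = i
      · subst hk
        omega
      · rw [hl1 k hk, hr1 k hk]
        exact ⟨le_rfl, hl k, le_rfl⟩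
    have step : ∀ l2 r2 : Fin n.n → ℕ, (∀ k, l k ≤ l2 k ∧ l2 k ≤ r2 k ∧ r2 k ≤ r k) →
        r2 i - l2 i < r i - l i → MCtr (s.Sh.obj (smallK M n l2 r2).toFunctor) := by
      intro l2 r2 h1 h2
      refine ih l2 r2 ?_ (fun k => (h1 k).2.1) fun k => (h1 k).2.2.trans (hr k)
      have : ∑ k, (r2 k - l2 k) < ∑ k, (r k - l k) :=
        Finset.sum_lt_sum (fun k _ => by have := h1 k; omega) ⟨i, Finset.mem_univ _, h2⟩
      omega
    have cA := step l r' (fun k => by have := q k; omega) (by omega)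
    have cB := step l' r (fun k => by have := q k; omega) (by omega)
    have cC := step l' r' q (by omega)
    have ql : ∀ k, (l k : ℝ) ≤ l' k := fun k => by exact_mod_cast (q k).1
    have qr : ∀ k, (r' k : ℝ) ≤ r k := fun k => by exact_mod_cast (q k).2.2
    have e1 : smallK M n l' r' = smallK M n l r' ⊓ smallK M n l' r := by
      ext m x
      refine ⟨fun hx => ⟨⟨hx.1, fun a ha k => ⟨(ql k).trans (hx.2 ha k).1, (hx.2 ha k).2⟩⟩,
        ⟨hx.1, fun a ha k => ⟨(hx.2 ha k).1, (hx.2 ha k).2.trans (qr k)⟩⟩⟩,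
        fun hx => ⟨hx.1.1, fun a ha k => ⟨(hx.2.2 ha k).1, (hx.1.2 ha k).2⟩⟩⟩
    have e2 : smallK M n l r = smallK M n l r' ⊔ smallK M n l' r := by
      ext m x
      constructor
      · intro hx
        obtain ⟨j, hj⟩ := hx.1 i
        by_cases hjc : c ≤ j
        · refine Or.inr ⟨hx.1, fun a ha k => ⟨?_, (hx.2 ha k).2⟩⟩
          by_cases hk : k = i
          · subst hk
            rw [hl0]
            exact le_trans (by exact_mod_cast hjc) (hj a ha).1
          · rw [hl1 k hk]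
            exact (hx.2 ha k).1
        · refine Or.inl ⟨hx.1, fun a ha k => ⟨(hx.2 ha k).1, ?_⟩⟩
          by_cases hk : k = i
          · subst hk
            rw [hr0]
            refine (hj a ha).2.trans ?_
            exact_mod_cast (show j + 2 ≤ c + 1 by omega)
          · rw [hr1 k hk]
            exact (hx.2 ha k).2
      · rintro (hx | hx)
        · exact ⟨hx.1, fun a ha k => ⟨(hx.2 ha k).1, (hx.2 ha k).2.trans (qr k)⟩⟩
        · exact ⟨hx.1, fun a ha k => ⟨(ql k).trans (hx.2 ha k).1, (hx.2 ha k).2⟩⟩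
    rw [e1] at cC
    rw [e2]
    have := s.adj.leftAdjoint_preservesColimits
    exact ctr_pushout ((isPushout_sup_inf (smallK M n l r') (smallK M n l' r)).map s.Sh)
      (s.Sh_cof _) (s.Sh_cofib _) (s.Sh_cofib _) cC cA cB

theorem small_ctr {E : GlobExt} [Fact E.IsCoherator] (s : ShData E) {M : ℕ} (hM : 1 ≤ M) (n : Cb) :
    MCtr (s.Sh.obj (smallSub M n).toFunctor) := by
  have h : smallSub M n = smallK M n (fun _ => 0) (fun _ => M) := by
    ext m x
    refine ⟨fun hx => ⟨hx, fun a _ i => ⟨?_, ?_⟩⟩, fun hx => hx.1⟩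
    · simpa using mul_nonneg (Nat.cast_nonneg M) (a i).2.1
    · exact mul_le_of_le_one_right (Nat.cast_nonneg M) (a i).2.2
  rw [h]
  exact smallK_ctr s hM n _ _ _ (Nat.lt_succ_self _) (fun _ => Nat.zero_le _) fun _ => le_rfl

end Vale.Agent.P259
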