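import Vale.Agent.P259.GComma

/-! P259 task STEP: the cell attachment step.

Let `n k = dim (a k)`, `gk : dX (n k) ⟶ diagX A` classify `(a k, b k)` (`isSph_dX`), `xk : XJ (n k) ⟶ diagX A'` the cell `e k`, so
`bdX ≫ xk = gk ≫ diagX.map i` (`IsSph.hom_ext`, `bdX_spec`). By `isAtt_iff_famPush` (for `discs`, `q1_dA`, `q1_dB`, `q1_cell`) we get
`TopAtt n (gk.left) i (xk.left)`, and (for `discsOf (rep E)`, `q2_dA`, `q2_dB`) `Z'` is the `FamPush` of `bd` along `da ≫ gk.right`. Let `Z''` be the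
`FamPush` of `inc` along `gk.right`, `Z'''` the `FamPush` of `L spInc` along `L gk.left = db ≫ gk.right` (`gk.w`). `famPush_sqTC` with `Ja`, `Jb` gives
`Z' ⟶ Z''`, `Z''' ⟶ Z''` in `TC`, with cofibrant sources (`FamPush.llp`, `L_cofib`), hence `Wk`. The map `Z'' ⟶ L A'` given by `L i` and `xk.right` restricts to the map
of `e2` on `Z'''` and to `g` on `Z'`. Two out of three. -/

noncomputable section
namespace Vale.Agent.P259
open CategoryTheory CategoryTheory.Limits GlobExt Opposite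
variable {E : GlobExt} [Fact E.IsCoherator] (s : ShData E) (j : JData s.L)

theorem step_core {A A' : TopCat.{0}} {i : A ⟶ A'} {ι : Type} {n : ι → ℕ}
    {φ : ∀ k, Sp (n k) ⟶ A} {χ : ∀ k, Dk (n k) ⟶ A'} (hT : TopAtt n φ i χ)
    (u : ∀ k, j.dJ (n k) ⟶ s.L.obj A) (x : ∀ k, j.J (n k) ⟶ s.L.obj A')
    (hu : ∀ k, s.L.map (φ k) = j.db (n k) ≫ u k) (hx : ∀ k, s.L.map (χ k) = j.b (n k) ≫ x k)
    (hw : ∀ k, u k ≫ s.L.map i = j.inc (n k) ≫ x k) {Z' : Gpd E} {i' : s.L.obj A ⟶ Z'}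
    {y : ∀ k, (rep E).obj (disc (n k)) ⟶ Z'}
    (hZ : FamPush (fun k => bd E (n k)) (fun k => j.da (n k) ≫ u k) i' y)
    {g : Z' ⟶ s.L.obj A'} (hg : i' ≫ g = s.L.map i) (hg' : ∀ k, y k ≫ g = j.a (n k) ≫ x k) :
    Wk E g := by
  obtain ⟨Z2, l2, r2, h2⟩ := exists_famPush (fun k => j.inc (n k)) u
  obtain ⟨Z3, l3, r3, h3⟩ :=
    exists_famPush (fun k => s.L.map (spInc (n k))) fun k => j.db (n k) ≫ u k
  obtain ⟨d1, ⟨d11, d12⟩, -⟩ := hZ.desc Z2 l2 (fun k => j.a (n k) ≫ r2 k) fun k => by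
    rw [Category.assoc, h2.w, reassoc_of% j.da_inc]
  obtain ⟨d3, ⟨d31, d32⟩, -⟩ := h3.desc Z2 l2 (fun k => j.b (n k) ≫ r2 k) fun k => by
    rw [Category.assoc, h2.w, ← Category.assoc, j.db_inc, Category.assoc]
  obtain ⟨m, ⟨m1, m2⟩, -⟩ := h2.desc (s.L.obj A') (s.L.map i) x hw
  have w1 : Wk E d1 := TC.wk (famPush_sqTC (fun k => j.da_inc (n k)) (fun k => j.Ja (n k)) hZ h2 d1
    d11 d12) ((s.L_cofib A).of_cof (hZ.llp (TF E) fun k => cof_bd (n k)))
  have w3 : Wk E d3 := TC.wk (famPush_sqTC (fun k => j.db_inc (n k)) (fun k => j.Jb (n k)) h3 h2 d3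
    d31 d32) ((s.L_cofib A).of_cof (h3.llp (TF E) fun k => s.L_cof _ fun _ _ h =>
      Subtype.ext (congrArg (fun z : Ball (n k) => z.1) h)))
  have h4 : FamPush (fun k => s.L.map (spInc (n k))) (fun k => s.L.map (φ k)) l3 r3 := by
    rw [funext hu]
    exact h3
  have w4 : Wk E (d3 ≫ m) := e2 s hT h4 (by rw [reassoc_of% d31, m1]) fun k => by
    rw [reassoc_of% d32 k, m2, hx]
  have e : g = d1 ≫ m := hZ.hom_ext (by rw [hg, reassoc_of% d11, m1]) fun k => by
    rw [hg', reassoc_of% d12 k, m2]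
  rw [e]
  exact (Wk E).comp_mem _ _ w1 ((Wk E).of_precomp _ _ w3 w4)

theorem step_wk {A A' : TopCat.{0}} (i : A ⟶ A') {ι : Type}
    (a b : ι → (j.V.obj ((diagX s.L).obj A)).Cell) (e : ι → (j.V.obj ((diagX s.L).obj A')).Cell)
    (hpar : ∀ k, Par (a k) (b k))
    (harr : ∀ k, Arr (e k) ((j.V.map ((diagX s.L).map i)).app (a k))
      ((j.V.map ((diagX s.L).map i)).app (b k)))
    (hT : IsAtt Sg i (fun k => (j.q1.app _).app (a k)) (fun k => (j.q1.app _).app (b k))
      (fun k => (j.q1.app _).app (e k)))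
    {Z' : Gpd E} {i' : s.L.obj A ⟶ Z'} {e' : ι → cell Z'}
    (hZ : IsAtt (U E) i' (fun k => (j.q2.app _).app (a k)) (fun k => (j.q2.app _).app (b k)) e')
    {g : Z' ⟶ s.L.obj A'} (hg : i' ≫ g = s.L.map i)
    (hg' : ∀ k, cm g (e' k) = (j.q2.app _).app (e k)) : Wk E g := by
  obtain ⟨n, hn⟩ : ∃ n : ι → ℕ, ∀ k, dim (a k) = n k := ⟨_, fun _ => rfl⟩
  choose γ ha hb using fun k => ((j.isSph_dX (n k)).desc _ _ _ (hpar k) (hn k)).exists
  choose x hx using fun k => j.co.exists_cell (n := n k) (e k) (by simpa [hn] using (harr k).2.2)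
  choose y hy using fun k => (discsOf (rep E)).exists_cell (n := n k) (e' k)
    ((hZ.arr k).2.2.trans (congrArg (· + 1)
      ((GS.Hom.dim_app _ _).trans ((GS.Hom.dim_app _ _).trans (hn k)))))
  have hw : ∀ k, γ k ≫ (diagX s.L).map i = j.bdX (n k) ≫ x k := fun k =>
    (push_arr_iff j.co (j.isSph_dX (n k)) (j.bdX_spec _).1 (j.bdX_spec _).2 _ _).1 (by
      rw [← push_comp, ← push_comp, ha, hb, hx]
      exact harr k)
  have a1 : (fun k => (j.q1.app _).app (a k)) = fun k => (Sg.map (γ k).left).app (spA (n k)) :=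
    funext fun k => by rw [← ha, ← push_nat, j.q1_dA]; rfl
  have b1 : (fun k => (j.q1.app _).app (b k)) = fun k => (Sg.map (γ k).left).app (spB (n k)) :=
    funext fun k => by rw [← hb, ← push_nat, j.q1_dB]; rfl
  have e1 : (fun k => (j.q1.app _).app (e k)) = fun k => discs.cell (n := n k) (x k).left :=
    funext fun k => by rw [← hx]; exact j.q1_cell _
  have a2 : (fun k => (j.q2.app _).app (a k)) =
      fun k => cm (j.da (n k) ≫ (γ k).right) (sa E (n k)) :=
    funext fun k => by rw [← ha, ← push_nat, j.q2_dA]; exact (cm_comp _ _ _).symm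
  have b2 : (fun k => (j.q2.app _).app (b k)) =
      fun k => cm (j.da (n k) ≫ (γ k).right) (sb E (n k)) :=
    funext fun k => by rw [← hb, ← push_nat, j.q2_dB]; exact (cm_comp _ _ _).symm
  rw [a1, b1, e1] at hT
  rw [a2, b2, ← funext hy] at hZ
  refine step_core s j (n := n) (φ := fun k => (γ k).left) (χ := fun k => (x k).left)
    ((isAtt_iff_famPush discs isSph_sp spInc spInc_spec i n _ _).1 hT) (fun k => (γ k).right)
    (fun k => (x k).right) (fun k => (Category.comp_id _).symm.trans (γ k).w)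
    (fun k => (Category.comp_id _).symm.trans (x k).w)
    (fun k => congrArg CommaMorphism.right (hw k)) (y := y)
    ((isAtt_iff_famPush (discsOf (rep E)) (isSph E) (bd E) (bd_spec E) i' n _ _).1 hZ) hg
    fun k => (discsOf (rep E)).cell_inj ?_
  have h := hg' k
  rw [← hy, ← hx] at h
  exact h

end Vale.Agent.P259
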