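import Vale.Agent.P259.GSL

/-! P259 task TAB: the globular set `|S| = tabGS.obj S` of a globular sum and its universal
properties; `F S` is free on `|S|` for every sum preserving `F`.

Plan. (1) `cell` calculus for `CoGlob.hom` is by `rfl` / `cases`.
(2) For `G : GS` define the presheaf `ofGS G : Globeᵒᵖ ⥤ Type`, `⟨n⟩ ↦ {c : G.Cell // dim c = n + 1}`,
a map `⟨o, _⟩ : ⟨m⟩ ⟶ ⟨n⟩` acting by `src (m+1)` for `o = some false`, `tgt (m+1)` for
`o = some true`, and (for `o = none`, `m = n`) by `src (m+1)` = identity; functoriality is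
`src_src, src_tgt, tgt_src, tgt_tgt`. Cells of `|S|` of dim `n+1` are maps
`yoneda.obj ⟨n⟩ ⟶ S.2.sum.1`, i.e. elements (`yonedaEquiv`), so
`(tabGS.obj S ⟶ G) ≃ (S.2.sum.1 ⟶ ofGS G)` naturally in `S`. `tab_disc` is then Yoneda and
`tab_snoc` is `pushout.desc / hom_ext`. (3) `dim_tab_le`: from `tab_snoc` uniqueness or directly:
pushouts of presheaves are pointwise and jointly surjective (`Types.pushout` lemmas /
`Types.jointly_surjective_of_isColimit` after `evaluation`), and `Hom(⟨n⟩, ⟨i⟩)` nonempty forces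
`n ≤ i`. (4) `gen_represents`: induction on the table, `tab_disc`, `tab_snoc`, `hF` pushout. -/

noncomputable section
namespace Vale.Agent.P259
open CategoryTheory CategoryTheory.Limits
universe u
variable {M : Type u} [Category.{0} M]

namespace CoGlob
variable (𝔻 : CoGlob M)
@[simp] lemma dim_cell {X : M} {n : ℕ} (x : 𝔻.obj n ⟶ X) : dim (𝔻.cell x) = n + 1 := rfl
@[simp] lemma dim_top (n : ℕ) : dim (𝔻.top n) = n + 1 := rfl
lemma map_cell {X Y : M} (f : X ⟶ Y) {n : ℕ} (x : 𝔻.obj n ⟶ X) :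
    (𝔻.hom.map f).app (𝔻.cell x) = 𝔻.cell (x ≫ f) := rfl
lemma map_top {X : M} {n : ℕ} (x : 𝔻.obj n ⟶ X) :
    (𝔻.hom.map x).app (𝔻.top n) = 𝔻.cell x := by
  rw [top, map_cell, Category.id_comp]
lemma sr_cell {X : M} {n : ℕ} (x : 𝔻.obj (n + 1) ⟶ X) : sr (𝔻.cell x) = 𝔻.cell (𝔻.σ n ≫ x) := rfl
lemma tg_cell {X : M} {n : ℕ} (x : 𝔻.obj (n + 1) ⟶ X) : tg (𝔻.cell x) = 𝔻.cell (𝔻.τ n ≫ x) := rfl
lemma sr_cell_zero {X : M} (x : 𝔻.obj 0 ⟶ X) : sr (𝔻.cell x) = (𝔻.hom.obj X).bot := rfl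
lemma tg_cell_zero {X : M} (x : 𝔻.obj 0 ⟶ X) : tg (𝔻.cell x) = (𝔻.hom.obj X).bot := rfl
lemma cell_inj {X : M} {n : ℕ} {x y : 𝔻.obj n ⟶ X} (h : 𝔻.cell x = 𝔻.cell y) : x = y := by
  have h' := Option.some.inj h
  simpa using h'
lemma exists_cell {X : M} {n : ℕ} (c : (𝔻.hom.obj X).Cell) (h : dim c = n + 1) :
    ∃ x : 𝔻.obj n ⟶ X, 𝔻.cell x = c := by
  rcases c with _ | ⟨m, x⟩
  · exact absurd h (Nat.succ_ne_zero n).symm
  · obtain rfl : m = n := Nat.succ.inj h
    exact ⟨x, rfl⟩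
lemma existsUnique_top {X : M} {n : ℕ} (c : (𝔻.hom.obj X).Cell) (h : dim c = n + 1) :
    ∃! x : 𝔻.obj n ⟶ X, (𝔻.hom.map x).app (𝔻.top n) = c := by
  obtain ⟨x, rfl⟩ := 𝔻.exists_cell c h
  exact ⟨x, 𝔻.map_top x, fun y hy => 𝔻.cell_inj ((𝔻.map_top y).symm.trans hy)⟩
lemma arr_cell_iff {X : M} {n : ℕ} (x : 𝔻.obj (n + 1) ⟶ X) (a b : 𝔻.obj n ⟶ X) :
    Arr (𝔻.cell x) (𝔻.cell a) (𝔻.cell b) ↔ 𝔻.σ n ≫ x = a ∧ 𝔻.τ n ≫ x = b := by
  refine ⟨fun h => ⟨𝔻.cell_inj h.1, 𝔻.cell_inj h.2.1⟩, ?_⟩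
  rintro ⟨rfl, rfl⟩
  exact ⟨rfl, rfl, rfl⟩
lemma par_cell_succ_iff {X : M} {n : ℕ} (a b : 𝔻.obj (n + 1) ⟶ X) :
    Par (𝔻.cell a) (𝔻.cell b) ↔ 𝔻.σ n ≫ a = 𝔻.σ n ≫ b ∧ 𝔻.τ n ≫ a = 𝔻.τ n ≫ b := by
  refine ⟨fun h => ⟨𝔻.cell_inj h.2.1, 𝔻.cell_inj h.2.2⟩, fun h => ⟨rfl, ?_, ?_⟩⟩
  · rw [sr_cell, sr_cell, h.1]
  · rw [tg_cell, tg_cell, h.2]

/-- Cells of a pullback. -/
lemma pullback_cell {P X Y Z : M} {p : P ⟶ X} {q : P ⟶ Y} {f : X ⟶ Z} {g : Y ⟶ Z}
    (h : IsPullback p q f g) (x : (𝔻.hom.obj X).Cell) (y : (𝔻.hom.obj Y).Cell)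
    (e : (𝔻.hom.map f).app x = (𝔻.hom.map g).app y) :
    ∃! z, (𝔻.hom.map p).app z = x ∧ (𝔻.hom.map q).app z = y := by
  have hd : dim x = dim y := by simpa using congrArg dim e
  rcases hn : dim x with _ | n
  · obtain rfl := eq_bot hn
    obtain rfl := eq_bot (hd.symm.trans hn)
    exact ⟨_, ⟨app_bot _, app_bot _⟩, fun z hz => eq_bot (by simpa using congrArg dim hz.1)⟩
  · obtain ⟨x, rfl⟩ := 𝔻.exists_cell x hn
    obtain ⟨y, rfl⟩ := 𝔻.exists_cell y (hd.symm.trans hn)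
    refine ⟨𝔻.cell (h.lift x y (𝔻.cell_inj e)), ⟨?_, ?_⟩, fun z hz => ?_⟩
    · rw [map_cell, h.lift_fst]
    · rw [map_cell, h.lift_snd]
    · obtain ⟨z, rfl⟩ := 𝔻.exists_cell z (n := n) (by simpa using congrArg dim hz.1)
      refine congrArg 𝔻.cell (h.hom_ext ?_ ?_)
      · rw [h.lift_fst]; exact 𝔻.cell_inj hz.1
      · rw [h.lift_snd]; exact 𝔻.cell_inj hz.2
/-- Cells of a product. -/
lemma product_cell {ι : Type} {X : ι → M} {c : Fan X} (hc : IsLimit c) (n : ℕ)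
    (x : ∀ k, (𝔻.hom.obj (X k)).Cell) (hx : ∀ k, dim (x k) = n) :
    ∃! z : (𝔻.hom.obj c.pt).Cell, dim z = n ∧ ∀ k, (𝔻.hom.map (c.proj k)).app z = x k := by
  rcases n with _ | n
  · exact ⟨_, ⟨dim_bot, fun k => (app_bot _).trans (eq_bot (hx k)).symm⟩, fun z hz => eq_bot hz.1⟩
  · choose y hy using fun k => 𝔻.exists_cell (x k) (hx k)
    refine ⟨𝔻.cell (Fan.IsLimit.lift hc y), ⟨rfl, fun k => ?_⟩, fun z hz => ?_⟩
    · rw [map_cell, Fan.IsLimit.fac, hy]
    · obtain ⟨z, rfl⟩ := 𝔻.exists_cell z hz.1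
      refine congrArg 𝔻.cell (Fan.IsLimit.hom_ext hc _ _ fun k => ?_)
      rw [Fan.IsLimit.fac]
      exact 𝔻.cell_inj ((hz.2 k).trans (hy k).symm)
/-- Cells of a binary product. -/
lemma prod_cell {X Y : M} {c : BinaryFan X Y} (hc : IsLimit c)
    (x : (𝔻.hom.obj X).Cell) (y : (𝔻.hom.obj Y).Cell) (h : dim x = dim y) :
    ∃! z : (𝔻.hom.obj c.pt).Cell, (𝔻.hom.map c.fst).app z = x ∧ (𝔻.hom.map c.snd).app z = y := by
  rcases hn : dim x with _ | n
  · obtain rfl := eq_bot hn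
    obtain rfl := eq_bot (h.symm.trans hn)
    exact ⟨_, ⟨app_bot _, app_bot _⟩, fun z hz => eq_bot (by simpa using congrArg dim hz.1)⟩
  · obtain ⟨x, rfl⟩ := 𝔻.exists_cell x hn
    obtain ⟨y, rfl⟩ := 𝔻.exists_cell y (h.symm.trans hn)
    obtain ⟨l, h₁, h₂⟩ := BinaryFan.IsLimit.lift' hc x y
    refine ⟨𝔻.cell l, ⟨congrArg 𝔻.cell h₁, congrArg 𝔻.cell h₂⟩, fun z hz => ?_⟩
    obtain ⟨z, rfl⟩ := 𝔻.exists_cell z (n := n) (by simpa using congrArg dim hz.1)
    exact congrArg 𝔻.cell (BinaryFan.IsLimit.hom_ext hc ((𝔻.cell_inj hz.1).trans h₁.symm)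
      ((𝔻.cell_inj hz.2).trans h₂.symm))
/-- Cells of a terminal object. -/
lemma terminal_cell {T : M} (h : IsTerminal T) (n : ℕ) :
    ∃! z : (𝔻.hom.obj T).Cell, dim z = n := by
  rcases n with _ | n
  · exact ⟨_, dim_bot, fun z hz => eq_bot hz⟩
  · refine ⟨𝔻.cell (h.from _), rfl, fun z hz => ?_⟩
    obtain ⟨z, rfl⟩ := 𝔻.exists_cell z hz
    exact congrArg 𝔻.cell (h.hom_ext _ _)
lemma terminal_ctr {T : M} (h : IsTerminal T) : Ctr (𝔻.hom.obj T) := by
  intro a b hab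
  have hu : ∀ u v : (𝔻.hom.obj T).Cell, dim u = dim v → u = v := fun u v e =>
    (𝔻.terminal_cell h (dim v)).unique e rfl
  obtain ⟨z, hz, -⟩ := 𝔻.terminal_cell h (dim a + 1)
  exact ⟨z, hu _ _ (by simp [hz]), hu _ _ (by simp [hz, hab.1]), hz⟩
end CoGlob

lemma cell_dface_false (F : Theta ⥤ M) {X : M} {j i : ℕ} (h : j < i) (x : F.obj (disc i) ⟶ X) :
    (discsOf F).cell (n := j) (F.map (dface false h) ≫ x) =
      src (j + 1) ((discsOf F).cell (n := i) x) := by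
  induction i with
  | zero => omega
  | succ i ih =>
    rcases Nat.lt_succ_iff_lt_or_eq.1 h with h' | rfl
    · refine Eq.trans (congrArg ((discsOf F).cell (n := j)) ?_)
        ((ih h' (F.map (dface false i.lt_succ_self) ≫ x)).trans
          (src_sr (x := (discsOf F).cell (n := i + 1) x) (Nat.succ_lt_succ h)))
      exact (congrArg (· ≫ x) ((congrArg F.map (dface_comp false false h' i.lt_succ_self).symm).trans
        (F.map_comp _ _))).trans (Category.assoc _ _ _)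
    · exact (src_eq_sr (x := (discsOf F).cell (n := j + 1) x) rfl).symm
lemma cell_dface_true (F : Theta ⥤ M) {X : M} {j i : ℕ} (h : j < i) (x : F.obj (disc i) ⟶ X) :
    (discsOf F).cell (n := j) (F.map (dface true h) ≫ x) =
      tgt (j + 1) ((discsOf F).cell (n := i) x) := by
  induction i with
  | zero => omega
  | succ i ih =>
    rcases Nat.lt_succ_iff_lt_or_eq.1 h with h' | rfl
    · refine Eq.trans (congrArg ((discsOf F).cell (n := j)) ?_)
        ((ih h' (F.map (dface true i.lt_succ_self) ≫ x)).trans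
          (tgt_tg (x := (discsOf F).cell (n := i + 1) x) (Nat.succ_lt_succ h)))
      exact (congrArg (· ≫ x) ((congrArg F.map (dface_comp true true h' i.lt_succ_self).symm).trans
        (F.map_comp _ _))).trans (Category.assoc _ _ _)
    · exact (tgt_eq_tg (x := (discsOf F).cell (n := j + 1) x) rfl).symm

@[simp] lemma dim_topT (n : ℕ) : dim (topT n) = n + 1 := rfl
@[simp] lemma dim_lastT {l : ℕ} (T : Tab l) : dim (lastT T) = l + 1 := rfl
lemma lastT_one (n : ℕ) : lastT (Tab.one n) = topT n := rfl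
lemma gen_topT (F : Theta ⥤ M) (n : ℕ) : (gen F (disc n)).app (topT n) = (discsOf F).top n := by
  exact congrArg (discsOf F).cell (F.map_id _)
lemma gen_lastT (F : Theta ⥤ M) {l : ℕ} (T : Tab l) :
    (gen F T.obj).app (lastT T) = (discsOf F).cell (n := l) (F.map (lastInc T)) := rfl
lemma gen_nat (F : Theta ⥤ M) {S S' : Theta} (θ : S ⟶ S') :
    gen F S ≫ (discsOf F).hom.map (F.map θ) = tabGS.map θ ≫ gen F S' := by
  apply GS.hom_ext
  rintro (_ | ⟨n, x⟩)
  · rfl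
  · exact congrArg (discsOf F).cell (F.map_comp _ _).symm

lemma pres_id : PreservesSums (𝟭 Theta) := by
  intro l T j i hl hi
  exact IsPushout.of_map_of_faithful (inducedFunctor _) (IsPushout.of_hasPushout _ _)
lemma PreservesSums.of_iso {C : Type*} [Category C] {F F' : Theta ⥤ C} (e : F ≅ F')
    (h : PreservesSums F) : PreservesSums F' := by
  intro l T j i hl hi
  exact (h l T j i hl hi).of_iso (e.app _) (e.app _) (e.app _) (e.app _) (e.hom.naturality _)
    (e.hom.naturality _) (e.hom.naturality _) (e.hom.naturality _)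

/-- The action of a map of the globe category on cells. -/
def gact {G : GS} (o : Option Bool) (j : ℕ) (c : G.Cell) : G.Cell :=
  if o = some true then tgt j c else src j c

lemma dim_gact {G : GS} (o : Option Bool) {j : ℕ} {c : G.Cell} (h : j ≤ dim c) :
    dim (gact o j c) = j := by
  unfold gact
  split_ifs
  exacts [dim_tgt h, dim_src h]

lemma globe_le {m n : Globe} (f : m ⟶ n) : m.dim ≤ n.dim := by
  rcases f.2 with h | h
  exacts [h.2.le, h.2.le]

/-- The presheaf of a globular set. -/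
def ofGS (G : GS) : Globeᵒᵖ ⥤ Type where
  obj n := {c : G.Cell // dim c = n.unop.dim + 1}
  map {n m} f := TypeCat.ofHom fun c => ⟨gact f.unop.1 (m.unop.dim + 1) c.1,
    dim_gact _ (by rw [c.2]; exact Nat.succ_le_succ (globe_le f.unop))⟩
  map_id n := by
    ext c
    exact src_of_le c.2.le
  map_comp {n m k} f g := by
    ext c
    change gact (g.unop.1.or f.unop.1) _ c.1 = gact g.unop.1 _ (gact f.unop.1 _ c.1)
    obtain ⟨_ | _ | _, hg⟩ := g.unop <;> obtain ⟨_ | _ | _, hf⟩ := f.unop <;>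
      simp at hf hg <;> simp only [gact, Option.or, reduceCtorEq, Option.some.injEq, if_true,
        if_false]
    all_goals first
      | exact (src_src _ (by omega)).symm
      | exact (tgt_tgt _ (by omega)).symm
      | exact (src_tgt _ (by omega)).symm
      | exact (tgt_src _ (by omega)).symm
      | (rw [hg]; exact (src_of_le (dim_tgt (by rw [c.2]; omega)).le).symm)

lemma ofGS_face {G : GS} (b : Bool) {j i : ℕ} (h : j < i) (β : yoneda.obj (⟨i⟩ : Globe) ⟶ ofGS G) :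
    (yonedaEquiv (yoneda.map (face b h) ≫ β)).1 = gact (some b) (j + 1) (yonedaEquiv β).1 := by
  rw [← yonedaEquiv_naturality]
  rfl

/-- The map of globular sets of a map of presheaves. -/
def tabEv {S : Theta} {G : GS} (α : S.2.sum.1 ⟶ ofGS G) : tabGS.obj S ⟶ G where
  app := fun | none => G.bot | some ⟨_, x⟩ => (yonedaEquiv (x.hom ≫ α)).1
  dim_app := by
    rintro (_ | ⟨n, x⟩)
    · exact dim_bot
    · exact (yonedaEquiv (x.hom ≫ α)).2
  sr_app := by
    rintro (_ | ⟨_ | n, x⟩)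
    · exact sr_bot
    · exact eq_bot ((dim_sr _).trans (congrArg (· - 1) (yonedaEquiv (x.hom ≫ α)).2))
    · exact (src_eq_sr (yonedaEquiv (x.hom ≫ α)).2).symm.trans
        (ofGS_face false n.lt_succ_self (x.hom ≫ α)).symm
  tg_app := by
    rintro (_ | ⟨_ | n, x⟩)
    · exact tg_bot
    · exact eq_bot ((dim_tg _).trans (congrArg (· - 1) (yonedaEquiv (x.hom ≫ α)).2))
    · exact (tgt_eq_tg (yonedaEquiv (x.hom ≫ α)).2).symm.trans
        (ofGS_face true n.lt_succ_self (x.hom ≫ α)).symm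

/-- The cell of a map out of a representable presheaf. -/
def pcell {S : Theta} {n : ℕ} (y : yoneda.obj (⟨n⟩ : Globe) ⟶ S.2.sum.1) : (tabGS.obj S).Cell :=
  (discsOf (𝟭 Theta)).cell (n := n) (InducedCategory.homMk y)

lemma tabEv_cell {S : Theta} {G : GS} (α : S.2.sum.1 ⟶ ofGS G) {n : ℕ}
    (y : yoneda.obj (⟨n⟩ : Globe) ⟶ S.2.sum.1) :
    (tabEv α).app (pcell y) = (yonedaEquiv (y ≫ α)).1 := rfl

lemma tabEv_nat {S S' : Theta} {G : GS} (θ : S ⟶ S') (α : S'.2.sum.1 ⟶ ofGS G) :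
    tabGS.map θ ≫ tabEv α = tabEv (θ.hom ≫ α) := by
  apply GS.hom_ext
  rintro (_ | ⟨n, x⟩) <;> rfl

lemma tabEv_inj {S : Theta} {G : GS} {α β : S.2.sum.1 ⟶ ofGS G} (h : tabEv α = tabEv β) :
    α = β := by
  ext ⟨⟨n⟩⟩ e
  have h₁ := congrArg (fun φ => GS.Hom.app φ (pcell (n := n) (yonedaEquiv.symm e))) h
  simp only [tabEv_cell, yonedaEquiv_comp, Equiv.apply_symm_apply] at h₁
  exact Subtype.ext h₁

lemma app_pcell {S : Theta} {G : GS} (φ : tabGS.obj S ⟶ G) {m n : ℕ} (f : (⟨m⟩ : Globe) ⟶ ⟨n⟩)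
    (y : yoneda.obj (⟨n⟩ : Globe) ⟶ S.2.sum.1) :
    φ.app (pcell (yoneda.map f ≫ y)) = gact f.1 (m + 1) (φ.app (pcell y)) := by
  obtain ⟨_ | _ | _, hf⟩ := f
  · obtain rfl : m = n := by simpa using hf
    refine Eq.trans ?_ (src_of_le (φ.dim_app (pcell y)).le).symm
    exact congrArg (fun z => φ.app (pcell z))
      ((congrArg (· ≫ y) (yoneda.map_id _)).trans (Category.id_comp y))
  · have h : m < n := by simpa using hf
    exact (congrArg φ.app (cell_dface_false (𝟭 Theta) h (InducedCategory.homMk y))).trans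
      (app_src φ _ _)
  · have h : m < n := by simpa using hf
    exact (congrArg φ.app (cell_dface_true (𝟭 Theta) h (InducedCategory.homMk y))).trans
      (app_tgt φ _ _)

lemma tabEv_surj {S : Theta} {G : GS} (φ : tabGS.obj S ⟶ G) : ∃ α, tabEv α = φ := by
  refine ⟨⟨fun n => TypeCat.ofHom fun e => ⟨φ.app (pcell (n := n.unop.dim) (yonedaEquiv.symm e)),
    φ.dim_app _⟩, ?_⟩, ?_⟩
  · rintro ⟨⟨n⟩⟩ ⟨⟨m⟩⟩ ⟨f⟩
    ext e
    exact Subtype.ext ((congrArg (fun y => φ.app (pcell y))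
      (yonedaEquiv_symm_naturality_left f S.2.sum.1 e).symm).trans (app_pcell φ f _))
  · apply GS.hom_ext
    rintro (_ | ⟨n, x⟩)
    · exact (app_bot φ).symm
    · exact congrArg (fun y => φ.app (pcell (n := n) y)) (yonedaEquiv.symm_apply_apply x.hom)

lemma exists_yoneda {G : GS} {n : ℕ} (c : G.Cell) (h : dim c = n + 1) :
    ∃ β : yoneda.obj (⟨n⟩ : Globe) ⟶ ofGS G, (yonedaEquiv β).1 = c := by
  obtain ⟨β, hβ⟩ := (yonedaEquiv (X := (⟨n⟩ : Globe)) (F := ofGS G)).surjective ⟨c, h⟩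
  exact ⟨β, by rw [hβ]⟩

lemma tab_disc (n : ℕ) (G : GS) (c : G.Cell) (h : dim c = n + 1) :
    ∃! φ : tabGS.obj (disc n) ⟶ G, φ.app (topT n) = c := by
  obtain ⟨β, hβ⟩ := exists_yoneda c h
  refine ⟨tabEv (S := disc n) β, hβ, fun φ hφ => ?_⟩
  obtain ⟨α, rfl⟩ := tabEv_surj φ
  exact congrArg tabEv (yonedaEquiv.injective (Subtype.ext (Eq.trans hφ hβ.symm)))

lemma tab_glue {l : ℕ} (T : Tab l) (j i : ℕ) (hl : j < l) (hi : j < i) :
    src (j + 1) (lastT (T.snoc j i hl hi)) =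
      tgt (j + 1) ((tabGS.map (initInc T j i hl hi)).app (lastT T)) := by
  have h₁ := cell_dface_false (𝟭 Theta) hi (lastInc (T.snoc j i hl hi))
  have h₂ := cell_dface_true (𝟭 Theta) hl (lastInc T ≫ initInc T j i hl hi)
  refine h₁.symm.trans (Eq.trans (congrArg _ ?_) h₂)
  exact (pres_id l T j i hl hi).w.symm.trans (Category.assoc _ _ _)

lemma tab_snoc {l : ℕ} (T : Tab l) (j i : ℕ) (hl : j < l) (hi : j < i) (G : GS)
    (φ : tabGS.obj T.obj ⟶ G) (c : G.Cell) (hc : dim c = i + 1)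
    (h : src (j + 1) c = tgt (j + 1) (φ.app (lastT T))) :
    ∃! ψ : tabGS.obj (T.snoc j i hl hi).obj ⟶ G,
      tabGS.map (initInc T j i hl hi) ≫ ψ = φ ∧ ψ.app (lastT (T.snoc j i hl hi)) = c := by
  obtain ⟨α, rfl⟩ := tabEv_surj φ
  obtain ⟨β, hβ⟩ := exists_yoneda c hc
  have w : (yoneda.map (face true hl) ≫ T.sum.2) ≫ α = yoneda.map (face false hi) ≫ β := by
    refine yonedaEquiv.injective (Subtype.ext ?_)
    exact (ofGS_face true hl (T.sum.2 ≫ α)).trans (h.symm.trans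
      ((ofGS_face false hi β).trans (congrArg (src (j + 1)) hβ)).symm)
  refine ⟨tabEv (S := (T.snoc j i hl hi).obj) (pushout.desc α β w), ⟨?_, ?_⟩, fun ψ hψ => ?_⟩
  · exact (tabEv_nat _ _).trans (congrArg tabEv (pushout.inl_desc _ _ _))
  · exact (congrArg (fun γ : yoneda.obj (⟨i⟩ : Globe) ⟶ ofGS G => (yonedaEquiv γ).1)
      (pushout.inr_desc α β w)).trans hβ
  · obtain ⟨γ, rfl⟩ := tabEv_surj ψ
    refine congrArg tabEv (pushout.hom_ext ?_ ?_)
    · rw [tabEv_nat] at hψ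
      exact (tabEv_inj hψ.1).trans (pushout.inl_desc _ _ _).symm
    · refine Eq.trans ?_ (pushout.inr_desc _ _ _).symm
      exact yonedaEquiv.injective (Subtype.ext (hψ.2.trans hβ.symm))

lemma map_topT {S : Theta} {n : ℕ} (x : disc n ⟶ S) :
    (tabGS.map x).app (topT n) = (discsOf (𝟭 Theta)).cell (n := n) x :=
  (discsOf (𝟭 Theta)).map_top x

lemma tabGS_pres : PreservesSums tabGS := by
  intro l T j i hl hi
  have w := ((pres_id l T j i hl hi).toCommSq.map tabGS).w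
  have key : ∀ s : PushoutCocone (tabGS.map (dface true hl ≫ lastInc T)) (tabGS.map (dface false hi)),
      ∃! ψ : tabGS.obj (T.snoc j i hl hi).obj ⟶ s.pt, tabGS.map (initInc T j i hl hi) ≫ ψ = s.inl ∧
        ψ.app (lastT (T.snoc j i hl hi)) = s.inr.app (topT i) := fun s => by
    refine tab_snoc T j i hl hi _ _ _ (by simp) ?_
    have h₁ := congrArg (fun φ => GS.Hom.app φ (topT j)) s.condition
    simp only [GS.comp_app, map_topT] at h₁
    rw [← app_src, ← app_tgt]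
    refine (congrArg s.inr.app (cell_dface_false (𝟭 Theta) hi (𝟙 _)).symm).trans ?_
    refine Eq.trans ?_ (congrArg s.inl.app (cell_dface_true (𝟭 Theta) hl (lastInc T)))
    exact (congrArg (fun y => s.inr.app ((discsOf (𝟭 Theta)).cell (n := j) y))
      (Category.comp_id _)).trans h₁.symm
  choose d hd hu using key
  refine ⟨⟨w⟩, ⟨PushoutCocone.IsColimit.mk w d (fun s => (hd s).1) (fun s => ?_)
    fun s m h₁ h₂ => hu s m ⟨h₁, ?_⟩⟩⟩
  · refine (tab_disc i _ (s.inr.app (topT i)) (by simp)).unique ?_ rfl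
    rw [GS.comp_app, map_topT]
    exact (hd s).2
  · rw [← h₂, GS.comp_app, map_topT]
    rfl

/-- The truncated terminal globular set. -/
def truncGS (d : ℕ) : GS where
  Cell := {k : ℕ // k ≤ d}
  bot := ⟨0, d.zero_le⟩
  dimF k := k.1
  sF k := ⟨k.1 - 1, (Nat.sub_le _ _).trans k.2⟩
  tF k := ⟨k.1 - 1, (Nat.sub_le _ _).trans k.2⟩
  dimF_bot := rfl
  eq_botF _ h := Subtype.ext h
  dimF_s _ := rfl
  dimF_t _ := rfl
  ssF _ := rfl
  ttF _ := rfl

lemma exists_trunc {l : ℕ} (T : Tab l) (d : ℕ) (h : T.dim + 1 ≤ d) :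
    Nonempty (tabGS.obj T.obj ⟶ truncGS d) := by
  induction T with
  | one i => exact ⟨(tab_disc i (truncGS d) ⟨i + 1, h⟩ rfl).exists.choose⟩
  | snoc T j i hl hi ih =>
    obtain ⟨φ⟩ := ih (le_trans (Nat.succ_le_succ (le_max_left _ _)) h)
    refine ⟨(tab_snoc T j i hl hi (truncGS d) φ
      ⟨i + 1, le_trans (Nat.succ_le_succ (le_max_right _ _)) h⟩ rfl (Subtype.ext ?_)).exists.choose⟩
    exact (dim_src (G := truncGS d) (Nat.succ_le_succ hi.le)).trans
      (dim_tgt (G := truncGS d) (by simp; omega)).symm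

lemma dim_tab_le (S : Theta) (c : (tabGS.obj S).Cell) : dim c ≤ S.2.dim + 1 := by
  obtain ⟨φ⟩ := exists_trunc S.2 _ le_rfl
  exact (φ.dim_app c).symm.trans_le (φ.app c).2

lemma le_tab_dim {l : ℕ} (T : Tab l) : l ≤ T.dim := by
  cases T
  exacts [le_rfl, le_max_right _ _]

/-- Every globular sum has a `0`-cell. -/
lemma exists_point (S : Theta) : Nonempty (disc 0 ⟶ S) := by
  obtain ⟨_ | l, T⟩ := S
  exacts [⟨lastInc T⟩, ⟨dface false l.succ_pos ≫ lastInc T⟩]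

lemma gen_represents_tab (F : Theta ⥤ M) (hF : PreservesSums F) {l : ℕ} (T : Tab l) :
    Represents (discsOf F).hom (gen F T.obj) := by
  induction T with
  | one n =>
    intro X φ
    obtain ⟨f, hf, hu⟩ := (discsOf F).existsUnique_top (n := n) (φ.app (topT n)) (φ.dim_app _)
    refine ⟨f, (tab_disc n _ (φ.app (topT n)) (φ.dim_app _)).unique ?_ rfl, fun g hg => hu g ?_⟩
    · exact (congrArg _ (gen_topT F n)).trans hf
    · rw [← hg]
      exact (congrArg _ (gen_topT F n)).symm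
  | @snoc l T j i hl hi ih =>
    intro X φ
    obtain ⟨f₀, hf₀, hu₀⟩ := ih X (tabGS.map (initInc T j i hl hi) ≫ φ)
    obtain ⟨x, hx⟩ := (discsOf F).exists_cell (n := i) (φ.app (lastT (T.snoc j i hl hi)))
      (φ.dim_app _)
    have hglue : src (j + 1) (φ.app (lastT (T.snoc j i hl hi))) =
        tgt (j + 1) ((tabGS.map (initInc T j i hl hi) ≫ φ).app (lastT T)) := by
      rw [← app_src, tab_glue, app_tgt]
      rfl
    have w : F.map (dface true hl ≫ lastInc T) ≫ f₀ = F.map (dface false hi) ≫ x := by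
      rw [F.map_comp, Category.assoc]
      refine (discsOf F).cell_inj (n := j) ((cell_dface_true F hl _).trans
        (Eq.trans ?_ (cell_dface_false F hi x).symm))
      refine Eq.trans ?_ ((congrArg (src (j + 1)) hx).trans hglue).symm
      rw [← hf₀]
      rfl
    have hP := hF l T j i hl hi
    have h₁ : ∀ g : F.obj (T.snoc j i hl hi).obj ⟶ X, tabGS.map (initInc T j i hl hi) ≫
        gen F _ ≫ (discsOf F).hom.map g =
        gen F _ ≫ (discsOf F).hom.map (F.map (initInc T j i hl hi) ≫ g) := fun g => by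
      rw [← Category.assoc, ← gen_nat, Category.assoc, ← Functor.map_comp]
    refine ⟨hP.desc f₀ x w,
      (tab_snoc T j i hl hi _ _ _ (φ.dim_app _) hglue).unique ⟨?_, ?_⟩ ⟨rfl, rfl⟩,
      fun g hg => hP.hom_ext ?_ ?_⟩
    · exact (h₁ _).trans ((congrArg (fun g => gen F _ ≫ (discsOf F).hom.map g)
        (hP.inl_desc f₀ x w)).trans hf₀)
    · exact (congrArg ((discsOf F).cell (n := i)) (hP.inr_desc f₀ x w)).trans hx
    · exact (hu₀ _ ((h₁ g).symm.trans (congrArg _ hg))).trans (hP.inl_desc f₀ x w).symm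
    · refine Eq.trans ((discsOf F).cell_inj (n := i) (Eq.trans ?_ hx.symm)) (hP.inr_desc f₀ x w).symm
      rw [← hg]
      rfl

/-- `F S` is free on `|S|`. -/
theorem gen_represents (F : Theta ⥤ M) (hF : PreservesSums F) (S : Theta) :
    Represents (discsOf F).hom (gen F S) := by
  exact gen_represents_tab F hF S.2

end Vale.Agent.P259
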