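import Vale.Agent.P259.Disc

/-! P259 task TOPATT: point set topology of cell attachments in `TopCat`.

`isOpen_iff`: test with maps to the Sierpinski space, or retopologise: give the underlying type of `A'` the
topology `coinduced i ⊔ ⨆ k, coinduced (χ k)`, descend, and use `FamPush.hom_ext` to see that the descended map is the identity.
Set level facts: compare with the explicit model `A ⊕ Σ k, {x : Ball (n k) // ‖x‖ < 1}` carrying the indiscrete topology
`⊤` (every function into it is continuous): descend `Sum.inl` and `x ↦ if ‖x‖ < 1 then inr ⟨k, x⟩ else inl (φ k x)`; this gives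
injectivity and disjointness. Joint surjectivity: two maps to indiscrete `Prop` / `Bool` (`FamPush.hom_ext`).
`seqColim_sg`: the maps `F k ⟶ F (k+1)` are closed embeddings and every point outside the image is closed. In the colimit
(topology final, `TopCat.isOpen_iff_of_isColimit` / `colimit_isOpen_iff`; underlying set the colimit of types) the maps
`c.ι.app k` are injective closed embeddings; if the image of a compact space `D` is in no `range (c.ι.app k)`, choose points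
`y j ∉ range (c.ι.app j)`; every subset of `{y j}` meets each stage in a finite union of closed points (a point of stage `k`
first appearing at stage `k' + 1` is closed there, and stays closed), so it is closed: the set is infinite, closed, discrete and
compact. CAREFUL: points of `F 0` need not be closed, but `y j ∉ range (c.ι.app 0)`. -/

noncomputable section
namespace Vale.Agent.P259
open CategoryTheory CategoryTheory.Limits

/-- `A'` is obtained from `A` by attaching cells. -/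
abbrev TopAtt {ι : Type} (n : ι → ℕ) {A A' : TopCat.{0}} (φ : ∀ k, Sp (n k) ⟶ A) (i : A ⟶ A')
    (χ : ∀ k, Dk (n k) ⟶ A') : Prop := FamPush (fun k => spInc (n k)) φ i χ

namespace TopAtt
variable {ι : Type} {n : ι → ℕ} {A A' : TopCat.{0}} {φ : ∀ k, Sp (n k) ⟶ A} {i : A ⟶ A'}
  {χ : ∀ k, Dk (n k) ⟶ A'} (h : TopAtt n φ i χ)
include h

lemma ta_w (k : ι) (x : Sp (n k)) : i (φ k x) = χ k (spInc (n k) x) :=
  ConcreteCategory.congr_hom (h.w k) x

lemma ta_ext {Y : Type} {f g : A' → Y} (h1 : ∀ a, f (i a) = g (i a))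
    (h2 : ∀ k x, f (χ k x) = g (χ k x)) : f = g := by
  let _ : TopologicalSpace Y := ⊤
  have e : (TopCat.ofHom ⟨f, continuous_top⟩ : A' ⟶ TopCat.of Y) =
      TopCat.ofHom ⟨g, continuous_top⟩ :=
    FamPush.hom_ext h (by ext a; exact h1 a) fun k => by ext x; exact h2 k x
  exact funext fun y => ConcreteCategory.congr_hom e y

lemma ta_desc {Y : Type} [TopologicalSpace Y] (g : C(A, Y)) (b : ∀ k, C(Dk (n k), Y))
    (w : ∀ k x, g (φ k x) = b k (spInc (n k) x)) :
    ∃ d : C(A', Y), (∀ a, d (i a) = g a) ∧ ∀ k x, d (χ k x) = b k x := by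
  obtain ⟨d, ⟨h1, h2⟩, -⟩ := h.desc (TopCat.of Y) (TopCat.ofHom g) (fun k => TopCat.ofHom (b k))
    fun k => by ext x; exact w k x
  exact ⟨d.hom, fun a => ConcreteCategory.congr_hom h1 a,
    fun k x => ConcreteCategory.congr_hom (h2 k) x⟩

lemma ta_model : ∃ d : A' → A ⊕ Σ k, Ball (n k), (∀ a, d (i a) = Sum.inl a) ∧
    ∀ k (x : Ball (n k)), ‖x.1‖ < 1 → d (χ k x) = Sum.inr ⟨k, x⟩ := by
  let _ : TopologicalSpace (A ⊕ Σ k, Ball (n k)) := ⊤
  obtain ⟨d, h1, h2⟩ := h.ta_desc (Y := A ⊕ Σ k, Ball (n k)) ⟨Sum.inl, continuous_top⟩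
    (fun k => ⟨fun x => if hx : ‖x.1‖ = 1 then Sum.inl (φ k ⟨x.1, by simpa using hx⟩)
      else Sum.inr ⟨k, x⟩, continuous_top⟩)
    fun k x => by
      symm
      exact dif_pos (mem_sphere_zero_iff_norm.1 x.2)
  exact ⟨d, h1, fun k x hx => (h2 k x).trans (dif_neg hx.ne)⟩

lemma isOpen_iff (O : Set A') : IsOpen O ↔ IsOpen (i ⁻¹' O) ∧ ∀ k, IsOpen (χ k ⁻¹' O) := by
  refine ⟨fun hO => ⟨hO.preimage i.hom.continuous, fun k => hO.preimage (χ k).hom.continuous⟩,
    fun hO => ?_⟩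
  obtain ⟨d, h1, h2⟩ := h.ta_desc (Y := Prop)
    ⟨fun a => i a ∈ O, isOpen_iff_continuous_mem.1 hO.1⟩
    (fun k => ⟨fun x => χ k x ∈ O, isOpen_iff_continuous_mem.1 (hO.2 k)⟩)
    fun k x => congrArg (· ∈ O) (h.ta_w k x)
  have e : (d : A' → Prop) = fun y => y ∈ O := h.ta_ext h1 h2
  exact isOpen_iff_continuous_mem.2 (e ▸ d.continuous)
lemma isClosed_iff (C : Set A') :
    IsClosed C ↔ IsClosed (i ⁻¹' C) ∧ ∀ k, IsClosed (χ k ⁻¹' C) := by
  simp only [← isOpen_compl_iff, h.isOpen_iff, Set.preimage_compl]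

lemma bdry (k : ι) (x : Ball (n k)) (hx : ‖x.1‖ = 1) :
    χ k x = i (φ k ⟨x.1, by simpa using hx⟩) := by
  exact (h.ta_w k ⟨x.1, by simpa using hx⟩).symm
lemma surj (y : A') : (∃ a, i a = y) ∨ ∃ (k : ι) (x : Ball (n k)), ‖x.1‖ < 1 ∧ χ k x = y := by
  have e : (fun y => (∃ a, i a = y) ∨ ∃ (k : ι) (x : Ball (n k)), ‖x.1‖ < 1 ∧ χ k x = y) =
      fun _ => True := by
    refine h.ta_ext (fun a => eq_true (Or.inl ⟨a, rfl⟩)) fun k x => eq_true ?_
    rcases (mem_closedBall_zero_iff.1 x.2).lt_or_eq with hx | hx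
    · exact Or.inr ⟨k, x, hx, rfl⟩
    · exact Or.inl ⟨_, (h.bdry k x hx).symm⟩
  exact of_eq_true (congrFun e y)
lemma inj : Function.Injective i := by
  obtain ⟨d, h1, -⟩ := h.ta_model
  intro a b e
  exact Sum.inl_injective ((h1 a).symm.trans ((congrArg d e).trans (h1 b)))
lemma ne (k : ι) (x : Ball (n k)) (hx : ‖x.1‖ < 1) (a : A) : χ k x ≠ i a := by
  obtain ⟨d, h1, h2⟩ := h.ta_model
  intro e
  exact Sum.inr_ne_inl ((h2 k x hx).symm.trans ((congrArg d e).trans (h1 a)))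
lemma inj_int {k l : ι} {x : Ball (n k)} {y : Ball (n l)} (hx : ‖x.1‖ < 1) (e : χ k x = χ l y) :
    (⟨k, x⟩ : Σ k, Ball (n k)) = ⟨l, y⟩ := by
  obtain ⟨d, -, h2⟩ := h.ta_model
  rcases (mem_closedBall_zero_iff.1 y.2).lt_or_eq with hy | hy
  · exact Sum.inr_injective ((h2 k x hx).symm.trans ((congrArg d e).trans (h2 l y hy)))
  · exact absurd (e.trans (h.bdry l y hy)) (h.ne k x hx _)
lemma isClosedEmbedding : Topology.IsClosedEmbedding i := by
  refine .of_continuous_injective_isClosedMap i.hom.continuous h.inj fun C hC => ?_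
  refine (h.isClosed_iff _).2 ⟨by rwa [Set.preimage_image_eq _ h.inj], fun k => ?_⟩
  have e : χ k ⁻¹' (i '' C) = spInc (n k) '' (φ k ⁻¹' C) := by
    ext x
    constructor
    · rintro ⟨a, ha, e⟩
      rcases (mem_closedBall_zero_iff.1 x.2).lt_or_eq with hx | hx
      · exact absurd e.symm (h.ne k x hx a)
      · refine ⟨⟨x.1, by simpa using hx⟩, ?_, rfl⟩
        rw [h.inj (e.trans (h.bdry k x hx))] at ha
        exact ha
    · rintro ⟨z, hz, rfl⟩
      exact ⟨_, hz, h.ta_w k z⟩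
  rw [e]
  exact ((hC.preimage (φ k).hom.continuous).isCompact.image (spInc (n k)).hom.continuous).isClosed
lemma isClosed_singleton (y : A') (hy : y ∉ Set.range i) : IsClosed ({y} : Set A') := by
  obtain ⟨k, x, hx, rfl⟩ := (h.surj y).resolve_left hy
  refine (h.isClosed_iff _).2 ⟨?_, fun l => Set.Subsingleton.isClosed fun a ha b hb => ?_⟩
  · rw [Set.preimage_singleton_eq_empty.2 hy]
    exact isClosed_empty
  · exact sigma_mk_injective (β := fun k => Ball (n k))
      ((h.inj_int hx (Eq.symm ha)).symm.trans (h.inj_int hx (Eq.symm hb)))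
lemma isOpenEmbedding_int (k : ι) :
    Topology.IsOpenEmbedding fun x : {x : Ball (n k) // ‖x.1‖ < 1} => χ k x.1 := by
  have ho : IsOpen {x : Ball (n k) | ‖x.1‖ < 1} :=
    isOpen_lt (continuous_norm.comp continuous_subtype_val) continuous_const
  refine .of_continuous_injective_isOpenMap ((χ k).hom.continuous.comp continuous_subtype_val)
    (fun x y e => Subtype.ext (sigma_mk_injective (β := fun k => Ball (n k)) (h.inj_int x.2 e)))
    fun U hU => ?_
  refine (h.isOpen_iff _).2 ⟨?_, fun l => ?_⟩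
  · rw [Set.eq_empty_of_forall_notMem (s := i ⁻¹' _) ?_]
    · exact isOpen_empty
    · exact fun a ⟨x, _, e⟩ => h.ne k x.1 x.2 a e
  by_cases hl : k = l
  · subst hl
    have e : χ k ⁻¹' ((fun x : {x : Ball (n k) // ‖x.1‖ < 1} => χ k x.1) '' U) =
        Subtype.val '' U := by
      ext y
      exact ⟨fun ⟨x, hx, e⟩ =>
          ⟨x, hx, sigma_mk_injective (β := fun k => Ball (n k)) (h.inj_int x.2 e)⟩,
        fun ⟨x, hx, e⟩ => ⟨x, hx, congrArg (χ k) e⟩⟩
    rw [e]
    exact ho.isOpenMap_subtype_val U hU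
  · rw [Set.eq_empty_of_forall_notMem (s := χ l ⁻¹' _) ?_]
    · exact isOpen_empty
    · exact fun y ⟨x, _, e⟩ => hl (congrArg Sigma.fst (h.inj_int x.2 e))
/-- Continuity of maps out of an open subspace. -/
lemma continuous_on_open {O : Set A'} (hO : IsOpen O) {Z : Type} [TopologicalSpace Z] (g : O → Z)
    (h1 : Continuous fun a : (i ⁻¹' O : Set A) => g ⟨i a.1, a.2⟩)
    (h2 : ∀ k, Continuous fun x : (χ k ⁻¹' O : Set (Dk (n k))) => g ⟨χ k x.1, x.2⟩) :
    Continuous g := by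
  refine continuous_def.2 fun W hW => ?_
  refine hO.isOpenEmbedding_subtypeVal.isOpen_iff_image_isOpen.2 ((h.isOpen_iff _).2 ⟨?_, fun k => ?_⟩)
  · have e : i ⁻¹' (Subtype.val '' (g ⁻¹' W)) =
        Subtype.val '' ((fun a : (i ⁻¹' O : Set A) => g ⟨i a.1, a.2⟩) ⁻¹' W) := by
      ext a
      exact ⟨fun ⟨⟨y, hy⟩, hw, e⟩ => by subst e; exact ⟨⟨a, hy⟩, hw, rfl⟩,
        fun ⟨⟨b, hb⟩, hw, e⟩ => by subst e; exact ⟨⟨i b, hb⟩, hw, rfl⟩⟩
    rw [e]
    exact (hO.preimage i.hom.continuous).isOpenMap_subtype_val _ (hW.preimage h1)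
  · have e : χ k ⁻¹' (Subtype.val '' (g ⁻¹' W)) = Subtype.val ''
        ((fun x : (χ k ⁻¹' O : Set (Dk (n k))) => g ⟨χ k x.1, x.2⟩) ⁻¹' W) := by
      ext a
      exact ⟨fun ⟨⟨y, hy⟩, hw, e⟩ => by subst e; exact ⟨⟨a, hy⟩, hw, rfl⟩,
        fun ⟨⟨b, hb⟩, hw, e⟩ => by subst e; exact ⟨⟨χ k b, hb⟩, hw, rfl⟩⟩
    rw [e]
    exact (hO.preimage (χ k).hom.continuous).isOpenMap_subtype_val _ (hW.preimage (h2 k))
end TopAtt

lemma IsAtt.topAtt {A A' : TopCat.{0}} {i : A ⟶ A'} {ι : Type} {a b : ι → (Sg.obj A).Cell}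
    {e : ι → (Sg.obj A').Cell} (h : IsAtt Sg i a b e) :
    ∃ (n : ι → ℕ) (φ : ∀ k, Sp (n k) ⟶ A) (χ : ∀ k, Dk (n k) ⟶ A'),
      (∀ k, (Sg.map (φ k)).app (spA _) = a k) ∧ (∀ k, (Sg.map (φ k)).app (spB _) = b k) ∧
      (∀ k, discs.cell (n := n k) (χ k) = e k) ∧ TopAtt n φ i χ :=
  IsAtt.famPush discs isSph_sp spInc spInc_spec h

section Seq
variable {F : ℕ ⥤ TopCat.{0}} {c : Cocone F}

lemma ta_cw {k m : ℕ} (hk : k ≤ m) (x : F.obj k) :
    c.ι.app m (F.map (homOfLE hk) x) = c.ι.app k x :=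
  ConcreteCategory.congr_hom (c.w (homOfLE hk)) x

lemma ta_mono {k m : ℕ} (hk : k ≤ m) : Set.range (c.ι.app k) ⊆ Set.range (c.ι.app m) :=
  fun _ ⟨x, hx⟩ => ⟨_, (ta_cw hk x).trans hx⟩

lemma ta_ce (h : ∀ k : ℕ, Topology.IsClosedEmbedding (F.map (homOfLE k.le_succ))) {k m : ℕ}
    (hk : k ≤ m) : Topology.IsClosedEmbedding (F.map (homOfLE hk)) := by
  induction m, hk using Nat.le_induction with
  | base =>
    rw [Subsingleton.elim (homOfLE _) (𝟙 k), F.map_id]
    exact Topology.IsClosedEmbedding.id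
  | succ m hk ih =>
    rw [← homOfLE_comp hk m.le_succ, F.map_comp]
    exact (h m).comp ih

lemma ta_ce' (hc : IsColimit c)
    (h : ∀ k : ℕ, Topology.IsClosedEmbedding (F.map (homOfLE k.le_succ))) (k : ℕ) :
    Topology.IsClosedEmbedding (c.ι.app k) := by
  have hi : ∀ k, Function.Injective (c.ι.app k) := fun k x y e => by
    obtain ⟨m, f, g, e'⟩ := (Concrete.isColimit_rep_eq_iff_exists F hc x y).1 e
    obtain rfl : f = g := Subsingleton.elim _ _
    exact (ta_ce h f.le).injective e'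
  refine .of_continuous_injective_isClosedMap (c.ι.app k).hom.continuous (hi k) fun C hC => ?_
  refine (TopCat.isClosed_iff_of_isColimit c hc _).2 fun m => ?_
  rcases le_total k m with hk | hk
  · have e : c.ι.app m ⁻¹' (c.ι.app k '' C) = F.map (homOfLE hk) '' C := by
      ext y
      exact ⟨fun ⟨x, hx, e⟩ => ⟨x, hx, hi m ((ta_cw hk x).trans e)⟩,
        fun ⟨x, hx, e⟩ => ⟨x, hx, (ta_cw hk x).symm.trans (congrArg _ e)⟩⟩
    rw [e]
    exact (ta_ce h hk).isClosedMap C hC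
  · have e : c.ι.app m ⁻¹' (c.ι.app k '' C) = F.map (homOfLE hk) ⁻¹' C := by
      ext y
      exact ⟨fun ⟨x, hx, e⟩ => by rwa [hi k (e.trans (ta_cw hk y).symm)] at hx,
        fun hy => ⟨_, hy, ta_cw hk y⟩⟩
    rw [e]
    exact hC.preimage (F.map (homOfLE hk)).hom.continuous

lemma ta_compact (hc : IsColimit c)
    (h : ∀ k : ℕ, Topology.IsClosedEmbedding (F.map (homOfLE k.le_succ)))
    (hp : ∀ (k : ℕ) (y : F.obj (k + 1)), y ∉ Set.range (F.map (homOfLE k.le_succ)) →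
      IsClosed ({y} : Set (F.obj (k + 1)))) {K : Set c.pt} (hK : IsCompact K) :
    ∃ k, K ⊆ Set.range (c.ι.app k) := by
  have pt : ∀ k (z : F.obj k), c.ι.app k z ∉ Set.range (c.ι.app 0) →
      IsClosed ({c.ι.app k z} : Set c.pt) := by
    intro k
    induction k with
    | zero => exact fun z hz => absurd ⟨z, rfl⟩ hz
    | succ k ih =>
      intro z hz
      by_cases hr : z ∈ Set.range (F.map (homOfLE k.le_succ))
      · obtain ⟨w, rfl⟩ := hr
        rw [ta_cw] at hz ⊢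
        exact ih w hz
      · rw [← Set.image_singleton]
        exact (ta_ce' hc h _).isClosedMap _ (hp k z hr)
  by_contra hcon
  choose y hyK hy using fun k => Set.not_subset.1 (not_exists.1 hcon k)
  have pt' : ∀ j, IsClosed ({y j} : Set c.pt) := fun j => by
    obtain ⟨k, z, hz⟩ := Concrete.isColimit_exists_rep F hc (y j)
    have := pt k z fun h0 => hy j (ta_mono j.zero_le (hz ▸ h0))
    exact hz ▸ this
  have cl : ∀ m, IsClosed (y '' Set.Ici m) := fun m => by
    refine (TopCat.isClosed_iff_of_isColimit c hc _).2 fun k => ?_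
    have e : c.ι.app k ⁻¹' (y '' Set.Ici m) = c.ι.app k ⁻¹' ⋃ j ∈ Set.Ico m k, {y j} := by
      ext z
      simp only [Set.mem_preimage, Set.mem_iUnion, Set.mem_singleton_iff]
      exact ⟨fun ⟨j, hj, e⟩ => ⟨j, ⟨hj, lt_of_not_ge fun hk => hy j (ta_mono hk ⟨z, e.symm⟩)⟩, e.symm⟩,
        fun ⟨j, hj, e⟩ => ⟨j, hj.1, e.symm⟩⟩
    rw [e]
    exact ((Set.finite_Ico m k).isClosed_biUnion fun j _ => pt' j).preimage
      (c.ι.app k).hom.continuous
  obtain ⟨p, hp⟩ := IsCompact.nonempty_iInter_of_sequence_nonempty_isCompact_isClosed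
    (fun m => y '' Set.Ici m) (fun m => Set.image_mono (Set.Ici_subset_Ici.2 m.le_succ))
    (fun m => ⟨_, m, le_refl m, rfl⟩)
    (hK.of_isClosed_subset (cl 0) fun _ ⟨j, _, e⟩ => e ▸ hyK j) cl
  obtain ⟨k, z, hz⟩ := Concrete.isColimit_exists_rep F hc p
  obtain ⟨j, hj, e⟩ := Set.mem_iInter.1 hp k
  exact hy j (ta_mono hj ⟨z, hz.trans e.symm⟩)

end Seq

theorem seqColim_sg {F : ℕ ⥤ TopCat.{0}} {c : Cocone F} (hc : IsColimit c)
    (h : ∀ k : ℕ, ∃ (ι : Type) (n : ι → ℕ) (φ : ∀ j, Sp (n j) ⟶ F.obj k)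
      (χ : ∀ j, Dk (n j) ⟶ F.obj (k + 1)), TopAtt n φ (F.map (homOfLE k.le_succ)) χ) :
    SeqColim (Sg.mapCocone c) := by
  have h1 : ∀ k : ℕ, Topology.IsClosedEmbedding (F.map (homOfLE k.le_succ)) := fun k => by
    obtain ⟨ι, n, φ, χ, h⟩ := h k
    exact h.isClosedEmbedding
  have h2 : ∀ (k : ℕ) (y : F.obj (k + 1)), y ∉ Set.range (F.map (homOfLE k.le_succ)) →
      IsClosed ({y} : Set (F.obj (k + 1))) := fun k => by
    obtain ⟨ι, n, φ, χ, h⟩ := h k
    exact h.isClosed_singleton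
  constructor
  · rintro (_ | ⟨n, g⟩)
    · exact ⟨0, none, rfl⟩
    obtain ⟨k, hk⟩ := ta_compact hc h1 h2 (isCompact_range (X := Dk n) g.hom.continuous)
    choose l hl using fun x => hk ⟨x, rfl⟩
    have hl' : Continuous l := (ta_ce' hc h1 k).isInducing.continuous_iff.2
      ((funext hl : c.ι.app k ∘ l = g) ▸ g.hom.continuous)
    refine ⟨k, some ⟨n, (TopCat.ofHom ⟨l, hl'⟩ : Dk n ⟶ F.obj k)⟩, ?_⟩
    refine congrArg (fun y => some (Sigma.mk n y)) ?_
    ext x
    exact hl x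
  · intro k y y' e
    have : Mono (c.ι.app k) := (TopCat.mono_iff_injective _).2 (ta_ce' hc h1 k).injective
    refine ⟨k, le_rfl, congrArg _ (Option.map_injective ?_ e)⟩
    rintro ⟨n, f⟩ ⟨m, g⟩ e'
    obtain rfl : n = m := congrArg Sigma.fst e'
    exact congrArg _ ((cancel_mono _).1
      (sigma_mk_injective (β := fun n => Dk n ⟶ c.pt) e'))

end Vale.Agent.P259
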