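import Vale.Agent.P259.GMod

/-! P259 task UNIT: the unit `X ⟶ Pi (Re X)` is a weak equivalence for cellular `X`.

Call `X` good if it is cofibrant and there is `l : X ⟶ G (Re X)` with `l ≫ p1 = unit` and `l ≫ p2` in `Wk`. For good `X` the unit is `Wk`:
`wk_two_of_six` for `l, p2, ε` gives `l ∈ Wk`, and `p1` is `TF`. An initial object is good (`Re` of it is initial, hence empty: map it to `PEmpty`; `L_initial`;
a map between initial objects is iso). Step, for `IsAtt (U E) i a b e`: choose `e1 k` in `G (Re X')` with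
`Arr (e1 k) (G (Re i) (l (a k))) (..)` and `p1 (e1 k) = unit (e k)` (`tf`); `l'` by `IsAtt.desc`; `Z'` by `exists_isAtt` for
`((l ≫ p2) (a k), (l ≫ p2) (b k))`; `X' ⟶ Z'` is `Wk` by `isAtt_glue`, `Z' ⟶ L (Re X')` by `GData.step` with `IsAtt.adj`; the composite is `l' ≫ p2`
(`IsAtt.hom_ext`). Colimit: `SeqColim.weq` with `seqColim` and `seqColim_sg` (`Re` preserves the colimit; `IsAtt.adj`, `IsAtt.of_natIso d.e`,
`IsAtt.topAtt`; transport `SeqColim` along `d.e`). Finally transport along `c.pt ≅ X`. -/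

noncomputable section
namespace Vale.Agent.P259
open CategoryTheory CategoryTheory.Limits GlobExt Opposite
variable {E : GlobExt} [Fact E.IsCoherator]

section Good
variable {Pi L : TopCat.{0} ⥤ Gpd E} (g : GData Pi L) {Re : Gpd E ⥤ TopCat.{0}} (adj : Re ⊣ Pi)

/-- The unit, with its type written out. -/
def unitU (X : Gpd E) : X ⟶ Pi.obj (Re.obj X) := adj.unit.app X

omit [Fact E.IsCoherator] in
lemma unitU_nat {X X' : Gpd E} (i : X ⟶ X') :
    unitU adj X ≫ Pi.map (Re.map i) = i ≫ unitU adj X' := (adj.unit.naturality i).symm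

/-- The unit lifts to the correspondence. -/
def UGood (X : Gpd E) : Prop :=
  Cofib X ∧ ∃ l : X ⟶ g.G.obj (Re.obj X), l ≫ g.p1.app _ = unitU adj X ∧ Wk E (l ≫ g.p2.app _)

lemma UGood.wk {X : Gpd E} (h : UGood g adj X) : Wk E (unitU adj X) := by
  obtain ⟨-, l, h1, h2⟩ := h
  rw [← h1]
  exact (Wk E).comp_mem _ _ (wk_two_of_six h2 (g.wk _)).1 (TF.wk (g.tf _))

lemma uGood_init (hL : ∀ (T : TopCat.{0}) [IsEmpty T], Nonempty (IsInitial (L.obj T)))
    {X : Gpd E} (hI : IsInitial X) : UGood g adj X := by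
  have f : Re.obj X ⟶ TopCat.of PEmpty := (adj.homEquiv _ _).symm (hI.to _)
  have : IsEmpty (Re.obj X) := Function.isEmpty f
  obtain ⟨hT⟩ := hL (Re.obj X)
  refine ⟨Cofib.of_initial hI, hI.to _, hI.hom_ext _ _, ?_⟩
  have := isIso_of_isInitial hI hT (hI.to _ ≫ g.p2.app (Re.obj X))
  exact wk_of_isIso _

lemma uGood_step (hL : ∀ T, Cofib (L.obj T)) {X X' : Gpd E} {i : X ⟶ X'} {ι : Type}
    {a b : ι → cell X} {e : ι → cell X'} (h : IsAtt (U E) i a b e) (hX : UGood g adj X) :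
    UGood g adj X' := by
  obtain ⟨hc, l, h1, h2⟩ := hX
  refine ⟨hc.of_cof h.cof, ?_⟩
  have n1 : (l ≫ g.G.map (Re.map i)) ≫ g.p1.app _ = i ≫ unitU adj X' := by
    rw [Category.assoc, g.p1.naturality, reassoc_of% h1, unitU_nat]
  have hpar : ∀ k, Par (cm l (a k)) (cm l (b k)) := fun k => (h.par k).map _
  have he : ∀ k, ∃ c, Arr c (cm (l ≫ g.G.map (Re.map i)) (a k))
      (cm (l ≫ g.G.map (Re.map i)) (b k)) ∧ cm (g.p1.app _) c = cm (unitU adj X') (e k) := by
    intro k
    refine g.tf _ _ _ ((h.par k).map _) _ ?_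
    change Arr _ (cm (g.p1.app _) _) (cm (g.p1.app _) _)
    rw [← cm_comp, ← cm_comp, n1, cm_comp, cm_comp]
    exact (h.arr k).map _
  choose e1 he1 he2 using he
  have he3 : ∀ k, Arr (e1 k) (cm (g.G.map (Re.map i)) (cm l (a k)))
      (cm (g.G.map (Re.map i)) (cm l (b k))) := fun k => by
    rw [← cm_comp, ← cm_comp]; exact he1 k
  obtain ⟨l', ⟨hl1, hl2⟩, -⟩ := h.desc _ (l ≫ g.G.map (Re.map i)) e1 he1
  obtain ⟨Z', i', e', h'⟩ := exists_isAtt (discsOf (rep E))
    (fun k => cm (g.p2.app _) (cm l (a k))) (fun k => cm (g.p2.app _) (cm l (b k)))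
    fun k => (hpar k).map _
  have h'' : IsAtt (U E) i' (fun k => cm (l ≫ g.p2.app _) (a k))
      (fun k => cm (l ≫ g.p2.app _) (b k)) e' := by
    simp only [cm_comp]; exact h'
  obtain ⟨d, ⟨hd1, hd2⟩, -⟩ := h.desc Z' ((l ≫ g.p2.app _) ≫ i') e' fun k => by
    change Arr _ (cm _ _) (cm _ _)
    rw [cm_comp _ i', cm_comp _ i']
    exact h''.arr k
  have hd : Wk E d := isAtt_glue hc (hL _) h2 h h'' hd1 hd2
  obtain ⟨z, ⟨hz1, hz2⟩, -⟩ := h''.desc _ (L.map (Re.map i)) (fun k => cm (g.p2.app _) (e1 k))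
    fun k => by
      change Arr _ (cm _ _) (cm _ _)
      rw [← cm_comp, ← cm_comp, Category.assoc, ← g.p2.naturality, ← Category.assoc,
        cm_comp _ (g.p2.app _), cm_comp _ (g.p2.app _)]
      exact (he1 k).map _
  have hA : IsAtt (Pi ⋙ U E) (Re.map i) (fun k => cm (g.p1.app _) (cm l (a k)))
      (fun k => cm (g.p1.app _) (cm l (b k))) (fun k => cm (g.p1.app _) (e1 k)) := by
    simp only [← cm_comp, h1, he2]
    exact h.adj adj
  have hz : Wk E z := g.step (Re.map i) _ _ e1 hpar he3 hA h' hz1 hz2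
  refine ⟨l', h.hom_ext (by rw [reassoc_of% hl1, ← n1, Category.assoc]) fun k => ?_, ?_⟩
  · change cm _ _ = cm _ _
    rw [cm_comp, ← he2, ← hl2]
  · have : l' ≫ g.p2.app _ = d ≫ z := by
      refine h.hom_ext ?_ fun k => ?_
      · rw [reassoc_of% hl1, reassoc_of% hd1, hz1, g.p2.naturality]
      · change cm _ _ = cm _ _
        rw [cm_comp, cm_comp]
        exact (congrArg _ (hl2 k)).trans ((hz2 k).symm.trans (congrArg _ (hd2 k).symm))
    rw [this]
    exact (Wk E).comp_mem _ _ hd hz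

end Good

theorem unit_wk (d : DiscData E) {Re : Gpd E ⥤ TopCat.{0}} (adj : Re ⊣ d.Pi) {X : Gpd E}
    (hX : Cellular X) : Wk E (adj.unit.app X) := by
  obtain ⟨s⟩ := exists_shData E
  obtain ⟨g⟩ := exists_gData d s
  obtain ⟨F, c, hc, h0, e, hF⟩ := hX
  have hg : ∀ k, UGood g adj (F.obj k) := by
    intro k
    induction k with
    | zero => exact uGood_init g adj (fun T _ => s.L_initial T) h0
    | succ k ih =>
      obtain ⟨ι, a, b, e, h⟩ := hF k
      exact uGood_step g adj s.L_cofib h ih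
  have := adj.leftAdjoint_preservesColimits
  have h1 : SeqColim (Sg.mapCocone (Re.mapCocone c)) := by
    refine seqColim_sg (isColimitOfPreserves Re hc) fun k => ?_
    obtain ⟨ι, a, b, e, h⟩ := hF k
    obtain ⟨n, φ, χ, -, -, -, h2⟩ := ((h.adj adj).of_natIso d.e).topAtt
    exact ⟨ι, n, φ, χ, h2⟩
  let β : U E ⟶ Re ⋙ Sg :=
    { app := fun Y => (U E).map (unitU adj Y) ≫ d.e.hom.app (Re.obj Y)
      naturality := fun Y Y' i => by
        have h2 : (U E).map (d.Pi.map (Re.map i)) ≫ d.e.hom.app (Re.obj Y') =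
            d.e.hom.app (Re.obj Y) ≫ Sg.map (Re.map i) := d.e.hom.naturality (Re.map i)
        rw [← Category.assoc, ← Functor.map_comp, ← unitU_nat, Functor.map_comp, Category.assoc,
          h2, Category.assoc]
        rfl }
  have h3 : WEq (β.app c.pt) :=
    SeqColim.weq (seqColim hc) h1 (Functor.whiskerLeft F β)
      (fun k => WEq.of_iso_iso _ _ (Iso.refl _) (d.e.app _) (Category.id_comp _).symm (hg k).wk)
      _ fun k => β.naturality (c.ι.app k)
  have h4 : Wk E (unitU adj c.pt) :=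
    WEq.of_iso_iso _ _ (Iso.refl _) (d.e.app _).symm (by simp [β]) h3
  have h5 : Wk E (e.hom ≫ unitU adj X) := by
    rw [← unitU_nat]
    exact (Wk E).comp_mem _ _ h4 (wk_of_isIso _)
  exact ((Wk E).cancel_left_of_respectsIso _ _).1 h5

end Vale.Agent.P259
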